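import Vale.Agent.P164.Fam

namespace Vale.Agent.P164

open Set MeasureTheory

theorem tube_bump (z : ℝ) : 0 ≤ bump z ∧ bump z ≤ 1 :=
  ⟨pow_nonneg (le_max_right _ _) _, pow_le_one₀ (le_max_right _ _)
    (max_le (by nlinarith [sq_nonneg z]) zero_le_one)⟩

theorem tube_meas : Measurable bump := by
  unfold bump
  fun_prop

theorem tube_num {κ w z D : ℝ} (hκ : 0 < κ) (hw : 0 < w) (hz : |z| ≤ 1) (hD : |D| ≤ 5) :
    0 ≤ (30 / w + 15 * κ / w ^ 2) ^ 2 / (4 * (12 * κ / w ^ 2)) * (1 - z ^ 2) ^ 3 +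
      -6 * z * (1 - z ^ 2) ^ 2 * D / w +
      κ / 2 * (24 * z ^ 2 * (1 - z ^ 2) - 6 * (1 - z ^ 2) ^ 2) / w ^ 2 := by
  have q0 : 0 ≤ 1 - z ^ 2 := sub_nonneg.2 ((sq_le_one_iff_abs_le_one z).2 hz)
  have h1 : z * D ≤ 5 := by
    refine (le_abs_self _).trans ?_
    rw [abs_mul]
    calc |z| * |D| ≤ 1 * 5 := by gcongr
      _ = 5 := one_mul _
  obtain ⟨B, hB⟩ : ∃ B, B = 30 / w + 15 * κ / w ^ 2 := ⟨_, rfl⟩
  obtain ⟨E, hE⟩ : ∃ E, E = 12 * κ / w ^ 2 := ⟨_, rfl⟩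
  have E0 : 0 < E := by rw [hE]; positivity
  have h2 : 0 ≤ B ^ 2 / (4 * E) * (1 - z ^ 2) ^ 2 - B * (1 - z ^ 2) + E := by
    have e : B ^ 2 / (4 * E) * (1 - z ^ 2) ^ 2 - B * (1 - z ^ 2) + E =
        (B * (1 - z ^ 2) - 2 * E) ^ 2 / (4 * E) := by
      field_simp
      ring
    rw [e]
    positivity
  have h3 : 0 ≤ 6 * (1 - z ^ 2) ^ 2 * (5 - z * D) / w :=
    div_nonneg (mul_nonneg (by positivity) (by linarith)) hw.le
  have e : B ^ 2 / (4 * E) * (1 - z ^ 2) ^ 3 + -6 * z * (1 - z ^ 2) ^ 2 * D / w +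
      κ / 2 * (24 * z ^ 2 * (1 - z ^ 2) - 6 * (1 - z ^ 2) ^ 2) / w ^ 2 =
      (1 - z ^ 2) * (B ^ 2 / (4 * E) * (1 - z ^ 2) ^ 2 - B * (1 - z ^ 2) + E) +
        6 * (1 - z ^ 2) ^ 2 * (5 - z * D) / w := by
    generalize B ^ 2 / (4 * E) = A
    rw [hB, hE]
    field_simp
    ring
  rw [← hB, ← hE, e]
  exact add_nonneg (mul_nonneg q0 h2) h3

theorem tube_D {κ μ : ℝ} (hκ : 0 < κ) (hκ8 : κ < 8) {p : St} (hp : 0 < p.y) (h0 : 0 ≤ μ)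
    (h1 : μ ≤ 1 / rho2 p) : |-((4 - κ / 2) * (p.x / √(rho2 p))) - μ * rho2 p| ≤ 5 := by
  have r0 := rho2_pos hp
  have h2 : |p.x / √(rho2 p)| ≤ 1 := by
    rw [abs_div, abs_of_pos (Real.sqrt_pos.2 r0), div_le_one (Real.sqrt_pos.2 r0)]
    refine Real.le_sqrt_of_sq_le ?_
    rw [sq_abs, rho2]
    nlinarith [sq_nonneg p.y]
  rw [le_div_iff₀ r0] at h1
  have h3 := mul_nonneg h0 r0.le
  obtain ⟨h4, h5⟩ := abs_le.1 h2
  refine abs_le.2 ⟨?_, ?_⟩ <;> nlinarith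

/-- submartingale supported on a moving tube; the index is (state, centre, centre speed) -/
theorem tube {κ w : ℝ} (hκ : 0 < κ) (hκ8 : κ < 8) (hw : 0 < w) : ∃ A2 : ℝ, 0 ≤ A2 ∧
    ∀ y0 l0 : ℝ, 0 < y0 → Sup κ
      {i : St × ℝ × ℝ | i.1 ∈ Reg y0 l0 ∧ |Real.arsinh (tau i.1) - i.2.1| ≤ w ∧ 0 ≤ i.2.2 ∧
        i.2.2 ≤ 1 / rho2 i.1}
      (fun i η ξ => -(mart κ (eul (η ^ 2) i.1 ξ) * Real.exp (A2 * (η ^ 2 / rho2 i.1)) *
        bump ((Real.arsinh (tau (eul (η ^ 2) i.1 ξ)) - (i.2.1 + i.2.2 * η ^ 2)) / w)))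
      (fun i => -(mart κ i.1 * bump ((Real.arsinh (tau i.1) - i.2.1) / w))) := by
  obtain ⟨A2, hA2⟩ : ∃ A2, A2 = (30 / w + 15 * κ / w ^ 2) ^ 2 / (4 * (12 * κ / w ^ 2)) := ⟨_, rfl⟩
  have A0 : 0 ≤ A2 := by rw [hA2]; positivity
  refine ⟨A2, A0, fun y0 l0 hy => ?_⟩
  obtain ⟨R, hR⟩ : ∃ R : Set (St × ℝ × ℝ), R = {i : St × ℝ × ℝ | i.1 ∈ Reg y0 l0 ∧
    |Real.arsinh (tau i.1) - i.2.1| ≤ w ∧ 0 ≤ i.2.2 ∧ i.2.2 ≤ 1 / rho2 i.1} := ⟨_, rfl⟩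
  have hm : ∀ i ∈ R, i.1 ∈ Reg y0 l0 ∧ |Real.arsinh (tau i.1) - i.2.1| ≤ w ∧ 0 ≤ i.2.2 ∧
      i.2.2 ≤ 1 / rho2 i.1 := fun i hi => by rw [hR] at hi; exact hi
  rw [← hR]
  have hc : 0 ≤ 8 / κ - 1 := by rw [sub_nonneg, le_div_iff₀ hκ]; linarith
  obtain ⟨C, hC⟩ := fam_bd hy l0 (κ / 8 - 1) hc
  have hρ : ∀ i ∈ R, 1 / rho2 i.1 ≤ 1 / y0 ^ 2 := fun i hi =>
    step_le zero_le_one hy (hm i hi).1.1
  have hρ0 : ∀ i ∈ R, 0 < rho2 i.1 := fun i hi => rho2_pos (hy.trans_le (hm i hi).1.1)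
  have hz : ∀ i ∈ R, |1 / w * (Real.arsinh (tau i.1) + -i.2.1)| ≤ 1 := fun i hi => by
    rw [abs_mul, abs_of_pos (by positivity : 0 < 1 / w), one_div, inv_mul_le_iff₀ hw, mul_one]
    exact (hm i hi).2.1
  have bc : ∀ c : ℝ, Bd R (fun _ => c) := fun c => ⟨|c|, fun _ _ => le_rfl⟩
  have b1 : Bd R (fun i => mart κ i.1) :=
    ⟨C, fun i hi => by rw [abs_of_pos (mart_pos κ _)]; exact (hC _ (hm i hi).1).1⟩
  have b2 : Bd R (fun i => A2 / rho2 i.1) := ⟨A2 * (1 / y0 ^ 2), fun i hi => by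
    rw [abs_of_nonneg (div_nonneg A0 (rho2_nonneg _)), div_eq_mul_one_div]
    exact mul_le_mul_of_nonneg_left (hρ i hi) A0⟩
  have b3 : Bd R (fun i => -i.2.2) := ⟨1 / y0 ^ 2, fun i hi => by
    rw [abs_neg, abs_of_nonneg (hm i hi).2.2.1]
    exact (hm i hi).2.2.2.trans (hρ i hi)⟩
  have b4 : Bd R (fun i => mart κ i.1 * Real.exp 0) := by
    simpa only [Real.exp_zero, mul_one] using b1
  have b5 : Bd R (fun i => bump (1 / w * (Real.arsinh (tau i.1) + -i.2.1))) :=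
    ⟨1, fun i _ => by rw [abs_of_nonneg (tube_bump _).1]; exact (tube_bump _).2⟩
  have J1 := (jt_mart hκ hκ8 hy l0).comap (R' := R) Prod.fst fun i hi => (hm i hi).1
  have J2 := (Jt.lin (κ := κ) (g := fun _ => 0) b2).comp (T3_exp 0) fun _ _ => Set.mem_Iic.2 le_rfl
  have J3 := (((jt_arsinh (κ := κ) hy).comap (R' := R) Prod.fst fun i hi => (hm i hi).1.1).add
    (Jt.lin (g := fun i => -i.2.1) b3)).smul (bc (1 / w))
  have J4 := J3.comp T3_bump fun i hi => abs_le.1 (hz i hi)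
  have J5 := ((J1.mul J2 b1 (bc _)).mul J4 b4 b5).smul (bc (-1))
  refine (J5.congr ?_ ?_ (fun _ _ => rfl) (fun _ _ => rfl)).sup hκ ?_ ?_ ?_
  · intro i _ η _ ξ
    rw [neg_one_mul]
    congr 3
    · ring_nf
    · ring
  · intro i _
    rw [neg_one_mul, Real.exp_zero, mul_one]
    congr 3
    ring
  · intro i _ η _
    have := tube_meas
    have := Real.continuous_arsinh.measurable
    fun_prop
  · refine ⟨C * Real.exp (A2 * (1 / y0 ^ 2)) + C, fun i hi η hη ξ => ?_⟩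
    obtain ⟨c1, c2⟩ := hC _ (hm i hi).1
    have c3 := c2 η hη ξ
    have c4 : η ^ 2 / rho2 i.1 ≤ 1 / y0 ^ 2 :=
      (div_le_div_of_nonneg_right (pow_le_one₀ hη.1.le hη.2) (rho2_nonneg _)).trans (hρ i hi)
    have m0 := mart_pos κ i.1
    have m1 := mart_pos κ (eul (η ^ 2) i.1 ξ)
    refine (abs_sub _ _).trans (add_le_add ?_ ?_)
    · rw [abs_neg, abs_of_nonneg (mul_nonneg (by positivity) (tube_bump _).1)]
      refine (mul_le_of_le_one_right (by positivity) (tube_bump _).2).trans ?_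
      exact mul_le_mul c3 (by gcongr) (Real.exp_pos _).le (m0.le.trans c1)
    · rw [abs_neg, abs_of_nonneg (mul_nonneg m0.le (tube_bump _).1)]
      exact (mul_le_of_le_one_right m0.le (tube_bump _).2).trans c1
  · intro i hi
    have h1 := tube_num hκ hw (hz i hi)
      (tube_D hκ hκ8 (hy.trans_le (hm i hi).1.1) (hm i hi).2.2.1 (hm i hi).2.2.2)
    rw [← hA2] at h1
    have r0 := hρ0 i hi
    have h2 := mul_nonneg (div_nonneg (mart_pos κ i.1).le r0.le) h1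
    have q0 : 0 ≤ 1 - (1 / w * (Real.arsinh (tau i.1) + -i.2.1)) ^ 2 :=
      sub_nonneg.2 ((sq_le_one_iff_abs_le_one _).2 (hz i hi))
    rw [neg_one_mul, neg_nonpos]
    refine h2.trans (le_of_eq ?_)
    simp only [bump, max_eq_left q0, Real.exp_zero]
    generalize 1 / w * (Real.arsinh (tau i.1) + -i.2.1) = z
    have s0 := Real.sqrt_pos.2 r0
    have s2 := Real.sq_sqrt r0.le
    generalize √(rho2 i.1) = r at s0 s2 ⊢
    rw [← s2]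
    field_simp
    ring

end Vale.Agent.P164
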