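import Vale.Agent.P164.Lyap
import Vale.Agent.P164.Tube

namespace Vale.Agent.P164

open Set MeasureTheory

/-- parameters of the centre machine -/
structure CP where
  κ : ℝ
  w : ℝ
  A2 : ℝ
  C4 : ℝ
  θ : ℝ
  Λ : ℝ
  L0 : ℝ
  y0 : ℝ
  vs : ℝ
  S1 : ℝ
  η : ℝ
  J : ℕ
  F : St → ℝ

namespace CP

variable (c : CP)

/-- index of the current period -/
noncomputable def k (p : St) : ℕ := ⌈(c.L0 - p.l) / c.Λ⌉₊

def alive (q : St × ℝ × ℕ) : Prop := c.y0 ≤ q.1.y ∧ c.k q.1 ≤ c.J ∧ q.2.2 ≠ 2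

open Classical in
/-- state: Euler state, clock of the current attempt, status (0 idle, 1 attempt, 2 success) -/
noncomputable def step (q : St × ℝ × ℕ) (ξ : ℝ) : St × ℝ × ℕ :=
  if c.alive q then
    if c.k q.1 < c.k (eul (c.η ^ 2) q.1 ξ) then
      (eul (c.η ^ 2) q.1 ξ, 0,
        if |Real.arsinh (tau (eul (c.η ^ 2) q.1 ξ))| ≤ c.w / 2 then 1 else 0)
    else if q.2.2 = 1 ∧ |Real.arsinh (tau (eul (c.η ^ 2) q.1 ξ)) -
        min (q.2.1 + c.η ^ 2 / rho2 q.1) c.vs| ≤ c.w then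
      (eul (c.η ^ 2) q.1 ξ, q.2.1 + c.η ^ 2 / rho2 q.1,
        if c.S1 ≤ q.2.1 + c.η ^ 2 / rho2 q.1 then 2 else 1)
    else (eul (c.η ^ 2) q.1 ξ, 0, 0)
  else q

noncomputable def br (k : ℕ) (p : St) : ℝ :=
  (1 + c.θ * c.C4 * Real.exp (c.Λ + 1)) * mart c.κ p + c.θ * Real.exp (c.L0 - k * c.Λ + c.Λ) * c.F p

noncomputable def U (s : ℝ) (p : St) : ℝ :=
  Real.exp (c.A2 * (s - c.S1 - 1)) *
    (mart c.κ p * bump ((Real.arsinh (tau p) - min s c.vs) / c.w))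

noncomputable def pot (q : St × ℝ × ℕ) : ℝ :=
  if q.2.2 = 2 then 0 else
    (1 + c.θ) ^ c.k q.1 * (c.br (c.k q.1) q.1 - if q.2.2 = 1 then c.U q.2.1 q.1 else 0)

structure OK : Prop where
  κ0 : 0 < c.κ
  κ8 : c.κ < 8
  w0 : 0 < c.w
  A0 : 0 ≤ c.A2
  C1 : 1 ≤ c.C4
  θ0 : 0 < c.θ
  θ1 : c.θ * (2 + c.C4 * Real.exp (c.Λ + 1)) ≤ 27 / 64 * Real.exp (-(c.A2 * (c.S1 + 1)))
  w1 : c.C4 * (4 * Real.exp (-c.w)) ^ ((8 / c.κ - 1) / 2) ≤ 1 / 2
  Fm : Measurable c.F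
  F1 : ∀ p, fam (c.κ / 8 - 2) 0 p - c.C4 * fam (c.κ / 8 - 2) (8 / c.κ - 1) p ≤ c.F p
  y1 : 0 < c.y0
  η0 : 0 < c.η
  η1 : c.η ≤ 1
  η2 : 4 * (c.η ^ 2 / c.y0 ^ 2) ≤ 1
  v0 : 0 ≤ c.vs
  v1 : c.vs + 1 ≤ c.S1
  Λ1 : 2 + 16 * Real.exp (2 * c.w) * (2 + Real.exp (-(2 * c.vs)) * (c.S1 + 1)) ≤ c.Λ

def Inv : Set (St × ℝ × ℕ) := {q | 0 < q.1.y ∧ q.1.l ≤ 2 ∧ (q.2.2 = 1 → 1 ≤ c.k q.1 ∧
  0 ≤ q.2.1 ∧ q.2.1 ≤ c.S1 ∧ |Real.arsinh (tau q.1) - min q.2.1 c.vs| ≤ c.w ∧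
  c.L0 - c.k q.1 * c.Λ + c.Λ - 1 - 16 * Real.exp (2 * c.w) *
    (2 * (1 - Real.exp (-q.2.1)) + Real.exp (-(2 * c.vs)) * q.2.1) ≤ q.1.l)}

variable {c}

theorem cm1_mk : Measurable c.k := by
  unfold k
  exact Measurable.nat_ceil (by fun_prop)

theorem cm1_ss (p : St) : ss p ≤ 4 * Real.exp (-(2 * |Real.arsinh (tau p)|)) := by
  have h1 : 1 + tau p ^ 2 = Real.cosh |Real.arsinh (tau p)| ^ 2 := by
    rw [Real.cosh_abs, Real.cosh_arsinh, Real.sq_sqrt (by positivity)]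
  have h2 : Real.exp (-(2 * |Real.arsinh (tau p)|)) * Real.exp |Real.arsinh (tau p)| ^ 2 = 1 := by
    rw [← Real.exp_nat_mul, ← Real.exp_add]
    simp
  rw [ss, div_le_iff₀ (by positivity), h1, Real.cosh_eq]
  have h3 := Real.exp_pos |Real.arsinh (tau p)|
  have h4 := Real.exp_pos (-|Real.arsinh (tau p)|)
  have h5 : Real.exp |Real.arsinh (tau p)| ^ 2 ≤
      (Real.exp |Real.arsinh (tau p)| + Real.exp (-|Real.arsinh (tau p)|)) ^ 2 := by
    gcongr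
    linarith
  have h6 := mul_le_mul_of_nonneg_left h5 (Real.exp_pos (-(2 * |Real.arsinh (tau p)|))).le
  linarith

theorem cm1_fam (κ : ℝ) (p : St) :
    fam (κ / 8 - 2) (8 / κ - 1) p = Real.exp (-p.l) * mart κ p := by
  rw [mart, fam, fam, ← Real.exp_add]
  congr 1
  ring

theorem cm1_Lam (h : c.OK) : 34 ≤ c.Λ := by
  have h1 : 1 ≤ Real.exp (2 * c.w) := Real.one_le_exp (by linarith [h.w0])
  have h2 : 0 ≤ Real.exp (-(2 * c.vs)) * (c.S1 + 1) :=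
    mul_nonneg (Real.exp_pos _).le (by linarith [h.v0, h.v1])
  have h3 := h.Λ1
  nlinarith

theorem cm1_k_le (h : c.OK) {p : St} {n : ℕ} : c.k p ≤ n ↔ c.L0 - n * c.Λ ≤ p.l := by
  rw [k, Nat.ceil_le, div_le_iff₀ (by linarith [cm1_Lam h])]
  constructor <;> intro h <;> linarith

theorem cm1_l (h : c.OK) (p : St) : c.L0 - c.k p * c.Λ ≤ p.l := (cm1_k_le h).1 le_rfl

theorem cm1_step (h : c.OK) {p : St} (hp : c.y0 ≤ p.y) (ξ : ℝ) :
    p.l - 1 ≤ (eul (c.η ^ 2) p ξ).l ∧ (eul (c.η ^ 2) p ξ).l ≤ p.l ∧ 0 ≤ c.η ^ 2 / rho2 p ∧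
      c.η ^ 2 / rho2 p ≤ 1 / 4 ∧ c.k p ≤ c.k (eul (c.η ^ 2) p ξ) := by
  have h1 := eul_l_ge (sq_nonneg c.η) h.y1 hp ξ
  have h2 := eul_l_le (sq_nonneg c.η) p ξ
  have h3 := step_le (sq_nonneg c.η) h.y1 hp
  have h4 := h.η2
  exact ⟨by linarith, h2, div_nonneg (sq_nonneg _) (rho2_nonneg p), by linarith,
    (cm1_k_le h).2 ((cm1_l h _).trans h2)⟩

theorem cm1_F (h : c.OK) (p : St) :
    fam (c.κ / 8 - 2) 0 p - c.C4 * (Real.exp (-p.l) * mart c.κ p) ≤ c.F p := by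
  rw [← cm1_fam]
  exact h.F1 p

theorem cm1_exp {L l M Λ : ℝ} (hM : 0 < M) (h : L - 1 ≤ l + Λ) :
    Real.exp L * (Real.exp (-l) * M) ≤ Real.exp (Λ + 1) * M := by
  rw [← mul_assoc, ← Real.exp_add]
  exact mul_le_mul_of_nonneg_right (Real.exp_le_exp.2 (by linarith)) hM.le

theorem cm1_br (h : c.OK) {n : ℕ} {p : St} (hl : c.L0 - n * c.Λ - 1 ≤ p.l) :
    mart c.κ p + c.θ * Real.exp (c.L0 - n * c.Λ + c.Λ) * fam (c.κ / 8 - 2) 0 p ≤ c.br n p := by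
  have h1 := mul_le_mul_of_nonneg_left (cm1_F h p)
    (mul_pos h.θ0 (Real.exp_pos (c.L0 - n * c.Λ + c.Λ))).le
  have h2 := mul_le_mul_of_nonneg_left
    (cm1_exp (L := c.L0 - n * c.Λ + c.Λ) (l := p.l) (Λ := c.Λ) (mart_pos c.κ p) (by linarith))
    (mul_pos h.θ0 (lt_of_lt_of_le one_pos h.C1)).le
  rw [br]
  linarith

theorem cm1_U (h : c.OK) {s : ℝ} (hs : s ≤ c.S1 + 1) (p : St) : c.U s p ≤ mart c.κ p := by
  rw [U]
  have h1 : Real.exp (c.A2 * (s - c.S1 - 1)) ≤ 1 :=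
    Real.exp_le_one_iff.2 (mul_nonpos_of_nonneg_of_nonpos h.A0 (by linarith))
  exact (mul_le_of_le_one_left (mul_nonneg (mart_pos _ _).le (tube_bump _).1) h1).trans
    (mul_le_of_le_one_right (mart_pos _ _).le (tube_bump _).2)

theorem cm1_U0 (h : c.OK) {s : ℝ} {p : St} (hs : ¬ |Real.arsinh (tau p) - min s c.vs| ≤ c.w) :
    c.U s p = 0 := by
  have h1 : 1 ≤ ((Real.arsinh (tau p) - min s c.vs) / c.w) ^ 2 := by
    rw [one_le_sq_iff_one_le_abs, abs_div, abs_of_pos h.w0, one_le_div h.w0]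
    exact (not_le.1 hs).le
  rw [U, bump, max_eq_right (by linarith)]
  simp

theorem cm1_th (h : c.OK) : c.θ * (2 + c.C4 * Real.exp (c.Λ + 1)) ≤ 1 := by
  have h1 : Real.exp (-(c.A2 * (c.S1 + 1))) ≤ 1 :=
    Real.exp_le_one_iff.2 (neg_nonpos.2 (mul_nonneg h.A0 (by linarith [h.v0, h.v1])))
  linarith [h.θ1]

theorem cm1_Uge (h : c.OK) {p : St} (hp : |Real.arsinh (tau p)| ≤ c.w / 2) :
    c.θ * (2 + c.C4 * Real.exp (c.Λ + 1)) * mart c.κ p ≤ c.U 0 p := by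
  have h1 : (Real.arsinh (tau p) / c.w) ^ 2 ≤ (1 / 2) ^ 2 := by
    rw [← sq_abs]
    refine pow_le_pow_left₀ (abs_nonneg _) ?_ _
    rw [abs_div, abs_of_pos h.w0, div_le_iff₀ h.w0]
    linarith
  have h2 : (3 / 4 : ℝ) ^ 3 ≤ bump (Real.arsinh (tau p) / c.w) :=
    pow_le_pow_left₀ (by norm_num) (le_max_of_le_left (by linarith)) _
  rw [U, min_eq_left h.v0, sub_zero, show c.A2 * (0 - c.S1 - 1) = -(c.A2 * (c.S1 + 1)) by ring]
  have h3 := mul_le_mul_of_nonneg_right h.θ1 (mart_pos c.κ p).le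
  have h4 := mul_le_mul_of_nonneg_left h2
    (mul_pos (Real.exp_pos (-(c.A2 * (c.S1 + 1)))) (mart_pos c.κ p)).le
  linarith

theorem cm1_Fbad (h : c.OK) {p : St} (hp : ¬ |Real.arsinh (tau p)| ≤ c.w / 2) :
    fam (c.κ / 8 - 2) 0 p / 2 ≤ c.F p := by
  have hc : 0 ≤ 8 / c.κ - 1 := by rw [sub_nonneg, le_div_iff₀ h.κ0]; linarith [h.κ8]
  have h1 : ss p ≤ 4 * Real.exp (-c.w) := (cm1_ss p).trans
    (mul_le_mul_of_nonneg_left (Real.exp_le_exp.2 (by linarith [not_le.1 hp])) (by norm_num))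
  have h2 := Real.rpow_le_rpow (ss_pos p).le h1 (show 0 ≤ (8 / c.κ - 1) / 2 by positivity)
  have h3 := (mul_le_mul_of_nonneg_left h2 (zero_le_one.trans h.C1)).trans h.w1
  have h4 := mul_le_mul_of_nonneg_left h3 (Real.exp_pos ((c.κ / 8 - 2) * p.l)).le
  have h5 := h.F1 p
  rw [fam_eq _ (8 / c.κ - 1)] at h5
  rw [lyap_zero] at h5 ⊢
  linarith

theorem cm1_trans (h : c.OK) {n : ℕ} {p : St} (h1 : c.L0 - n * c.Λ - 1 ≤ p.l)
    (h2 : p.l ≤ c.L0 - n * c.Λ) :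
    (|Real.arsinh (tau p)| ≤ c.w / 2 → (1 + c.θ) * (c.br (n + 1) p - c.U 0 p) ≤ c.br n p) ∧
      (¬ |Real.arsinh (tau p)| ≤ c.w / 2 → (1 + c.θ) * c.br (n + 1) p ≤ c.br n p) := by
  have hΛ := cm1_Lam h
  have θ0 := h.θ0
  have M0 := mart_pos c.κ p
  have C0 : 0 < c.C4 := lt_of_lt_of_le one_pos h.C1
  have t1 := cm1_th h
  have t2 : 0 < c.θ * (c.C4 * Real.exp (c.Λ + 1)) := by positivity
  have e1 : c.L0 - ((n + 1 : ℕ) : ℝ) * c.Λ + c.Λ = c.L0 - n * c.Λ := by push_cast; ring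
  have E0 := Real.exp_pos (c.L0 - n * c.Λ)
  have e2 : 35 * Real.exp (c.L0 - n * c.Λ) ≤ Real.exp (c.L0 - n * c.Λ + c.Λ) := by
    rw [Real.exp_add, mul_comm]
    exact mul_le_mul_of_nonneg_left (by linarith [Real.add_one_le_exp c.Λ]) E0.le
  have e3 : c.θ * Real.exp (c.L0 - n * c.Λ) ≤ Real.exp (c.L0 - n * c.Λ) :=
    mul_le_of_le_one_left E0.le (by linarith)
  have e4 : 0 < c.θ * Real.exp (c.L0 - n * c.Λ) := by positivity
  have t3 : c.θ * (c.C4 * Real.exp (c.Λ + 1)) * mart c.κ p ≤ mart c.κ p :=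
    mul_le_of_le_one_left M0.le (by linarith)
  have t4 := mul_le_mul_of_nonneg_left t3 θ0.le
  simp only [br, e1]
  obtain ⟨co, hco⟩ : ∃ co, co = Real.exp (c.L0 - n * c.Λ + c.Λ) -
    (1 + c.θ) * Real.exp (c.L0 - n * c.Λ) := ⟨_, rfl⟩
  have c1 : 4 * Real.exp (c.L0 - n * c.Λ) ≤ co := by linarith
  have c2 : co ≤ Real.exp (c.L0 - n * c.Λ + c.Λ) := by linarith
  have c3 : c.θ * Real.exp (c.L0 - n * c.Λ + c.Λ) * c.F p =
      c.θ * (co * c.F p) + (1 + c.θ) * (c.θ * Real.exp (c.L0 - n * c.Λ) * c.F p) := by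
    rw [hco]
    ring
  rw [c3]
  refine ⟨fun hp => ?_, fun hp => ?_⟩
  · have a1 := cm1_Uge h hp
    have a2 : 0 ≤ c.θ * c.U 0 p := mul_nonneg θ0.le (le_trans (by positivity) a1)
    have a3 : -(c.C4 * (Real.exp (-p.l) * mart c.κ p)) ≤ c.F p := by
      linarith [cm1_F h p, fam_pos (c.κ / 8 - 2) 0 p]
    have a4 := mul_le_mul_of_nonneg_left a3 (show 0 ≤ co by linarith)
    have a5 := mul_le_mul_of_nonneg_right c2
      (show 0 ≤ c.C4 * (Real.exp (-p.l) * mart c.κ p) by positivity)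
    have a6 := mul_le_mul_of_nonneg_left
      (cm1_exp (L := c.L0 - n * c.Λ + c.Λ) (l := p.l) (Λ := c.Λ) M0 (by linarith)) C0.le
    have a7 : -(c.C4 * (Real.exp (c.Λ + 1) * mart c.κ p)) ≤ co * c.F p := by linarith
    have a8 := mul_le_mul_of_nonneg_left a7 θ0.le
    linarith
  · have hc : 0 ≤ 8 / c.κ - 1 := by rw [sub_nonneg, le_div_iff₀ h.κ0]; linarith [h.κ8]
    have F0 := fam_pos (c.κ / 8 - 2) 0 p
    have a1 := cm1_Fbad h hp
    have a2 : mart c.κ p ≤ Real.exp (c.L0 - n * c.Λ) * fam (c.κ / 8 - 2) 0 p := by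
      rw [lyap_zero, ← Real.exp_add]
      exact (fam_le _ hc p).trans (Real.exp_le_exp.2 (by linarith))
    have a3 := mul_le_mul c1 a1 (by positivity) (by linarith)
    have a4 : 2 * mart c.κ p ≤ co * c.F p := by linarith
    have a5 := mul_le_mul_of_nonneg_left a4 θ0.le
    linarith

theorem cm1_clock {s t : ℝ} (hs : 0 ≤ s) (t0 : 0 ≤ t) (t1 : t ≤ 1) :
    Real.exp (-(2 * s)) * t ≤ 2 * (Real.exp (-s) - Real.exp (-(s + t))) := by
  have h1 : Real.exp (-(2 * s)) ≤ Real.exp (-s) := Real.exp_le_exp.2 (by linarith)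
  have h2 : Real.exp (-t) * (1 + t) ≤ 1 := by
    rw [Real.exp_neg, inv_mul_le_iff₀ (Real.exp_pos t)]
    linarith [Real.add_one_le_exp t]
  have h3 : t ≤ 2 * (1 - Real.exp (-t)) := by
    refine le_of_mul_le_mul_right ?_ (show 0 < 1 + t by linarith)
    nlinarith
  have h4 := mul_le_mul h1 h3 t0 (Real.exp_pos _).le
  rw [neg_add, Real.exp_add]
  linarith

theorem measurable_step : Measurable (Function.uncurry c.step) := by
  have hk := cm1_mk (c := c)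
  have ha := Real.continuous_arsinh.measurable
  have m0 : Measurable fun x : (St × ℝ × ℕ) × ℝ => eul (c.η ^ 2) x.1.1 x.2 := by fun_prop
  have m1 : Measurable fun x : (St × ℝ × ℕ) × ℝ => x.1.2.1 + c.η ^ 2 / rho2 x.1.1 := by fun_prop
  have m2 : Measurable fun x : (St × ℝ × ℕ) × ℝ => Real.arsinh (tau (eul (c.η ^ 2) x.1.1 x.2)) :=
    ha.comp (measurable_tau.comp m0)
  have m3 : Measurable fun x : (St × ℝ × ℕ) × ℝ => x.1.2.2 := by fun_prop
  have m4 : Measurable fun x : (St × ℝ × ℕ) × ℝ => c.k x.1.1 := hk.comp (by fun_prop)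
  unfold Function.uncurry step alive
  refine Measurable.ite ?_ (Measurable.ite (measurableSet_lt m4 (hk.comp m0)) ?_
    (Measurable.ite ?_ ?_ ?_)) measurable_fst
  · exact (measurableSet_le measurable_const (measurable_y.comp measurable_fst.fst)).inter
      ((measurableSet_le m4 measurable_const).inter (m3 (measurableSet_singleton 2)).compl)
  · exact m0.prodMk (measurable_const.prodMk (Measurable.ite
      (measurableSet_le m2.abs measurable_const) measurable_const measurable_const))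
  · exact (m3 (measurableSet_singleton 1)).inter
      (measurableSet_le (m2.sub (m1.min measurable_const)).abs measurable_const)
  · exact m0.prodMk (m1.prodMk (Measurable.ite (measurableSet_le measurable_const m1)
      measurable_const measurable_const))
  · exact m0.prodMk measurable_const

theorem measurable_pot (h : c.OK) : Measurable c.pot := by
  have hk := cm1_mk (c := c)
  have ha := Real.continuous_arsinh.measurable
  have hb := tube_meas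
  have hF := h.Fm
  have m3 : Measurable fun q : St × ℝ × ℕ => q.2.2 := by fun_prop
  have m4 : Measurable fun q : St × ℝ × ℕ => c.k q.1 := hk.comp measurable_fst
  have m5 : Measurable fun q : St × ℝ × ℕ => (c.k q.1 : ℝ) :=
    (measurable_from_nat (f := fun n : ℕ => (n : ℝ))).comp m4
  have m6 : Measurable fun q : St × ℝ × ℕ => (1 + c.θ) ^ c.k q.1 :=
    (measurable_from_nat (f := fun n : ℕ => (1 + c.θ) ^ n)).comp m4
  unfold pot br U
  exact Measurable.ite (m3 (measurableSet_singleton 2)) measurable_const (m6.mul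
    (Measurable.sub (by fun_prop) (Measurable.ite (m3 (measurableSet_singleton 1)) (by fun_prop)
      measurable_const)))

theorem step_inv (h : c.OK) : ∀ q ∈ c.Inv, ∀ ξ, c.step q ξ ∈ c.Inv := by
  intro q hq ξ
  by_cases ha : c.alive q
  swap
  · rw [step, if_neg ha]
    exact hq
  obtain ⟨s1, s2, s3, s4, s5⟩ := cm1_step h ha.1 ξ
  have y0 := eul_y_pos (c.η ^ 2) hq.1 ξ
  have l2 := s2.trans hq.2.1
  have hΛ := cm1_Lam h
  rw [step, if_pos ha]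
  split_ifs with h1 h2 h3 h4
  · refine ⟨y0, l2, fun _ => ⟨Nat.succ_le_of_lt (Nat.zero_lt_of_lt h1), le_rfl,
      by linarith [h.v0, h.v1], ?_, ?_⟩⟩
    · simp only [min_eq_left h.v0, sub_zero]
      linarith [h.w0]
    · have h5 : (c.k q.1 : ℝ) + 1 ≤ c.k (eul (c.η ^ 2) q.1 ξ) := by exact_mod_cast h1
      have h6 := mul_le_mul_of_nonneg_right h5 (show 0 ≤ c.Λ by linarith)
      have h7 := cm1_l h q.1
      simp only [neg_zero, Real.exp_zero, sub_self, mul_zero, add_zero, sub_zero]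
      linarith
  · exact ⟨y0, l2, fun e => absurd e zero_ne_one⟩
  · exact ⟨y0, l2, fun e => absurd e (by norm_num)⟩
  · obtain ⟨b1, b2, b3, b4, b5⟩ := hq.2.2 h3.1
    have e : c.k (eul (c.η ^ 2) q.1 ξ) = c.k q.1 := le_antisymm (not_lt.1 h1) s5
    refine ⟨y0, l2, fun _ => ⟨e ▸ b1, add_nonneg b2 s3, (not_le.1 h4).le, h3.2, ?_⟩⟩
    simp only [e]
    rw [eul_l_eq _ hq.1]
    generalize c.η ^ 2 / rho2 q.1 = t at s3 s4 ⊢
    have a1 := cm1_clock b2 s3 (by linarith)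
    have a2 : Real.exp (-(2 * |Real.arsinh (tau q.1)|)) ≤
        Real.exp (2 * c.w) * (Real.exp (-(2 * q.2.1)) + Real.exp (-(2 * c.vs))) := by
      have a3 := (abs_le.1 b4).1
      have a4 := le_abs_self (Real.arsinh (tau q.1))
      rw [mul_add, ← Real.exp_add, ← Real.exp_add]
      rcases le_total q.2.1 c.vs with a5 | a5
      · rw [min_eq_left a5] at a3
        exact le_add_of_le_of_nonneg (Real.exp_le_exp.2 (by linarith)) (Real.exp_pos _).le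
      · rw [min_eq_right a5] at a3
        exact le_add_of_nonneg_of_le (Real.exp_pos _).le (Real.exp_le_exp.2 (by linarith))
    have a3 := mul_le_mul_of_nonneg_right ((cm1_ss q.1).trans
      (mul_le_mul_of_nonneg_left a2 (by norm_num))) s3
    have a4 := mul_le_mul_of_nonneg_left a1 (Real.exp_pos (2 * c.w)).le
    linarith
  · exact ⟨y0, l2, fun e => absurd e zero_ne_one⟩

/-- lower bound for the potential -/
theorem pot_ge (h : c.OK) {q : St × ℝ × ℕ} (hq : q ∈ c.Inv) (h2 : q.2.2 ≠ 2) :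
    (1 + c.θ) ^ c.k q.1 * (c.θ * Real.exp (c.L0 - c.k q.1 * c.Λ + c.Λ) *
      fam (c.κ / 8 - 2) 0 q.1) ≤ c.pot q := by
  rw [pot, if_neg h2]
  refine mul_le_mul_of_nonneg_left ?_ (pow_nonneg (by linarith [h.θ0]) _)
  have h1 := cm1_br h (n := c.k q.1) (p := q.1) (by linarith [cm1_l h q.1])
  split_ifs with h3
  · linarith [cm1_U h (s := q.2.1) (by linarith [(hq.2.2 h3).2.2.1]) q.1]
  · linarith [mart_pos c.κ q.1]

/-- pathwise one step bound -/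
theorem pot_step (h : c.OK) {q : St × ℝ × ℕ} (hq : q ∈ c.Inv) (ha : c.alive q) (ξ : ℝ) :
    c.pot (c.step q ξ) ≤ (1 + c.θ) ^ c.k q.1 * (c.br (c.k q.1) (eul (c.η ^ 2) q.1 ξ) -
      if q.2.2 = 1 then c.U (q.2.1 + c.η ^ 2 / rho2 q.1) (eul (c.η ^ 2) q.1 ξ) else 0) := by
  obtain ⟨s1, s2, s3, s4, s5⟩ := cm1_step h ha.1 ξ
  have hΛ := cm1_Lam h
  have l1 := cm1_l h q.1
  have p0 : 0 ≤ (1 + c.θ) ^ c.k q.1 := pow_nonneg (by linarith [h.θ0]) _
  rw [step, if_pos ha]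
  by_cases h1 : c.k q.1 < c.k (eul (c.η ^ 2) q.1 ξ)
  · have l2 : (eul (c.η ^ 2) q.1 ξ).l < c.L0 - c.k q.1 * c.Λ :=
      not_le.1 fun e => not_le.2 h1 ((cm1_k_le h).2 e)
    have h2 : q.2.2 ≠ 1 := fun e => by
      obtain ⟨-, b2, b3, -, b5⟩ := hq.2.2 e
      have a1 : Real.exp (-(2 * c.vs)) * q.2.1 ≤ Real.exp (-(2 * c.vs)) * (c.S1 + 1) :=
        mul_le_mul_of_nonneg_left (by linarith) (Real.exp_pos _).le
      have a2 : 2 * (1 - Real.exp (-q.2.1)) + Real.exp (-(2 * c.vs)) * q.2.1 ≤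
          2 + Real.exp (-(2 * c.vs)) * (c.S1 + 1) := by linarith [Real.exp_pos (-q.2.1)]
      have a3 := mul_le_mul_of_nonneg_left a2 (show 0 ≤ 16 * Real.exp (2 * c.w) by positivity)
      linarith [h.Λ1]
    have e : c.k (eul (c.η ^ 2) q.1 ξ) = c.k q.1 + 1 :=
      le_antisymm ((cm1_k_le h).2 (by push_cast; linarith)) h1
    obtain ⟨t1, t2⟩ := cm1_trans h (n := c.k q.1) (p := eul (c.η ^ 2) q.1 ξ) (by linarith) l2.le
    rw [if_pos h1, if_neg h2, sub_zero]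
    split_ifs with h3
    · simp only [pot, e, if_neg (show (1 : ℕ) ≠ 2 by norm_num), if_true]
      rw [pow_succ, mul_assoc]
      exact mul_le_mul_of_nonneg_left (t1 h3) p0
    · simp only [pot, e, if_neg (show (0 : ℕ) ≠ 2 by norm_num), if_neg (show (0 : ℕ) ≠ 1 by norm_num)]
      rw [pow_succ, mul_assoc, sub_zero]
      exact mul_le_mul_of_nonneg_left (t2 h3) p0
  have e : c.k (eul (c.η ^ 2) q.1 ξ) = c.k q.1 := le_antisymm (not_lt.1 h1) s5
  rw [if_neg h1]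
  by_cases h3 : q.2.2 = 1 ∧ |Real.arsinh (tau (eul (c.η ^ 2) q.1 ξ)) -
      min (q.2.1 + c.η ^ 2 / rho2 q.1) c.vs| ≤ c.w
  · rw [if_pos h3, if_pos h3.1]
    split_ifs with h4
    · simp only [pot, if_true]
      refine mul_nonneg p0 ?_
      have a1 := cm1_br h (n := c.k q.1) (p := eul (c.η ^ 2) q.1 ξ) (by linarith)
      have a2 := cm1_U h (s := q.2.1 + c.η ^ 2 / rho2 q.1)
        (by linarith [(hq.2.2 h3.1).2.2.1]) (eul (c.η ^ 2) q.1 ξ)
      have a3 := mul_pos (mul_pos h.θ0 (Real.exp_pos (c.L0 - c.k q.1 * c.Λ + c.Λ)))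
        (fam_pos (c.κ / 8 - 2) 0 (eul (c.η ^ 2) q.1 ξ))
      linarith
    · simp only [pot, e, if_neg (show (1 : ℕ) ≠ 2 by norm_num), if_true]
      exact le_rfl
  · rw [if_neg h3]
    simp only [pot, e, if_neg (show (0 : ℕ) ≠ 2 by norm_num), if_neg (show (0 : ℕ) ≠ 1 by norm_num)]
    split_ifs with h4
    · rw [cm1_U0 h fun a => h3 ⟨h4, a⟩]
    · exact le_rfl

end CP

end Vale.Agent.P164
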