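import Vale.Agent.P164.CM1

namespace Vale.Agent.P164

open Set MeasureTheory

/-- a spiral was recorded before step `n` in one of the first `J` periods -/
def Succ (E B0 σ m Λ L0 : ℝ) (J : ℕ) (p : ℕ → St) (n : ℕ) : Prop :=
  ∃ n0 n1 j : ℕ, n0 ≤ n1 ∧ n1 ≤ n ∧ j < J ∧
    (∀ i, n0 ≤ i → i ≤ n1 → m * (p i).y / E ≤ (p i).x ∧ (p i).x ≤ E * m * (p i).y) ∧
    B0 * m ^ 2 ≤ Real.log (p n0).y - Real.log (p n1).y ∧
    L0 - j * Λ - σ ≤ (p n0).l ∧ (p n0).l ≤ L0 - j * Λ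

theorem cm2_tube {w m t : ℝ} (hw : 0 < w) (hm : 2 * Real.exp w ≤ m)
    (h : |Real.arsinh t - Real.arsinh m| ≤ w) :
    m / (2 * Real.exp w) ≤ t ∧ t ≤ 2 * Real.exp w * m := by
  have hE : 1 ≤ Real.exp w := Real.one_le_exp hw.le
  have h1 : 2 * m ≤ Real.exp (Real.arsinh m) := by
    rw [Real.exp_arsinh]
    have := Real.le_sqrt_of_sq_le (show m ^ 2 ≤ 1 + m ^ 2 by linarith)
    linarith
  have h2 : Real.exp (Real.arsinh m) ≤ 2 * m + 1 := by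
    rw [Real.exp_arsinh]
    have : Real.sqrt (1 + m ^ 2) ≤ m + 1 := Real.sqrt_le_iff.2 ⟨by linarith, by nlinarith⟩
    linarith
  obtain ⟨h3, h4⟩ := abs_le.1 h
  have h5 := Real.sinh_le_sinh.2 (show Real.arsinh m - w ≤ Real.arsinh t by linarith)
  have h6 := Real.sinh_le_sinh.2 (show Real.arsinh t ≤ Real.arsinh m + w by linarith)
  rw [Real.sinh_arsinh, Real.sinh_eq] at h5 h6
  rw [neg_sub, Real.exp_sub, Real.exp_sub] at h5
  rw [Real.exp_add] at h6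
  have h7 := Real.exp_pos (-(Real.arsinh m + w))
  generalize Real.exp (Real.arsinh m) = e at h1 h2 h5 h6
  generalize Real.exp w = E at hm hE h5 h6 ⊢
  constructor
  · have h8 : 2 * m / E ≤ e / E := by gcongr
    have h9 : E / e ≤ m / E := by
      rw [div_le_div_iff₀ (by linarith) (by linarith)]
      nlinarith
    have h10 : m / (2 * E) = (2 * m / E - m / E) / 2 := by
      field_simp
      ring
    linarith
  · nlinarith

theorem cm2_xy {E m : ℝ} {p : St} (hp : 0 < p.y) (h : m / E ≤ tau p ∧ tau p ≤ E * m) :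
    m * p.y / E ≤ p.x ∧ p.x ≤ E * m * p.y := by
  unfold tau at h
  rw [le_div_iff₀ hp, div_le_iff₀ hp] at h
  exact ⟨by rw [mul_div_right_comm]; exact h.1, h.2⟩

theorem cm2_cases {c : CP} {q : St × ℝ × ℕ} (ha : c.alive q) (ξ : ℝ) :
    c.step q ξ = (eul (c.η ^ 2) q.1 ξ, 0, 0) ∨ c.step q ξ = (eul (c.η ^ 2) q.1 ξ, 0, 1) ∨
      (q.2.2 = 1 ∧ |Real.arsinh (tau (eul (c.η ^ 2) q.1 ξ)) -
        min (q.2.1 + c.η ^ 2 / rho2 q.1) c.vs| ≤ c.w ∧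
        (c.step q ξ = (eul (c.η ^ 2) q.1 ξ, q.2.1 + c.η ^ 2 / rho2 q.1, 1) ∨
          c.S1 ≤ q.2.1 + c.η ^ 2 / rho2 q.1)) := by
  unfold CP.step
  rw [if_pos ha]
  split_ifs with h1 h2 h3 h4
  · exact Or.inr (Or.inl rfl)
  · exact Or.inl rfl
  · exact Or.inr (Or.inr ⟨h3.1, h3.2, Or.inr h4⟩)
  · exact Or.inr (Or.inr ⟨h3.1, h3.2, Or.inl rfl⟩)
  · exact Or.inl rfl

theorem cm2_lam {c : CP} (h : c.OK) : 0 < c.Λ := by
  have h1 : 0 ≤ c.S1 + 1 := by linarith [h.v0, h.v1]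
  have h2 : 0 ≤ 16 * Real.exp (2 * c.w) * (2 + Real.exp (-(2 * c.vs)) * (c.S1 + 1)) := by
    positivity
  linarith [h.Λ1]

theorem cm2_k {c : CP} (h : c.OK) {j : ℕ} {p : St} : j < c.k p ↔ p.l < c.L0 - j * c.Λ := by
  unfold CP.k
  rw [Nat.lt_ceil, lt_div_iff₀ (cm2_lam h)]
  constructor <;> intro h1 <;> linarith

theorem cm2_frozen {c : CP} (q0 : St × ℝ × ℕ) (ξ : ℕ → ℝ) {n N : ℕ} (hn : n ≤ N)
    (ha : ¬c.alive (run c.step q0 ξ n)) : run c.step q0 ξ N = run c.step q0 ξ n := by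
  induction N, hn using Nat.le_induction with
  | base => rfl
  | succ N _ ih =>
    rw [run_succ, ih, CP.step, if_neg ha]

theorem cm2_final {c : CP} (h : c.OK) {q : St × ℝ × ℕ} (hq : q ∈ c.Inv) (h2 : q.2.2 ≠ 2)
    (hk : c.J < c.k q.1) :
    c.θ * (1 + c.θ) ^ c.J * Real.exp ((c.κ / 8 - 1) * (c.L0 - c.J * c.Λ)) ≤ c.pot q := by
  refine le_trans ?_ (CP.pot_ge h hq h2)
  obtain ⟨j, hj⟩ : ∃ j, c.k q.1 = j + 1 := ⟨c.k q.1 - 1, by omega⟩
  have h3 : q.1.l < c.L0 - j * c.Λ := (cm2_k h).1 (by omega)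
  have h4 : (c.J : ℝ) * c.Λ ≤ j * c.Λ :=
    mul_le_mul_of_nonneg_right (Nat.cast_le.2 (by omega)) (cm2_lam h).le
  have h5 : (1 + c.θ) ^ c.J ≤ (1 + c.θ) ^ c.k q.1 :=
    pow_le_pow_right₀ (by linarith [h.θ0]) hk.le
  have h6 : Real.exp ((c.κ / 8 - 1) * (c.L0 - c.J * c.Λ)) ≤
      Real.exp (c.L0 - c.k q.1 * c.Λ + c.Λ) * fam (c.κ / 8 - 2) 0 q.1 := by
    rw [lyap_zero, ← Real.exp_add, hj]
    apply Real.exp_le_exp.2
    push_cast
    nlinarith [h.κ8]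
  have h7 := h.θ0
  rw [mul_comm c.θ, mul_assoc, mul_assoc]
  gcongr

/-- the machine follows the free run and its clock measures the drop of `log y` -/
def cm2_I (p : ℕ → St) (q : ℕ → St × ℝ × ℕ) (i : ℕ) : Prop :=
  (q i).1 = p i ∧ (q i).2.2 ≠ 2 ∧ ((q i).2.2 = 1 → ∃ ns ≤ i, ∀ j, ns ≤ j → j ≤ i →
    (q j).1 = p j ∧ (q j).2.2 = 1 ∧ 2 * (q j).2.1 = Real.log (p ns).y - Real.log (p j).y)

theorem cm2_ivt {L : ℕ → ℝ} {v : ℝ} (hv : 0 ≤ v) {a i : ℕ} (ha : a ≤ i)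
    (hL : ∀ j < i, L j - 1 / 2 ≤ L (j + 1)) (hi : v ≤ L a - L i) :
    ∃ n0, a ≤ n0 ∧ n0 ≤ i ∧ v ≤ L a - L n0 ∧ L a - L n0 ≤ v + 1 / 2 := by
  induction i, ha using Nat.le_induction with
  | base => exact ⟨a, le_rfl, le_rfl, hi, by linarith⟩
  | succ i ha ih =>
    rcases le_or_gt v (L a - L i) with h1 | h1
    · obtain ⟨n0, e1, e2, e3⟩ := ih (fun j hj => hL j (by omega)) h1
      exact ⟨n0, e1, by omega, e3⟩
    · exact ⟨i + 1, by omega, le_rfl, hi, by linarith [hL i (by omega)]⟩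

theorem cm2_succ {c : CP} (h : c.OK) {B0 σ m : ℝ} (hB : 1 ≤ B0) (hm : 2 * Real.exp c.w ≤ m)
    (hv : c.vs = Real.arsinh m) (hS : c.S1 = c.vs + B0 * m ^ 2)
    (hσ : 1 + 16 * Real.exp (2 * c.w) * (2 + Real.exp (-(2 * c.vs)) * (c.S1 + 1)) ≤ σ)
    {p : ℕ → St} {q : ℕ → St × ℝ × ℕ} {ns i n : ℕ} (hn : i < n) (hns : ns ≤ i)
    (hy : ∀ j, 0 < (p j).y) (ha : Antitone fun j => (p j).y)
    (hL : ∀ j ≤ i, Real.log (p j).y - 1 / 2 ≤ Real.log (p (j + 1)).y)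
    (hk : ∀ j ≤ i, c.k (p j) ≤ c.J) (hq : ∀ j, q j ∈ c.Inv)
    (hI : ∀ j, ns ≤ j → j ≤ i →
      (q j).1 = p j ∧ (q j).2.2 = 1 ∧ 2 * (q j).2.1 = Real.log (p ns).y - Real.log (p j).y)
    (h1 : 2 * c.S1 ≤ Real.log (p ns).y - Real.log (p (i + 1)).y)
    (h2 : |Real.arsinh (tau (p (i + 1))) - c.vs| ≤ c.w) :
    Succ (2 * Real.exp c.w) B0 σ m c.Λ c.L0 c.J p n := by
  have hE : 1 ≤ Real.exp c.w := Real.one_le_exp h.w0.le
  obtain ⟨n0, e1, e2, e3, e4⟩ := cm2_ivt (L := fun j => Real.log (p j).y) (v := 2 * c.vs)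
    (by linarith [h.v0]) hns (fun j hj => hL j hj.le) (by linarith [hL i le_rfl, h.v1])
  obtain ⟨f1, f2, f3⟩ := hI n0 e1 e2
  obtain ⟨g1, g2, g3, -, g5⟩ := (hq n0).2.2 f2
  rw [f1] at g1 g5
  obtain ⟨j, hj⟩ : ∃ j, c.k (p n0) = j + 1 := ⟨c.k (p n0) - 1, by omega⟩
  refine ⟨n0, i + 1, j, by omega, hn, by have := hk n0 e2; omega, fun i' k1 k2 => ?_, ?_, ?_,
    ((cm2_k h).1 (by omega)).le⟩
  · refine cm2_xy (hy i') (cm2_tube h.w0 hm ?_)
    rw [← hv]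
    rcases k2.eq_or_lt with rfl | k3
    · exact h2
    · obtain ⟨a1, a2, a3⟩ := hI i' (e1.trans k1) (by omega)
      have a4 := ((hq i').2.2 a2).2.2.2.1
      have a5 := Real.log_le_log (hy i') (ha k1)
      rwa [a1, min_eq_right (by linarith)] at a4
  · have : 1 ≤ m ^ 2 := by nlinarith
    nlinarith
  · rw [hj] at g5
    push_cast at g5
    have b1 := Real.exp_pos (-(q n0).2.1)
    have b2 : Real.exp (-(2 * c.vs)) * (q n0).2.1 ≤ Real.exp (-(2 * c.vs)) * (c.S1 + 1) :=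
      mul_le_mul_of_nonneg_left (by linarith) (Real.exp_pos _).le
    have b3 : 16 * Real.exp (2 * c.w) * (2 * (1 - Real.exp (-(q n0).2.1)) +
        Real.exp (-(2 * c.vs)) * (q n0).2.1) ≤
        16 * Real.exp (2 * c.w) * (2 + Real.exp (-(2 * c.vs)) * (c.S1 + 1)) :=
      mul_le_mul_of_nonneg_left (by linarith) (by positivity)
    linarith

/-- reaching the last level without success forces a large potential -/
theorem CP.bad_le {c : CP} (h : c.OK) {B0 σ m : ℝ} (hB : 1 ≤ B0) (hm : 2 * Real.exp c.w ≤ m)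
    (hv : c.vs = Real.arsinh m) (hS : c.S1 = c.vs + B0 * m ^ 2)
    (hσ : 1 + 16 * Real.exp (2 * c.w) * (2 + Real.exp (-(2 * c.vs)) * (c.S1 + 1)) ≤ σ)
    {z : ℂ} (hz : 0 < z.im) (hz1 : c.L0 ≤ Real.log z.im) (hz2 : Real.log z.im ≤ 2) (ξ : ℕ → ℝ)
    {n N : ℕ} (hn : n ≤ N) (h1 : c.y0 ≤ (fre (c.η ^ 2) z ξ n).y)
    (h2 : (fre (c.η ^ 2) z ξ n).l < c.L0 - c.J * c.Λ)
    (h3 : ¬ Succ (2 * Real.exp c.w) B0 σ m c.Λ c.L0 c.J (fre (c.η ^ 2) z ξ) n) :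
    c.θ * (1 + c.θ) ^ c.J * Real.exp ((c.κ / 8 - 1) * (c.L0 - c.J * c.Λ)) ≤
      c.pot (run c.step (ini z, 0, 0) ξ N) := by
  have hδ : 0 ≤ c.η ^ 2 := sq_nonneg _
  have hq : ∀ j, run c.step (ini z, 0, 0) ξ j ∈ c.Inv :=
    run_mem (CP.step_inv h) (x0 := (ini z, 0, 0)) ⟨hz, hz2, fun e => absurd e zero_ne_one⟩ ξ
  have hex : ∃ i, c.J < c.k (fre (c.η ^ 2) z ξ i) := ⟨n, (cm2_k h).2 h2⟩
  have hy := fre_y_pos (c.η ^ 2) hz ξ
  have ha := fre_y_anti hδ hz ξ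
  have hs : Nat.find hex ≤ n := Nat.find_min' hex ((cm2_k h).2 h2)
  have hk : ∀ j < Nat.find hex, c.k (fre (c.η ^ 2) z ξ j) ≤ c.J := fun j hj =>
    not_lt.1 (Nat.find_min hex hj)
  have hy0 : ∀ j ≤ n, c.y0 ≤ (fre (c.η ^ 2) z ξ j).y := fun j hj => h1.trans (ha hj)
  have hlog : ∀ j, Real.log (fre (c.η ^ 2) z ξ (j + 1)).y = Real.log (fre (c.η ^ 2) z ξ j).y -
      2 * (c.η ^ 2 / rho2 (fre (c.η ^ 2) z ξ j)) := fun j => by
    rw [fre_succ, log_eul_y _ (hy j), mul_div_assoc]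
  have hL : ∀ j ≤ n, Real.log (fre (c.η ^ 2) z ξ j).y - 1 / 2 ≤
      Real.log (fre (c.η ^ 2) z ξ (j + 1)).y := fun j hj => by
    rw [hlog]
    linarith [step_le hδ h.y1 (hy0 j hj), h.η2]
  have hI : ∀ i ≤ Nat.find hex, cm2_I (fre (c.η ^ 2) z ξ) (run c.step (ini z, 0, 0) ξ) i := by
    intro i
    induction i with
    | zero => exact fun _ => ⟨rfl, two_ne_zero.symm, fun e => absurd e zero_ne_one⟩
    | succ i ih =>
      intro hi
      obtain ⟨e1, e2, e3⟩ := ih (by omega)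
      have al : c.alive (run c.step (ini z, 0, 0) ξ i) :=
        ⟨by rw [e1]; exact hy0 i (by omega), by rw [e1]; exact hk i hi, e2⟩
      have hc := cm2_cases al (ξ i)
      rw [← run_succ c.step, e1, ← fre_succ] at hc
      rcases hc with e | e | ⟨s1, s2, e⟩
      · exact ⟨by rw [e], by rw [e]; exact two_ne_zero.symm,
          fun e' => absurd (by rwa [e] at e') zero_ne_one⟩
      · refine ⟨by rw [e], by rw [e]; exact one_lt_two.ne, fun _ => ⟨i + 1, le_rfl, ?_⟩⟩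
        intro j j1 j2
        rw [le_antisymm j2 j1, e]
        exact ⟨rfl, rfl, by simp⟩
      · obtain ⟨ns, hns, hj⟩ := e3 s1
        have s3 := (hj i hns le_rfl).2.2
        rcases e with e | e
        · refine ⟨by rw [e], by rw [e]; exact one_lt_two.ne, fun _ => ⟨ns, by omega, ?_⟩⟩
          intro j j1 j2
          rcases j2.eq_or_lt with rfl | j3
          · rw [e, hlog]
            exact ⟨rfl, rfl, by linarith⟩
          · exact hj j j1 (by omega)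
        · refine absurd (cm2_succ h hB hm hv hS hσ (by omega) hns hy ha
            (fun j hj => hL j (by omega)) (fun j hj => hk j (by omega)) hq hj ?_ ?_) h3
          · rw [hlog]
            linarith
          · rwa [min_eq_right (by linarith [h.v1])] at s2
  obtain ⟨e1, e2, -⟩ := hI _ le_rfl
  have e3 : c.J < c.k (run c.step (ini z, 0, 0) ξ (Nat.find hex)).1 := by
    rw [e1]
    exact Nat.find_spec hex
  rw [cm2_frozen _ ξ (hs.trans hn) fun al => absurd al.2.1 (not_le.2 e3)]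
  exact cm2_final h (hq _) e2 e3

end Vale.Agent.P164
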