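import Vale.Agent.P164.CM2

namespace Vale.Agent.P164

open Set MeasureTheory

theorem cm3_pos {c : CP} (h : c.OK) : c.θ ≤ 1 ∧ 0 < c.Λ := by
  have h1 := h.θ1
  have h2 := h.Λ1
  have h3 := h.θ0
  have h4 := h.C1
  have h5 : Real.exp (-(c.A2 * (c.S1 + 1))) ≤ 1 := Real.exp_le_one_iff.2
    (neg_nonpos.2 (mul_nonneg h.A0 (by linarith [h.v0, h.v1])))
  have h6 : 0 ≤ c.θ * (c.C4 * Real.exp (c.Λ + 1)) := by positivity
  have h7 : 0 ≤ c.S1 + 1 := by linarith [h.v0, h.v1]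
  have h8 : 0 ≤ 16 * Real.exp (2 * c.w) * (2 + Real.exp (-(2 * c.vs)) * (c.S1 + 1)) := by
    positivity
  constructor <;> linarith

theorem cm3_nonneg {c : CP} (h : c.OK) : ∀ q ∈ c.Inv, 0 ≤ c.pot q := by
  intro q hq
  by_cases h2 : q.2.2 = 2
  · rw [CP.pot, if_pos h2]
  · refine le_trans ?_ (CP.pot_ge h hq h2)
    have := h.θ0
    have := fam_pos (c.κ / 8 - 2) 0 q.1
    positivity

theorem cm3_U {c : CP} (h : c.OK) {K : ℝ} (hK : 0 ≤ K) {p : St} {s : ℝ} (hs : s ≤ c.S1)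
    (H : ∀ μ, 0 ≤ μ → μ ≤ 1 / rho2 p → Integrable (fun ξ => -(mart c.κ (eul (c.η ^ 2) p ξ) *
      Real.exp (c.A2 * (c.η ^ 2 / rho2 p)) *
      bump ((Real.arsinh (tau (eul (c.η ^ 2) p ξ)) - (min s c.vs + μ * c.η ^ 2)) / c.w)))
        (gs c.κ c.η) ∧ ∫ ξ, -(mart c.κ (eul (c.η ^ 2) p ξ) * Real.exp (c.A2 * (c.η ^ 2 / rho2 p)) *
      bump ((Real.arsinh (tau (eul (c.η ^ 2) p ξ)) - (min s c.vs + μ * c.η ^ 2)) / c.w))
        ∂gs c.κ c.η ≤ -(mart c.κ p * bump ((Real.arsinh (tau p) - min s c.vs) / c.w)) +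
          K * c.η ^ 3) :
    Integrable (fun ξ => -c.U (s + c.η ^ 2 / rho2 p) (eul (c.η ^ 2) p ξ)) (gs c.κ c.η) ∧
      ∫ ξ, -c.U (s + c.η ^ 2 / rho2 p) (eul (c.η ^ 2) p ξ) ∂gs c.κ c.η ≤
        -c.U s p + K * c.η ^ 3 := by
  have hη := h.η0
  have hη2 : 0 < c.η ^ 2 := by positivity
  have hd : 0 ≤ c.η ^ 2 / rho2 p := div_nonneg hη2.le (rho2_nonneg p)
  have m1 : min s c.vs ≤ min (s + c.η ^ 2 / rho2 p) c.vs := min_le_min_right _ (by linarith)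
  have m2 : min (s + c.η ^ 2 / rho2 p) c.vs ≤ min s c.vs + c.η ^ 2 / rho2 p := by
    rw [← min_add_add_right]
    exact min_le_min_left _ (by linarith)
  obtain ⟨H1, H2⟩ := H ((min (s + c.η ^ 2 / rho2 p) c.vs - min s c.vs) / c.η ^ 2)
    (div_nonneg (by linarith) hη2.le) (by
      rw [div_le_iff₀ hη2, one_div_mul_eq_div]
      linarith)
  rw [div_mul_cancel₀ _ hη2.ne', add_sub_cancel] at H1 H2
  have e : (fun ξ => -c.U (s + c.η ^ 2 / rho2 p) (eul (c.η ^ 2) p ξ)) = fun ξ =>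
      Real.exp (c.A2 * (s - c.S1 - 1)) * -(mart c.κ (eul (c.η ^ 2) p ξ) *
        Real.exp (c.A2 * (c.η ^ 2 / rho2 p)) * bump ((Real.arsinh (tau (eul (c.η ^ 2) p ξ)) -
          min (s + c.η ^ 2 / rho2 p) c.vs) / c.w)) := by
    funext ξ
    have e1 : c.A2 * (s + c.η ^ 2 / rho2 p - c.S1 - 1) =
        c.A2 * (s - c.S1 - 1) + c.A2 * (c.η ^ 2 / rho2 p) := by ring
    rw [CP.U, e1, Real.exp_add]
    ring
  have h1 : Real.exp (c.A2 * (s - c.S1 - 1)) ≤ 1 :=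
    Real.exp_le_one_iff.2 (mul_nonpos_of_nonneg_of_nonpos h.A0 (by linarith))
  rw [e]
  refine ⟨H1.const_mul _, ?_⟩
  rw [integral_const_mul, CP.U]
  have h2 := mul_le_mul_of_nonneg_left H2 (Real.exp_pos (c.A2 * (s - c.S1 - 1))).le
  have h3 := mul_le_of_le_one_left (by positivity : 0 ≤ K * c.η ^ 3) h1
  linarith

theorem cm3_step {c : CP} (h : c.OK) (hL : c.L0 + c.Λ ≤ 0) {K1 K2 K3 : ℝ} (k1 : 0 ≤ K1)
    (k2 : 0 ≤ K2) (k3 : 0 ≤ K3)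
    (H1 : ∀ p ∈ Reg c.y0 (c.L0 - c.J * c.Λ),
      Integrable (fun ξ => mart c.κ (eul (c.η ^ 2) p ξ)) (gs c.κ c.η) ∧
        ∫ ξ, mart c.κ (eul (c.η ^ 2) p ξ) ∂gs c.κ c.η ≤ mart c.κ p + K1 * c.η ^ 3)
    (H2 : ∀ p ∈ Reg c.y0 (c.L0 - c.J * c.Λ),
      Integrable (fun ξ => c.F (eul (c.η ^ 2) p ξ)) (gs c.κ c.η) ∧
        ∫ ξ, c.F (eul (c.η ^ 2) p ξ) ∂gs c.κ c.η ≤ c.F p + K2 * c.η ^ 3)
    (H3 : ∀ p ∈ Reg c.y0 (c.L0 - c.J * c.Λ), ∀ v, |Real.arsinh (tau p) - v| ≤ c.w →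
      ∀ μ, 0 ≤ μ → μ ≤ 1 / rho2 p → Integrable (fun ξ => -(mart c.κ (eul (c.η ^ 2) p ξ) *
        Real.exp (c.A2 * (c.η ^ 2 / rho2 p)) *
        bump ((Real.arsinh (tau (eul (c.η ^ 2) p ξ)) - (v + μ * c.η ^ 2)) / c.w)))
          (gs c.κ c.η) ∧ ∫ ξ, -(mart c.κ (eul (c.η ^ 2) p ξ) *
            Real.exp (c.A2 * (c.η ^ 2 / rho2 p)) *
        bump ((Real.arsinh (tau (eul (c.η ^ 2) p ξ)) - (v + μ * c.η ^ 2)) / c.w))
          ∂gs c.κ c.η ≤ -(mart c.κ p * bump ((Real.arsinh (tau p) - v) / c.w)) + K3 * c.η ^ 3) :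
    ∀ q ∈ c.Inv, Integrable (fun ξ => c.pot (c.step q ξ)) (gs c.κ c.η) ∧
      ∫ ξ, c.pot (c.step q ξ) ∂gs c.κ c.η ≤ 1 * c.pot q +
        2 ^ c.J * ((1 + c.C4 * Real.exp (c.Λ + 1)) * K1 + K2 + K3) * c.η ^ 3 := by
  intro q hq
  obtain ⟨θ1, Λ0⟩ := cm3_pos h
  have θ0 := h.θ0
  have hη := h.η0
  have hC : 0 ≤ c.C4 := by linarith [h.C1]
  by_cases ha : c.alive q
  swap
  · have e : ∀ ξ, c.step q ξ = q := fun ξ => by rw [CP.step, if_neg ha]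
    simp only [e, integral_const, probReal_univ, smul_eq_mul, one_mul]
    exact ⟨integrable_const _, le_add_of_nonneg_right (by positivity)⟩
  have hR : q.1 ∈ Reg c.y0 (c.L0 - c.J * c.Λ) := by
    refine ⟨ha.1, ?_, hq.2.1⟩
    have h1 : (c.L0 - q.1.l) / c.Λ ≤ c.J := Nat.ceil_le.1 ha.2.1
    rw [div_le_iff₀ Λ0] at h1
    linarith
  obtain ⟨a1, a2⟩ := H1 _ hR
  obtain ⟨b1, b2⟩ := H2 _ hR
  obtain ⟨V, hV⟩ : ∃ V : ℝ → ℝ, V = fun ξ => -(if q.2.2 = 1 then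
    c.U (q.2.1 + c.η ^ 2 / rho2 q.1) (eul (c.η ^ 2) q.1 ξ) else 0) := ⟨_, rfl⟩
  have hc : Integrable V (gs c.κ c.η) ∧ ∫ ξ, V ξ ∂gs c.κ c.η ≤
      -(if q.2.2 = 1 then c.U q.2.1 q.1 else 0) + K3 * c.η ^ 3 := by
    by_cases h1 : q.2.2 = 1
    · simp only [hV, if_pos h1]
      exact cm3_U h k3 (hq.2.2 h1).2.2.1 (H3 _ hR _ (hq.2.2 h1).2.2.2.1)
    · simp only [hV, if_neg h1, neg_zero, integral_zero, zero_add]
      exact ⟨integrable_zero _ _ _, by positivity⟩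
  obtain ⟨α, hα⟩ : ∃ α, α = 1 + c.θ * c.C4 * Real.exp (c.Λ + 1) := ⟨_, rfl⟩
  obtain ⟨β, hβ⟩ : ∃ β, β = c.θ * Real.exp (c.L0 - c.k q.1 * c.Λ + c.Λ) := ⟨_, rfl⟩
  have α0 : 0 ≤ α := by rw [hα]; positivity
  have α1 : α ≤ 1 + c.C4 * Real.exp (c.Λ + 1) := by
    rw [hα, mul_assoc]
    exact add_le_add le_rfl (mul_le_of_le_one_left (by positivity) θ1)
  have β0 : 0 ≤ β := by rw [hβ]; positivity
  have β1 : β ≤ 1 := by
    have h1 : 0 ≤ (c.k q.1 : ℝ) * c.Λ := by positivity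
    rw [hβ]
    exact mul_le_one₀ θ1 (Real.exp_pos _).le (Real.exp_le_one_iff.2 (by linarith))
  have i1 := (a1.const_mul α).add (b1.const_mul β)
  have hG : Integrable (fun ξ => (1 + c.θ) ^ c.k q.1 * (α * mart c.κ (eul (c.η ^ 2) q.1 ξ) +
      β * c.F (eul (c.η ^ 2) q.1 ξ) + V ξ)) (gs c.κ c.η) := (i1.add hc.1).const_mul _
  have hle : ∀ ξ, c.pot (c.step q ξ) ≤ (1 + c.θ) ^ c.k q.1 *
      (α * mart c.κ (eul (c.η ^ 2) q.1 ξ) + β * c.F (eul (c.η ^ 2) q.1 ξ) + V ξ) := fun ξ => by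
    have h1 := CP.pot_step h hq ha ξ
    rw [CP.br, ← hα, ← hβ, sub_eq_add_neg] at h1
    rw [hV]
    exact h1
  have hm : Measurable fun ξ => c.pot (c.step q ξ) :=
    (CP.measurable_pot h).comp (CP.measurable_step.of_uncurry_left)
  have hi : Integrable (fun ξ => c.pot (c.step q ξ)) (gs c.κ c.η) :=
    hG.mono' hm.aestronglyMeasurable (Filter.Eventually.of_forall fun ξ => by
      rw [Real.norm_of_nonneg (cm3_nonneg h _ (CP.step_inv h q hq ξ))]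
      exact hle ξ)
  refine ⟨hi, (integral_mono hi hG hle).trans ?_⟩
  rw [integral_const_mul, integral_add (f := fun ξ => α * mart c.κ (eul (c.η ^ 2) q.1 ξ) +
    β * c.F (eul (c.η ^ 2) q.1 ξ)) i1 hc.1, integral_add (a1.const_mul α) (b1.const_mul β),
    integral_const_mul, integral_const_mul, CP.pot, if_neg ha.2.2, CP.br, ← hα, ← hβ]
  have h1 := mul_le_mul_of_nonneg_left a2 α0
  have h2 := mul_le_mul_of_nonneg_left b2 β0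
  have h3 := mul_le_mul_of_nonneg_right α1 (by positivity : 0 ≤ K1 * c.η ^ 3)
  have h4 := mul_le_mul_of_nonneg_right β1 (by positivity : 0 ≤ K2 * c.η ^ 3)
  have h5 : (1 + c.θ) ^ c.k q.1 ≤ 2 ^ c.J :=
    (pow_le_pow_left₀ (by positivity) (by linarith) _).trans
      (pow_le_pow_right₀ one_le_two ha.2.1)
  have h6 := mul_le_mul_of_nonneg_right h5
    (by positivity : 0 ≤ ((1 + c.C4 * Real.exp (c.Λ + 1)) * K1 + K2 + K3) * c.η ^ 3)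
  have h7 : α * ∫ ξ, mart c.κ (eul (c.η ^ 2) q.1 ξ) ∂gs c.κ c.η +
      β * ∫ ξ, c.F (eul (c.η ^ 2) q.1 ξ) ∂gs c.κ c.η + ∫ ξ, V ξ ∂gs c.κ c.η ≤
      (α * mart c.κ q.1 + β * c.F q.1 - if q.2.2 = 1 then c.U q.2.1 q.1 else 0) +
        ((1 + c.C4 * Real.exp (c.Λ + 1)) * K1 + K2 + K3) * c.η ^ 3 := by
    linarith [hc.2]
  have h8 := mul_le_mul_of_nonneg_left h7 (by positivity : 0 ≤ (1 + c.θ) ^ c.k q.1)
  linarith

theorem cm3_ini {c : CP} (h : c.OK) (hL : c.L0 + c.Λ ≤ -1)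
    (hF : ∀ p, c.F p ≤ c.C4 * fam (c.κ / 8 - 2) 0 p) {z : ℂ} (hz : -1 ≤ Real.log z.im)
    (hz' : Real.log z.im ≤ 2) : c.pot (ini z, 0, 0) ≤
      (1 + c.C4 * Real.exp (c.Λ + 1)) * Real.exp 1 + c.C4 * Real.exp 2 := by
  obtain ⟨θ1, Λ0⟩ := cm3_pos h
  have θ0 := h.θ0
  have hC : 0 ≤ c.C4 := by linarith [h.C1]
  have κ0 := h.κ0
  have κ8 := h.κ8
  have hk : c.k (ini z) = 0 :=
    Nat.ceil_eq_zero.2 (div_nonpos_of_nonpos_of_nonneg (by rw [ini_l]; linarith) Λ0.le)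
  have h1 : mart c.κ (ini z) ≤ Real.exp 1 := by
    have h2 : 0 ≤ 8 / c.κ - 1 := by rw [sub_nonneg, le_div_iff₀ κ0]; linarith
    refine (fam_le _ h2 _).trans (Real.exp_le_exp.2 ?_)
    rw [ini_l]
    nlinarith
  have h2 : c.F (ini z) ≤ c.C4 * Real.exp 2 := by
    refine (hF _).trans (mul_le_mul_of_nonneg_left ((fam_le _ le_rfl _).trans
      (Real.exp_le_exp.2 ?_)) hC)
    rw [ini_l]
    nlinarith
  have h3 : c.θ * Real.exp (c.L0 + c.Λ) ≤ 1 :=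
    mul_le_one₀ θ1 (Real.exp_pos _).le (Real.exp_le_one_iff.2 (by linarith))
  have h4 := mul_le_mul_of_nonneg_left h2 (by positivity : 0 ≤ c.θ * Real.exp (c.L0 + c.Λ))
  have h5 := mul_le_of_le_one_left (by positivity : 0 ≤ c.C4 * Real.exp 2) h3
  have h6 : (1 + c.θ * c.C4 * Real.exp (c.Λ + 1)) * mart c.κ (ini z) ≤
      (1 + c.C4 * Real.exp (c.Λ + 1)) * Real.exp 1 := by
    refine mul_le_mul ?_ h1 (mart_pos _ _).le (by positivity)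
    rw [mul_assoc]
    exact add_le_add le_rfl (mul_le_of_le_one_left (by positivity) θ1)
  simp only [CP.pot, CP.br, hk]
  norm_num
  linarith

theorem cm3_w {C a : ℝ} (ha : 0 < a) : ∃ w : ℝ, 0 < w ∧ C * (4 * Real.exp (-w)) ^ a ≤ 1 / 2 := by
  have h1 := ((Real.tendsto_exp_neg_atTop_nhds_zero.const_mul 4).rpow_const
    (Or.inr ha.le)).const_mul C
  rw [mul_zero, Real.zero_rpow ha.ne', mul_zero] at h1
  obtain ⟨w, h2, h3⟩ := ((Filter.eventually_gt_atTop 0).and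
    (h1.eventually (ge_mem_nhds (by norm_num : (0 : ℝ) < 1 / 2)))).exists
  exact ⟨w, h2, h3⟩

theorem cm3_m {B0 m : ℝ} (hm : 1 ≤ m) : Real.arsinh m + B0 * m ^ 2 + 1 ≤ (B0 + 2) * m ^ 2 ∧
    Real.exp (-(2 * Real.arsinh m)) * m ^ 2 ≤ 1 := by
  constructor
  · have h1 : Real.arsinh m ≤ m := by
      have h2 := Real.self_le_sinh_iff.2 (Real.arsinh_nonneg_iff.2 (by linarith : 0 ≤ m))
      rwa [Real.sinh_arsinh] at h2
    nlinarith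
  · have h1 : m ≤ Real.exp (Real.arsinh m) := by
      rw [Real.exp_arsinh]
      exact le_add_of_nonneg_right (Real.sqrt_nonneg _)
    rw [Real.exp_neg, inv_mul_le_iff₀ (Real.exp_pos _), mul_one, two_mul, Real.exp_add]
    nlinarith

/-- probability of reaching a small conformal radius without any spiral -/
theorem centerM {κ : ℝ} (hκ : 0 < κ) (hκ8 : κ < 8) : ∃ E : ℝ, 1 ≤ E ∧ ∀ B0 : ℝ, 1 ≤ B0 →
    ∃ σ : ℝ, 0 ≤ σ ∧ ∀ Λ : ℝ, σ + 2 ≤ Λ → ∃ C1 C : ℝ, 1 ≤ C1 ∧ 0 < C ∧ ∀ m : ℝ, E ≤ m →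
    ∀ L0 : ℝ, L0 + Λ ≤ -1 → ∀ (J : ℕ) (y0 T : ℝ), 0 < y0 → ∃ η0 : ℝ, 0 < η0 ∧
    ∀ η : ℝ, 0 < η → η ≤ η0 → ∀ z : ℂ, 1 / 2 ≤ z.im → z.im ≤ 3 → ∀ N : ℕ, N * η ^ 2 ≤ T →
      GG κ η {ξ | ∃ n ≤ N, y0 ≤ (fre (η ^ 2) z ξ n).y ∧ (fre (η ^ 2) z ξ n).l < L0 - J * Λ ∧
        ¬ Succ E B0 σ m Λ L0 J (fre (η ^ 2) z ξ) n} ≤
      ENNReal.ofReal (C * Real.exp (C1 * m ^ 2) / (1 + Real.exp (-(C1 * m ^ 2))) ^ J *
        Real.exp ((1 - κ / 8) * (L0 - J * Λ))) := by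
  obtain ⟨C4, F, hC4, hFm, hF1, hF2, hFs⟩ := lyap1 hκ hκ8
  have hal : 0 < (8 / κ - 1) / 2 := by
    have : 1 < 8 / κ := by rw [lt_div_iff₀ hκ]; linarith
    linarith
  obtain ⟨w, hw, hw1⟩ := cm3_w (C := C4) hal
  obtain ⟨A2, hA, hT⟩ := tube hκ hκ8 hw
  have hE : 1 ≤ Real.exp w := Real.one_le_exp hw.le
  refine ⟨2 * Real.exp w, by linarith, fun B0 hB => ⟨1 + 16 * Real.exp (2 * w) * (B0 + 4),
    by positivity, fun Λ hΛ => ?_⟩⟩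
  obtain ⟨D, hD⟩ : ∃ D, D = 64 / 27 * (2 + C4 * Real.exp (Λ + 1)) := ⟨_, rfl⟩
  have hD0 : 0 ≤ C4 * Real.exp (Λ + 1) := by positivity
  have hD1 : 1 ≤ D := by linarith
  have hD2 := Real.log_nonneg hD1
  have hD3 : 0 ≤ A2 * (B0 + 2) := by positivity
  obtain ⟨C1, hC1⟩ : ∃ C1, C1 = A2 * (B0 + 2) + Real.log D + 1 := ⟨_, rfl⟩
  obtain ⟨C, hC⟩ : ∃ C, C = (1 + C4 * Real.exp (Λ + 1)) * Real.exp 1 + C4 * Real.exp 2 + 1 :=
    ⟨_, rfl⟩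
  refine ⟨C1, C, by linarith, by rw [hC]; positivity, fun m hm L0 hL J y0 T hy => ?_⟩
  have hm1 : 1 ≤ m := by linarith
  have hm2 : 1 ≤ m ^ 2 := one_le_pow₀ hm1
  obtain ⟨m1, m2⟩ := cm3_m (B0 := B0) hm1
  have hσ : 16 * Real.exp (2 * w) * (2 + Real.exp (-(2 * Real.arsinh m)) *
      (Real.arsinh m + B0 * m ^ 2 + 1)) ≤ 16 * Real.exp (2 * w) * (B0 + 4) := by
    refine mul_le_mul_of_nonneg_left ?_ (by positivity)
    have h1 := mul_le_mul_of_nonneg_left m1 (Real.exp_pos (-(2 * Real.arsinh m))).le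
    have h2 := mul_le_mul_of_nonneg_left m2 (by linarith : 0 ≤ B0 + 2)
    linarith
  have hθ : Real.exp (-(C1 * m ^ 2)) * (2 + C4 * Real.exp (Λ + 1)) ≤
      27 / 64 * Real.exp (-(A2 * (Real.arsinh m + B0 * m ^ 2 + 1))) := by
    have h1 := mul_le_mul_of_nonneg_left m1 hA
    have h2 := mul_le_mul_of_nonneg_left hm2 hD2
    have h3 : Real.exp (-(C1 * m ^ 2) + Real.log D) ≤
        Real.exp (-(A2 * (Real.arsinh m + B0 * m ^ 2 + 1))) :=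
      Real.exp_le_exp.2 (by rw [hC1]; linarith)
    rw [Real.exp_add, Real.exp_log (by linarith), hD] at h3
    linarith
  obtain ⟨K1, k1, H1⟩ := (sup_mart hκ hκ8 hy (L0 - J * Λ)).1
  obtain ⟨K2, k2, H2⟩ := hFs y0 (L0 - J * Λ) hy
  obtain ⟨K3, k3, H3⟩ := hT y0 (L0 - J * Λ) hy
  obtain ⟨η0, hη0, hη1, hN⟩ := err_small
    (2 ^ J * ((1 + C4 * Real.exp (Λ + 1)) * K1 + K2 + K3)) T 1 one_pos
  refine ⟨min η0 (y0 / 2), by positivity, fun η hη hη' z hz hz' N hNT => ?_⟩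
  have e1 : η ≤ 1 := (hη'.trans (min_le_left _ _)).trans hη1
  have e2 : 4 * (η ^ 2 / y0 ^ 2) ≤ 1 := by
    have h1 := hη'.trans (min_le_right _ _)
    rw [← mul_div_assoc, div_le_one (by positivity)]
    nlinarith
  let c : CP := ⟨κ, w, A2, C4, Real.exp (-(C1 * m ^ 2)), Λ, L0, y0, Real.arsinh m,
    Real.arsinh m + B0 * m ^ 2, η, J, F⟩
  have ok : c.OK := ⟨hκ, hκ8, hw, hA, hC4, Real.exp_pos _, hθ, hw1, hFm, hF1, hy, hη, e1, e2,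
    Real.arsinh_nonneg_iff.2 (by linarith), by
      show Real.arsinh m + 1 ≤ Real.arsinh m + B0 * m ^ 2
      nlinarith, by
      show 2 + 16 * Real.exp (2 * w) * (2 + Real.exp (-(2 * Real.arsinh m)) *
        (Real.arsinh m + B0 * m ^ 2 + 1)) ≤ Λ
      linarith⟩
  have z0 : 0 < z.im := by linarith
  have z1 : -1 ≤ Real.log z.im := by
    have h1 := Real.one_sub_inv_le_log_of_pos z0
    have h2 : (z.im)⁻¹ ≤ 2 := by
      rw [inv_le_comm₀ z0 two_pos]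
      linarith
    linarith
  have z2 : Real.log z.im ≤ 2 := by linarith [Real.log_le_sub_one_of_pos z0]
  have Λ0 : 0 < Λ := (cm3_pos ok).2
  have hx : (ini z, (0 : ℝ), 0) ∈ c.Inv := ⟨z0, z2, fun h => absurd h (by simp)⟩
  obtain ⟨i1, i2⟩ := machine (κ := κ) (η := η) CP.measurable_step (CP.step_inv ok)
    (CP.measurable_pot ok) (cm3_nonneg ok) le_rfl (by positivity)
    (cm3_step ok (by show L0 + Λ ≤ 0; linarith) k1 k2 k3 (fun p hp => H1 p hp η ⟨hη, e1⟩)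
      (fun p hp => H2 p hp η ⟨hη, e1⟩)
      fun p hp v hv μ h1 h2 => H3 (p, v, μ) ⟨hp, hv, h1, h2⟩ η ⟨hη, e1⟩) hx N
  have i3 : ∫ ξ, c.pot (run c.step (ini z, 0, 0) ξ N) ∂GG κ η ≤ C := by
    refine i2.trans ?_
    rw [one_pow, one_mul, hC]
    exact add_le_add (cm3_ini ok hL hF2 z1 z2) (hN η hη (hη'.trans (min_le_left _ _)) N hNT).1
  obtain ⟨ε, hε⟩ : ∃ ε, ε = Real.exp (-(C1 * m ^ 2)) * (1 + Real.exp (-(C1 * m ^ 2))) ^ J *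
    Real.exp ((κ / 8 - 1) * (L0 - J * Λ)) := ⟨_, rfl⟩
  have ε0 : 0 < ε := by rw [hε]; positivity
  have i4 := (mul_meas_ge_le_integral_of_nonneg (Filter.Eventually.of_forall fun ξ =>
    cm3_nonneg ok _ (run_mem (CP.step_inv ok) hx ξ N)) i1 ε).trans i3
  refine (measure_mono (t := {ξ | ε ≤ c.pot (run c.step (ini z, 0, 0) ξ N)}) ?_).trans ?_
  · rintro ξ ⟨n, hn, h1, h2, h3⟩
    rw [hε]
    exact CP.bad_le ok hB hm rfl rfl (add_le_add le_rfl hσ) z0 (by show L0 ≤ _; linarith) z2 ξ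
      hn h1 h2 h3
  · rw [← ofReal_measureReal (measure_ne_top _ _)]
    refine ENNReal.ofReal_le_ofReal (((le_div_iff₀' ε0).2 i4).trans_eq ?_)
    have e3 : (κ / 8 - 1) * (L0 - J * Λ) = -((1 - κ / 8) * (L0 - J * Λ)) := by ring
    rw [hε, e3, Real.exp_neg ((1 - κ / 8) * _), Real.exp_neg (C1 * m ^ 2)]
    field_simp

end Vale.Agent.P164
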