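import Vale.Agent.P164.Lyap

namespace Vale.Agent.P164

open Set MeasureTheory

section
variable {β : Type*} [DecidableEq β] (κ : ℝ) (G : Finset ℂ) (K : Finset ℕ) (π : ℕ → ℂ → β)
  (thr : ℕ → ℝ) (y2 l2 δ : ℝ)

/-- the point `u` still moves -/
def cellM_act (st : ℂ → St) (u : ℂ) : Prop :=
  y2 ≤ (st u).y ∧ l2 ≤ (st u).l ∧ ∀ k ∈ K, ∑ v ∈ G with π k v = π k u, mart κ (st v) < thr k

open Classical in
/-- one step of the frozen machine -/
noncomputable def cellM_step (st : ℂ → St) (x : ℝ) (u : ℂ) : St :=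
  if cellM_act κ G K π thr y2 l2 st u then eul δ (st u) x else st u

theorem cellM_meas : Measurable (Function.uncurry (cellM_step κ G K π thr y2 l2 δ)) := by
  refine measurable_pi_lambda _ fun u => ?_
  have hu : ∀ v, Measurable fun p : (ℂ → St) × ℝ => p.1 v := fun v =>
    (measurable_pi_apply v).comp measurable_fst
  refine Measurable.ite ?_ (measurable_eul' δ (hu u) measurable_snd) (hu u)
  have e : {p : (ℂ → St) × ℝ | cellM_act κ G K π thr y2 l2 p.1 u} =
      {p | y2 ≤ (p.1 u).y} ∩ ({p | l2 ≤ (p.1 u).l} ∩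
        ⋂ k ∈ K, {p | ∑ v ∈ G with π k v = π k u, mart κ (p.1 v) < thr k}) := by
    ext p
    simp only [cellM_act, mem_setOf_eq, mem_inter_iff, mem_iInter]
  rw [e]
  exact (measurableSet_le measurable_const (measurable_y.comp (hu u))).inter
    ((measurableSet_le measurable_const (measurable_l.comp (hu u))).inter
      (K.measurableSet_biInter fun k _ => measurableSet_lt
        (Finset.measurable_sum _ fun v _ => (measurable_mart κ).comp (hu v)) measurable_const))

theorem cellM_keep (st : ℂ → St) (x : ℝ) {k : ℕ} (hk : k ∈ K) {u : ℂ}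
    (h : thr k ≤ ∑ v ∈ G with π k v = π k u, mart κ (st v)) :
    thr k ≤ ∑ v ∈ G with π k v = π k u, mart κ (cellM_step κ G K π thr y2 l2 δ st x v) := by
  refine h.trans (Finset.sum_congr rfl fun v hv => ?_).le
  rw [cellM_step, if_neg]
  intro ha
  have := ha.2.2 k hk
  rw [(Finset.mem_filter.1 hv).2] at this
  exact not_lt.2 h this

end

theorem cellM_ini {κ : ℝ} (hκ : 0 < κ) (hκ8 : κ < 8) {u : ℂ} (h1 : 1 / 2 ≤ u.im) :
    mart κ (ini u) ≤ 2 := by
  have hc : 0 ≤ 8 / κ - 1 := by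
    rw [sub_nonneg, le_div_iff₀ hκ]; linarith
  refine (fam_le _ hc _).trans ?_
  rw [ini_l, ← Real.le_log_iff_exp_le two_pos]
  have h2 := Real.log_le_log (by norm_num) h1
  rw [one_div, Real.log_inv] at h2
  have h3 : 0 < Real.log 2 := Real.log_pos one_lt_two
  nlinarith

/-- Euler runs of finitely many points, frozen when a cell containing the point is activated -/
theorem cellM {κ : ℝ} (hκ : 0 < κ) (hκ8 : κ < 8) {β : Type*} [DecidableEq β] (G : Finset ℂ)
    (hG : ∀ u ∈ G, 1 / 2 ≤ u.im ∧ u.im ≤ 3) (K : Finset ℕ) (π : ℕ → ℂ → β) (thr : ℕ → ℝ)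
    {y2 : ℝ} (hy : 0 < y2) (l2 T : ℝ) : ∃ η0 : ℝ, 0 < η0 ∧ ∀ η : ℝ, 0 < η → η ≤ η0 →
    ∀ N : ℕ, N * η ^ 2 ≤ T → ∃ V : (ℕ → ℝ) → ℕ → ℂ → ℝ, (∀ ξ n u, 0 ≤ V ξ n u) ∧
      Measurable (fun ξ => ∑ u ∈ G, V ξ N u) ∧
      ∫⁻ ξ, ENNReal.ofReal (∑ u ∈ G, V ξ N u) ∂GG κ η ≤ ENNReal.ofReal (2 * G.card + 1) ∧
      (∀ ξ n n', n ≤ n' → ∀ k ∈ K, ∀ u ∈ G, thr k ≤ ∑ v ∈ G with π k v = π k u, V ξ n v →
        thr k ≤ ∑ v ∈ G with π k v = π k u, V ξ n' v) ∧
      ∀ ξ n, ∀ u ∈ G, (∀ k ∈ K, ∑ v ∈ G with π k v = π k u, V ξ n v < thr k) →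
        y2 ≤ (fre (η ^ 2) u ξ n).y → l2 ≤ (fre (η ^ 2) u ξ n).l →
        V ξ n u = mart κ (fre (η ^ 2) u ξ n) := by
  obtain ⟨C, hC, hS⟩ := (sup_mart hκ hκ8 hy l2).1
  obtain ⟨η0, h0, h1, hE⟩ := err_small (G.card * C) T 1 one_pos
  refine ⟨η0, h0, fun η hη hη0 N hN => ?_⟩
  have hδ : 0 ≤ η ^ 2 := sq_nonneg η
  have hf := cellM_meas κ G K π thr y2 l2 (η ^ 2)
  set f := cellM_step κ G K π thr y2 l2 (η ^ 2) with hfd
  have hΦ : Measurable fun st : ℂ → St => ∑ u ∈ G, mart κ (st u) :=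
    Finset.measurable_sum _ fun v _ => (measurable_mart κ).comp (measurable_pi_apply v)
  have hmono : ∀ (ξ : ℕ → ℝ) n n', n ≤ n' → ∀ k ∈ K, ∀ u ∈ G,
      thr k ≤ ∑ v ∈ G with π k v = π k u, mart κ (run f ini ξ n v) →
      thr k ≤ ∑ v ∈ G with π k v = π k u, mart κ (run f ini ξ n' v) := by
    intro ξ n n' hn k hk u _ h
    induction n', hn using Nat.le_induction with
    | base => exact h
    | succ j _ ih => exact cellM_keep κ G K π thr y2 l2 _ _ _ hk ih
  refine ⟨fun ξ n u => mart κ (run f ini ξ n u), fun ξ n u => (mart_pos _ _).le,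
    hΦ.comp (measurable_run hf ini N), ?_, hmono, ?_⟩
  · have one : ∀ st : ℂ → St, ∀ u, (st u).l ≤ 2 → Integrable (fun x => mart κ (f st x u)) (gs κ η) ∧
        ∫ x, mart κ (f st x u) ∂gs κ η ≤ mart κ (st u) + C * η ^ 3 := by
      intro st u hu
      by_cases ha : cellM_act κ G K π thr y2 l2 st u
      · simp only [hfd, cellM_step, if_pos ha]
        exact hS (st u) ⟨ha.1, ha.2.1, hu⟩ η ⟨hη, hη0.trans h1⟩
      · simp only [hfd, cellM_step, if_neg ha]
        refine ⟨integrable_const _, ?_⟩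
        rw [integral_const, probReal_univ, one_smul]
        exact le_add_of_nonneg_right (by positivity)
    obtain ⟨m1, m2⟩ := machine (κ := κ) (η := η) hf (I := {st | ∀ u ∈ G, (st u).l ≤ 2})
      (fun st hst x u hu => by
        simp only [hfd, cellM_step]
        split_ifs
        · exact (eul_l_le hδ _ _).trans (hst u hu)
        · exact hst u hu) hΦ (fun st _ => Finset.sum_nonneg fun u _ => (mart_pos _ _).le)
      (a := 1) (b := G.card * C * η ^ 3) le_rfl (by positivity)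
      (fun st hst => ⟨integrable_finset_sum _ fun u hu => (one st u (hst u hu)).1, by
        rw [integral_finset_sum _ fun u hu => (one st u (hst u hu)).1]
        refine (Finset.sum_le_sum fun u hu => (one st u (hst u hu)).2).trans (le_of_eq ?_)
        rw [Finset.sum_add_distrib, Finset.sum_const, nsmul_eq_mul]
        ring⟩) (x0 := ini) (fun u hu => by
        have := Real.log_le_sub_one_of_pos (show 0 < u.im by linarith [(hG u hu).1])
        rw [ini_l]
        linarith [(hG u hu).2]) N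
    rw [← ofReal_integral_eq_lintegral_ofReal m1 (Filter.Eventually.of_forall fun ξ =>
      Finset.sum_nonneg fun u _ => (mart_pos _ _).le)]
    refine ENNReal.ofReal_le_ofReal (m2.trans ?_)
    have e1 := (hE η hη hη0 N hN).1
    have e2 : ∑ u ∈ G, mart κ (ini u) ≤ G.card • (2 : ℝ) :=
      Finset.sum_le_card_nsmul _ _ _ fun u hu => cellM_ini hκ hκ8 (hG u hu).1
    rw [nsmul_eq_mul] at e2
    rw [one_pow, one_mul]
    linarith
  · intro ξ n u hu h hy' hl'
    have u0 : 0 < u.im := by linarith [(hG u hu).1]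
    suffices H : run f ini ξ n u = fre (η ^ 2) u ξ n by simp only [H]
    induction n with
    | zero => rfl
    | succ n ih =>
      have a1 : ∀ k ∈ K, ∑ v ∈ G with π k v = π k u, mart κ (run f ini ξ n v) < thr k :=
        fun k hk => not_le.1 fun h' => not_le.2 (h k hk) (hmono ξ n (n + 1) n.le_succ k hk u hu h')
      have a2 : y2 ≤ (fre (η ^ 2) u ξ n).y := hy'.trans (fre_y_anti hδ u0 ξ n.le_succ)
      have a3 : l2 ≤ (fre (η ^ 2) u ξ n).l := hl'.trans (fre_l_anti hδ u ξ n.le_succ)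
      have e := ih a1 a2 a3
      rw [run_succ, fre_succ, hfd, cellM_step, if_pos ⟨e ▸ a2, e ▸ a3, a1⟩, ← hfd, e]

end Vale.Agent.P164
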