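import Vale.Agent.P164.Defs

namespace Vale.Agent.P164

open Set Filter MeasureTheory
open scoped ENNReal Topology

/-- the approximating content at scale `δ` -/
noncomputable def hmd (h : ℝ → ℝ) (δ : ℝ) (E : Set ℂ) : ℝ≥0∞ :=
  ⨅ (U : ℕ → Set ℂ) (_ : E ⊆ ⋃ j, U j) (_ : ∀ j, Metric.ediam (U j) ≤ ENNReal.ofReal δ),
    ∑' j, ENNReal.ofReal (h (Metric.diam (U j)))

variable {h : ℝ → ℝ} {E F : Set ℂ}

theorem haus_nonneg (hg : IsGauge h) {r : ℝ} (hr : 0 ≤ r) : 0 ≤ h r :=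
  hg.2.2.1.ge.trans (hg.2.1 self_mem_Ici hr hr)

theorem hm_eq (h0 : h 0 = 0) :
    hm h E = Measure.mkMetric (fun x => ENNReal.ofReal (h x.toReal)) E := by
  have e : ∀ U : Set ℂ, ⨆ _ : U.Nonempty, ENNReal.ofReal (h (Metric.ediam U).toReal) =
      ENNReal.ofReal (h (Metric.diam U)) := fun U => by
    rcases U.eq_empty_or_nonempty with rfl | hU
    · simp [h0]
    · rw [iSup_pos hU]
      rfl
  rw [Measure.mkMetric_apply]
  simp only [e]
  refine le_antisymm (iSup₂_le fun δ hδ => le_iSup₂_of_le _ (ENNReal.ofReal_pos.2 hδ) le_rfl)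
    (iSup₂_le fun r hr => ?_)
  have h1 : min r 1 ≠ ⊤ := ne_top_of_le_ne_top ENNReal.one_ne_top (min_le_right _ _)
  refine le_iSup₂_of_le (min r 1).toReal (ENNReal.toReal_pos (lt_min hr one_pos).ne' h1) ?_
  rw [ENNReal.ofReal_toReal h1]
  exact le_iInf fun U => le_iInf fun h2 => le_iInf fun h3 => iInf_le_of_le U (iInf_le_of_le h2
    (iInf_le_of_le (fun j => (h3 j).trans (min_le_left _ _)) le_rfl))

theorem hm_mono (hEF : E ⊆ F) : hm h E ≤ hm h F := by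
  exact iSup₂_mono fun δ _ => le_iInf fun U => le_iInf fun h1 => le_iInf fun h2 =>
    iInf_le_of_le U (iInf_le_of_le (hEF.trans h1) (iInf_le_of_le h2 le_rfl))

theorem hm_iUnion_le (h0 : h 0 = 0) {ι : Type*} [Countable ι] (E : ι → Set ℂ) :
    hm h (⋃ i, E i) ≤ ∑' i, hm h (E i) := by
  simp only [hm_eq h0]
  exact measure_iUnion_le _

theorem hmd_anti {δ δ' : ℝ} (hδ : δ' ≤ δ) : hmd h δ E ≤ hmd h δ' E :=
  le_iInf fun U => le_iInf fun h1 => le_iInf fun h2 => iInf_le_of_le U (iInf_le_of_le h1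
    (iInf_le_of_le (fun j => (h2 j).trans (ENNReal.ofReal_le_ofReal hδ)) le_rfl))

theorem hm_le_liminf {δ : ℕ → ℝ} (hδ : Tendsto δ atTop (𝓝 0)) :
    hm h E ≤ liminf (fun k => hmd h (δ k) E) atTop := by
  refine iSup₂_le fun δ₀ h0 => le_liminf_of_le (by isBoundedDefault) ?_
  filter_upwards [hδ.eventually_le_const h0] with k hk
  exact hmd_anti hk

theorem hmd_le_sum (hg : IsGauge h) {ι : Type*} (s : Finset ι) (U : ι → Set ℂ) (r : ι → ℝ) {δ : ℝ}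
    (hc : E ⊆ ⋃ i ∈ s, U i)
    (hr : ∀ i ∈ s, 0 ≤ r i ∧ r i ≤ δ ∧ ∀ a ∈ U i, ∀ b ∈ U i, ‖a - b‖ ≤ r i) :
    hmd h δ E ≤ ENNReal.ofReal (∑ i ∈ s, h (r i)) := by
  let _ := Encodable.ofCountable s
  have dm : ∀ i ∈ s, Metric.ediam (U i) ≤ ENNReal.ofReal (r i) := fun i hi =>
    Metric.ediam_le fun a ha b hb => by
      rw [edist_dist, dist_eq_norm]
      exact ENNReal.ofReal_le_ofReal ((hr i hi).2.2 a ha b hb)
  refine iInf_le_of_le (fun n => ⋃ b ∈ Encodable.decode₂ s n, U b) (iInf_le_of_le ?_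
    (iInf_le_of_le (fun n => ?_) ?_))
  · rw [Encodable.iUnion_decode₂]
    intro x hx
    obtain ⟨i, hi, h'⟩ := mem_iUnion₂.1 (hc hx)
    exact mem_iUnion.2 ⟨⟨i, hi⟩, h'⟩
  · exact Encodable.iUnion_decode₂_cases (f := fun b : s => U b) (C := fun V => Metric.ediam V ≤ ENNReal.ofReal δ)
      (by simp) fun b => (dm b b.2).trans (ENNReal.ofReal_le_ofReal (hr b b.2).2.1)
  · rw [tsum_iUnion_decode₂ (fun V : Set ℂ => ENNReal.ofReal (h (Metric.diam V)))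
      (by simp [hg.2.2.1]), Finset.tsum_subtype s fun i => ENNReal.ofReal (h (Metric.diam (U i))),
      ENNReal.ofReal_sum_of_nonneg fun i hi => haus_nonneg hg (hr i hi).1]
    exact Finset.sum_le_sum fun i hi => ENNReal.ofReal_le_ofReal (hg.2.1 Metric.diam_nonneg
      (hr i hi).1 (ENNReal.toReal_le_of_le_ofReal (hr i hi).1 (dm i hi)))

theorem hm_image_le (hg : IsGauge h) {f : ℂ → ℂ} {L c : ℝ} (hL : 0 < L) (hc : 0 < c)
    (hf : ∀ a ∈ E, ∀ b ∈ E, ‖f a - f b‖ ≤ L * ‖a - b‖)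
    (hh : ∀ᶠ r in 𝓝[>] (0 : ℝ), h (L * r) ≤ c * h r) :
    hm h (f '' E) ≤ ENNReal.ofReal c * hm h E := by
  obtain ⟨ε, hε, h1⟩ := (nhdsGT_basis_Ioc (0 : ℝ)).eventually_iff.1 hh
  refine iSup₂_le fun δ hδ => ?_
  have d0 : 0 < min ε (δ / L) := by positivity
  refine le_trans ?_ (mul_le_mul_right (le_iSup₂_of_le (min ε (δ / L)) d0 le_rfl) _)
  rw [← ENNReal.div_le_iff' (ENNReal.ofReal_pos.2 hc).ne' ENNReal.ofReal_ne_top]
  refine le_iInf fun U => le_iInf fun h2 => le_iInf fun h3 => ENNReal.div_le_of_le_mul' ?_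
  have d1 : ∀ j, Metric.diam (U j) ≤ min ε (δ / L) := fun j =>
    ENNReal.toReal_le_of_le_ofReal d0.le (h3 j)
  have d2 : ∀ j, Metric.ediam (f '' (U j ∩ E)) ≤ ENNReal.ofReal (L * Metric.diam (U j)) := fun j =>
    Metric.ediam_le (by
      rintro _ ⟨a, ha, rfl⟩ _ ⟨b, hb, rfl⟩
      rw [edist_dist, dist_eq_norm]
      refine ENNReal.ofReal_le_ofReal ((hf a ha.2 b hb.2).trans
        (mul_le_mul_of_nonneg_left ?_ hL.le))
      rw [← dist_eq_norm]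
      exact Metric.dist_le_diam_of_mem' (ne_top_of_le_ne_top ENNReal.ofReal_ne_top (h3 j))
        ha.1 hb.1)
  refine iInf_le_of_le (fun j => f '' (U j ∩ E)) (iInf_le_of_le ?_ (iInf_le_of_le
    (fun j => (d2 j).trans (ENNReal.ofReal_le_ofReal ?_)) ?_))
  · rintro _ ⟨a, ha, rfl⟩
    obtain ⟨j, hj⟩ := mem_iUnion.1 (h2 ha)
    exact mem_iUnion.2 ⟨j, a, ⟨hj, ha⟩, rfl⟩
  · exact (le_div_iff₀' hL).1 ((d1 j).trans (min_le_right _ _))
  · rw [← ENNReal.tsum_mul_left]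
    refine ENNReal.tsum_le_tsum fun j => ?_
    have n0 : 0 ≤ L * Metric.diam (U j) := mul_nonneg hL.le Metric.diam_nonneg
    rw [← ENNReal.ofReal_mul hc.le]
    refine ENNReal.ofReal_le_ofReal ((hg.2.1 Metric.diam_nonneg n0
      (ENNReal.toReal_le_of_le_ofReal n0 (d2 j))).trans ?_)
    rcases (Metric.diam_nonneg (s := U j)).eq_or_lt with h4 | h4
    · rw [← h4, mul_zero, hg.2.2.1, mul_zero]
    · exact h1 ⟨h4, (d1 j).trans (min_le_left _ _)⟩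

theorem hm_real (hg : IsGauge h) (ho : Tendsto (fun r => h r / r) (𝓝[>] 0) (𝓝 0)) :
    hm h {z : ℂ | z.im = 0} = 0 := by
  have cov : {z : ℂ | z.im = 0} ⊆ ⋃ n : ℤ, {z : ℂ | z.im = 0 ∧ ⌊z.re⌋ = n} := fun z hz =>
    mem_iUnion.2 ⟨_, hz, rfl⟩
  refine nonpos_iff_eq_zero.1 ((hm_mono cov).trans ((hm_iUnion_le hg.2.2.1 _).trans
    (le_of_eq (ENNReal.tsum_eq_zero.2 fun n => nonpos_iff_eq_zero.1 ?_))))
  have t0 : Tendsto (fun k : ℕ => 1 / ((k : ℝ) + 1)) atTop (𝓝 0) :=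
    tendsto_one_div_add_atTop_nhds_zero_nat
  have t1 : Tendsto (fun k : ℕ => ENNReal.ofReal (h (1 / ((k : ℝ) + 1)) / (1 / ((k : ℝ) + 1))))
      atTop (𝓝 0) := by
    rw [← ENNReal.ofReal_zero]
    exact ENNReal.tendsto_ofReal (ho.comp (tendsto_nhdsWithin_iff.2
      ⟨t0, Eventually.of_forall fun k => mem_Ioi.2 Nat.one_div_pos_of_nat⟩))
  refine (hm_le_liminf t0).trans (le_trans (liminf_le_liminf (Eventually.of_forall fun k => ?_))
    t1.liminf_eq.le)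
  have k0 : (0 : ℝ) < k + 1 := by positivity
  refine (hmd_le_sum hg (Finset.Ico (n * (k + 1)) ((n + 1) * (k + 1)))
    (fun i => {z : ℂ | z.im = 0 ∧ ⌊z.re * (k + 1)⌋ = i}) (fun _ => 1 / ((k : ℝ) + 1)) ?_
    fun i _ => ⟨by positivity, le_rfl, fun a ha b hb => ?_⟩).trans (le_of_eq ?_)
  · rintro z ⟨h1, rfl⟩
    refine mem_iUnion₂.2 ⟨_, Finset.mem_Ico.2 ⟨Int.le_floor.2 ?_, Int.floor_lt.2 ?_⟩, h1, rfl⟩
    · push_cast
      exact mul_le_mul_of_nonneg_right (Int.floor_le _) k0.le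
    · push_cast
      exact mul_lt_mul_of_pos_right (Int.lt_floor_add_one _) k0
  · have h1 := Int.abs_sub_lt_one_of_floor_eq_floor (ha.2.trans hb.2.symm)
    have h2 : a - b = ((a.re - b.re : ℝ) : ℂ) := Complex.ext (by simp) (by simp [ha.1, hb.1])
    rw [← sub_mul, abs_mul, abs_of_pos k0] at h1
    rw [h2, Complex.norm_real, Real.norm_eq_abs, le_div_iff₀ k0]
    exact h1.le
  · rw [Finset.sum_const, Int.card_Ico, show (n + 1) * ((k : ℤ) + 1) - n * (k + 1) = (k + 1 : ℕ) by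
      push_cast; ring, Int.toNat_natCast, nsmul_eq_mul]
    congr 1
    push_cast
    field_simp

open Classical in
/-- mass distribution principle for approximating discrete measures -/
theorem mass (hg : IsGauge h) {c1 : ℝ} (hd : ∀ᶠ r in 𝓝[>] (0 : ℝ), h (2 * r) ≤ c1 * h r)
    {K : Set ℂ} (hK : IsCompact K) {r0 C c : ℝ} (hr0 : 0 < r0) (hc : 0 < c)
    (hw : ∀ ρ : ℝ, 0 < ρ → ∃ (G : Finset ℂ) (w : ℂ → ℝ), (∀ u ∈ G, 0 ≤ w u) ∧
      c ≤ ∑ u ∈ G, w u ∧ (∀ u ∈ G, ∃ k ∈ K, ‖u - k‖ ≤ ρ) ∧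
      ∀ (x : ℂ) (r : ℝ), ρ ≤ r → r ≤ r0 → ∑ u ∈ G with ‖u - x‖ ≤ r, w u ≤ C * h r) :
    0 < hm h K := by
  obtain ⟨ε, hε, h1⟩ := (nhdsGT_basis_Ioc (0 : ℝ)).eventually_iff.1 hd
  obtain ⟨δ, δ0, δ1, δ2⟩ : ∃ δ : ℝ, 0 < δ ∧ 2 * δ ≤ ε ∧ 4 * δ ≤ r0 :=
    ⟨min (ε / 2) (r0 / 4), by positivity, by linarith [min_le_left (ε / 2) (r0 / 4)],
      by linarith [min_le_right (ε / 2) (r0 / 4)]⟩
  obtain ⟨M, hM⟩ : ∃ M, M = max C 1 * max c1 1 := ⟨_, rfl⟩
  have M0 : 0 < M := by rw [hM]; positivity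
  refine lt_of_lt_of_le (ENNReal.ofReal_pos.2 (show 0 < c / (2 * M) by positivity))
    (le_iSup₂_of_le δ δ0 (le_iInf fun U => le_iInf fun h2 => le_iInf fun h3 => ?_))
  have d1 : ∀ j, Metric.diam (U j) ≤ δ := fun j => ENNReal.toReal_le_of_le_ofReal δ0.le (h3 j)
  have ex : ∀ j : ℕ, ∃ r : ℝ, Metric.diam (U j) < r ∧ r ≤ 2 * δ ∧
      h r ≤ h (Metric.diam (U j)) + c / (2 * M) / 2 / 2 ^ j := fun j => by
    have a1 : ∀ᶠ r in 𝓝[>] Metric.diam (U j),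
        h r ≤ h (Metric.diam (U j)) + c / (2 * M) / 2 / 2 ^ j :=
      ((hg.1 _ Metric.diam_nonneg).mono fun x hx =>
        le_trans Metric.diam_nonneg (le_of_lt hx)).eventually_le_const
        (lt_add_of_pos_right _ (by positivity))
    obtain ⟨r, a2, a3⟩ := (a1.and (Ioc_mem_nhdsGT (show Metric.diam (U j) < 2 * δ by
      linarith [d1 j]))).exists
    exact ⟨r, a3.1, a3.2, a2⟩
  choose r r1 r2 r3 using ex
  have rp : ∀ j, 0 < r j := fun j => Metric.diam_nonneg.trans_lt (r1 j)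
  have ex2 : ∀ j, ∃ x : ℂ, U j ⊆ Metric.ball x (r j) := fun j => by
    rcases (U j).eq_empty_or_nonempty with h4 | ⟨x, hx⟩
    · exact ⟨0, by simp [h4]⟩
    · exact ⟨x, fun y hy => (Metric.dist_le_diam_of_mem'
        (ne_top_of_le_ne_top ENNReal.ofReal_ne_top (h3 j)) hy hx).trans_lt (r1 j)⟩
  choose x hx using ex2
  obtain ⟨t, ht⟩ := hK.elim_finite_subcover _ (fun j => Metric.isOpen_ball)
    (h2.trans (iUnion_mono hx))
  obtain ⟨ρ, ρ1, ρ0⟩ := (((eventually_all_finset t).2 fun j _ =>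
    nhdsWithin_le_nhds (Iic_mem_nhds (rp j))).and (self_mem_nhdsWithin (s := Ioi (0 : ℝ)))).exists
  obtain ⟨G, w, w0, w1, w2, w3⟩ := hw ρ ρ0
  have s1 : ∑ u ∈ G, w u ≤ ∑ j ∈ t, ∑ u ∈ G with ‖u - x j‖ ≤ 2 * r j, w u := by
    simp only [Finset.sum_filter]
    rw [Finset.sum_comm]
    refine Finset.sum_le_sum fun u hu => ?_
    obtain ⟨k, hk, a1⟩ := w2 u hu
    obtain ⟨j, hj, a2⟩ := mem_iUnion₂.1 (ht hk)
    refine le_trans (le_of_eq (if_pos ?_).symm) (Finset.single_le_sum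
      (f := fun j => if ‖u - x j‖ ≤ 2 * r j then w u else 0) (fun i _ => ?_) hj)
    · have a3 : ρ ≤ r j := ρ1 j hj
      linarith [norm_sub_le_norm_sub_add_norm_sub u k (x j), mem_ball_iff_norm.1 a2]
    · split_ifs
      · exact w0 u hu
      · exact le_rfl
  have s2 : ∀ j ∈ t, ∑ u ∈ G with ‖u - x j‖ ≤ 2 * r j, w u ≤
      M * (h (Metric.diam (U j)) + c / (2 * M) / 2 / 2 ^ j) := fun j hj => by
    have a3 : ρ ≤ r j := ρ1 j hj
    have a4 := haus_nonneg hg (rp j).le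
    refine (w3 _ _ (by linarith [rp j]) (by linarith [r2 j])).trans (le_trans ?_
      (mul_le_mul_of_nonneg_left (r3 j) M0.le))
    rw [hM, mul_assoc]
    exact (mul_le_mul_of_nonneg_right (le_max_left C 1) (haus_nonneg hg (by linarith [rp j]))).trans
      (mul_le_mul_of_nonneg_left ((h1 ⟨rp j, (r2 j).trans δ1⟩).trans
        (mul_le_mul_of_nonneg_right (le_max_left _ _) a4)) (by positivity))
  have s3 := (hasSum_geometric_two' (c / (2 * M))).summable.sum_le_tsum t fun _ _ => by positivity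
  rw [(hasSum_geometric_two' _).tsum_eq] at s3
  have s4 := w1.trans (s1.trans (Finset.sum_le_sum s2))
  rw [← Finset.mul_sum, Finset.sum_add_distrib] at s4
  refine le_trans ?_ (ENNReal.sum_le_tsum t)
  rw [← ENNReal.ofReal_sum_of_nonneg fun j _ => haus_nonneg hg Metric.diam_nonneg]
  refine ENNReal.ofReal_le_ofReal ((div_le_iff₀ (by positivity)).2 ?_)
  have s5 : M * (c / (2 * M)) = c / 2 := by field_simp
  nlinarith [mul_le_mul_of_nonneg_left s3 M0.le]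

end Vale.Agent.P164
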