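import Vale.Agent.P164.Grid
import Vale.Agent.P164.Haus

namespace Vale.Agent.P164

open Set

/-- side of the cells of generation `k` -/
noncomputable def side (q k : ℕ) : ℝ := ((3 * q + 1 : ℝ) ^ k)⁻¹

theorem cover_one (q : ℕ) : (1 : ℝ) ≤ 3 * q + 1 := by
  have h : (0 : ℝ) ≤ q := Nat.cast_nonneg q
  linarith

theorem cover_pos (q k : ℕ) : 0 < side q k := by
  unfold side
  positivity

theorem cover_succ (q k : ℕ) : side q (k + 1) = side q k / (3 * q + 1) := by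
  rw [side, side, pow_succ, mul_inv, div_eq_mul_inv]

theorem cover_anti (q : ℕ) {k k' : ℕ} (h : k ≤ k') : side q k' ≤ side q k :=
  inv_anti₀ (by positivity) (pow_le_pow_right₀ (cover_one q) h)

theorem cover_step (q i k : ℕ) (u v : ℂ)
    (h : cidx (side q (k + 1)) i u = cidx (side q (k + 1)) i v) :
    cidx (side q k) i u = cidx (side q k) i v := by
  rw [cover_succ] at h
  exact cidx_nest (cover_pos q k) q i h

theorem cover_nest {q i k k' : ℕ} (hk : k ≤ k') {u v : ℂ}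
    (h : cidx (side q k') i u = cidx (side q k') i v) :
    cidx (side q k) i u = cidx (side q k) i v := by
  induction hk with
  | refl => exact h
  | step _ ih => exact ih (cover_step q i _ u v h)

theorem cover_pow (q k : ℕ) (d : ℝ) : side q k ^ d = side q k ^ (d - 2) * side q k ^ 2 := by
  rw [← Real.rpow_two, ← Real.rpow_add (cover_pos q k), sub_add_cancel]

theorem cover_fr {q k k2 : ℕ} {d s lam : ℝ} (hd : d ≤ 2) (hs : 0 < s) (hs2 : s ≤ side q k2)
    (hlam : 0 < lam) (i : ℕ) {G : Finset ℂ} (hG : ∀ u ∈ G, IsLat s u) {V : ℂ → ℝ}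
    (hV : ∀ u, 0 ≤ V u) {F : Finset ℂ} (hF : F ⊆ G)
    (hFr : ∀ u ∈ F, ∃ k' ∈ Finset.Ioo k k2, lam * side q k' ^ d / s ^ 2 ≤
      ∑ v ∈ G with cidx (side q k') i v = cidx (side q k') i u, V v) :
    lam * side q (k + 1) ^ (d - 2) / 4 * F.card ≤ ∑ u ∈ G, V u := by
  classical
  obtain ⟨Mx, m1, m2, m3⟩ := charge G (fun k => cidx (side q k) i) (cover_step q i)
    (Finset.Ioo k k2) (fun k => lam * side q k ^ d / s ^ 2) V fun u _ => hV u
  have h1 : F.card ≤ ∑ e ∈ Mx, (G.filter fun u => cidx (side q e.1) i u = e.2).card := by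
    refine le_trans (Finset.card_le_card fun u hu => ?_) Finset.card_biUnion_le
    obtain ⟨k', hk', h⟩ := hFr u hu
    obtain ⟨e, he, -, h2⟩ := m2 k' hk' u (hF hu) h
    exact Finset.mem_biUnion.mpr ⟨e, he, Finset.mem_filter.mpr ⟨hF hu, h2⟩⟩
  have h2 : (F.card : ℝ) ≤
      ∑ e ∈ Mx, ((G.filter fun u => cidx (side q e.1) i u = e.2).card : ℝ) := by
    exact_mod_cast h1
  have h0 : 0 < side q (k + 1) ^ (d - 2) := Real.rpow_pos_of_pos (cover_pos _ _) _
  refine le_trans (mul_le_mul_of_nonneg_left h2 (by positivity)) (le_trans ?_ m3)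
  rw [Finset.mul_sum]
  refine Finset.sum_le_sum fun e he => ?_
  obtain ⟨e1, e2⟩ := Finset.mem_Ioo.mp (m1 e he)
  have p := cover_pos q e.1
  have h3 := card_le_box hs p.le (G.filter fun u => cidx (side q e.1) i u = e.2)
    (fun z hz => hG z (Finset.mem_filter.mp hz).1) fun z hz w hw =>
      cidx_close p ((Finset.mem_filter.mp hz).2.trans (Finset.mem_filter.mp hw).2.symm)
  have h4 : (side q e.1 + s) ^ 2 ≤ (2 * side q e.1) ^ 2 :=
    pow_le_pow_left₀ (by positivity) (by linarith [cover_anti q e2.le]) 2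
  have h5 : side q (k + 1) ^ (d - 2) ≤ side q e.1 ^ (d - 2) :=
    Real.rpow_le_rpow_of_nonpos p (cover_anti q e1) (by linarith)
  have h6 := mul_le_mul_of_nonneg_left
    (mul_le_mul h5 (h3.trans h4) (by positivity) (h0.le.trans h5)) hlam.le
  rw [le_div_iff₀ (by positivity), cover_pow q e.1 d]
  linarith

theorem cover_real {a b A m n S lam mu c0 : ℝ} (p1 : 0 < a) (hlam : 0 < lam) (hc0 : 0 < c0)
    (hm : 0 ≤ m) (hn : 0 ≤ n) (hS : 0 ≤ S) (hmu : 2 * lam ≤ c0 * mu) (hA : 8 ≤ c0 * A)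
    (h5 : c0 * b ≤ (m + n) * S) (h6 : lam * (a * A) / 4 * m * S < lam * (a * b))
    (h7 : n * (mu * a) * S < lam * (a * b)) : False := by
  have g1 : A * (m * S) < 4 * b :=
    lt_of_mul_lt_mul_left (a := lam * a) (by linarith) (by positivity)
  have g2 : mu * (n * S) < lam * b := lt_of_mul_lt_mul_left (a := a) (by linarith) p1.le
  have g3 := mul_le_mul_of_nonneg_right hA (mul_nonneg hm hS)
  have g4 := mul_le_mul_of_nonneg_right hmu (mul_nonneg hn hS)
  have g5 := mul_lt_mul_of_pos_left g1 hc0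
  have g6 := mul_lt_mul_of_pos_left g2 hc0
  have g7 : 2 * (n * S) < c0 * b := lt_of_mul_lt_mul_left (a := lam) (by linarith) hlam.le
  linarith

theorem cover_act {q k k1 k2 : ℕ} {d s lam mu c0 : ℝ} (hd : d ≤ 2) (hs : 0 < s)
    (hs2 : s ≤ side q k2) (hlam : 0 < lam) (hc0 : 0 < c0) (hmu : 2 * lam ≤ c0 * mu)
    (hA : 8 ≤ c0 * (3 * q + 1 : ℝ) ^ (2 - d)) (hk : k ∈ Finset.Ico k1 k2) (i : ℕ)
    {G : Finset ℂ} (hG : ∀ u ∈ G, IsLat s u) {V : ℂ → ℝ} (hV : ∀ u, 0 ≤ V u) {R : Finset ℂ}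
    (hR : R ⊆ G) (hn : c0 * side q k ^ 2 ≤ R.card * s ^ 2) {o : ℂ}
    (ho : ∀ u ∈ R, cidx (side q k) i u = cidx (side q k) i o)
    (hc : ∀ u ∈ R, (∀ k' ∈ Finset.Ico k1 k2,
      ∑ v ∈ G with cidx (side q k') i v = cidx (side q k') i u, V v <
        lam * side q k' ^ d / s ^ 2) → mu * side q k ^ (d - 2) ≤ V u) :
    ∃ k' ∈ Finset.Ico k1 k2, k' ≤ k ∧ lam * side q k' ^ d / s ^ 2 ≤
      ∑ v ∈ G with cidx (side q k') i v = cidx (side q k') i o, V v := by
  classical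
  by_contra hcon
  push Not at hcon
  have h1 := hcon k hk le_rfl
  have hR' : R ⊆ G.filter fun v => cidx (side q k) i v = cidx (side q k) i o :=
    fun u hu => Finset.mem_filter.mpr ⟨hR hu, ho u hu⟩
  have h2 := Finset.card_filter_add_card_filter_not (s := R) fun u => ∃ k' ∈ Finset.Ioo k k2,
    lam * side q k' ^ d / s ^ 2 ≤ ∑ v ∈ G with cidx (side q k') i v = cidx (side q k') i u, V v
  have h3 := cover_fr (k := k) hd hs hs2 hlam i (fun u hu => hG u (Finset.mem_filter.mp hu).1) hV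
    ((Finset.filter_subset (fun u => ∃ k' ∈ Finset.Ioo k k2, lam * side q k' ^ d / s ^ 2 ≤
      ∑ v ∈ G with cidx (side q k') i v = cidx (side q k') i u, V v) R).trans hR') fun u hu => by
    obtain ⟨hu, k', hk', h⟩ := Finset.mem_filter.mp hu
    refine ⟨k', hk', h.trans (Finset.sum_le_sum_of_subset_of_nonneg (fun v hv => ?_)
      fun v _ _ => hV v)⟩
    rw [Finset.mem_filter] at hv ⊢
    exact ⟨Finset.mem_filter.mpr ⟨hv.1,
      (cover_nest (Finset.mem_Ioo.mp hk').1.le hv.2).trans (ho u hu)⟩, hv.2⟩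
  have h4 := Finset.card_nsmul_le_sum (R.filter fun u => ¬ ∃ k' ∈ Finset.Ioo k k2,
    lam * side q k' ^ d / s ^ 2 ≤ ∑ v ∈ G with cidx (side q k') i v = cidx (side q k') i u, V v)
      V (mu * side q k ^ (d - 2)) fun u hu => by
    obtain ⟨hu, h⟩ := Finset.mem_filter.mp hu
    refine hc u hu fun k' hk' => ?_
    rcases le_or_gt k' k with h5 | h5
    · rw [cover_nest h5 (ho u hu)]
      exact hcon k' hk' h5
    · exact not_le.mp fun h6 => h ⟨k', Finset.mem_Ioo.mpr ⟨h5, (Finset.mem_Ico.mp hk').2⟩, h6⟩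
  have h5 := h4.trans (Finset.sum_le_sum_of_subset_of_nonneg
    ((Finset.filter_subset _ R).trans hR') fun v _ _ => hV v)
  have e : side q (k + 1) ^ (d - 2) = side q k ^ (d - 2) * (3 * q + 1 : ℝ) ^ (2 - d) := by
    rw [cover_succ, Real.div_rpow (cover_pos q k).le (by positivity), div_eq_mul_inv,
      ← Real.rpow_neg (by positivity), neg_sub]
  have h6 := h3.trans_lt h1
  have h7 := h5.trans_lt h1
  rw [nsmul_eq_mul] at h7
  rw [e] at h6
  rw [lt_div_iff₀ (by positivity), cover_pow q k d] at h6 h7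
  rw [← h2, Nat.cast_add] at hn
  exact cover_real (Real.rpow_pos_of_pos (cover_pos _ _) _) hlam hc0 (Nat.cast_nonneg _)
    (Nat.cast_nonneg _) (sq_nonneg s) hmu hA hn h6 h7

/-- Covering by maximal activated cells of three shifted nested grids and by bad discs.
`V i n u` is the frozen mass of `u` at step `n` in system `i`, `f n u` the free mass. -/
theorem cover {h : ℝ → ℝ} (hg : IsGauge h) {d s lam mu c0 Kc ε : ℝ} (hd : d ≤ 2) {q k1 k2 N : ℕ}
    (hs : 0 < s) (hs2 : s ≤ side q k2) (hε : 0 ≤ ε) (hε2 : ε ≤ side q k2 / 8) (hk : k1 ≤ k2)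
    (hlam : 0 < lam) (hc0 : 0 < c0) (hmu : 2 * lam ≤ c0 * mu) (hKc : 0 ≤ Kc)
    (hA : 8 ≤ c0 * (3 * q + 1 : ℝ) ^ (2 - d))
    (hh : ∀ k ∈ Finset.Ico k1 k2, h (2 * side q k) ≤ Kc * (lam * side q k ^ d))
    (G : Finset ℂ) (hG : ∀ u ∈ G, IsLat s u) (V : ℕ → ℕ → ℂ → ℝ) (f : ℕ → ℂ → ℝ)
    (Tech : ℕ → ℂ → Prop) (hV : ∀ i n u, 0 ≤ V i n u)
    (hb : ∀ i < 3, ∀ n ≤ N, ∀ k ∈ Finset.Ico k1 k2, ∀ u ∈ G,
      lam * side q k ^ d / s ^ 2 ≤
        ∑ v ∈ G with cidx (side q k) i v = cidx (side q k) i u, V i n v →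
      lam * side q k ^ d / s ^ 2 ≤
        ∑ v ∈ G with cidx (side q k) i v = cidx (side q k) i u, V i N v)
    (hc : ∀ i < 3, ∀ n ≤ N, ∀ u ∈ G, (∀ k ∈ Finset.Ico k1 k2,
      ∑ v ∈ G with cidx (side q k) i v = cidx (side q k) i u, V i n v <
        lam * side q k ^ d / s ^ 2) → Tech n u → V i n u = f n u)
    (Bad : Finset ℂ) {Γ : Set ℂ}
    (hΓ : ∀ x ∈ Γ, ∃ z : ℂ, ‖x - z‖ ≤ ε ∧ (z ∈ Bad ∨ ∃ k ∈ Finset.Ico k1 k2, ∃ n ≤ N,
      ∃ R : Finset ℂ, R ⊆ G ∧ c0 * side q k ^ 2 ≤ R.card * s ^ 2 ∧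
        ∀ u ∈ R, ‖u - z‖ ≤ side q k / 8 ∧ Tech n u ∧ mu * side q k ^ (d - 2) ≤ f n u)) :
    hmd h (2 * side q k1) Γ ≤ ENNReal.ofReal
      (∑ i ∈ Finset.range 3, Kc * s ^ 2 * ∑ u ∈ G, V i N u + Bad.card * h (2 * ε)) := by
  classical
  choose Mx m1 m2 m3 using fun i : ℕ => charge G (fun k => cidx (side q k) i) (cover_step q i)
    (Finset.Ico k1 k2) (fun k => lam * side q k ^ d / s ^ 2) (V i N) fun u _ => hV i N u
  refine (hmd_le_sum hg (((Finset.range 3).sigma Mx).disjSum Bad)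
    (Sum.elim (fun e => {x | cidx (side q e.2.1) e.1 x = e.2.2}) fun z => Metric.closedBall z ε)
    (Sum.elim (fun e => 2 * side q e.2.1) fun _ => 2 * ε) (fun x hx => ?_) ?_).trans
      (ENNReal.ofReal_le_ofReal ?_)
  · obtain ⟨z, hz, hB | ⟨k, hk', n, hn, R, hR, h1, h2⟩⟩ := hΓ x hx
    · exact mem_biUnion (x := Sum.inr z) (Finset.inr_mem_disjSum.mpr hB)
        (mem_closedBall_iff_norm.mpr hz)
    obtain ⟨i, hi, h3⟩ := cidx_ball (cover_pos q k) z
    obtain ⟨o, ho⟩ : R.Nonempty := by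
      rw [Finset.nonempty_iff_ne_empty]
      rintro rfl
      have h4 := mul_pos hc0 (pow_pos (cover_pos q k) 2)
      rw [Finset.card_empty, Nat.cast_zero, zero_mul] at h1
      linarith
    obtain ⟨k', g1, g2, g3⟩ := cover_act hd hs hs2 hlam hc0 hmu hA hk' i hG (hV i n) hR h1
      (o := o) (fun u hu => (h3 u (h2 u hu).1).trans (h3 o (h2 o ho).1).symm) fun u hu h4 => by
        rw [hc i hi n hn u (hR hu) h4 (h2 u hu).2.1]
        exact (h2 u hu).2.2
    obtain ⟨e, he, g4, g5⟩ := m2 i k' g1 o (hR ho) (hb i hi n hn k' g1 o (hR ho) g3)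
    have g6 := cover_anti q (Finset.mem_Ico.mp hk').2.le
    exact mem_biUnion (x := Sum.inl (⟨i, e⟩ : Σ _ : ℕ, ℕ × ℤ × ℤ)) (Finset.inl_mem_disjSum.mpr
      (Finset.mem_sigma.mpr ⟨Finset.mem_range.mpr hi, he⟩))
      ((cover_nest (g4.trans g2) ((h3 x (by linarith)).trans (h3 o (h2 o ho).1).symm)).trans g5)
  · rintro (e | z) he
    · have h1 := m1 e.1 e.2 (Finset.mem_sigma.mp (Finset.inl_mem_disjSum.mp he)).2
      have h2 := cover_anti q (Finset.mem_Ico.mp h1).1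
      have h3 := cover_pos q e.2.1
      refine ⟨show 0 ≤ 2 * side q e.2.1 by linarith, show 2 * side q e.2.1 ≤ _ by linarith,
        fun a ha b hb' => ?_⟩
      have h4 := cidx_close h3 (Eq.trans ha (Eq.symm hb'))
      have h5 := Complex.norm_le_abs_re_add_abs_im (a - b)
      rw [Complex.sub_re, Complex.sub_im] at h5
      exact show _ ≤ 2 * side q e.2.1 by linarith [h4.1, h4.2]
    · have h2 := cover_anti q hk
      have h3 := cover_pos q k1
      refine ⟨show 0 ≤ 2 * ε by linarith, show 2 * ε ≤ _ by linarith, fun a ha b hb' => ?_⟩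
      have h4 := norm_sub_le_norm_sub_add_norm_sub a z b
      have h5 : ‖a - z‖ ≤ ε := mem_closedBall_iff_norm.mp ha
      have h6 : ‖z - b‖ ≤ ε := mem_closedBall_iff_norm'.mp hb'
      exact show _ ≤ 2 * ε by linarith
  · rw [Finset.sum_disjSum, Finset.sum_sigma]
    simp only [Sum.elim_inl, Sum.elim_inr, Finset.sum_const, nsmul_eq_mul]
    refine add_le_add_left (Finset.sum_le_sum fun i _ => le_trans ?_
      (mul_le_mul_of_nonneg_left (m3 i) (by positivity))) _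
    rw [Finset.mul_sum]
    refine Finset.sum_le_sum fun e he => (hh _ (m1 i e he)).trans (le_of_eq ?_)
    field_simp

end Vale.Agent.P164
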