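import Mathlib

namespace Vale.Agent.P164

open Set
open scoped ENNReal

/-- Hausdorff measure with gauge `h`: the limit as `δ ↓ 0` (a supremum, by monotonicity) of the
infimum of `∑ h (diam U j)` over countable covers by sets of diameter at most `δ`. -/
noncomputable def hm (h : ℝ → ℝ) (E : Set ℂ) : ℝ≥0∞ :=
  ⨆ (δ : ℝ) (_ : 0 < δ), ⨅ (U : ℕ → Set ℂ) (_ : E ⊆ ⋃ j, U j)
    (_ : ∀ j, Metric.ediam (U j) ≤ ENNReal.ofReal δ),
    ∑' j, ENNReal.ofReal (h (Metric.diam (U j)))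

/-- A gauge: continuous, nondecreasing on `[0, ∞)`, zero at `0` and positive elsewhere. -/
def IsGauge (h : ℝ → ℝ) : Prop :=
  ContinuousOn h (Ici 0) ∧ MonotoneOn h (Ici 0) ∧ h 0 = 0 ∧ ∀ r, 0 < r → 0 < h r

/-- The upper half-plane. -/
def uhp : Set ℂ := {z | 0 < z.im}

/-- The unbounded component of the upper half-plane minus `γ [0, t]`. -/
def dom (γ : ℝ → ℂ) (t : ℝ) : Set ℂ :=
  {z | z ∈ uhp \ γ '' Icc 0 t ∧
    ¬ Bornology.IsBounded (connectedComponentIn (uhp \ γ '' Icc 0 t) z)}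

/-- The continuous curve `γ` in the closed upper half-plane generates the chordal Loewner chain
driven by `W`. -/
def Generates (W : ℝ → ℝ) (γ : ℝ → ℂ) : Prop :=
  ContinuousOn γ (Ici 0) ∧ (∀ t, 0 ≤ t → 0 ≤ (γ t).im) ∧
    ∃ g : ℝ → ℂ → ℂ, ∀ t, 0 ≤ t →
      DifferentiableOn ℂ (g t) (dom γ t) ∧ BijOn (g t) (dom γ t) uhp ∧
        ∀ z ∈ dom γ t, g 0 z = z ∧ ∀ s ∈ Icc 0 t,
          HasDerivWithinAt (fun s => g s z) (2 / (g s z - (W s : ℂ))) (Icc 0 t) s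

end Vale.Agent.P164
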