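import Vale.Agent.P164.Defs

namespace Vale.Agent.P164

open Set

/-- state `(x, y, l)` of the Euler scheme for `(Re Z, Im Z, log ups)` -/
abbrev St := ℝ × ℝ × ℝ

def St.x (p : St) : ℝ := p.1
def St.y (p : St) : ℝ := p.2.1
def St.l (p : St) : ℝ := p.2.2

def rho2 (p : St) : ℝ := p.x ^ 2 + p.y ^ 2

noncomputable def tau (p : St) : ℝ := p.x / p.y

/-- the square of the sine of the argument -/
noncomputable def ss (p : St) : ℝ := 1 / (1 + tau p ^ 2)

/-- one Euler step of length `δ` with driving increment `ξ` -/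
noncomputable def eul (δ : ℝ) (p : St) (ξ : ℝ) : St :=
  (p.x + 2 * δ * p.x / rho2 p - ξ, p.y * Real.exp (-(2 * δ / rho2 p)),
    p.l - 4 * δ * p.y ^ 2 / rho2 p ^ 2)

def run {S : Type*} (f : S → ℝ → S) (x0 : S) (ξ : ℕ → ℝ) : ℕ → S
  | 0 => x0
  | n + 1 => f (run f x0 ξ n) (ξ n)

noncomputable def ini (u : ℂ) : St := (u.re, u.im, Real.log u.im)

/-- free Euler run started from `u` -/
noncomputable def fre (δ : ℝ) (u : ℂ) (ξ : ℕ → ℝ) (n : ℕ) : St := run (eul δ) (ini u) ξ n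

/-- increments of the driving function -/
def inc (W : ℝ → ℝ) (δ : ℝ) (n : ℕ) : ℝ := W ((n + 1) * δ) - W (n * δ)

/-- `exp (a l) * S ^ c` -/
noncomputable def fam (a c : ℝ) (p : St) : ℝ :=
  Real.exp (a * p.l - c / 2 * Real.log (1 + tau p ^ 2))

/-- the local martingale `ups ^ (d - 2) * S ^ (8 / κ - 1)` -/
noncomputable def mart (κ : ℝ) (p : St) : ℝ := fam (κ / 8 - 1) (8 / κ - 1) p

def Reg (y0 l0 : ℝ) : Set St := {p | y0 ≤ p.y ∧ l0 ≤ p.l ∧ p.l ≤ 2}

@[simp] theorem run_zero {S : Type*} (f : S → ℝ → S) (x0 : S) (ξ : ℕ → ℝ) : run f x0 ξ 0 = x0 := rfl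

theorem run_succ {S : Type*} (f : S → ℝ → S) (x0 : S) (ξ : ℕ → ℝ) (n : ℕ) :
    run f x0 ξ (n + 1) = f (run f x0 ξ n) (ξ n) := rfl

theorem run_congr {S : Type*} (f : S → ℝ → S) (x0 : S) {ξ ξ' : ℕ → ℝ} (n : ℕ)
    (h : ∀ i < n, ξ i = ξ' i) : run f x0 ξ n = run f x0 ξ' n := by
  induction n with
  | zero => rfl
  | succ n ih => rw [run_succ, run_succ, ih fun i hi => h i (by omega), h n (by omega)]

theorem measurable_run {S : Type*} [MeasurableSpace S] {f : S → ℝ → S}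
    (hf : Measurable (Function.uncurry f)) (x0 : S) (n : ℕ) :
    Measurable fun ξ : ℕ → ℝ => run f x0 ξ n := by
  induction n with
  | zero => exact measurable_const
  | succ n ih => exact hf.comp (ih.prodMk (measurable_pi_apply n))

theorem run_mem {S : Type*} {f : S → ℝ → S} {I : Set S} (hI : ∀ p ∈ I, ∀ ξ, f p ξ ∈ I) {x0 : S}
    (h0 : x0 ∈ I) (ξ : ℕ → ℝ) (n : ℕ) : run f x0 ξ n ∈ I := by
  induction n with
  | zero => exact h0
  | succ n ih => exact hI _ ih _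

@[fun_prop] theorem measurable_x : Measurable St.x := measurable_fst
@[fun_prop] theorem measurable_y : Measurable St.y := measurable_snd.fst
@[fun_prop] theorem measurable_l : Measurable St.l := measurable_snd.snd
@[fun_prop] theorem measurable_rho2 : Measurable rho2 := by unfold rho2; fun_prop
@[fun_prop] theorem measurable_tau : Measurable tau := by unfold tau; fun_prop
@[fun_prop] theorem measurable_ss : Measurable ss := by unfold ss; fun_prop
@[fun_prop] theorem measurable_fam (a c : ℝ) : Measurable (fam a c) := by unfold fam; fun_prop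
@[fun_prop] theorem measurable_mart (κ : ℝ) : Measurable (mart κ) := measurable_fam _ _

theorem measurable_eul (δ : ℝ) : Measurable (Function.uncurry (eul δ)) := by
  unfold eul Function.uncurry; fun_prop

@[fun_prop] theorem measurable_eul' {α : Type*} [MeasurableSpace α] (δ : ℝ) {p : α → St}
    {ξ : α → ℝ} (hp : Measurable p) (hξ : Measurable ξ) : Measurable fun a => eul δ (p a) (ξ a) :=
  (measurable_eul δ).comp (hp.prodMk hξ)

theorem eul_x (δ : ℝ) (p : St) (ξ : ℝ) : (eul δ p ξ).x = p.x + 2 * δ * p.x / rho2 p - ξ := rfl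
theorem eul_y (δ : ℝ) (p : St) (ξ : ℝ) :
    (eul δ p ξ).y = p.y * Real.exp (-(2 * δ / rho2 p)) := rfl
theorem eul_l (δ : ℝ) (p : St) (ξ : ℝ) :
    (eul δ p ξ).l = p.l - 4 * δ * p.y ^ 2 / rho2 p ^ 2 := rfl
@[simp] theorem ini_x (u : ℂ) : (ini u).x = u.re := rfl
@[simp] theorem ini_y (u : ℂ) : (ini u).y = u.im := rfl
@[simp] theorem ini_l (u : ℂ) : (ini u).l = Real.log u.im := rfl

theorem rho2_nonneg (p : St) : 0 ≤ rho2 p := by unfold rho2; positivity

theorem sq_y_le (p : St) : p.y ^ 2 ≤ rho2 p := by unfold rho2; nlinarith [sq_nonneg p.x]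

theorem rho2_pos {p : St} (hp : 0 < p.y) : 0 < rho2 p := lt_of_lt_of_le (by positivity) (sq_y_le p)

theorem rho2_eq {p : St} (hp : 0 < p.y) : rho2 p = p.y ^ 2 * (1 + tau p ^ 2) := by
  unfold rho2 tau; field_simp; ring

theorem ss_eq {p : St} (hp : 0 < p.y) : ss p = p.y ^ 2 / rho2 p := by
  rw [rho2_eq hp]; unfold ss; field_simp

theorem ss_pos (p : St) : 0 < ss p := by unfold ss; positivity

theorem ss_le_one (p : St) : ss p ≤ 1 := by
  unfold ss; rw [div_le_one (by positivity)]; nlinarith [sq_nonneg (tau p)]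

theorem fam_pos (a c : ℝ) (p : St) : 0 < fam a c p := Real.exp_pos _

theorem mart_pos (κ : ℝ) (p : St) : 0 < mart κ p := Real.exp_pos _

theorem fam_eq (a c : ℝ) (p : St) : fam a c p = Real.exp (a * p.l) * ss p ^ (c / 2) := by
  unfold fam ss
  rw [Real.rpow_def_of_pos (by positivity), ← Real.exp_add, one_div, Real.log_inv]
  congr 1; ring

theorem fam_le (a : ℝ) {c : ℝ} (hc : 0 ≤ c) (p : St) : fam a c p ≤ Real.exp (a * p.l) := by
  unfold fam
  have : 0 ≤ Real.log (1 + tau p ^ 2) := Real.log_nonneg (by nlinarith [sq_nonneg (tau p)])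
  exact Real.exp_le_exp.2 (by nlinarith [mul_nonneg hc this])

theorem eul_y_pos (δ : ℝ) {p : St} (hp : 0 < p.y) (ξ : ℝ) : 0 < (eul δ p ξ).y := by
  rw [eul_y]; positivity

theorem eul_y_le {δ : ℝ} (hδ : 0 ≤ δ) {p : St} (hp : 0 < p.y) (ξ : ℝ) : (eul δ p ξ).y ≤ p.y := by
  rw [eul_y]
  have := rho2_nonneg p
  have : Real.exp (-(2 * δ / rho2 p)) ≤ 1 := Real.exp_le_one_iff.2 (neg_nonpos.2 (by positivity))
  nlinarith

theorem eul_l_le {δ : ℝ} (hδ : 0 ≤ δ) (p : St) (ξ : ℝ) : (eul δ p ξ).l ≤ p.l := by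
  rw [eul_l]
  have : 0 ≤ 4 * δ * p.y ^ 2 / rho2 p ^ 2 := by positivity
  linarith

theorem log_eul_y (δ : ℝ) {p : St} (hp : 0 < p.y) (ξ : ℝ) :
    Real.log (eul δ p ξ).y = Real.log p.y - 2 * δ / rho2 p := by
  rw [eul_y, Real.log_mul hp.ne' (Real.exp_pos _).ne', Real.log_exp]; ring

theorem eul_l_eq (δ : ℝ) {p : St} (hp : 0 < p.y) (ξ : ℝ) :
    (eul δ p ξ).l = p.l - 4 * ss p * (δ / rho2 p) := by
  have := (rho2_pos hp).ne'
  rw [eul_l, ss_eq hp]; field_simp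

theorem step_le {δ y0 : ℝ} (hδ : 0 ≤ δ) (hy : 0 < y0) {p : St} (hp : y0 ≤ p.y) :
    δ / rho2 p ≤ δ / y0 ^ 2 :=
  div_le_div_of_nonneg_left hδ (by positivity)
    (le_trans (pow_le_pow_left₀ hy.le hp 2) (sq_y_le p))

theorem eul_l_ge {δ y0 : ℝ} (hδ : 0 ≤ δ) (hy : 0 < y0) {p : St} (hp : y0 ≤ p.y) (ξ : ℝ) :
    p.l - 4 * (δ / y0 ^ 2) ≤ (eul δ p ξ).l := by
  rw [eul_l_eq δ (hy.trans_le hp)]
  have h1 := step_le hδ hy hp
  have h2 := ss_le_one p
  have h3 := (ss_pos p).le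
  have h4 : 0 ≤ δ / rho2 p := div_nonneg hδ (rho2_nonneg p)
  nlinarith

theorem fre_zero (δ : ℝ) (u : ℂ) (ξ : ℕ → ℝ) : fre δ u ξ 0 = ini u := rfl

theorem fre_succ (δ : ℝ) (u : ℂ) (ξ : ℕ → ℝ) (n : ℕ) :
    fre δ u ξ (n + 1) = eul δ (fre δ u ξ n) (ξ n) := rfl

theorem fre_y_pos (δ : ℝ) {u : ℂ} (hu : 0 < u.im) (ξ : ℕ → ℝ) (n : ℕ) : 0 < (fre δ u ξ n).y := by
  induction n with
  | zero => exact hu
  | succ n ih => exact eul_y_pos δ ih _

theorem fre_y_anti {δ : ℝ} (hδ : 0 ≤ δ) {u : ℂ} (hu : 0 < u.im) (ξ : ℕ → ℝ) :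
    Antitone fun n => (fre δ u ξ n).y :=
  antitone_nat_of_succ_le fun n => eul_y_le hδ (fre_y_pos δ hu ξ n) _

theorem fre_l_anti {δ : ℝ} (hδ : 0 ≤ δ) (u : ℂ) (ξ : ℕ → ℝ) :
    Antitone fun n => (fre δ u ξ n).l :=
  antitone_nat_of_succ_le fun _ => eul_l_le hδ _ _

end Vale.Agent.P164
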