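import Vale.Agent.P164.Jet

namespace Vale.Agent.P164

open Set MeasureTheory

variable {κ y0 : ℝ}

theorem fam_inv_rho2 (hy : 0 < y0) {p : St} (hp : y0 ≤ p.y) : 1 / rho2 p ≤ (1 / y0) ^ 2 := by
  rw [one_div_pow]
  exact step_le zero_le_one hy hp

theorem fam_tau_rho2 (hy : 0 < y0) {p : St} (hp : y0 ≤ p.y) :
    |tau p| / rho2 p ≤ (1 / y0) ^ 2 := by
  have hp0 := hy.trans_le hp
  have h1 : |tau p| ≤ 1 + tau p ^ 2 := by
    rw [← sq_abs]
    nlinarith [sq_nonneg (|tau p| - 1), abs_nonneg (tau p)]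
  calc |tau p| / rho2 p ≤ (1 + tau p ^ 2) / rho2 p :=
        div_le_div_of_nonneg_right h1 (rho2_nonneg p)
    _ = (1 / p.y) ^ 2 := by rw [rho2_eq hp0]; field_simp
    _ ≤ (1 / y0) ^ 2 := pow_le_pow_left₀ (by positivity) (one_div_le_one_div_of_le hy hp) 2

theorem fam_exp {u E : ℝ} (hu : 0 ≤ u) (hE : Real.exp u ≤ E) :
    |Real.exp u - 1| ≤ u * E ∧ |(1 + u) * Real.exp u - 1 - 2 * u| ≤ 2 * u ^ 2 * E := by
  have h1 := Real.add_one_le_exp u
  have h2 : Real.exp u - 1 ≤ u * Real.exp u := by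
    have h3 := mul_le_mul_of_nonneg_right (Real.add_one_le_exp (-u)) (Real.exp_pos u).le
    rw [← Real.exp_add, neg_add_cancel, Real.exp_zero] at h3
    linarith
  have h4 := mul_le_mul_of_nonneg_left hE hu
  have h5 : u * (Real.exp u - 1) ≤ u * (u * E) := mul_le_mul_of_nonneg_left (h2.trans h4) hu
  have h6 : 0 ≤ u * (Real.exp u - 1) := mul_nonneg hu (by linarith)
  constructor
  · rw [abs_of_nonneg (by linarith)]
    linarith
  · rw [abs_of_nonneg (by linarith)]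
    linarith

theorem fam_mixed {a b : ℝ} (ha : 0 ≤ a) (hb : 0 ≤ b) : a * b ^ 2 ≤ a ^ 3 + b ^ 3 := by
  rcases le_total a b with h | h
  · nlinarith [mul_le_mul_of_nonneg_right h (sq_nonneg b), pow_nonneg ha 3]
  · nlinarith [mul_le_mul_of_nonneg_left (pow_le_pow_left₀ hb h 2) ha, pow_nonneg hb 3]

theorem jt_tau (hy : 0 < y0) : Jt κ {p : St | y0 ≤ p.y} (fun p η ξ => tau (eul (η ^ 2) p ξ)) tau
    (fun p => -1 / p.y) (fun p => 4 * tau p / rho2 p) := by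
  set m := 1 / y0 with hm
  have hm0 : 0 < m := by positivity
  set E := Real.exp (2 * m ^ 2) with hE
  have hE0 : 0 < E := Real.exp_pos _
  refine ⟨fun _ => 0, fun p => 4 * tau p / rho2 p, m + 4 * m ^ 2 + (8 * m ^ 4 * E + 2 * m ^ 3 * E),
    fun p hp => ?_⟩
  have hp' : y0 ≤ p.y := hp
  have hp0 := hy.trans_le hp'
  have hρ := rho2_pos hp0
  have h1 : 1 / p.y ≤ m := one_div_le_one_div_of_le hy hp'
  have h2 : 1 / rho2 p ≤ m ^ 2 := fam_inv_rho2 hy hp'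
  have h3 : |tau p| / rho2 p ≤ m ^ 2 := fam_tau_rho2 hy hp'
  have h4 : 0 ≤ 8 * m ^ 4 * E + 2 * m ^ 3 * E := by positivity
  refine ⟨by ring, ?_, by rw [abs_zero]; positivity, ?_, fun η hη ξ _ => ?_⟩
  · rw [abs_div, abs_neg, abs_one, abs_of_pos hp0]
    nlinarith [sq_nonneg m]
  · rw [abs_div, abs_mul, abs_of_pos hρ, abs_of_pos (by norm_num : (0 : ℝ) < 4), mul_div_assoc]
    linarith
  have hη0 := hη.1
  have hη2 : η ^ 2 ≤ 1 := pow_le_one₀ hη0.le hη.2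
  set u := 2 * η ^ 2 / rho2 p with hu
  have hu0 : 0 ≤ u := by positivity
  have hu1 : u ≤ 2 * η ^ 2 * m ^ 2 := by
    rw [hu, div_eq_mul_one_div]
    exact mul_le_mul_of_nonneg_left h2 (by positivity)
  have hu2 : |tau p| * u ≤ 2 * η ^ 2 * m ^ 2 := by
    rw [hu, show |tau p| * (2 * η ^ 2 / rho2 p) = 2 * η ^ 2 * (|tau p| / rho2 p) by ring]
    exact mul_le_mul_of_nonneg_left h3 (by positivity)
  obtain ⟨e1, e2⟩ := fam_exp (E := E) hu0 (Real.exp_le_exp.2 (by nlinarith [sq_nonneg m]))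
  have key : tau (eul (η ^ 2) p ξ) - (tau p + -1 / p.y * ξ + 0 * ξ ^ 2 + 4 * tau p / rho2 p * η ^ 2) =
      tau p * ((1 + u) * Real.exp u - 1 - 2 * u) - 1 / p.y * ξ * (Real.exp u - 1) := by
    have := Real.exp_pos u
    rw [tau, eul_x, eul_y, ← hu, Real.exp_neg, tau, hu]
    field_simp
    ring
  have b1 : |tau p * ((1 + u) * Real.exp u - 1 - 2 * u)| ≤ 8 * m ^ 4 * E * η ^ 3 := by
    rw [abs_mul]
    calc |tau p| * |(1 + u) * Real.exp u - 1 - 2 * u| ≤ |tau p| * (2 * u ^ 2 * E) :=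
          mul_le_mul_of_nonneg_left e2 (abs_nonneg _)
      _ = 2 * E * (|tau p| * u * u) := by ring
      _ ≤ 2 * E * (2 * η ^ 2 * m ^ 2 * (2 * η ^ 2 * m ^ 2)) :=
          mul_le_mul_of_nonneg_left (mul_le_mul hu2 hu1 hu0 (by positivity)) (by positivity)
      _ = 8 * m ^ 4 * E * η ^ 3 * η := by ring
      _ ≤ _ := mul_le_of_le_one_right (by positivity) hη.2
  have b2 : |1 / p.y * ξ * (Real.exp u - 1)| ≤ 2 * m ^ 3 * E * (|ξ| ^ 3 + η ^ 3) := by
    rw [abs_mul, abs_mul, abs_of_pos (by positivity : 0 < 1 / p.y)]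
    calc 1 / p.y * |ξ| * |Real.exp u - 1| ≤ m * |ξ| * (2 * η ^ 2 * m ^ 2 * E) :=
          mul_le_mul (mul_le_mul_of_nonneg_right h1 (abs_nonneg _))
            (e1.trans (mul_le_mul_of_nonneg_right hu1 hE0.le)) (abs_nonneg _) (by positivity)
      _ = 2 * m ^ 3 * E * (|ξ| * η ^ 2) := by ring
      _ ≤ _ := mul_le_mul_of_nonneg_left (fam_mixed (abs_nonneg _) hη0.le) (by positivity)
  have b3 : 0 ≤ (m + 4 * m ^ 2) * (|ξ| ^ 3 + η ^ 3) := by positivity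
  have b4 : 0 ≤ 8 * m ^ 4 * E * |ξ| ^ 3 := by positivity
  show |tau (eul (η ^ 2) p ξ) - _| ≤ _
  rw [key]
  refine (abs_sub _ _).trans ?_
  linarith

theorem jt_l (hy : 0 < y0) : Jt κ {p : St | y0 ≤ p.y} (fun p η ξ => (eul (η ^ 2) p ξ).l) St.l
    (fun _ => 0) (fun p => -4 * ss p / rho2 p) := by
  refine (Jt.lin (g := St.l) (d := fun p => -4 * ss p / rho2 p) ⟨4 * (1 / y0) ^ 2, fun p hp => ?_⟩).congr
    (fun p hp η _ ξ => ?_) (fun _ _ => rfl) (fun _ _ => rfl) fun _ _ => rfl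
  · have h1 := fam_inv_rho2 hy (p := p) hp
    have h2 := ss_le_one p
    have h3 := ss_pos p
    have h4 := rho2_nonneg p
    rw [abs_div, abs_mul, abs_neg, abs_of_pos h3, abs_of_nonneg h4,
      abs_of_pos (by norm_num : (0 : ℝ) < 4), div_eq_mul_one_div, mul_assoc]
    exact mul_le_mul_of_nonneg_left ((mul_le_of_le_one_left (by positivity) h2).trans h1)
      (by norm_num)
  · rw [eul_l_eq _ (hy.trans_le hp)]
    ring

/-- generator of `fam a c`, in the clock `dt / |Z|^2` -/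
noncomputable def rate (κ a c : ℝ) (p : St) : ℝ :=
  -4 * a * ss p + c * (-4 + κ / 2 + c * κ / 2) + ss p * c * (4 - κ - c * κ / 2)

theorem jt_fam (hy : 0 < y0) (l0 a : ℝ) {c : ℝ} (hc : 0 ≤ c) :
    Jt κ (Reg y0 l0) (fun p η ξ => fam a c (eul (η ^ 2) p ξ)) (fam a c)
      (fun p => c * fam a c p * p.x / rho2 p) (fun p => fam a c p * rate κ a c p / rho2 p) := by
  have h1 := Jt.comp T3_log (jt_tau (κ := κ) hy) fun _ _ => mem_univ _
  have h2 := (((jt_l (κ := κ) hy).smul (c := fun _ => a) ⟨|a|, fun _ _ => le_rfl⟩).add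
    (h1.smul (c := fun _ => -(c / 2)) ⟨|-(c / 2)|, fun _ _ => le_rfl⟩)).comap (R' := Reg y0 l0)
    (fun p => p) fun p hp => hp.1
  refine (Jt.comp (T3_exp (|a| * (|l0| + 2))) h2 fun p hp => ?_).congr (fun p _ η _ ξ => ?_)
    (fun p _ => ?_) (fun p hp => ?_) fun p hp => ?_
  · have e1 : 0 ≤ Real.log (1 + tau p ^ 2) := Real.log_nonneg (by nlinarith [sq_nonneg (tau p)])
    have e2 : |p.l| ≤ |l0| + 2 :=
      abs_le.2 ⟨by linarith [neg_abs_le l0, hp.2.1], by linarith [abs_nonneg l0, hp.2.2]⟩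
    have e3 : a * p.l ≤ |a| * (|l0| + 2) :=
      (le_abs_self _).trans ((abs_mul _ _).trans_le (mul_le_mul_of_nonneg_left e2 (abs_nonneg _)))
    have e4 := mul_nonneg hc e1
    show a * p.l + -(c / 2) * Real.log (1 + tau p ^ 2) ≤ _
    linarith
  · simp only [fam, neg_mul, sub_eq_add_neg]
  · simp only [fam, neg_mul, sub_eq_add_neg]
  · have hp0 := hy.trans_le hp.1
    have e : p.x = tau p * p.y := by rw [tau]; field_simp
    simp only [fam, neg_mul, ← sub_eq_add_neg]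
    rw [rho2_eq hp0, e]
    field_simp
    ring
  · have hp0 := hy.trans_le hp.1
    simp only [fam, rate, ss, neg_mul, ← sub_eq_add_neg]
    rw [rho2_eq hp0]
    field_simp
    ring

theorem fam_bd (hy : 0 < y0) (l0 a : ℝ) {c : ℝ} (hc : 0 ≤ c) : ∃ C : ℝ, ∀ p ∈ Reg y0 l0,
    fam a c p ≤ C ∧ ∀ η ∈ Ioc (0 : ℝ) 1, ∀ ξ, fam a c (eul (η ^ 2) p ξ) ≤ C := by
  have key : ∀ p : St, l0 - 4 * (1 / y0 ^ 2) ≤ p.l → p.l ≤ 2 →
      fam a c p ≤ Real.exp (|a| * (|l0| + 4 * (1 / y0 ^ 2) + 2)) := fun p h1 h2 => by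
    have e0 : 0 ≤ 4 * (1 / y0 ^ 2) := by positivity
    have e2 : |p.l| ≤ |l0| + 4 * (1 / y0 ^ 2) + 2 :=
      abs_le.2 ⟨by linarith [neg_abs_le l0], by linarith [abs_nonneg l0]⟩
    exact (fam_le a hc p).trans (Real.exp_le_exp.2 ((le_abs_self _).trans
      ((abs_mul _ _).trans_le (mul_le_mul_of_nonneg_left e2 (abs_nonneg _)))))
  have e0 : 0 ≤ 4 * (1 / y0 ^ 2) := by positivity
  refine ⟨_, fun p hp => ⟨key p (by linarith [hp.2.1]) hp.2.2, fun η hη ξ => key _ ?_ ?_⟩⟩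
  · have h1 := eul_l_ge (sq_nonneg η) hy hp.1 ξ
    have h2 : η ^ 2 / y0 ^ 2 ≤ 1 / y0 ^ 2 :=
      div_le_div_of_nonneg_right (pow_le_one₀ hη.1.le hη.2) (sq_nonneg _)
    linarith [hp.2.1]
  · exact (eul_l_le (sq_nonneg η) p ξ).trans hp.2.2

theorem rate_mart (hκ : 0 < κ) (p : St) : rate κ (κ / 8 - 1) (8 / κ - 1) p = 0 := by
  unfold rate; field_simp; ring

theorem jt_mart (hκ : 0 < κ) (hκ8 : κ < 8) (hy : 0 < y0) (l0 : ℝ) :
    Jt κ (Reg y0 l0) (fun p η ξ => mart κ (eul (η ^ 2) p ξ)) (mart κ)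
      (fun p => (8 / κ - 1) * mart κ p * p.x / rho2 p) (fun _ => 0) := by
  have hc : 0 ≤ 8 / κ - 1 := by rw [sub_nonneg, le_div_iff₀ hκ]; linarith
  exact (jt_fam hy l0 (κ / 8 - 1) hc).congr (fun _ _ _ _ _ => rfl) (fun _ _ => rfl)
    (fun _ _ => rfl) (fun p _ => by rw [rate_mart hκ]; simp)

theorem jt_arsinh (hy : 0 < y0) : Jt κ {p : St | y0 ≤ p.y}
    (fun p η ξ => Real.arsinh (tau (eul (η ^ 2) p ξ))) (fun p => Real.arsinh (tau p))
    (fun p => -1 / √(rho2 p)) (fun p => (4 - κ / 2) * p.x / √(rho2 p) / rho2 p) := by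
  have hs : ∀ p : St, 0 < p.y → √(rho2 p) = p.y * √(1 + tau p ^ 2) := fun p hp => by
    rw [rho2_eq hp, Real.sqrt_mul (sq_nonneg _), Real.sqrt_sq hp.le]
  refine (Jt.comp T3_arsinh (jt_tau (κ := κ) hy) fun _ _ => mem_univ _).congr
    (fun _ _ _ _ _ => rfl) (fun _ _ => rfl) (fun p hp => ?_) fun p hp => ?_
  · have hp0 : 0 < p.y := hy.trans_le hp
    have hr : 0 < √(1 + tau p ^ 2) := Real.sqrt_pos.2 (by positivity)
    rw [hs p hp0]
    field_simp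
  · have hp0 : 0 < p.y := hy.trans_le hp
    have hr : 0 < √(1 + tau p ^ 2) := Real.sqrt_pos.2 (by positivity)
    have hq : √(1 + tau p ^ 2) ^ 2 = 1 + tau p ^ 2 := Real.sq_sqrt (by positivity)
    have e : p.x = tau p * p.y := by rw [tau]; field_simp
    rw [hs p hp0, rho2_eq hp0, e]
    generalize √(1 + tau p ^ 2) = r at hr hq ⊢
    rw [← hq]
    field_simp
    ring

end Vale.Agent.P164
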