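import Vale.Agent.P164.Defs

namespace Vale.Agent.P164

open Set Filter
open scoped Topology

/-- the gauge `r^d (log log (1/r))^((2-d)/2)`, frozen for `r ≥ exp (- e)` -/
noncomputable def gau (κ r : ℝ) : ℝ :=
  min r (Real.exp (-Real.exp 1)) ^ (1 + κ / 8) *
    Real.log (Real.log (1 / min r (Real.exp (-Real.exp 1)))) ^ ((1 - κ / 8) / 2)

variable {κ : ℝ}

theorem gau_eq {r : ℝ} (hr : r ≤ Real.exp (-Real.exp 1)) :
    gau κ r = r ^ (1 + κ / 8) * Real.log (Real.log (1 / r)) ^ ((1 - κ / 8) / 2) := by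
  rw [gau, min_eq_left hr]

theorem gau_one {r : ℝ} (h0 : 0 < r) (hr : r ≤ Real.exp (-Real.exp 1)) :
    Real.exp 1 ≤ Real.log (1 / r) ∧ 1 ≤ Real.log (Real.log (1 / r)) := by
  have h1 : Real.exp 1 ≤ Real.log (1 / r) := by
    have := Real.log_le_log h0 hr
    rw [Real.log_exp] at this
    rw [one_div, Real.log_inv]
    linarith
  exact ⟨h1, (Real.le_log_iff_exp_le ((Real.exp_pos 1).trans_le h1)).2 h1⟩

theorem gau_ll {x y : ℝ} (h0 : 0 < x) (hxy : x ≤ y) (hy : y ≤ Real.exp (-Real.exp 1)) :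
    Real.log (Real.log (1 / x)) ≤ Real.log (Real.log (1 / y)) * (y / x) := by
  have hy0 := h0.trans_le hxy
  obtain ⟨h1, h2⟩ := gau_one hy0 hy
  have h3 : 1 ≤ Real.log (1 / y) := (Real.one_le_exp zero_le_one).trans h1
  have h4 : Real.log (1 / x) = Real.log (1 / y) + Real.log (y / x) := by
    rw [← Real.log_mul (by positivity) (by positivity)]
    congr 1
    field_simp
  have h5 : 0 ≤ Real.log (y / x) := Real.log_nonneg ((one_le_div h0).2 hxy)
  have h6 := Real.log_le_sub_one_of_pos (div_pos hy0 h0)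
  rw [h4]
  generalize Real.log (1 / y) = u at h2 h3
  generalize Real.log (y / x) = v at h5 h6
  have h7 : Real.log (u + v) ≤ Real.log (u * (1 + v)) :=
    Real.log_le_log (by linarith) (by nlinarith)
  rw [Real.log_mul (by linarith) (by linarith)] at h7
  have h8 := Real.log_le_sub_one_of_pos (show 0 < 1 + v by linarith)
  nlinarith

theorem gau_small0 (hκ : 0 < κ) (hκ8 : κ < 8) :
    Tendsto (fun r => gau κ r / r) (𝓝[>] 0) (𝓝 0) := by
  have hr0 : 0 < Real.exp (-Real.exp 1) := Real.exp_pos _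
  have h1 : Tendsto (fun r : ℝ => r ^ (κ / 16) / (κ / 16)) (𝓝[>] 0) (𝓝 0) := by
    have h2 := (Real.continuousAt_rpow_const 0 (κ / 16) (Or.inr (by positivity))).tendsto
    rw [Real.zero_rpow (by positivity)] at h2
    have h3 := (tendsto_nhdsWithin_of_tendsto_nhds (s := Ioi (0 : ℝ)) h2).div_const (κ / 16)
    rwa [zero_div] at h3
  refine squeeze_zero' ?_ ?_ h1
  · filter_upwards [Ioc_mem_nhdsGT hr0] with r hr
    rw [gau_eq hr.2]
    exact div_nonneg (mul_nonneg (Real.rpow_nonneg hr.1.le _) (Real.rpow_nonneg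
      (zero_le_one.trans (gau_one hr.1 hr.2).2) _)) hr.1.le
  · filter_upwards [Ioc_mem_nhdsGT hr0] with r hr
    obtain ⟨h2, h3⟩ := gau_one hr.1 hr.2
    have h0 := hr.1
    have h4 : Real.log (Real.log (1 / r)) ^ ((1 - κ / 8) / 2) ≤ Real.log (Real.log (1 / r)) :=
      Real.rpow_le_self_of_one_le h3 (by linarith)
    have h5 := Real.log_le_sub_one_of_pos ((Real.exp_pos 1).trans_le h2)
    have h6 := Real.log_le_rpow_div (x := 1 / r) (by positivity) (ε := κ / 16) (by positivity)
    have h7 : r ^ (1 + κ / 8) * (1 / r) ^ (κ / 16) = r ^ (κ / 16) * r := by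
      rw [one_div, Real.inv_rpow h0.le, ← Real.rpow_neg h0.le, ← Real.rpow_add h0,
        ← Real.rpow_add_one h0.ne']
      congr 1
      ring
    rw [gau_eq hr.2, div_le_iff₀ h0, div_mul_eq_mul_div, ← h7, mul_div_assoc]
    exact mul_le_mul_of_nonneg_left (by linarith) (Real.rpow_nonneg h0.le _)

theorem gau_gauge (hκ : 0 < κ) (hκ8 : κ < 8) : IsGauge (gau κ) := by
  have hr0 : 0 < Real.exp (-Real.exp 1) := Real.exp_pos _
  have hz : gau κ 0 = 0 := by
    rw [gau_eq hr0.le, Real.zero_rpow (by positivity), zero_mul]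
  have hpos : ∀ r, 0 < r → 0 < gau κ r := fun r hr =>
    mul_pos (Real.rpow_pos_of_pos (lt_min hr hr0) _) (Real.rpow_pos_of_pos
      (one_pos.trans_le (gau_one (lt_min hr hr0) (min_le_right _ _)).2) _)
  refine ⟨fun r hr => ?_, fun r hr s hs hrs => ?_, hz, hpos⟩
  · rcases eq_or_lt_of_le (mem_Ici.1 hr) with rfl | hr
    · rw [← continuousWithinAt_Ioi_iff_Ici, ContinuousWithinAt, hz]
      have h1 := (gau_small0 hκ hκ8).mul (tendsto_nhdsWithin_of_tendsto_nhds
        (s := Ioi (0 : ℝ)) tendsto_id)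
      rw [mul_zero] at h1
      refine h1.congr' ?_
      filter_upwards [self_mem_nhdsWithin] with r hr
      exact div_mul_cancel₀ _ (ne_of_gt hr)
    · have hm : 0 < min r (Real.exp (-Real.exp 1)) := lt_min hr hr0
      have h1 := gau_one hm (min_le_right _ _)
      have c1 : ContinuousAt (fun r : ℝ => min r (Real.exp (-Real.exp 1))) r :=
        (continuous_id.min continuous_const).continuousAt
      have c2 : ContinuousAt (fun r : ℝ => Real.log (1 / min r (Real.exp (-Real.exp 1)))) r :=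
        (continuousAt_const.div c1 hm.ne').log (one_div_pos.2 hm).ne'
      have c3 := c2.log ((Real.exp_pos 1).trans_le h1.1).ne'
      exact ((c1.rpow_const (Or.inl hm.ne')).mul (c3.rpow_const
        (Or.inl (one_pos.trans_le h1.2).ne'))).continuousWithinAt
  · rcases eq_or_lt_of_le (mem_Ici.1 hr) with rfl | hr
    · rw [hz]
      rcases eq_or_lt_of_le hrs with rfl | hs
      · exact hz.ge
      · exact (hpos s hs).le
    · unfold gau
      have hm : 0 < min r (Real.exp (-Real.exp 1)) := lt_min hr hr0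
      have hle : min r (Real.exp (-Real.exp 1)) ≤ min s (Real.exp (-Real.exp 1)) :=
        min_le_min_right _ hrs
      have hs0 := min_le_right s (Real.exp (-Real.exp 1))
      generalize min r (Real.exp (-Real.exp 1)) = x at hm hle
      generalize min s (Real.exp (-Real.exp 1)) = y at hle hs0
      have hy := hm.trans_le hle
      have h1 := (gau_one hm (hle.trans hs0)).2
      have h2 := (gau_one hy hs0).2
      have h3 : 1 ≤ y / x := (one_le_div hm).2 hle
      have h4 := Real.rpow_le_rpow (zero_le_one.trans h1) (gau_ll hm hle hs0)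
        (z := (1 - κ / 8) / 2) (by linarith)
      rw [Real.mul_rpow (by linarith) (by linarith)] at h4
      have h5 : (y / x) ^ ((1 - κ / 8) / 2) ≤ (y / x) ^ (1 + κ / 8) :=
        Real.rpow_le_rpow_of_exponent_le h3 (by linarith)
      have h6 : x ^ (1 + κ / 8) * (y / x) ^ (1 + κ / 8) = y ^ (1 + κ / 8) := by
        rw [← Real.mul_rpow hm.le (by linarith), mul_div_cancel₀ _ hm.ne']
      rw [← h6, mul_assoc]
      refine mul_le_mul_of_nonneg_left (h4.trans ?_) (Real.rpow_nonneg hm.le _)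
      rw [mul_comm]
      exact mul_le_mul_of_nonneg_right h5 (Real.rpow_nonneg (by linarith) _)

theorem gau_scale (hκ : 0 < κ) (hκ8 : κ < 8) {a : ℝ} (ha : 0 < a) :
    ∀ᶠ r in 𝓝[>] (0 : ℝ), gau κ (a * r) ≤ 2 * a ^ (1 + κ / 8) * gau κ r := by
  have hr0 : 0 < Real.exp (-Real.exp 1) := Real.exp_pos _
  filter_upwards [Ioc_mem_nhdsGT hr0, Ioc_mem_nhdsGT ha, Ioc_mem_nhdsGT (div_pos hr0 ha)]
    with r h1 h2 h3
  have h0 := h1.1
  have h4 : a * r ≤ Real.exp (-Real.exp 1) := (le_div_iff₀' ha).1 h3.2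
  obtain ⟨h5, h6⟩ := gau_one h0 h1.2
  obtain ⟨h7, h8⟩ := gau_one (mul_pos ha h0) h4
  have h9 : Real.log (1 / (a * r)) ≤ 2 * Real.log (1 / r) := by
    have := Real.log_le_log h0 h2.2
    rw [one_div, one_div, Real.log_inv, Real.log_inv, Real.log_mul ha.ne' h0.ne']
    linarith
  have h10 := Real.log_le_log ((Real.exp_pos 1).trans_le h7) h9
  rw [Real.log_mul two_ne_zero ((Real.exp_pos 1).trans_le h5).ne'] at h10
  have h11 := Real.log_le_sub_one_of_pos two_pos
  have h12 := Real.rpow_le_rpow (zero_le_one.trans h8)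
    (show Real.log (Real.log (1 / (a * r))) ≤ 2 * Real.log (Real.log (1 / r)) by linarith)
    (z := (1 - κ / 8) / 2) (by linarith)
  rw [Real.mul_rpow zero_le_two (by linarith)] at h12
  have h13 : (2 : ℝ) ^ ((1 - κ / 8) / 2) ≤ 2 := Real.rpow_le_self_of_one_le one_le_two (by linarith)
  have h14 := h12.trans (mul_le_mul_of_nonneg_right h13 (Real.rpow_nonneg (by linarith) _))
  rw [gau_eq h4, gau_eq h1.2, Real.mul_rpow ha.le h0.le]
  have h15 := mul_le_mul_of_nonneg_left h14 (mul_nonneg (Real.rpow_nonneg ha.le (1 + κ / 8))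
    (Real.rpow_nonneg h0.le (1 + κ / 8)))
  linarith

theorem gau_small (hκ : 0 < κ) (hκ8 : κ < 8) :
    Tendsto (fun r => gau κ r / r) (𝓝[>] 0) (𝓝 0) := by
  exact gau_small0 hκ hκ8

end Vale.Agent.P164
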