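import Vale.Agent.P164.Defs

namespace Vale.Agent.P164

open Set

/-- points of the lattice of mesh `s` -/
def IsLat (s : ℝ) (z : ℂ) : Prop := ∃ i j : ℤ, z = ⟨i * s, j * s⟩

open Classical in
/-- lattice points in a rectangle -/
noncomputable def lat (s a b c e : ℝ) : Finset ℂ :=
  (Finset.Icc ⌈a / s⌉ ⌊b / s⌋ ×ˢ Finset.Icc ⌈c / s⌉ ⌊e / s⌋).image
    fun q : ℤ × ℤ => (⟨q.1 * s, q.2 * s⟩ : ℂ)

theorem mem_lat {s a b c e : ℝ} (hs : 0 < s) {z : ℂ} :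
    z ∈ lat s a b c e ↔ IsLat s z ∧ a ≤ z.re ∧ z.re ≤ b ∧ c ≤ z.im ∧ z.im ≤ e := by
  simp only [lat, Finset.mem_image, Finset.mem_product, Finset.mem_Icc, Int.ceil_le, Int.le_floor,
    div_le_iff₀ hs, le_div_iff₀ hs, IsLat]
  constructor
  · rintro ⟨⟨i, j⟩, ⟨⟨h1, h2⟩, h3, h4⟩, rfl⟩
    exact ⟨⟨i, j, rfl⟩, h1, h2, h3, h4⟩
  · rintro ⟨⟨i, j, rfl⟩, h1, h2, h3, h4⟩
    exact ⟨(i, j), ⟨⟨h1, h2⟩, h3, h4⟩, rfl⟩

theorem grid_le {s r : ℝ} (hs : 0 < s) (hr : 0 ≤ r) (a : ℝ) :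
    ((Finset.Icc ⌈a / s⌉ ⌊(a + r) / s⌋).card : ℝ) * s ≤ r + s := by
  rw [Int.card_Icc]
  rcases le_total (⌊(a + r) / s⌋ + 1 - ⌈a / s⌉) 0 with h | h
  · rw [Int.toNat_eq_zero.2 h, Nat.cast_zero, zero_mul]
    positivity
  · have e : (((⌊(a + r) / s⌋ + 1 - ⌈a / s⌉).toNat : ℕ) : ℝ) =
        ((⌊(a + r) / s⌋ + 1 - ⌈a / s⌉ : ℤ) : ℝ) := by
      rw [← Int.cast_natCast, Int.toNat_of_nonneg h]
    have h1 := (le_div_iff₀ hs).1 (Int.floor_le ((a + r) / s))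
    have h2 := (div_le_iff₀ hs).1 (Int.le_ceil (a / s))
    rw [e]
    push_cast
    linarith

theorem grid_ge {s : ℝ} (hs : 0 < s) (a b : ℝ) :
    b - a - s ≤ ((Finset.Icc ⌈a / s⌉ ⌊b / s⌋).card : ℝ) * s := by
  rw [Int.card_Icc]
  have e : ((⌊b / s⌋ + 1 - ⌈a / s⌉ : ℤ) : ℝ) ≤ (((⌊b / s⌋ + 1 - ⌈a / s⌉).toNat : ℕ) : ℝ) := by
    rw [← Int.cast_natCast]
    exact Int.cast_le.2 (Int.self_le_toNat _)
  have h1 := (div_lt_iff₀ hs).1 (Int.lt_floor_add_one (b / s))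
  have h2 := (lt_div_iff₀ hs).1 (sub_lt_iff_lt_add.2 (Int.ceil_lt_add_one (a / s)))
  have h3 := mul_le_mul_of_nonneg_right e hs.le
  push_cast at h3
  linarith

theorem grid_card {s : ℝ} (hs : 0 < s) (a b c e : ℝ) : (lat s a b c e).card =
    (Finset.Icc ⌈a / s⌉ ⌊b / s⌋).card * (Finset.Icc ⌈c / s⌉ ⌊e / s⌋).card := by
  rw [lat, Finset.card_image_of_injective, Finset.card_product]
  rintro ⟨i, j⟩ ⟨i', j'⟩ h
  have h1 : (i : ℝ) * s = i' * s := congrArg Complex.re h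
  have h2 : (j : ℝ) * s = j' * s := congrArg Complex.im h
  exact Prod.ext (Int.cast_injective (mul_right_cancel₀ hs.ne' h1))
    (Int.cast_injective (mul_right_cancel₀ hs.ne' h2))

theorem grid_norm {z : ℂ} {ρ : ℝ} (hρ : 0 < ρ) (h1 : |z.re| ≤ ρ / 2) (h2 : |z.im| ≤ ρ / 2) :
    ‖z‖ < ρ := by
  refine lt_of_pow_lt_pow_left₀ 2 hρ.le ?_
  rw [Complex.sq_norm, Complex.normSq_apply]
  obtain ⟨a1, a2⟩ := abs_le.1 h1
  obtain ⟨b1, b2⟩ := abs_le.1 h2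
  nlinarith

theorem card_le_box {s r : ℝ} (hs : 0 < s) (hr : 0 ≤ r) (S : Finset ℂ) (hS : ∀ z ∈ S, IsLat s z)
    (hb : ∀ z ∈ S, ∀ w ∈ S, |z.re - w.re| ≤ r ∧ |z.im - w.im| ≤ r) :
    (S.card : ℝ) * s ^ 2 ≤ (r + s) ^ 2 := by
  rcases S.eq_empty_or_nonempty with rfl | hne
  · rw [Finset.card_empty, Nat.cast_zero, zero_mul]
    positivity
  obtain ⟨a, ha, ha'⟩ := S.exists_min_image Complex.re hne
  obtain ⟨c, hc, hc'⟩ := S.exists_min_image Complex.im hne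
  have hsub : S ⊆ lat s a.re (a.re + r) c.im (c.im + r) := fun z hz =>
    (mem_lat hs).2 ⟨hS z hz, ha' z hz, by linarith [(abs_le.1 (hb z hz a ha).1).2], hc' z hz,
      by linarith [(abs_le.1 (hb z hz c hc).2).2]⟩
  have h1 : (S.card : ℝ) ≤ ((lat s a.re (a.re + r) c.im (c.im + r)).card : ℝ) :=
    Nat.cast_le.2 (Finset.card_le_card hsub)
  rw [grid_card hs, Nat.cast_mul] at h1
  have h2 := mul_le_mul (grid_le hs hr a.re) (grid_le hs hr c.im) (by positivity) (by positivity)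
  have h3 := mul_le_mul_of_nonneg_right h1 (sq_nonneg s)
  linarith

theorem card_ge_disc {s ρ : ℝ} (hs : 0 < s) (hρ : 2 * s ≤ ρ) (w : ℂ) :
    ∃ S : Finset ℂ, (∀ z ∈ S, IsLat s z ∧ ‖z - w‖ < ρ) ∧ ρ ^ 2 / 4 ≤ (S.card : ℝ) * s ^ 2 := by
  have h0 : 0 < ρ := by linarith
  refine ⟨lat s (w.re - ρ / 2) (w.re + ρ / 2) (w.im - ρ / 2) (w.im + ρ / 2), fun z hz => ?_, ?_⟩
  · obtain ⟨h, h1, h2, h3, h4⟩ := (mem_lat hs).1 hz
    refine ⟨h, grid_norm h0 ?_ ?_⟩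
    · rw [Complex.sub_re, abs_le]
      constructor <;> linarith
    · rw [Complex.sub_im, abs_le]
      constructor <;> linarith
  · rw [grid_card hs, Nat.cast_mul]
    have h1 := grid_ge hs (w.re - ρ / 2) (w.re + ρ / 2)
    have h2 := grid_ge hs (w.im - ρ / 2) (w.im + ρ / 2)
    have h3 := mul_le_mul (show ρ / 2 ≤ _ from le_trans (by linarith) h1)
      (show ρ / 2 ≤ _ from le_trans (by linarith) h2) (by positivity) (by positivity)
    linarith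

theorem grid_round {s : ℝ} (hs : 0 < s) (x : ℝ) : |x - round (x / s) * s| ≤ s / 2 := by
  have h := abs_sub_round (x / s)
  have e : x - round (x / s) * s = (x / s - round (x / s)) * s := by field_simp
  rw [e, abs_mul, abs_of_pos hs]
  linarith [mul_le_mul_of_nonneg_right h hs.le]

theorem near_lat {s : ℝ} (hs : 0 < s) (z : ℂ) : ∃ u, IsLat s u ∧ ‖z - u‖ < s := by
  exact ⟨⟨round (z.re / s) * s, round (z.im / s) * s⟩, ⟨_, _, rfl⟩,
    grid_norm hs (grid_round hs z.re) (grid_round hs z.im)⟩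

/-- index of the cell of side `r` in the grid shifted by `i r / 3` -/
noncomputable def cidx (r : ℝ) (i : ℕ) (z : ℂ) : ℤ × ℤ := (⌊z.re / r - i / 3⌋, ⌊z.im / r - i / 3⌋)

theorem cidx_nest {r : ℝ} (hr : 0 < r) (q i : ℕ) {z w : ℂ}
    (h : cidx (r / (3 * q + 1)) i z = cidx (r / (3 * q + 1)) i w) : cidx r i z = cidx r i w := by
  have key : ∀ x : ℝ, ⌊x / r - i / 3⌋ =
      (⌊x / (r / (3 * q + 1)) - i / 3⌋ - (i * q : ℕ)) / (3 * q + 1 : ℕ) := fun x => by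
    rw [← Int.floor_sub_natCast, ← Int.floor_div_natCast]
    refine congrArg _ ?_
    push_cast
    field_simp
    ring
  obtain ⟨h1, h2⟩ := Prod.ext_iff.1 h
  simp only [cidx] at h1 h2 ⊢
  rw [key z.re, key z.im, key w.re, key w.im, h1, h2]

theorem cidx_half {r : ℝ} (hr : 0 < r) {z w : ℂ}
    (h : cidx (r / 2) 0 z = cidx (r / 2) 0 w) : cidx r 0 z = cidx r 0 w := by
  have key : ∀ x : ℝ, ⌊x / r - (0 : ℕ) / 3⌋ = ⌊x / (r / 2) - (0 : ℕ) / 3⌋ / (2 : ℕ) := fun x => by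
    rw [← Int.floor_div_natCast]
    refine congrArg _ ?_
    push_cast
    field_simp
    ring
  obtain ⟨h1, h2⟩ := Prod.ext_iff.1 h
  simp only [cidx] at h1 h2 ⊢
  rw [key z.re, key z.im, key w.re, key w.im, h1, h2]

theorem cidx_close {r : ℝ} (hr : 0 < r) {i : ℕ} {z w : ℂ} (h : cidx r i z = cidx r i w) :
    |z.re - w.re| ≤ r ∧ |z.im - w.im| ≤ r := by
  have key : ∀ x y : ℝ, ⌊x / r - i / 3⌋ = ⌊y / r - i / 3⌋ → |x - y| ≤ r := fun x y h => by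
    have h1 := Int.abs_sub_lt_one_of_floor_eq_floor h
    rw [sub_sub_sub_cancel_right, ← sub_div, abs_div, abs_of_pos hr, div_lt_one hr] at h1
    exact h1.le
  obtain ⟨h1, h2⟩ := Prod.ext_iff.1 h
  exact ⟨key _ _ h1, key _ _ h2⟩

theorem grid_one (x : ℝ) : ∃ n : ℤ, ∀ i : ℕ, (∀ k : ℤ, n ≠ 3 * k + i) →
    ∀ y : ℝ, |y - x| ≤ 1 / 8 → ⌊y - i / 3⌋ = ⌊x - i / 3⌋ := by
  refine ⟨round (3 * x), fun i hi y hy => ?_⟩
  obtain ⟨a1, a2⟩ := abs_le.1 (abs_sub_round (3 * x))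
  obtain ⟨b1, b2⟩ := abs_le.1 hy
  have key : ∀ k : ℤ, x - 1 / 8 ≤ k + i / 3 → (k : ℝ) + i / 3 ≤ x + 1 / 8 → False := by
    intro k h1 h2
    have h3 : ((round (3 * x) : ℤ) : ℝ) < ((3 * k + i + 1 : ℤ) : ℝ) := by
      push_cast
      linarith
    have h4 : ((3 * k + i : ℤ) : ℝ) < ((round (3 * x) + 1 : ℤ) : ℝ) := by
      push_cast
      linarith
    have := Int.cast_lt.1 h3
    have := Int.cast_lt.1 h4
    exact hi k (by omega)
  have c1 := Int.floor_le (x - i / 3)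
  have c2 := Int.lt_floor_add_one (x - i / 3)
  have d1 := Int.floor_le (y - i / 3)
  have d2 := Int.lt_floor_add_one (y - i / 3)
  by_contra hne
  rcases lt_or_gt_of_ne hne with h | h
  · have : ((⌊y - i / 3⌋ + 1 : ℤ) : ℝ) ≤ ((⌊x - i / 3⌋ : ℤ) : ℝ) := Int.cast_le.2 h
    push_cast at this
    exact key ⌊x - i / 3⌋ (by linarith) (by linarith)
  · have : ((⌊x - i / 3⌋ + 1 : ℤ) : ℝ) ≤ ((⌊y - i / 3⌋ : ℤ) : ℝ) := Int.cast_le.2 h
    push_cast at this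
    exact key ⌊y - i / 3⌋ (by linarith) (by linarith)

theorem cidx_ball {r : ℝ} (hr : 0 < r) (z : ℂ) :
    ∃ i < 3, ∀ w : ℂ, ‖w - z‖ ≤ r / 8 → cidx r i w = cidx r i z := by
  obtain ⟨n, hn⟩ := grid_one (z.re / r)
  obtain ⟨m, hm⟩ := grid_one (z.im / r)
  obtain ⟨i, hi, h1, h2⟩ : ∃ i : ℕ, i < 3 ∧ n % 3 ≠ i ∧ m % 3 ≠ i := by
    by_cases h0 : n % 3 ≠ 0 ∧ m % 3 ≠ 0
    · exact ⟨0, by norm_num, h0⟩
    by_cases h1 : n % 3 ≠ 1 ∧ m % 3 ≠ 1
    · exact ⟨1, by norm_num, h1⟩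
    exact ⟨2, by norm_num, by omega, by omega⟩
  have key : ∀ x y : ℝ, |y - x| ≤ r / 8 → |y / r - x / r| ≤ 1 / 8 := fun x y h => by
    rw [← sub_div, abs_div, abs_of_pos hr, div_le_iff₀ hr]
    linarith
  refine ⟨i, hi, fun w hw => Prod.ext ?_ ?_⟩
  · exact hn i (fun k => by omega) _ (key _ _ ((Complex.abs_re_le_norm (w - z)).trans hw))
  · exact hm i (fun k => by omega) _ (key _ _ ((Complex.abs_im_le_norm (w - z)).trans hw))

/-- maximal activated cells of a nested family are paid by the total mass -/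
theorem charge {α β : Type*} [DecidableEq β] (G : Finset α) (π : ℕ → α → β)
    (hπ : ∀ k u v, π (k + 1) u = π (k + 1) v → π k u = π k v) (K : Finset ℕ) (thr : ℕ → ℝ)
    (V : α → ℝ) (hV : ∀ u ∈ G, 0 ≤ V u) :
    ∃ Mx : Finset (ℕ × β), (∀ e ∈ Mx, e.1 ∈ K) ∧
      (∀ k ∈ K, ∀ u ∈ G, thr k ≤ ∑ v ∈ G with π k v = π k u, V v →
        ∃ e ∈ Mx, e.1 ≤ k ∧ π e.1 u = e.2) ∧
      ∑ e ∈ Mx, thr e.1 ≤ ∑ u ∈ G, V u := by
  classical
  have nest : ∀ j k u v, j ≤ k → π k u = π k v → π j u = π j v := by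
    intro j k u v hjk
    induction k, hjk using Nat.le_induction with
    | base => exact id
    | succ k _ ih => exact fun h => ih (hπ k u v h)
  let act : α → Set ℕ := fun u => {k | k ∈ K ∧ thr k ≤ ∑ v ∈ G with π k v = π k u, V v}
  have hact : ∀ k u v, π k v = π k u → k ∈ act u → k ∈ act v := fun k u v h hk =>
    ⟨hk.1, by rw [h]; exact hk.2⟩
  let A : Finset α := G.filter fun u => (act u).Nonempty
  let F : α → ℕ × β := fun u => (sInf (act u), π (sInf (act u)) u)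
  have hA : ∀ u ∈ A, sInf (act u) ∈ act u := fun u hu => Nat.sInf_mem (Finset.mem_filter.1 hu).2
  refine ⟨A.image F, fun e he => ?_, fun k hk u hu h => ?_, ?_⟩
  · obtain ⟨u, hu, rfl⟩ := Finset.mem_image.1 he
    exact (hA u hu).1
  · have hku : k ∈ act u := ⟨hk, h⟩
    exact ⟨F u, Finset.mem_image_of_mem F (Finset.mem_filter.2 ⟨hu, k, hku⟩), Nat.sInf_le hku, rfl⟩
  refine le_trans ?_ (Finset.sum_le_sum_of_subset_of_nonneg (Finset.filter_subset _ G)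
    (fun u hu _ => hV u hu) : ∑ u ∈ A, V u ≤ _)
  rw [← Finset.sum_fiberwise_of_maps_to (fun u hu => Finset.mem_image_of_mem F hu) V]
  refine Finset.sum_le_sum fun e he => ?_
  obtain ⟨u, hu, rfl⟩ := Finset.mem_image.1 he
  refine (hA u hu).2.trans (Finset.sum_le_sum_of_subset_of_nonneg (fun v hv => ?_) fun v hv _ =>
    hV v (Finset.mem_filter.1 (Finset.mem_filter.1 hv).1).1)
  obtain ⟨hv, hvu⟩ := Finset.mem_filter.1 hv
  have h1 := hact _ u v hvu (hA u hu)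
  have hvA : v ∈ A := Finset.mem_filter.2 ⟨hv, _, h1⟩
  have h2 : sInf (act v) ≤ sInf (act u) := Nat.sInf_le h1
  have h3 : sInf (act v) = sInf (act u) := le_antisymm h2
    (Nat.sInf_le (hact _ v u (nest _ _ _ _ h2 hvu).symm (hA v hvA)))
  refine Finset.mem_filter.2 ⟨hvA, Prod.ext h3 ?_⟩
  show π (sInf (act v)) v = π (sInf (act u)) u
  rw [h3, hvu]

end Vale.Agent.P164
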