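import Mathlib

/-! P164: mean value steps and derivative formulas for the Taylor lemmas of `Jet`. -/

namespace Vale.Agent.P164

open Set

theorem jeta_step {F F' : ℝ → ℝ} {C H : ℝ} {n : ℕ} (hd : ∀ x, HasDerivAt F (F' x) x) (h0 : F 0 = 0)
    (hC : 0 ≤ C) (hb : ∀ x, |x| ≤ H → |F' x| ≤ C * |x| ^ n) :
    ∀ x, |x| ≤ H → |F x| ≤ C * |x| ^ (n + 1) := by
  intro x hx
  have h := (convex_Icc (-|x|) |x|).norm_image_sub_le_of_norm_hasDerivWithin_le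
    (f := F) (f' := F') (C := C * |x| ^ n) (x := 0) (y := x)
    (fun y _ => (hd y).hasDerivWithinAt)
    (fun y hy => by
      have hy' : |y| ≤ |x| := abs_le.2 hy
      exact (hb y (hy'.trans hx)).trans (by gcongr))
    ⟨neg_nonpos.2 (abs_nonneg x), abs_nonneg x⟩ (abs_le.1 le_rfl)
  rw [h0, sub_zero, sub_zero, Real.norm_eq_abs, Real.norm_eq_abs] at h
  rw [pow_succ, ← mul_assoc]
  exact h

theorem jeta_taylor {φ φ1 φ2 φ3 : ℝ → ℝ} (h1 : ∀ x, HasDerivAt φ (φ1 x) x)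
    (h2 : ∀ x, HasDerivAt φ1 (φ2 x) x) (h3 : ∀ x, HasDerivAt φ2 (φ3 x) x) {a K H : ℝ} (hK : 0 ≤ K)
    (hb : ∀ h : ℝ, |h| ≤ H → |φ3 (a + h)| ≤ K) (h : ℝ) (hh : |h| ≤ H) :
    |φ (a + h) - (φ a + φ1 a * h + φ2 a / 2 * h ^ 2)| ≤ K * |h| ^ 3 := by
  have s2 := jeta_step (F := fun x => φ2 (a + x) - φ2 a) (F' := fun x => φ3 (a + x)) (n := 0)
    (fun x => ((h3 (a + x)).comp_const_add a x).sub_const _) (by simp) hK
    (fun x hx => by simpa using hb x hx)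
  have s1 := jeta_step (F := fun x => φ1 (a + x) - (φ1 a + φ2 a * x))
    (F' := fun x => φ2 (a + x) - φ2 a)
    (fun x => (((h2 (a + x)).comp_const_add a x).fun_sub
      (((hasDerivAt_id' x).const_mul (φ2 a)).const_add (φ1 a))).congr_deriv (by ring))
    (by simp) hK s2
  exact jeta_step (F := fun x => φ (a + x) - (φ a + φ1 a * x + φ2 a / 2 * x ^ 2))
    (F' := fun x => φ1 (a + x) - (φ1 a + φ2 a * x))
    (fun x => (((h1 (a + x)).comp_const_add a x).fun_sub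
      ((((hasDerivAt_id' x).const_mul (φ1 a)).const_add (φ a)).fun_add
        ((hasDerivAt_pow 2 x).const_mul (φ2 a / 2)))).congr_deriv (by push_cast; ring))
    (by simp) hK s1 h hh

theorem jeta_u (t : ℝ) : HasDerivAt (fun t : ℝ => 1 + t ^ 2) (2 * t) t :=
  ((hasDerivAt_pow 2 t).const_add 1).congr_deriv (by push_cast; ring)

theorem jeta_v (t : ℝ) : HasDerivAt (fun t : ℝ => 1 - t ^ 2) (-(2 * t)) t :=
  ((hasDerivAt_pow 2 t).const_sub 1).congr_deriv (by push_cast; ring)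

theorem jeta_log1 (t : ℝ) :
    HasDerivAt (fun t : ℝ => Real.log (1 + t ^ 2)) (2 * t / (1 + t ^ 2)) t :=
  (jeta_u t).log (by positivity)

theorem jeta_log2 (t : ℝ) :
    HasDerivAt (fun t : ℝ => 2 * t / (1 + t ^ 2)) (2 * (1 - t ^ 2) / (1 + t ^ 2) ^ 2) t :=
  (((hasDerivAt_id' t).const_mul 2).fun_div (jeta_u t) (by positivity)).congr_deriv (by ring)

theorem jeta_log3 (t : ℝ) : HasDerivAt (fun t : ℝ => 2 * (1 - t ^ 2) / (1 + t ^ 2) ^ 2)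
    ((4 * t ^ 3 - 12 * t) / (1 + t ^ 2) ^ 3) t := by
  have h : (1 + t ^ 2 : ℝ) ≠ 0 := by positivity
  refine (((jeta_v t).const_mul 2).fun_div ((jeta_u t).fun_pow 2) (pow_ne_zero 2 h)).congr_deriv ?_
  push_cast
  field_simp
  ring

theorem jeta_logb (t : ℝ) : |2 * t / (1 + t ^ 2)| ≤ 16 ∧ |2 * (1 - t ^ 2) / (1 + t ^ 2) ^ 2| ≤ 16 ∧
    |(4 * t ^ 3 - 12 * t) / (1 + t ^ 2) ^ 3| ≤ 16 := by
  have h1 : (1 : ℝ) ≤ 1 + t ^ 2 := by nlinarith [sq_nonneg t]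
  have h2 : |t| ≤ 1 + t ^ 2 := by nlinarith [sq_nonneg (|t| - 1), sq_abs t, sq_nonneg t]
  have h3 : |t| ^ 3 ≤ (1 + t ^ 2) ^ 3 := pow_le_pow_left₀ (abs_nonneg t) h2 3
  have h4 : 1 + t ^ 2 ≤ (1 + t ^ 2) ^ 3 := le_self_pow₀ h1 (by norm_num)
  have h5 : 1 + t ^ 2 ≤ (1 + t ^ 2) ^ 2 := le_self_pow₀ h1 (by norm_num)
  refine ⟨?_, ?_, ?_⟩
  · rw [abs_div, abs_of_pos (by positivity : (0 : ℝ) < 1 + t ^ 2), div_le_iff₀ (by positivity),
      abs_mul, abs_two]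
    linarith
  · rw [abs_div, abs_of_pos (by positivity : (0 : ℝ) < (1 + t ^ 2) ^ 2),
      div_le_iff₀ (by positivity), abs_le]
    constructor <;> nlinarith [sq_nonneg t]
  · rw [abs_div, abs_of_pos (by positivity : (0 : ℝ) < (1 + t ^ 2) ^ 3),
      div_le_iff₀ (by positivity), abs_le]
    have h6 := abs_le.1 ((abs_pow t 3).le.trans h3)
    have h7 := abs_le.1 (h2.trans h4)
    constructor <;> linarith [h6.1, h6.2, h7.1, h7.2]

theorem jeta_s (t : ℝ) : HasDerivAt (fun t : ℝ => √(1 + t ^ 2)) (t / √(1 + t ^ 2)) t :=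
  ((jeta_u t).sqrt (by positivity)).congr_deriv (by ring)

theorem jeta_ar1 (t : ℝ) : HasDerivAt Real.arsinh (1 / √(1 + t ^ 2)) t :=
  (Real.hasDerivAt_arsinh t).congr_deriv (one_div _).symm

theorem jeta_ar2 (t : ℝ) :
    HasDerivAt (fun t : ℝ => 1 / √(1 + t ^ 2)) (-t / √(1 + t ^ 2) ^ 3) t := by
  have h : √(1 + t ^ 2) ≠ 0 := by positivity
  refine ((hasDerivAt_const t 1).fun_div (jeta_s t) h).congr_deriv ?_
  field_simp
  ring

theorem jeta_ar3 (t : ℝ) : HasDerivAt (fun t : ℝ => -t / √(1 + t ^ 2) ^ 3)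
    ((3 * t ^ 2 - √(1 + t ^ 2) ^ 2) / √(1 + t ^ 2) ^ 5) t := by
  have h : √(1 + t ^ 2) ≠ 0 := by positivity
  refine ((hasDerivAt_neg' t).fun_div ((jeta_s t).fun_pow 3) (pow_ne_zero 3 h)).congr_deriv ?_
  generalize √(1 + t ^ 2) = s at h
  push_cast
  field_simp
  ring

theorem jeta_arb (t : ℝ) : |1 / √(1 + t ^ 2)| ≤ 4 ∧ |-t / √(1 + t ^ 2) ^ 3| ≤ 4 ∧
    |(3 * t ^ 2 - √(1 + t ^ 2) ^ 2) / √(1 + t ^ 2) ^ 5| ≤ 4 := by
  have h0 : √(1 + t ^ 2) ^ 2 = 1 + t ^ 2 := Real.sq_sqrt (by positivity)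
  have h1 : 1 ≤ √(1 + t ^ 2) := Real.one_le_sqrt.2 (by nlinarith [sq_nonneg t])
  have h2 : |t| ≤ √(1 + t ^ 2) := Real.abs_le_sqrt (by linarith)
  generalize √(1 + t ^ 2) = s at h0 h1 h2
  have hs : 0 < s := by linarith
  have h3 : s ≤ s ^ 3 := le_self_pow₀ h1 (by norm_num)
  have h4 : s ^ 2 ≤ s ^ 5 := pow_le_pow_right₀ h1 (by norm_num)
  refine ⟨?_, ?_, ?_⟩
  · rw [abs_div, abs_of_pos hs, div_le_iff₀ hs, abs_one]
    linarith
  · rw [abs_div, abs_of_pos (pow_pos hs 3), div_le_iff₀ (pow_pos hs 3), abs_neg]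
    linarith
  · rw [abs_div, abs_of_pos (pow_pos hs 5), div_le_iff₀ (pow_pos hs 5), abs_le]
    constructor <;> nlinarith [sq_nonneg t]

theorem jeta_p1 (z : ℝ) : HasDerivAt (fun z : ℝ => (1 - z ^ 2) ^ 3) (-6 * z * (1 - z ^ 2) ^ 2) z :=
  ((jeta_v z).fun_pow 3).congr_deriv (by push_cast; ring)

theorem jeta_p2 (z : ℝ) : HasDerivAt (fun z : ℝ => -6 * z * (1 - z ^ 2) ^ 2)
    (24 * z ^ 2 * (1 - z ^ 2) - 6 * (1 - z ^ 2) ^ 2) z :=
  (((hasDerivAt_id' z).const_mul (-6)).fun_mul ((jeta_v z).fun_pow 2)).congr_deriv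
    (by push_cast; ring)

theorem jeta_p3 (z : ℝ) : HasDerivAt (fun z : ℝ => 24 * z ^ 2 * (1 - z ^ 2) - 6 * (1 - z ^ 2) ^ 2)
    (72 * z - 120 * z ^ 3) z :=
  ((((hasDerivAt_pow 2 z).const_mul 24).fun_mul (jeta_v z)).fun_sub
    (((jeta_v z).fun_pow 2).const_mul 6)).congr_deriv (by push_cast; ring)

theorem jeta_bd {φ : ℝ → ℝ} (h : Continuous φ) (M : ℝ) : ∃ K, ∀ z, |z| ≤ M → |φ z| ≤ K := by
  obtain ⟨K, hK⟩ := (isCompact_Icc (a := -M) (b := M)).exists_bound_of_continuousOn h.continuousOn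
  exact ⟨K, fun z hz => hK z (abs_le.1 hz)⟩

theorem jeta_max {a h H : ℝ} (ha : |a| ≤ 1) (hh : |h| ≤ H) :
    |max (1 - (a + h) ^ 2) 0 ^ 3 - (1 - (a + h) ^ 2) ^ 3| ≤ (2 + H) ^ 3 * |h| ^ 3 := by
  have hH : 0 ≤ H := (abs_nonneg h).trans hh
  rcases le_total 0 (1 - (a + h) ^ 2) with h0 | h0
  · rw [max_eq_left h0, sub_self, abs_zero]
    positivity
  · rw [max_eq_right h0, zero_pow (by norm_num), zero_sub, abs_neg, abs_pow, abs_of_nonpos h0,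
      ← mul_pow]
    refine pow_le_pow_left₀ (by linarith) ?_ 3
    have h1 : a * h ≤ |h| := by
      refine (le_abs_self _).trans ?_
      rw [abs_mul]
      exact mul_le_of_le_one_left (abs_nonneg h) ha
    have h2 : a ^ 2 ≤ 1 := by rw [← sq_abs]; exact pow_le_one₀ (abs_nonneg a) ha
    have h3 : h ^ 2 ≤ H * |h| := by
      rw [← sq_abs, sq]
      exact mul_le_mul_of_nonneg_right hh (abs_nonneg h)
    nlinarith

end Vale.Agent.P164
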