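import Vale.Agent.P164.Prob
import Vale.Agent.P164.JetAAux

namespace Vale.Agent.P164

open Set MeasureTheory

/-- second order Taylor expansion with cubic remainder, uniformly at the points of `A` -/
def T3 (A : Set ℝ) (φ φ1 φ2 : ℝ → ℝ) : Prop :=
  ∀ H : ℝ, ∃ K : ℝ, ∀ a ∈ A, |φ1 a| ≤ K ∧ |φ2 a| ≤ K ∧ ∀ h : ℝ, |h| ≤ H →
    |φ (a + h) - (φ a + φ1 a * h + φ2 a / 2 * h ^ 2)| ≤ K * |h| ^ 3

theorem T3.of_deriv {A : Set ℝ} {φ φ1 φ2 φ3 : ℝ → ℝ} (h1 : ∀ x, HasDerivAt φ (φ1 x) x)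
    (h2 : ∀ x, HasDerivAt φ1 (φ2 x) x) (h3 : ∀ x, HasDerivAt φ2 (φ3 x) x)
    (hb : ∀ H : ℝ, ∃ K : ℝ, ∀ a ∈ A, |φ1 a| ≤ K ∧ |φ2 a| ≤ K ∧ ∀ h : ℝ, |h| ≤ H → |φ3 (a + h)| ≤ K) :
    T3 A φ φ1 φ2 := by
  intro H
  obtain ⟨K, hK⟩ := hb H
  exact ⟨K, fun a ha => ⟨(hK a ha).1, (hK a ha).2.1,
    jeta_taylor h1 h2 h3 ((abs_nonneg _).trans (hK a ha).1) (hK a ha).2.2⟩⟩

theorem T3_exp (K : ℝ) : T3 (Iic K) Real.exp Real.exp Real.exp := by
  refine T3.of_deriv Real.hasDerivAt_exp Real.hasDerivAt_exp Real.hasDerivAt_exp fun H =>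
    ⟨Real.exp (K + |H|), fun a ha => ?_⟩
  have ha' : a ≤ K := ha
  have e : ∀ x, x ≤ K + |H| → |Real.exp x| ≤ Real.exp (K + |H|) := fun x hx => by
    rw [abs_of_pos (Real.exp_pos x)]
    exact Real.exp_le_exp.2 hx
  have h0 := abs_nonneg H
  exact ⟨e a (by linarith), e a (by linarith), fun h hh =>
    e _ (by linarith [le_abs_self h, le_abs_self H])⟩

theorem T3_log : T3 univ (fun t => Real.log (1 + t ^ 2)) (fun t => 2 * t / (1 + t ^ 2))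
    (fun t => 2 * (1 - t ^ 2) / (1 + t ^ 2) ^ 2) := by
  exact T3.of_deriv jeta_log1 jeta_log2 jeta_log3 fun _ =>
    ⟨16, fun a _ => ⟨(jeta_logb a).1, (jeta_logb a).2.1, fun _ _ => (jeta_logb _).2.2⟩⟩

theorem T3_arsinh : T3 univ Real.arsinh (fun t => 1 / √(1 + t ^ 2))
    (fun t => -t / √(1 + t ^ 2) ^ 3) := by
  exact T3.of_deriv jeta_ar1 jeta_ar2 jeta_ar3 fun _ =>
    ⟨4, fun a _ => ⟨(jeta_arb a).1, (jeta_arb a).2.1, fun _ _ => (jeta_arb _).2.2⟩⟩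

noncomputable def bump (z : ℝ) : ℝ := max (1 - z ^ 2) 0 ^ 3

theorem T3_bump : T3 (Icc (-1) 1) bump (fun z => -6 * z * (1 - z ^ 2) ^ 2)
    (fun z => 24 * z ^ 2 * (1 - z ^ 2) - 6 * (1 - z ^ 2) ^ 2) := by
  intro H
  obtain ⟨K1, k1⟩ := jeta_bd (φ := fun z => -6 * z * (1 - z ^ 2) ^ 2) (by fun_prop) 1
  obtain ⟨K2, k2⟩ := jeta_bd (φ := fun z => 24 * z ^ 2 * (1 - z ^ 2) - 6 * (1 - z ^ 2) ^ 2)
    (by fun_prop) 1
  obtain ⟨K3, k3⟩ := jeta_bd (φ := fun z => 72 * z - 120 * z ^ 3) (by fun_prop) (1 + H)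
  refine ⟨|K1| + |K2| + (|K3| + |2 + H| ^ 3), fun a ha => ?_⟩
  have ha' : |a| ≤ 1 := abs_le.2 ha
  have p1 := abs_nonneg K1
  have p2 := abs_nonneg K2
  have p3 := abs_nonneg K3
  have p4 : 0 ≤ |2 + H| ^ 3 := by positivity
  refine ⟨by linarith [k1 a ha', le_abs_self K1], by linarith [k2 a ha', le_abs_self K2],
    fun h hh => ?_⟩
  have t := jeta_taylor jeta_p1 jeta_p2 jeta_p3 (a := a) (H := H) p3 (fun x hx =>
    (k3 _ ((abs_add_le a x).trans (add_le_add ha' hx))).trans (le_abs_self K3)) h hh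
  have m := jeta_max ha' hh
  have h2 : 0 ≤ 1 - a ^ 2 := by
    rw [← sq_abs]
    exact sub_nonneg.2 (pow_le_one₀ (abs_nonneg a) ha')
  have hH : 0 ≤ 2 + H := by linarith [abs_nonneg h]
  have p5 : 0 ≤ (|K1| + |K2|) * |h| ^ 3 := by positivity
  simp only [bump, max_eq_left h2]
  rw [abs_of_nonneg hH]
  refine (abs_sub_le _ ((1 - (a + h) ^ 2) ^ 3) _).trans ?_
  linarith

/-- `G i η ξ = g + n ξ + q ξ^2 + d η^2 + O(|ξ|^3 + η^3)` uniformly in `i ∈ R`, with generator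
value `L = κ q + d` -/
def Jt (κ : ℝ) {ι : Type*} (R : Set ι) (G : ι → ℝ → ℝ → ℝ) (g n L : ι → ℝ) : Prop :=
  ∃ (q d : ι → ℝ) (C : ℝ), ∀ i ∈ R, L i = κ * q i + d i ∧ |n i| ≤ C ∧ |q i| ≤ C ∧ |d i| ≤ C ∧
    ∀ η ∈ Ioc (0 : ℝ) 1, ∀ ξ : ℝ, |ξ| ≤ 1 →
      |G i η ξ - (g i + n i * ξ + q i * ξ ^ 2 + d i * η ^ 2)| ≤ C * (|ξ| ^ 3 + η ^ 3)

/-- uniformly bounded on `R` -/
def Bd {ι : Type*} (R : Set ι) (g : ι → ℝ) : Prop := ∃ C : ℝ, ∀ i ∈ R, |g i| ≤ C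

variable {κ : ℝ} {ι : Type*} {R : Set ι} {G G' : ι → ℝ → ℝ → ℝ} {g n L g' n' L' : ι → ℝ}

theorem jetBd_add {a b : ι → ℝ} (ha : Bd R a) (hb : Bd R b) : Bd R fun i => a i + b i := by
  obtain ⟨C, ha⟩ := ha
  obtain ⟨D, hb⟩ := hb
  exact ⟨C + D, fun i hi => (abs_add_le _ _).trans (add_le_add (ha i hi) (hb i hi))⟩

theorem jetBd_mul {a b : ι → ℝ} (ha : Bd R a) (hb : Bd R b) : Bd R fun i => a i * b i := by
  obtain ⟨C, ha⟩ := ha
  obtain ⟨D, hb⟩ := hb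
  exact ⟨C * D, fun i hi => (abs_mul _ _).trans_le
    (mul_le_mul (ha i hi) (hb i hi) (abs_nonneg _) ((abs_nonneg _).trans (ha i hi)))⟩

theorem jetBd_const (c : ℝ) : Bd R fun _ => c := ⟨|c|, fun _ _ => le_rfl⟩

theorem jetB_of (q d : ι → ℝ) (hL : ∀ i ∈ R, L i = κ * q i + d i) (hn : Bd R n) (hq : Bd R q)
    (hd : Bd R d) (C : ℝ) (hr : ∀ i ∈ R, ∀ η ∈ Ioc (0 : ℝ) 1, ∀ ξ : ℝ, |ξ| ≤ 1 →
      |G i η ξ - (g i + n i * ξ + q i * ξ ^ 2 + d i * η ^ 2)| ≤ C * (|ξ| ^ 3 + η ^ 3)) :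
    Jt κ R G g n L := by
  obtain ⟨C1, hn⟩ := hn
  obtain ⟨C2, hq⟩ := hq
  obtain ⟨C3, hd⟩ := hd
  refine ⟨q, d, max (max C1 C2) (max C3 C), fun i hi => ⟨hL i hi,
    (hn i hi).trans ((le_max_left _ _).trans (le_max_left _ _)),
    (hq i hi).trans ((le_max_right _ _).trans (le_max_left _ _)),
    (hd i hi).trans ((le_max_left _ _).trans (le_max_right _ _)), fun η hη ξ hξ =>
    (hr i hi η hη ξ hξ).trans (mul_le_mul_of_nonneg_right
      ((le_max_right _ _).trans (le_max_right _ _)) ?_)⟩⟩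
  have := hη.1
  positivity

theorem jetB_core {C n q d η ξ G g : ℝ} (hn : |n| ≤ C) (hq : |q| ≤ C) (hd : |d| ≤ C)
    (hη : η ∈ Ioc (0 : ℝ) 1) (hξ : |ξ| ≤ 1)
    (hr : |G - (g + n * ξ + q * ξ ^ 2 + d * η ^ 2)| ≤ C * (|ξ| ^ 3 + η ^ 3)) :
    |n * ξ| ≤ C * max |ξ| η ∧ |G - g - n * ξ| ≤ 4 * C * max |ξ| η ^ 2 ∧
      |G - g| ≤ 5 * C * max |ξ| η := by
  have C0 : 0 ≤ C := (abs_nonneg _).trans hn
  have h1 : |ξ| ≤ max |ξ| η := le_max_left _ _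
  have h2 : η ≤ max |ξ| η := le_max_right _ _
  have h3 : max |ξ| η ≤ 1 := max_le hξ hη.2
  have h0 := hη.1
  generalize max |ξ| η = ρ at h1 h2 h3
  have ρ0 : 0 ≤ ρ := h0.le.trans h2
  have a1 : |n * ξ| ≤ C * ρ := by rw [abs_mul]; gcongr
  have a2 : |q * ξ ^ 2| ≤ C * ρ ^ 2 := by rw [abs_mul, abs_pow]; gcongr
  have a3 : |d * η ^ 2| ≤ C * ρ ^ 2 := by rw [abs_mul, abs_pow, abs_of_pos h0]; gcongr
  have a4 : C * (|ξ| ^ 3 + η ^ 3) ≤ C * (ρ ^ 3 + ρ ^ 3) := by gcongr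
  have a5 : C * ρ ^ 3 ≤ C * ρ ^ 2 :=
    mul_le_mul_of_nonneg_left (pow_le_pow_of_le_one ρ0 h3 (by norm_num)) C0
  have a6 : C * ρ ^ 2 ≤ C * ρ := mul_le_mul_of_nonneg_left (by nlinarith) C0
  have b := abs_le.1 hr
  have b1 := abs_le.1 a1
  have b2 := abs_le.1 a2
  have b3 := abs_le.1 a3
  exact ⟨a1, abs_le.2 ⟨by linarith, by linarith⟩, abs_le.2 ⟨by linarith, by linarith⟩⟩

theorem jetB_cube {η : ℝ} (ξ : ℝ) (hη : 0 < η) : max |ξ| η ^ 3 ≤ |ξ| ^ 3 + η ^ 3 := by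
  rcases le_total |ξ| η with h | h
  · rw [max_eq_right h]
    exact le_add_of_nonneg_left (by positivity)
  · rw [max_eq_left h]
    exact le_add_of_nonneg_right (by positivity)

theorem jetB_prod {a a' p p' C C' ρ : ℝ} (h1 : |p| ≤ C * ρ) (h2 : |a - p| ≤ 4 * C * ρ ^ 2)
    (h2' : |a' - p'| ≤ 4 * C' * ρ ^ 2) (h3' : |a'| ≤ 5 * C' * ρ) :
    |a * a' - p * p'| ≤ 24 * C * C' * ρ ^ 3 := by
  rw [show a * a' - p * p' = (a - p) * a' + p * (a' - p') by ring]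
  refine (abs_add_le _ _).trans ?_
  rw [abs_mul, abs_mul]
  have k1 := mul_le_mul h2 h3' (abs_nonneg _) ((abs_nonneg _).trans h2)
  have k2 := mul_le_mul h1 h2' (abs_nonneg _) ((abs_nonneg _).trans h1)
  linarith

theorem jetB_gs (hκ : 0 < κ) (η : ℝ) : gs κ η = (gs κ 1).map (η * ·) := by
  rw [gs, gs, ProbabilityTheory.gaussianReal_map_const_mul, mul_zero]
  congr 1
  ext
  rw [NNReal.coe_mul, Real.coe_toNNReal _ (by positivity), Real.coe_toNNReal _ (by positivity),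
    NNReal.coe_mk]
  ring

theorem jetB_int (κ η : ℝ) (k : ℕ) : Integrable (fun ξ : ℝ => |ξ| ^ k) (gs κ η) := by
  have := (ProbabilityTheory.memLp_id_gaussianReal' (μ := 0) (v := (κ * η ^ 2).toNNReal) k
    (by simp)).integrable_norm_pow'
  exact this

theorem jetB_int1 (κ η : ℝ) : Integrable (fun ξ : ℝ => ξ) (gs κ η) :=
  (jetB_int κ η 1).mono' measurable_id.aestronglyMeasurable
    (Filter.Eventually.of_forall fun ξ => by simp)

theorem jetB_int2 (κ η : ℝ) : Integrable (fun ξ : ℝ => ξ ^ 2) (gs κ η) := by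
  simpa only [sq_abs] using jetB_int κ η 2

theorem jetB_m1 (κ η : ℝ) : ∫ ξ, ξ ∂gs κ η = 0 := ProbabilityTheory.integral_id_gaussianReal

theorem jetB_m2 (hκ : 0 < κ) (η : ℝ) : ∫ ξ, ξ ^ 2 ∂gs κ η = κ * η ^ 2 := by
  have := ProbabilityTheory.variance_fun_id_gaussianReal (μ := 0) (v := (κ * η ^ 2).toNNReal)
  rw [ProbabilityTheory.variance_eq_integral measurable_id'.aemeasurable,
    ProbabilityTheory.integral_id_gaussianReal, Real.coe_toNNReal _ (by positivity)] at this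
  simpa only [sub_zero, gs] using this

theorem jetB_m3 (hκ : 0 < κ) {η : ℝ} (hη : 0 < η) :
    ∫ ξ, |ξ| ^ 3 ∂gs κ η = (∫ ξ, |ξ| ^ 3 ∂gs κ 1) * η ^ 3 := by
  rw [jetB_gs hκ η, integral_map (by fun_prop) (by fun_prop), ← integral_mul_const]
  refine integral_congr_ae (Filter.Eventually.of_forall fun ξ => ?_)
  simp only [abs_mul, abs_of_pos hη]
  ring

theorem Jt.congr (h : Jt κ R G g n L) (hG : ∀ i ∈ R, ∀ η ∈ Ioc (0 : ℝ) 1, ∀ ξ, G' i η ξ = G i η ξ)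
    (hg : ∀ i ∈ R, g' i = g i) (hn : ∀ i ∈ R, n' i = n i) (hL : ∀ i ∈ R, L' i = L i) :
    Jt κ R G' g' n' L' := by
  obtain ⟨q, d, C, h⟩ := h
  refine ⟨q, d, C, fun i hi => ?_⟩
  rw [hg i hi, hn i hi, hL i hi]
  refine ⟨(h i hi).1, (h i hi).2.1, (h i hi).2.2.1, (h i hi).2.2.2.1, fun η hη ξ hξ => ?_⟩
  rw [hG i hi η hη]
  exact (h i hi).2.2.2.2 η hη ξ hξ

/-- reindexing -/
theorem Jt.comap {ι' : Type*} {R' : Set ι'} (h : Jt κ R G g n L) (f : ι' → ι)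
    (hf : ∀ i ∈ R', f i ∈ R) :
    Jt κ R' (fun i => G (f i)) (fun i => g (f i)) (fun i => n (f i)) (fun i => L (f i)) := by
  obtain ⟨q, d, C, h⟩ := h
  exact ⟨fun i => q (f i), fun i => d (f i), C, fun i hi => h (f i) (hf i hi)⟩

/-- deterministic linear motion -/
theorem Jt.lin {d : ι → ℝ} (hd : Bd R d) :
    Jt κ R (fun i η _ => g i + d i * η ^ 2) g (fun _ => 0) d := by
  exact jetB_of (fun _ => 0) d (fun i _ => by simp) (jetBd_const 0) (jetBd_const 0) hd 0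
    fun i _ η _ ξ _ => by simp

theorem Jt.add (h : Jt κ R G g n L) (h' : Jt κ R G' g' n' L') :
    Jt κ R (fun i η ξ => G i η ξ + G' i η ξ) (fun i => g i + g' i) (fun i => n i + n' i)
      (fun i => L i + L' i) := by
  obtain ⟨q, d, C, h⟩ := h
  obtain ⟨q', d', C', h'⟩ := h'
  refine ⟨fun i => q i + q' i, fun i => d i + d' i, C + C', fun i hi => ?_⟩
  obtain ⟨a1, a2, a3, a4, a5⟩ := h i hi
  obtain ⟨b1, b2, b3, b4, b5⟩ := h' i hi
  refine ⟨by simp only [a1, b1]; ring, (abs_add_le _ _).trans (add_le_add a2 b2),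
    (abs_add_le _ _).trans (add_le_add a3 b3), (abs_add_le _ _).trans (add_le_add a4 b4),
    fun η hη ξ hξ => ?_⟩
  have k1 := abs_le.1 (a5 η hη ξ hξ)
  have k2 := abs_le.1 (b5 η hη ξ hξ)
  exact abs_le.2 ⟨by linarith, by linarith⟩

theorem Jt.smul {c : ι → ℝ} (hc : Bd R c) (h : Jt κ R G g n L) :
    Jt κ R (fun i η ξ => c i * G i η ξ) (fun i => c i * g i) (fun i => c i * n i)
      (fun i => c i * L i) := by
  obtain ⟨q, d, C, h⟩ := h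
  obtain ⟨D, hc⟩ := hc
  have k : ∀ i ∈ R, ∀ x y : ℝ, |x| ≤ y → |c i * x| ≤ D * y := fun i hi x y hx =>
    (abs_mul _ _).trans_le (mul_le_mul (hc i hi) hx (abs_nonneg _) ((abs_nonneg _).trans (hc i hi)))
  refine ⟨fun i => c i * q i, fun i => c i * d i, D * C, fun i hi => ?_⟩
  obtain ⟨a1, a2, a3, a4, a5⟩ := h i hi
  refine ⟨by simp only [a1]; ring, k i hi _ _ a2, k i hi _ _ a3, k i hi _ _ a4, fun η hη ξ hξ => ?_⟩
  have k1 := abs_le.1 (k i hi _ _ (a5 η hη ξ hξ))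
  exact abs_le.2 ⟨by linarith, by linarith⟩

theorem Jt.sum {α : Type*} (s : Finset α) {G : α → ι → ℝ → ℝ → ℝ} {g n L : α → ι → ℝ}
    (h : ∀ a ∈ s, Jt κ R (G a) (g a) (n a) (L a)) :
    Jt κ R (fun i η ξ => ∑ a ∈ s, G a i η ξ) (fun i => ∑ a ∈ s, g a i) (fun i => ∑ a ∈ s, n a i)
      (fun i => ∑ a ∈ s, L a i) := by
  classical
  induction s using Finset.induction_on with
  | empty =>
    exact jetB_of (fun _ => 0) (fun _ => 0) (fun i _ => by simp) (jetBd_const _) (jetBd_const 0)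
      (jetBd_const 0) 0 fun i _ η _ ξ _ => by simp
  | insert a s ha ih =>
    simp only [Finset.sum_insert ha]
    exact (h a (Finset.mem_insert_self _ _)).add
      (ih fun b hb => h b (Finset.mem_insert_of_mem hb))

theorem Jt.comp {A : Set ℝ} {φ φ1 φ2 : ℝ → ℝ} (hφ : T3 A φ φ1 φ2) (h : Jt κ R G g n L)
    (hA : ∀ i ∈ R, g i ∈ A) :
    Jt κ R (fun i η ξ => φ (G i η ξ)) (fun i => φ (g i)) (fun i => φ1 (g i) * n i)
      (fun i => φ1 (g i) * L i + κ / 2 * φ2 (g i) * n i ^ 2) := by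
  obtain ⟨q, d, C, h⟩ := h
  obtain ⟨K, hK⟩ := hφ (5 * C)
  have b1 : Bd R fun i => φ1 (g i) := ⟨K, fun i hi => (hK _ (hA i hi)).1⟩
  have b2 : Bd R fun i => φ2 (g i) := ⟨K, fun i hi => (hK _ (hA i hi)).2.1⟩
  have bn : Bd R n := ⟨C, fun i hi => (h i hi).2.1⟩
  have bq : Bd R q := ⟨C, fun i hi => (h i hi).2.2.1⟩
  have bd : Bd R d := ⟨C, fun i hi => (h i hi).2.2.2.1⟩
  refine jetB_of (fun i => φ1 (g i) * q i + 1 / 2 * φ2 (g i) * (n i * n i)) (fun i => φ1 (g i) * d i)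
    (fun i hi => by simp only [(h i hi).1]; ring) (jetBd_mul b1 bn)
    (jetBd_add (jetBd_mul b1 bq) (jetBd_mul (jetBd_mul (jetBd_const _) b2) (jetBd_mul bn bn))) (jetBd_mul b1 bd)
    (K * C + 12 * K * C * C + 125 * K * C ^ 3) fun i hi η hη ξ hξ => ?_
  obtain ⟨-, a2, a3, a4, a5⟩ := h i hi
  obtain ⟨k1, k2, k3⟩ := hK _ (hA i hi)
  have C0 : 0 ≤ C := (abs_nonneg _).trans a2
  have K0 : 0 ≤ K := (abs_nonneg _).trans k1
  have r := a5 η hη ξ hξ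
  obtain ⟨c1, c2, c3⟩ := jetB_core a2 a3 a4 hη hξ r
  have c4 := jetB_cube ξ hη.1
  have c5 := jetB_prod c1 c2 c2 c3
  have ρ1 : max |ξ| η ≤ 1 := max_le hξ hη.2
  have e := k3 _ (c3.trans (mul_le_of_le_one_right (by positivity) ρ1))
  rw [add_sub_cancel] at e
  have e1 : K * |G i η ξ - g i| ^ 3 ≤ K * (5 * C * max |ξ| η) ^ 3 := by gcongr
  have e2 := (abs_mul _ _).trans_le (mul_le_mul k1 r (abs_nonneg _) K0)
  have e3 := (abs_mul _ _).trans_le (mul_le_mul k2 c5 (abs_nonneg _) K0)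
  have e4 := mul_le_mul_of_nonneg_left c4
    (show 0 ≤ 12 * K * C * C + 125 * K * C ^ 3 by positivity)
  have f := abs_le.1 e
  have f2 := abs_le.1 e2
  have f3 := abs_le.1 e3
  exact abs_le.2 ⟨by linarith, by linarith⟩

theorem Jt.mul (h : Jt κ R G g n L) (h' : Jt κ R G' g' n' L') (hg : Bd R g) (hg' : Bd R g') :
    Jt κ R (fun i η ξ => G i η ξ * G' i η ξ) (fun i => g i * g' i)
      (fun i => g i * n' i + g' i * n i) (fun i => g i * L' i + g' i * L i + κ * (n i * n' i)) := by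
  obtain ⟨q, d, C, h⟩ := h
  obtain ⟨q', d', C', h'⟩ := h'
  have bn : Bd R n := ⟨C, fun i hi => (h i hi).2.1⟩
  have bq : Bd R q := ⟨C, fun i hi => (h i hi).2.2.1⟩
  have bd : Bd R d := ⟨C, fun i hi => (h i hi).2.2.2.1⟩
  have bn' : Bd R n' := ⟨C', fun i hi => (h' i hi).2.1⟩
  have bq' : Bd R q' := ⟨C', fun i hi => (h' i hi).2.2.1⟩
  have bd' : Bd R d' := ⟨C', fun i hi => (h' i hi).2.2.2.1⟩
  have b1 := jetBd_add (jetBd_mul hg bn') (jetBd_mul hg' bn)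
  have b2 := jetBd_add (jetBd_add (jetBd_mul hg bq') (jetBd_mul hg' bq)) (jetBd_mul bn bn')
  have b3 := jetBd_add (jetBd_mul hg bd') (jetBd_mul hg' bd)
  obtain ⟨D, hg⟩ := hg
  obtain ⟨D', hg'⟩ := hg'
  refine jetB_of _ _ (fun i hi => by simp only [(h i hi).1, (h' i hi).1]; ring) b1 b2 b3
    (D * C' + D' * C + 24 * C * C') fun i hi η hη ξ hξ => ?_
  obtain ⟨-, a2, a3, a4, a5⟩ := h i hi
  obtain ⟨-, a2', a3', a4', a5'⟩ := h' i hi
  have C0 : 0 ≤ C := (abs_nonneg _).trans a2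
  have C0' : 0 ≤ C' := (abs_nonneg _).trans a2'
  have r := a5 η hη ξ hξ
  have r' := a5' η hη ξ hξ
  obtain ⟨c1, c2, -⟩ := jetB_core a2 a3 a4 hη hξ r
  obtain ⟨-, c2', c3'⟩ := jetB_core a2' a3' a4' hη hξ r'
  have c5 := jetB_prod c1 c2 c2' c3'
  have e2 := (abs_mul _ _).trans_le (mul_le_mul (hg i hi) r' (abs_nonneg _)
    ((abs_nonneg _).trans (hg i hi)))
  have e3 := (abs_mul _ _).trans_le (mul_le_mul (hg' i hi) r (abs_nonneg _)
    ((abs_nonneg _).trans (hg' i hi)))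
  have e4 := mul_le_mul_of_nonneg_left (jetB_cube ξ hη.1) (show 0 ≤ 24 * C * C' by positivity)
  have f := abs_le.1 c5
  have f2 := abs_le.1 e2
  have f3 := abs_le.1 e3
  exact abs_le.2 ⟨by linarith, by linarith⟩

/-- piecewise jets -/
theorem Jt.ite (p : ι → Prop) [DecidablePred p] (h : Jt κ {i | i ∈ R ∧ p i} G g n L)
    (h' : Jt κ {i | i ∈ R ∧ ¬ p i} G' g' n' L') :
    Jt κ R (fun i => if p i then G i else G' i) (fun i => if p i then g i else g' i)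
      (fun i => if p i then n i else n' i) (fun i => if p i then L i else L' i) := by
  obtain ⟨q, d, C, h⟩ := h
  obtain ⟨q', d', C', h'⟩ := h'
  refine ⟨fun i => if p i then q i else q' i, fun i => if p i then d i else d' i, max C C',
    fun i hi => ?_⟩
  by_cases hp : p i
  · obtain ⟨a1, a2, a3, a4, a5⟩ := h i ⟨hi, hp⟩
    simp only [if_pos hp]
    refine ⟨a1, a2.trans (le_max_left _ _), a3.trans (le_max_left _ _), a4.trans (le_max_left _ _),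
      fun η hη ξ hξ => (a5 η hη ξ hξ).trans (mul_le_mul_of_nonneg_right (le_max_left _ _) ?_)⟩
    have := hη.1
    positivity
  · obtain ⟨a1, a2, a3, a4, a5⟩ := h' i ⟨hi, hp⟩
    simp only [if_neg hp]
    refine ⟨a1, a2.trans (le_max_right _ _), a3.trans (le_max_right _ _),
      a4.trans (le_max_right _ _),
      fun η hη ξ hξ => (a5 η hη ξ hξ).trans (mul_le_mul_of_nonneg_right (le_max_right _ _) ?_)⟩
    have := hη.1
    positivity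

theorem Jt.bd_n (h : Jt κ R G g n L) : Bd R n := by
  obtain ⟨q, d, C, h⟩ := h
  exact ⟨C, fun i hi => (h i hi).2.1⟩

/-- expectation over one Gaussian step -/
theorem Jt.integral (hκ : 0 < κ) (h : Jt κ R G g n L)
    (hm : ∀ i ∈ R, ∀ η ∈ Ioc (0 : ℝ) 1, Measurable (G i η))
    (hb : ∃ C : ℝ, ∀ i ∈ R, ∀ η ∈ Ioc (0 : ℝ) 1, ∀ ξ, |G i η ξ - g i| ≤ C) :
    ∃ C : ℝ, 0 ≤ C ∧ ∀ i ∈ R, ∀ η ∈ Ioc (0 : ℝ) 1, Integrable (G i η) (gs κ η) ∧
      |∫ ξ, G i η ξ ∂gs κ η - (g i + L i * η ^ 2)| ≤ C * η ^ 3 := by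
  obtain ⟨q, d, C, h⟩ := h
  obtain ⟨B, hb⟩ := hb
  have m0 : 0 ≤ ∫ ξ, |ξ| ^ 3 ∂gs κ 1 := integral_nonneg fun ξ => by positivity
  refine ⟨(|B| + 3 * |C|) * ((∫ ξ, |ξ| ^ 3 ∂gs κ 1) + 1), by positivity, fun i hi η hη => ?_⟩
  obtain ⟨a1, a2, a3, a4, a5⟩ := h i hi
  have C0 : 0 ≤ C := (abs_nonneg _).trans a2
  have B0 : 0 ≤ B := (abs_nonneg _).trans (hb i hi η hη 0)
  have h0 := hη.1
  rw [abs_of_nonneg C0, abs_of_nonneg B0]
  have hG : Integrable (G i η) (gs κ η) :=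
    (integrable_const (B + |g i|)).mono' (hm i hi η hη).aestronglyMeasurable
      (Filter.Eventually.of_forall fun ξ => by
        have k1 := abs_le.1 (hb i hi η hη ξ)
        have k2 := le_abs_self (g i)
        have k3 := neg_abs_le (g i)
        exact abs_le.2 ⟨by linarith, by linarith⟩)
  have i1 : Integrable (fun ξ => g i + n i * ξ) (gs κ η) :=
    (integrable_const _).add ((jetB_int1 κ η).const_mul _)
  have i2 : Integrable (fun ξ => g i + n i * ξ + q i * ξ ^ 2) (gs κ η) :=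
    i1.add ((jetB_int2 κ η).const_mul _)
  have i3 : Integrable (fun ξ => g i + n i * ξ + q i * ξ ^ 2 + d i * η ^ 2) (gs κ η) :=
    i2.add (integrable_const _)
  have e : ∫ ξ, (g i + n i * ξ + q i * ξ ^ 2 + d i * η ^ 2) ∂gs κ η = g i + L i * η ^ 2 := by
    rw [integral_add i2 (integrable_const _), integral_add i1 ((jetB_int2 κ η).const_mul _),
      integral_add (integrable_const _) ((jetB_int1 κ η).const_mul _), integral_const_mul,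
      integral_const_mul, jetB_m1, jetB_m2 hκ, a1]
    simp only [integral_const, probReal_univ, one_smul]
    ring
  refine ⟨hG, ?_⟩
  rw [← e, ← integral_sub hG i3]
  have k := norm_integral_le_of_norm_le (μ := gs κ η)
    (f := fun ξ => G i η ξ - (g i + n i * ξ + q i * ξ ^ 2 + d i * η ^ 2))
    (g := fun ξ => (B + 3 * C) * (|ξ| ^ 3 + η ^ 3))
    (((jetB_int κ η 3).add (integrable_const _)).const_mul _)
    (Filter.Eventually.of_forall fun ξ => ?_)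
  · rw [integral_const_mul, integral_add (jetB_int κ η 3) (integrable_const _), jetB_m3 hκ h0] at k
    simp only [integral_const, probReal_univ, one_smul] at k
    refine k.trans (le_of_eq ?_)
    ring
  · rw [Real.norm_eq_abs]
    rcases le_total |ξ| 1 with hξ | hξ
    · exact (a5 η hη ξ hξ).trans (mul_le_mul_of_nonneg_right (by linarith) (by positivity))
    · have p1 : |ξ| ≤ |ξ| ^ 3 := le_self_pow₀ hξ (by norm_num)
      have p2 : |ξ| ^ 2 ≤ |ξ| ^ 3 := pow_le_pow_right₀ hξ (by norm_num)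
      have p3 : η ^ 2 ≤ |ξ| ^ 3 := (pow_le_one₀ h0.le hη.2).trans (hξ.trans p1)
      have k0 : B ≤ B * |ξ| ^ 3 := le_mul_of_one_le_right B0 (hξ.trans p1)
      have k1 : |n i * ξ| ≤ C * |ξ| ^ 3 := by rw [abs_mul]; gcongr
      have k2 : |q i * ξ ^ 2| ≤ C * |ξ| ^ 3 := by rw [abs_mul, abs_pow]; gcongr
      have k3 : |d i * η ^ 2| ≤ C * |ξ| ^ 3 := by
        rw [abs_mul, abs_pow, abs_of_pos h0]; gcongr
      have k4 : 0 ≤ (B + 3 * C) * η ^ 3 := by positivity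
      have f0 := abs_le.1 (hb i hi η hη ξ)
      have f1 := abs_le.1 k1
      have f2 := abs_le.1 k2
      have f3 := abs_le.1 k3
      exact abs_le.2 ⟨by linarith, by linarith⟩

/-- one step supermartingale inequality up to `O(η^3)` -/
def Sup (κ : ℝ) {ι : Type*} (R : Set ι) (G : ι → ℝ → ℝ → ℝ) (g : ι → ℝ) : Prop :=
  ∃ C : ℝ, 0 ≤ C ∧ ∀ i ∈ R, ∀ η ∈ Ioc (0 : ℝ) 1, Integrable (G i η) (gs κ η) ∧
    ∫ ξ, G i η ξ ∂gs κ η ≤ g i + C * η ^ 3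

theorem Jt.sup (hκ : 0 < κ) (h : Jt κ R G g n L)
    (hm : ∀ i ∈ R, ∀ η ∈ Ioc (0 : ℝ) 1, Measurable (G i η))
    (hb : ∃ C : ℝ, ∀ i ∈ R, ∀ η ∈ Ioc (0 : ℝ) 1, ∀ ξ, |G i η ξ - g i| ≤ C)
    (hL : ∀ i ∈ R, L i ≤ 0) : Sup κ R G g := by
  obtain ⟨C, hC, h⟩ := h.integral hκ hm hb
  refine ⟨C, hC, fun i hi η hη => ⟨(h i hi η hη).1, ?_⟩⟩
  have h1 := (abs_le.1 (h i hi η hη).2).2
  have h2 := mul_nonpos_of_nonpos_of_nonneg (hL i hi) (sq_nonneg η)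
  linarith

end Vale.Agent.P164
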