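import Vale.Agent.P164.KJet

namespace Vale.Agent.P164

open Set

variable {κ x0 e0 C0 : ℝ} {χ χ1 χ2 : ℝ → ℝ}

open Classical in
theorem kaa_tele {W H : ℕ → Prop} {F : ℕ → ℝ} {B : ℝ} (hB : 0 ≤ B) (hF : ∀ n, 0 ≤ F n)
    (h1 : ∀ n, W n → F (n + 1) ≤ B ∧ ¬ H (n + 1)) (h2 : ∀ n, H (n + 1) → H n)
    (h3 : ∀ n, W (n + 1) → ¬ W n → H n) (N : ℕ) :
    (H N → ∑ n ∈ Finset.range N, (if W n then F (n + 1) - F n else 0) = 0) ∧
    (W N → ∑ n ∈ Finset.range N, (if W n then F (n + 1) - F n else 0) ≤ F N) ∧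
    ∑ n ∈ Finset.range N, (if W n then F (n + 1) - F n else 0) ≤ B := by
  induction N with
  | zero => exact ⟨fun _ => rfl, fun _ => hF 0, hB⟩
  | succ N ih =>
    rw [Finset.sum_range_succ]
    by_cases h : W N
    · rw [if_pos h]
      have h4 := ih.2.1 h
      exact ⟨fun h5 => absurd h5 (h1 N h).2, fun _ => by linarith, by linarith [(h1 N h).1]⟩
    · rw [if_neg h, add_zero]
      exact ⟨fun h5 => ih.1 (h2 N h5), fun h5 => (ih.1 (h3 N h5 h)).trans_le (hF _), ih.2.2⟩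

theorem kaa_bd (hκ4 : 4 < κ) (hκ8 : κ < 8) (hχ : Chi x0 e0 C0 χ χ1 χ2) {la lam : ℝ} {p : St}
    (h : la - Real.log 2 - 1 ≤ p.l) : mart κ p - mt κ χ lam p ≤
      3 * Real.exp ((κ / 8 - 1) * la - (8 / κ - 1) * lam) := by
  rcases le_total (uu p) lam with h1 | h1
  · rw [mt, famc_eq hχ h1, mart, sub_self]
    positivity
  · have hc : 0 ≤ 8 / κ - 1 := by
      rw [sub_nonneg, le_div_iff₀ (by linarith)]
      linarith
    have h2 := mul_le_mul_of_nonpos_left h (show κ / 8 - 1 ≤ 0 by linarith)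
    have h3 := mul_le_mul_of_nonneg_left h1 hc
    have h4 := Real.log_le_sub_one_of_pos two_pos
    have h5 := Real.log_pos one_lt_two
    have h6 : mart κ p ≤ Real.exp (1 + ((κ / 8 - 1) * la - (8 / κ - 1) * lam)) := by
      rw [mart, fam_uu]
      exact Real.exp_le_exp.2 (by nlinarith)
    rw [Real.exp_add] at h6
    have h7 := mul_le_mul_of_nonneg_right (show Real.exp 1 ≤ 3 by linarith [Real.exp_one_lt_d9])
      (Real.exp_pos ((κ / 8 - 1) * la - (8 / κ - 1) * lam)).le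
    have h8 : 0 < mt κ χ lam p := famc_pos _ _ _ _ _
    linarith

/-- the mass increments are those of the modified mass up to the mass of deep points -/
theorem aa_le (hκ4 : 4 < κ) (hκ8 : κ < 8) (hχ : Chi x0 e0 C0 χ χ1 χ2) {d0 le δ : ℝ} (hd : 0 < d0)
    (hδ : 0 ≤ δ) (hδ1 : 4 * (δ / ymin d0 le ^ 2) ≤ 1) (hle : le ≤ 0) (la lam : ℝ) (Q : Finset ℂ)
    (hQ : ∀ u ∈ Q, 1 ≤ u.im ∧ u.im ≤ 2) (ξ : ℕ → ℝ) (N : ℕ) :
    AA κ d0 le δ la (la - Real.log 2) Q ξ N ≤ AT κ χ d0 le δ la lam Q ξ N +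
      Q.card * (3 * Real.exp ((κ / 8 - 1) * la - (8 / κ - 1) * lam)) := by
  classical
  have hc : 8 / κ - 1 ≤ 1 := by
    rw [sub_le_iff_le_add, div_le_iff₀ (by linarith)]
    linarith
  rw [← sub_le_iff_le_add', AA, AT, Finset.sum_comm, Finset.sum_comm (s := Finset.range N),
    ← Finset.sum_sub_distrib, ← nsmul_eq_mul]
  refine Finset.sum_le_card_nsmul _ _ _ fun u hu => ?_
  have hs : ∀ n, (frz d0 le δ u ξ (n + 1)).l ≤ (frz d0 le δ u ξ n).l := fun n => by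
    by_cases h : actv d0 le (frz d0 le δ u ξ n)
    · rw [ldef_pos h]
      exact eul_l_le hδ _ _
    · rw [ldef_neg h]
  refine le_of_eq_of_le ?_ (kaa_tele (W := fun n => lv d0 le la (frz d0 le δ u ξ n))
    (H := fun n => la < (frz d0 le δ u ξ n).l)
    (F := fun n => mart κ (frz d0 le δ u ξ n) - mt κ χ lam (frz d0 le δ u ξ n)) (by positivity)
    (fun n => sub_nonneg.2 (famc_le_fam hχ hc _)) (fun n h => ⟨kaa_bd hκ4 hκ8 hχ ?_,
      not_lt.2 ((hs n).trans h.2.2)⟩) (fun n h => h.trans_le (hs n)) (fun n h h' => ?_) N).2.2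
  · rw [← Finset.sum_sub_distrib]
    refine Finset.sum_congr rfl fun n _ => ?_
    by_cases h : lv d0 le la (frz d0 le δ u ξ n)
    · rw [if_pos h, if_pos h, if_pos (show lev d0 le la (la - Real.log 2) _ from h)]
      ring
    · rw [if_neg h, if_neg h, if_neg (show ¬ lev d0 le la (la - Real.log 2) _ from h), sub_zero]
  · have h4 := eul_l_ge hδ (ymin_pos d0 le)
      (FI.ymin_le hd (frz_FI (ξ := ξ) hd hδ hδ1 hle (hQ u hu).1 (hQ u hu).2 n)) (ξ n)
    rw [← ldef_pos h.1] at h4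
    linarith [h.2.1]
  · by_contra h1
    exact h' ⟨by_contra fun hn => hn (ldef_neg hn ▸ h.1), h.2.1.trans_le (hs n), not_lt.1 h1⟩

end Vale.Agent.P164
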