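import Vale.Agent.P164.KLevel

namespace Vale.Agent.P164

open Set MeasureTheory Filter
open scoped Topology

variable {κ x0 e0 C0 : ℝ} {χ χ1 χ2 : ℝ → ℝ}

theorem kce_w {C7 r la : ℝ} (hκ : 0 < κ) (hC7 : 1 ≤ C7) (hr0 : 0 < r) (l1 : la ≤ Real.log r) :
    Real.exp (κ / 8 * la) * Real.exp la * Real.exp ((1 - κ / 8) * Real.log (C7 * r)) ≤
      C7 * r ^ 2 := by
  have c1 := Real.log_nonneg hC7
  rw [← Real.exp_add, ← Real.exp_add, ← Real.le_log_iff_exp_le (by positivity),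
    Real.log_mul (by linarith) hr0.ne', Real.log_mul (by linarith) (by positivity), Real.log_pow]
  push_cast
  nlinarith [mul_nonneg hκ.le c1, mul_le_mul_of_nonneg_left l1 hκ.le]

theorem kce_top {c s r la lam m : ℝ} (hκ : 0 < κ) (hκ8 : κ < 8) (hl : 0 < lam)
    (h : c * s ^ 2 ≤ 4 * r ^ 2) (hm : la - lam ≤ m) :
    s ^ 2 * (c * (3 * Real.exp ((κ / 8 - 1) * m))) ≤
      12 * Real.exp lam * (r ^ 2 * Real.exp (κ / 8 * la) / Real.exp la) := by
  have c0 : Real.exp ((κ / 8 - 1) * m) ≤ Real.exp lam * Real.exp ((κ / 8 - 1) * la) := by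
    rw [← Real.exp_add]
    have := mul_le_mul_of_nonpos_left hm (show κ / 8 - 1 ≤ 0 by linarith)
    exact Real.exp_le_exp.2 (by nlinarith [mul_pos hκ hl])
  have c1 := mul_le_mul h c0 (Real.exp_pos _).le (by positivity)
  rw [mul_div_assoc, ← Real.exp_sub, show κ / 8 * la - la = (κ / 8 - 1) * la by ring]
  linarith

theorem kce_eta {η y : ℝ} (h : η ∈ Ioc 0 (y / 2)) : 4 * (η ^ 2 / y ^ 2) ≤ 1 := by
  have : 0 < y := by linarith [h.1, h.2]
  rw [← mul_div_assoc, div_le_one (by positivity)]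
  nlinarith [h.1, h.2]

theorem ks_cell (hκ4 : 4 < κ) (hκ8 : κ < 8) (hχ : Chi x0 e0 C0 χ χ1 χ2) {C7 C9 : ℝ}
    (hC7 : 1 ≤ C7) (hC : 0 < C9) :
    ∃ K C : ℝ, 0 < K ∧ 0 ≤ C ∧ ∀ (d0 T s r : ℝ) (Q : Finset ℂ), 0 < d0 → LsQ s r Q → s ≤ r ^ 2 →
      r ≤ Real.exp (-Real.exp 1) → C7 * r ≤ 1 → ∀ᶠ η in 𝓝[>] (0 : ℝ), ∀ N : ℕ, N * η ^ 2 ≤ T →
      ∃ b : (ℕ → ℝ) → ℝ, Measurable b ∧ (∀ ξ, 0 ≤ b ξ) ∧ Integrable b (GG κ η) ∧
        ∫ ξ, b ξ ∂GG κ η ≤ C * r ^ 2 * (Real.log r ^ 2)⁻¹ ∧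
        ∀ ξ, KsG κ χ χ1 C7 C9 d0 (Real.log s) T (η ^ 2) ξ →
          K * gau κ r ≤ ∑ u ∈ Q, s ^ 2 * mh κ d0 (Real.log s) (η ^ 2) ξ N u →
          ∑ u ∈ Q, s ^ 2 * mh κ d0 (Real.log s) (η ^ 2) ξ N u ≤ b ξ := by
  obtain ⟨M, C8, lam, hM, hC8, hl, h8⟩ := ks_level hκ4 hκ8 hχ hC7 hC
  have hκ : 0 < κ := by linarith
  have hl2 : 0 < Real.log 2 := Real.log_pos one_lt_two
  obtain ⟨v, hv⟩ : ∃ v, v = (8 - κ) ^ 2 / (16 * κ) := ⟨_, rfl⟩
  have v0 : 0 < v := hv ▸ div_pos (pow_pos (by linarith) 2) (by positivity)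
  rw [← hv] at h8
  obtain ⟨ρ, hρ⟩ : ∃ ρ, ρ = Real.exp (-(v * Real.log 2)) := ⟨_, rfl⟩
  have ρ0 : 0 < ρ := hρ ▸ Real.exp_pos _
  have ρ1 : ρ < 1 := hρ ▸ Real.exp_lt_one_iff.2 (neg_lt_zero.2 (by positivity))
  have ρ2 : 0 < 1 - ρ := by linarith
  have ρ3 : ∀ k : ℕ, Real.exp (-(v * (lam + k * Real.log 2))) ≤ ρ ^ k := fun k => by
    rw [hρ, ← Real.exp_nat_mul]
    exact Real.exp_le_exp.2 (by nlinarith [mul_pos v0 hl])
  refine ⟨2 * (12 * Real.exp lam + M * (1 - ρ)⁻¹), 2 * (1 - ρ)⁻¹ * C8 * C7, by positivity,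
    by positivity, fun d0 T s r Q hd hQ hs hr hr7 => ?_⟩
  have hs0 := hQ.s0
  have hr0 : 0 < r := hs0.trans_le hQ.sr
  obtain ⟨la, l1, l2, l3, l4⟩ := ls_scale κ hr0 hr
  have l5 : Real.log r ≤ 0 := Real.log_nonpos hr0.le (by nlinarith)
  have l6 : Real.log s ≤ la := by
    have := Real.log_le_log hs0 hs
    rw [Real.log_pow] at this
    push_cast at this
    linarith
  have l7 : max (la - lam) (Real.log s) ≤ 0 := max_le (by linarith) (by linarith)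
  have hy := ymin_pos d0 (Real.log s)
  obtain ⟨n, hn⟩ : ∃ n, n = ⌈(la - lam - Real.log s) / Real.log 2⌉₊ := ⟨_, rfl⟩
  have k0 : ∀ k : ℕ, 0 ≤ k * Real.log 2 := fun k => by positivity
  have n1 : max (la - lam) (Real.log s) - n * Real.log 2 ≤ Real.log s := by
    have := (div_le_iff₀ hl2).1 (Nat.le_ceil ((la - lam - Real.log s) / Real.log 2))
    rw [← hn] at this
    rw [sub_le_iff_le_add]
    exact max_le (by linarith) (by linarith [k0 n])
  have n2 : ∀ k ∈ Finset.range n, Real.log s < la - (lam + k * Real.log 2) := fun k hk => by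
    have := (lt_div_iff₀ hl2).1 (Nat.lt_ceil.1 (hn ▸ Finset.mem_range.1 hk))
    linarith
  have n3 : ∀ k ∈ Finset.range n, max (la - lam) (Real.log s) = la - lam := fun k hk =>
    max_eq_left (by linarith [n2 k hk, k0 k])
  have key := (eventually_all_finset (Finset.range n)).2 fun k hk =>
    h8 d0 (Real.log s) T s r la (lam + k * Real.log 2) Q hd (l6.trans (l1.trans l5)) hQ hr7 l1
      (by linarith [k0 k]) ((Real.log_le_iff_le_exp hs0).1 (n2 k hk).le)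
  filter_upwards [key, Ioc_mem_nhdsGT (half_pos hy)] with η hη hη' N hN
  choose! Φ a1 a2 a3 a4 a5 using fun k hk => hη k hk N hN
  clear hη key h8
  rw [l4, ← l3] at a5
  obtain ⟨w, hw⟩ : ∃ w, w = Real.exp (κ / 8 * la) * Real.exp la := ⟨_, rfl⟩
  obtain ⟨z, hz⟩ : ∃ z, z = (Real.log r ^ 2)⁻¹ := ⟨_, rfl⟩
  have w0 : 0 < w := by
    rw [hw]
    positivity
  have z0 : 0 ≤ z := by
    rw [hz]
    positivity
  rw [← hw, ← hz] at a5
  have i1 : ∀ k ∈ Finset.range n, Integrable (fun ξ => w * ρ ^ k * z * Φ k ξ) (GG κ η) :=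
    fun k hk => (a3 k hk).const_mul _
  refine ⟨fun ξ => 2 * ∑ k ∈ Finset.range n, w * ρ ^ k * z * Φ k ξ,
    (Finset.measurable_sum _ fun k hk => (a1 k hk).const_mul _).const_mul _,
    fun ξ => mul_nonneg (by norm_num) (Finset.sum_nonneg fun k hk =>
      mul_nonneg (by positivity) (a2 k hk ξ)), (integrable_finsetSum _ i1).const_mul _, ?_,
    fun ξ hG hK => ?_⟩
  · rw [integral_const_mul, integral_finsetSum _ i1, ← hz]
    have b1 := kce_w hκ hC7 hr0 l1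
    rw [← hw] at b1
    have b2 : ∑ k ∈ Finset.range n, ∫ ξ, w * ρ ^ k * z * Φ k ξ ∂GG κ η ≤
        ∑ k ∈ Finset.range n, C8 * (C7 * r ^ 2) * z * ρ ^ k := Finset.sum_le_sum fun k hk => by
      rw [integral_const_mul]
      have c1 := mul_le_mul_of_nonneg_left (a4 k hk) (show 0 ≤ w * ρ ^ k * z by positivity)
      have c2 := mul_le_mul_of_nonneg_left b1 (show 0 ≤ C8 * z * ρ ^ k by positivity)
      linarith
    rw [← Finset.mul_sum] at b2
    have b3 := mul_le_mul_of_nonneg_left (ls_geom ρ0 ρ1 n)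
      (show 0 ≤ C8 * (C7 * r ^ 2) * z by positivity)
    linarith
  · have hδ1 := kce_eta hη'
    have b1 := mul_le_mul_of_nonneg_left (decomp (ξ := ξ) hκ hκ8 hd (sq_nonneg η) hδ1
      l7 (le_max_right _ _) n1 Q (fun u hu => (hQ.lat u hu).2) N)
      (sq_nonneg s)
    have g0 : 0 < gau κ r := by
      rw [l3]
      positivity
    have b2 := kce_top hκ hκ8 hl hQ.card (le_max_left (la - lam) (Real.log s))
    rw [← l3] at b2
    have b3 : ∑ k ∈ Finset.range n, s ^ 2 * AA κ d0 (Real.log s) (η ^ 2)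
        (max (la - lam) (Real.log s) - k * Real.log 2)
        (max (la - lam) (Real.log s) - (k + 1) * Real.log 2) Q ξ N ≤ ∑ k ∈ Finset.range n,
          (M * gau κ r * ρ ^ k + w * ρ ^ k * z * Φ k ξ) :=
      Finset.sum_le_sum fun k hk => by
        rw [n3 k hk, add_one_mul, ← sub_sub, sub_sub la]
        have c1 := mul_le_mul_of_nonneg_left (ρ3 k) (show 0 ≤ M * gau κ r by positivity)
        have c2 := mul_le_mul_of_nonneg_left (ρ3 k)
          (mul_nonneg (mul_nonneg w0.le z0) (a2 k hk ξ))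
        linarith [a5 k hk ξ hG]
    rw [Finset.sum_add_distrib, ← Finset.mul_sum, ← Finset.mul_sum] at b3
    have b4 := mul_le_mul_of_nonneg_left (ls_geom ρ0 ρ1 n) (show 0 ≤ M * gau κ r by positivity)
    rw [← Finset.mul_sum] at hK ⊢
    rw [mul_add] at b1
    beta_reduce
    linarith

end Vale.Agent.P164
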