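import Vale.Agent.P164.KDef

namespace Vale.Agent.P164

open Set

theorem klq_log {D D' K : ℝ} (hD : 0 < D) (hD' : 0 < D') (hK : D ≤ K * D') :
    |Real.log D' - Real.log D - (D' / D - 1)| ≤ K * (D' / D - 1) ^ 2 := by
  have h1 : Real.log (D' / D) ≤ D' / D - 1 := Real.log_le_sub_one_of_pos (by positivity)
  have h2 : Real.log (D / D') ≤ D / D' - 1 := Real.log_le_sub_one_of_pos (by positivity)
  rw [Real.log_div hD'.ne' hD.ne'] at h1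
  rw [Real.log_div hD.ne' hD'.ne'] at h2
  have h3 : D / D' ≤ K := (div_le_iff₀ hD').2 hK
  have h4 : D' / D - 1 - (1 - D / D') = D / D' * (D' / D - 1) ^ 2 := by
    field_simp
  have h5 : D / D' * (D' / D - 1) ^ 2 ≤ K * (D' / D - 1) ^ 2 :=
    mul_le_mul_of_nonneg_right h3 (sq_nonneg _)
  have h6 : 0 ≤ D / D' * (D' / D - 1) ^ 2 := by positivity
  exact abs_le.2 ⟨by linarith, by linarith⟩

theorem klq_w {M u u' v v' : ℝ} (hM : 0 < M) (hu : |u| ≤ M) (hu' : |u'| ≤ M) (hv0 : 0 ≤ v)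
    (hv : v ≤ M) (hv0' : 0 ≤ v') (hv' : v' ≤ M) : |u * u' + v * v'| ≤ 2 * M ^ 2 := by
  have k1 : |u * u'| ≤ M * M := by
    rw [abs_mul]; exact mul_le_mul hu hu' (abs_nonneg _) hM.le
  have k2 : v * v' ≤ M * M := mul_le_mul hv hv' hv0' hM.le
  have k3 : 0 ≤ v * v' := mul_nonneg hv0 hv0'
  have k4 := abs_le.1 k1
  have k5 : 0 ≤ M * M := by positivity
  exact abs_le.2 ⟨by linarith, by linarith⟩

theorem klq_r {M δ b e D x y : ℝ} (hM : 0 < M) (b0 : 0 < b) (hb : 2 ≤ b * M) (hbD : b ^ 2 ≤ D)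
    (he : e ≤ 8 * δ ^ 2 * M ^ 3) (hx : x ≤ 16 * δ ^ 2 * M ^ 2) (hy : y ≤ 16 * δ ^ 2 * M ^ 2) :
    2 * b * e + x + y ≤ 16 * M ^ 4 * δ ^ 2 * D := by
  have hb2 : 2 ^ 2 ≤ (b * M) ^ 2 := pow_le_pow_left₀ (by norm_num) hb 2
  have k0 : b ^ 2 * M ≤ D * M := by gcongr
  have k00 : b * 2 ≤ b * (b * M) := by gcongr
  have k1 : 2 * b * e ≤ 2 * b * (8 * δ ^ 2 * M ^ 3) := by gcongr
  have k2 : 2 * b ≤ D * M := by linarith
  have k3 : 2 * b * (8 * δ ^ 2 * M ^ 3) ≤ D * M * (8 * δ ^ 2 * M ^ 3) := by gcongr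
  have k40 : b ^ 2 * M ^ 2 ≤ D * M ^ 2 := by gcongr
  have k4 : 4 ≤ D * M ^ 2 := by linarith
  have k5 : 4 * (8 * δ ^ 2 * M ^ 2) ≤ D * M ^ 2 * (8 * δ ^ 2 * M ^ 2) := by gcongr
  linarith

theorem klq_K {M δ a b da B c : ℝ} (hM : 0 < M) (h0 : 0 ≤ δ) (h1 : δ ≤ 1) (b0 : 0 < b)
    (hb : 2 ≤ b * M) (hc : 0 < c) (hcB : b * c ≤ B) (hda2 : da ^ 2 ≤ 16 * δ ^ 2 * M ^ 2) :
    a ^ 2 + b ^ 2 ≤ (2 + (1 + 8 * M ^ 4) / c ^ 2) * ((a + da) ^ 2 + B ^ 2) := by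
  have hb2 : 2 ^ 2 ≤ (b * M) ^ 2 := pow_le_pow_left₀ (by norm_num) hb 2
  have k1 : a ^ 2 ≤ 2 * (a + da) ^ 2 + 2 * da ^ 2 := by linarith [sq_nonneg (a + 2 * da)]
  have k2 : δ ^ 2 ≤ 1 := pow_le_one₀ h0 h1
  have k3 : 16 * δ ^ 2 * M ^ 2 ≤ 16 * 1 * M ^ 2 := by gcongr
  have k4 : 2 ^ 2 * (8 * M ^ 2) ≤ (b * M) ^ 2 * (8 * M ^ 2) := by gcongr
  have k5 : (b * c) ^ 2 ≤ B ^ 2 := pow_le_pow_left₀ (by positivity) hcB 2
  have k6 : b ^ 2 ≤ B ^ 2 / c ^ 2 := (le_div_iff₀ (by positivity)).2 (by linarith [mul_pow b c 2])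
  have k7 : (1 + 8 * M ^ 4) * b ^ 2 ≤ (1 + 8 * M ^ 4) * (B ^ 2 / c ^ 2) := by gcongr
  have k8 : 0 ≤ (1 + 8 * M ^ 4) / c ^ 2 * (a + da) ^ 2 := by positivity
  have k9 : (1 + 8 * M ^ 4) * (B ^ 2 / c ^ 2) = (1 + 8 * M ^ 4) / c ^ 2 * B ^ 2 := by ring
  have k10 : 0 ≤ B ^ 2 := by positivity
  generalize (1 + 8 * M ^ 4) / c ^ 2 = Q at k8 k9 ⊢
  generalize B ^ 2 / c ^ 2 = P at k7 k9
  linarith

theorem klq_fin {M δ w r D D' K : ℝ} (hM : 0 < M) (h0 : 0 ≤ δ) (h1 : δ ≤ 1) (D0 : 0 < D)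
    (D0' : 0 < D') (K0 : 0 ≤ K) (hK : D ≤ K * D') (hw1 : |w| ≤ 2 * M ^ 2)
    (e1 : D' = D - 4 * δ * w * D + r) (r0 : 0 ≤ r) (r1 : r ≤ 16 * M ^ 4 * δ ^ 2 * D) :
    |Real.log D' - Real.log D + 4 * δ * w| ≤
      (K * (8 * M ^ 2 + 16 * M ^ 4) ^ 2 + 16 * M ^ 4) * δ ^ 2 := by
  have e2 : D' / D - 1 = -(4 * δ * w) + r / D := by
    rw [e1]; field_simp; ring
  have r2 : r / D ≤ 16 * M ^ 4 * δ ^ 2 := (div_le_iff₀ D0).2 r1
  have r3 : 0 ≤ r / D := by positivity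
  have t1 : |D' / D - 1| ≤ (8 * M ^ 2 + 16 * M ^ 4) * δ := by
    have k1 : |4 * δ * w| ≤ 4 * δ * (2 * M ^ 2) := by
      rw [abs_mul, abs_of_nonneg (by positivity : 0 ≤ 4 * δ)]; gcongr
    have k2 := abs_le.1 k1
    have k3 : δ ^ 2 ≤ δ := pow_le_of_le_one h0 h1 (by norm_num)
    have k4 : 16 * M ^ 4 * δ ^ 2 ≤ 16 * M ^ 4 * δ := by gcongr
    have k5 : 0 ≤ 16 * M ^ 4 * δ := by positivity
    rw [e2]
    exact abs_le.2 ⟨by linarith, by linarith⟩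
  have t2 : (D' / D - 1) ^ 2 ≤ ((8 * M ^ 2 + 16 * M ^ 4) * δ) ^ 2 := by
    rw [← sq_abs]
    exact pow_le_pow_left₀ (abs_nonneg _) t1 2
  have l1 := klq_log D0 D0' hK
  have l2 : K * (D' / D - 1) ^ 2 ≤ K * ((8 * M ^ 2 + 16 * M ^ 4) * δ) ^ 2 := by gcongr
  have l3 := abs_le.1 (l1.trans l2)
  have l4 : 0 ≤ 16 * M ^ 4 * δ ^ 2 := by positivity
  rw [e2] at l3
  generalize r / D = s at l3 r2 r3
  exact abs_le.2 ⟨by linarith, by linarith⟩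

theorem klq_alg {M δ a b u u' v v' e B c : ℝ} (hM : 0 < M) (h0 : 0 ≤ δ) (h1 : δ ≤ 1)
    (hb : 2 ≤ b * M) (hu : |u| ≤ M) (hu' : |u'| ≤ M) (hv0 : 0 ≤ v) (hv : v ≤ M)
    (hv0' : 0 ≤ v') (hv' : v' ≤ M)
    (hid : a * (u - u') - b * (v + v') = -((a ^ 2 + b ^ 2) * (u * u' + v * v')))
    (hB : B = b - 2 * δ * (v + v') + e) (he0 : 0 ≤ e) (he : e ≤ 8 * δ ^ 2 * M ^ 3)
    (hBb : B ≤ b) (hc : 0 < c) (hcB : b * c ≤ B) :
    |Real.log ((a + 2 * δ * (u - u')) ^ 2 + B ^ 2) - Real.log (a ^ 2 + b ^ 2)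
        + 4 * δ * (u * u' + v * v')| ≤
      ((2 + (1 + 8 * M ^ 4) / c ^ 2) * (8 * M ^ 2 + 16 * M ^ 4) ^ 2 + 16 * M ^ 4) * δ ^ 2 := by
  have b0 : 0 < b := pos_of_mul_pos_right (lt_of_lt_of_le two_pos (hb.trans_eq (mul_comm _ _))) hM.le
  have B0 : 0 < B := lt_of_lt_of_le (by positivity) hcB
  have u1 := abs_le.1 hu
  have u2 := abs_le.1 hu'
  have hda1 : |2 * δ * (u - u')| ≤ 4 * δ * M := by
    have k : |u - u'| ≤ 2 * M := abs_le.2 ⟨by linarith, by linarith⟩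
    rw [abs_mul, abs_of_nonneg (by positivity : 0 ≤ 2 * δ), show 4 * δ * M = 2 * δ * (2 * M) by ring]
    gcongr
  have hdb1 : |B - b| ≤ 4 * δ * M := by
    have k1 : δ * (v + v') ≤ δ * (2 * M) := mul_le_mul_of_nonneg_left (by linarith) h0
    have k2 : 0 ≤ δ * M := by positivity
    exact abs_le.2 ⟨by linarith, by linarith⟩
  have hda2 : (2 * δ * (u - u')) ^ 2 ≤ 16 * δ ^ 2 * M ^ 2 := by
    rw [← sq_abs, show 16 * δ ^ 2 * M ^ 2 = (4 * δ * M) ^ 2 by ring]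
    exact pow_le_pow_left₀ (abs_nonneg _) hda1 2
  have hdb2 : (B - b) ^ 2 ≤ 16 * δ ^ 2 * M ^ 2 := by
    rw [← sq_abs, show 16 * δ ^ 2 * M ^ 2 = (4 * δ * M) ^ 2 by ring]
    exact pow_le_pow_left₀ (abs_nonneg _) hdb1 2
  refine klq_fin (r := 2 * b * e + (2 * δ * (u - u')) ^ 2 + (B - b) ^ 2) hM h0 h1 (by positivity)
    (by positivity) (by positivity) (klq_K hM h0 h1 b0 hb hc hcB hda2)
    (klq_w hM hu hu' hv0 hv hv0' hv') ?_ (by positivity)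
    (klq_r hM b0 hb (le_add_of_nonneg_left (sq_nonneg a)) he hda2 hdb2)
  rw [hB]
  linear_combination 4 * δ * hid

theorem klq_uv {y0 : ℝ} (hy : 0 < y0) {p : St} (hp : y0 ≤ p.y) :
    |p.x / rho2 p| ≤ 1 / y0 ∧ 0 ≤ p.y / rho2 p ∧ p.y / rho2 p ≤ 1 / y0 ∧
      1 / rho2 p ≤ (1 / y0) ^ 2 := by
  have y1 : 0 < p.y := hy.trans_le hp
  have r0 := rho2_pos y1
  have hr : rho2 p = p.x ^ 2 + p.y ^ 2 := rfl
  refine ⟨?_, by positivity, ?_, ?_⟩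
  · rw [abs_div, abs_of_pos r0, div_le_div_iff₀ r0 hy, hr, ← sq_abs p.x]
    nlinarith [abs_nonneg p.x, sq_nonneg (|p.x| - p.y), mul_le_mul_of_nonneg_left hp (abs_nonneg p.x)]
  · rw [div_le_div_iff₀ r0 hy, hr]
    nlinarith [sq_nonneg p.x, mul_le_mul_of_nonneg_left hp y1.le]
  · have := step_le zero_le_one hy hp
    rwa [one_div_pow]

theorem klq_one {y0 δ : ℝ} (hy : 0 < y0) {p : St} (hp : y0 ≤ p.y) (h0 : 0 ≤ δ) (h1 : δ ≤ 1)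
    (ξ : ℝ) : 0 ≤ (eul δ p ξ).y - p.y + 2 * δ * (p.y / rho2 p) ∧
      (eul δ p ξ).y - p.y + 2 * δ * (p.y / rho2 p) ≤ 4 * δ ^ 2 * (1 / y0) ^ 3 ∧
      p.y * Real.exp (-(2 * (1 / y0) ^ 2)) ≤ (eul δ p ξ).y := by
  have y1 : 0 < p.y := hy.trans_le hp
  have r0 := rho2_pos y1
  obtain ⟨-, v0, v1, w1⟩ := klq_uv hy hp
  obtain ⟨s, hs⟩ : ∃ s, s = 2 * δ / rho2 p := ⟨_, rfl⟩
  have s0 : 0 ≤ s := by rw [hs]; positivity
  have s1 : s = 2 * δ * (1 / rho2 p) := by rw [hs]; ring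
  have s2 : 2 * δ * (p.y / rho2 p) = p.y * s := by rw [hs]; ring
  have w0 : 0 ≤ 1 / rho2 p := by positivity
  rw [eul_y, ← hs, s2]
  have k1 : -s + 1 ≤ Real.exp (-s) := Real.add_one_le_exp _
  have k2 : Real.exp (-s) ≤ 1 - s + s ^ 2 := by
    have a1 : s + 1 ≤ Real.exp s := Real.add_one_le_exp _
    rw [Real.exp_neg]
    refine (inv_anti₀ (by positivity) a1).trans ?_
    rw [inv_eq_one_div, div_le_iff₀ (by positivity)]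
    nlinarith [pow_nonneg s0 3]
  refine ⟨by nlinarith, ?_, ?_⟩
  · have a1 : p.y * Real.exp (-s) ≤ p.y * (1 - s + s ^ 2) := by gcongr
    have a2 : p.y * s ^ 2 = 4 * δ ^ 2 * (p.y / rho2 p * (1 / rho2 p)) := by rw [s1]; ring
    have a3 : p.y / rho2 p * (1 / rho2 p) ≤ 1 / y0 * (1 / y0) ^ 2 := by gcongr
    have a4 : 4 * δ ^ 2 * (p.y / rho2 p * (1 / rho2 p)) ≤ 4 * δ ^ 2 * (1 / y0 * (1 / y0) ^ 2) := by
      gcongr
    linarith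
  · have a1 : s ≤ 2 * 1 * (1 / y0) ^ 2 := by rw [s1]; gcongr
    have a2 : Real.exp (-(2 * (1 / y0) ^ 2)) ≤ Real.exp (-s) := Real.exp_le_exp.2 (by linarith)
    gcongr

theorem klq_split {p p' : St} (hp : 0 < p.y) (hp' : 0 < p'.y) :
    lq p p' = Real.log 4 + Real.log p.y + Real.log p'.y -
      Real.log ((p.x - p'.x) ^ 2 + (p.y + p'.y) ^ 2) := by
  rw [lq, Real.log_div (by positivity) (by positivity), Real.log_mul (by positivity) hp'.ne',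
    Real.log_mul (by norm_num) hp.ne']

theorem jt_lq {κ y0 : ℝ} (hy : 0 < y0) : Jt κ {z : St × St | y0 ≤ z.1.y ∧ y0 ≤ z.2.y}
    (fun z η ξ => lq (eul (η ^ 2) z.1 ξ) (eul (η ^ 2) z.2 ξ)) (fun z => lq z.1 z.2) (fun _ => 0)
    (fun z => -2 * ((z.1.x / rho2 z.1 - z.2.x / rho2 z.2) ^ 2 +
      (z.1.y / rho2 z.1 - z.2.y / rho2 z.2) ^ 2)) := by
  obtain ⟨M, hM⟩ : ∃ M, M = 1 / y0 := ⟨_, rfl⟩
  have M0 : 0 < M := by rw [hM]; positivity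
  refine jetB_of (fun _ => 0) (fun z => -2 * ((z.1.x / rho2 z.1 - z.2.x / rho2 z.2) ^ 2 +
      (z.1.y / rho2 z.1 - z.2.y / rho2 z.2) ^ 2)) (fun z _ => by simp) (jetBd_const 0)
      (jetBd_const 0) ⟨16 * M ^ 2, ?_⟩
      ((2 + (1 + 8 * M ^ 4) / Real.exp (-(2 * M ^ 2)) ^ 2) * (8 * M ^ 2 + 16 * M ^ 4) ^ 2 +
        16 * M ^ 4) ?_
  · rintro ⟨p, p'⟩ ⟨hp, hp'⟩
    obtain ⟨u1, v0, v1, -⟩ := klq_uv hy hp
    obtain ⟨u1', v0', v1', -⟩ := klq_uv hy hp'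
    rw [← hM] at u1 v1 u1' v1'
    have a1 := abs_le.1 u1
    have a2 := abs_le.1 u1'
    have b1 : (p.x / rho2 p - p'.x / rho2 p') ^ 2 ≤ (2 * M) ^ 2 :=
      sq_le_sq' (by linarith) (by linarith)
    have b2 : (p.y / rho2 p - p'.y / rho2 p') ^ 2 ≤ (2 * M) ^ 2 :=
      sq_le_sq' (by linarith) (by linarith)
    have b3 := sq_nonneg (p.x / rho2 p - p'.x / rho2 p')
    have b4 := sq_nonneg (p.y / rho2 p - p'.y / rho2 p')
    have b5 := sq_nonneg M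
    exact abs_le.2 ⟨by simp only; linarith, by simp only; linarith⟩
  · rintro ⟨p, p'⟩ ⟨hp, hp'⟩ η hη ξ -
    have hp1 : y0 ≤ p.y := hp
    have hp1' : y0 ≤ p'.y := hp'
    have y1 : 0 < p.y := hy.trans_le hp1
    have y1' : 0 < p'.y := hy.trans_le hp1'
    have r0 := rho2_pos y1
    have r0' := rho2_pos y1'
    have η0 := hη.1
    have h0 : 0 ≤ η ^ 2 := by positivity
    have h1 : η ^ 2 ≤ 1 := pow_le_one₀ η0.le hη.2
    obtain ⟨u1, v0, v1, -⟩ := klq_uv hy hp1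
    obtain ⟨u1', v0', v1', -⟩ := klq_uv hy hp1'
    obtain ⟨e0, e1, e2⟩ := klq_one hy hp1 h0 h1 ξ
    obtain ⟨e0', e1', e2'⟩ := klq_one hy hp1' h0 h1 ξ
    rw [← hM] at u1 v1 u1' v1' e1 e2 e1' e2'
    have hb : 2 ≤ (p.y + p'.y) * M := by
      rw [hM, mul_one_div, le_div_iff₀ hy]; linarith
    have hr : rho2 p = p.x ^ 2 + p.y ^ 2 := rfl
    have hr' : rho2 p' = p'.x ^ 2 + p'.y ^ 2 := rfl
    have hid : (p.x - p'.x) * (p.x / rho2 p - p'.x / rho2 p') -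
        (p.y + p'.y) * (p.y / rho2 p + p'.y / rho2 p') =
        -(((p.x - p'.x) ^ 2 + (p.y + p'.y) ^ 2) *
          (p.x / rho2 p * (p'.x / rho2 p') + p.y / rho2 p * (p'.y / rho2 p'))) := by
      field_simp
      rw [hr, hr']
      ring
    have key := klq_alg (B := (eul (η ^ 2) p ξ).y + (eul (η ^ 2) p' ξ).y)
      (e := ((eul (η ^ 2) p ξ).y - p.y + 2 * η ^ 2 * (p.y / rho2 p)) +
        ((eul (η ^ 2) p' ξ).y - p'.y + 2 * η ^ 2 * (p'.y / rho2 p')))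
      (c := Real.exp (-(2 * M ^ 2))) M0 h0 h1 hb u1 u1' v0 v1 v0' v1' hid (by ring)
      (by linarith) (by linarith) (add_le_add (eul_y_le h0 y1 ξ) (eul_y_le h0 y1' ξ))
      (Real.exp_pos _) (by linarith)
    have hx : (eul (η ^ 2) p ξ).x - (eul (η ^ 2) p' ξ).x =
        p.x - p'.x + 2 * η ^ 2 * (p.x / rho2 p - p'.x / rho2 p') := by
      rw [eul_x, eul_x]; ring
    have hL : (p.x / rho2 p) ^ 2 + (p.y / rho2 p) ^ 2 = 1 / rho2 p := by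
      field_simp
      rw [hr]
    have hL' : (p'.x / rho2 p') ^ 2 + (p'.y / rho2 p') ^ 2 = 1 / rho2 p' := by
      field_simp
      rw [hr']
    have hL2 : -2 * ((p.x / rho2 p - p'.x / rho2 p') ^ 2 + (p.y / rho2 p - p'.y / rho2 p') ^ 2) *
        η ^ 2 = -(2 * η ^ 2 / rho2 p) - 2 * η ^ 2 / rho2 p' + 4 * η ^ 2 *
          (p.x / rho2 p * (p'.x / rho2 p') + p.y / rho2 p * (p'.y / rho2 p')) := by
      rw [show 2 * η ^ 2 / rho2 p = 2 * η ^ 2 * (1 / rho2 p) by ring,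
        show 2 * η ^ 2 / rho2 p' = 2 * η ^ 2 * (1 / rho2 p') by ring, ← hL, ← hL']
      ring
    simp only
    rw [klq_split (eul_y_pos _ y1 ξ) (eul_y_pos _ y1' ξ), klq_split y1 y1', log_eul_y _ y1,
      log_eul_y _ y1', hx, hL2]
    have hη3 : (η ^ 2) ^ 2 ≤ |ξ| ^ 3 + η ^ 3 := by
      have a1 : η ^ 4 ≤ η ^ 3 := pow_le_pow_of_le_one η0.le hη.2 (by norm_num)
      have a2 : 0 ≤ |ξ| ^ 3 := by positivity
      linarith
    refine le_trans ?_ (key.trans (mul_le_mul_of_nonneg_left hη3 (by positivity)))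
    rw [← abs_neg]
    refine le_of_eq (congrArg _ ?_)
    ring

end Vale.Agent.P164
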