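import Vale.Agent.P164.KJet
import Vale.Agent.P164.KLq

namespace Vale.Agent.P164

open Set

variable {κ y0 x0 e0 C0 : ℝ} {χ χ1 χ2 : ℝ → ℝ}

theorem kch_real {κ e0 r α β ua va ub vb ma mb c1 c2 : ℝ} (hκ4 : 4 < κ) (hκ8 : κ < 8)
    (hα : 0 < α) (hβ : 0 < β) (ha : ua ^ 2 + va ^ 2 = α ^ 2) (hb : ub ^ 2 + vb ^ 2 = β ^ 2)
    (hr : β ≤ r * α) (hr' : r ≤ (8 - κ) / 24) (hma : |ma| ≤ (κ - 4) / 2)
    (hmb : |mb| ≤ (κ - 4) / 2) (h1 : 0 ≤ c1) (h1' : c1 ≤ 1) (h2 : 0 ≤ c2) (h2' : c2 ≤ e0)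
    (he : e0 ≤ (8 - κ) / 64) :
    -2 * ((ua - ub) ^ 2 + (va - vb) ^ 2) +
      (c1 * (mb * β ^ 2 - ma * α ^ 2) + κ / 2 * c2 * (ua - ub) ^ 2) ≤ 0 ∧
      |c1 * (ua - ub)| ≤ 2 * α := by
  have hβα : β ≤ α := by nlinarith
  have a1 : |ua| ≤ α := abs_le_of_sq_le_sq' (by nlinarith [sq_nonneg va]) hα.le |> abs_le.2
  have b1 : |ub| ≤ β := abs_le_of_sq_le_sq' (by nlinarith [sq_nonneg vb]) hβ.le |> abs_le.2
  have d1 : |ua - ub| ≤ 2 * α := (abs_sub _ _).trans (by linarith)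
  have d2 : (ua - ub) ^ 2 ≤ 4 * α ^ 2 := by
    have := sq_le_sq' (abs_le.1 d1).1 (abs_le.1 d1).2
    linarith
  have cs : ua * ub + va * vb ≤ α * β := by
    refine (abs_le_of_sq_le_sq' ?_ (by positivity)).2
    have : (α * β) ^ 2 = (ua ^ 2 + va ^ 2) * (ub ^ 2 + vb ^ 2) := by rw [ha, hb]; ring
    rw [this]
    nlinarith [sq_nonneg (ua * vb - va * ub)]
  have α2 : 0 < α ^ 2 := by positivity
  have β2 : 0 < β ^ 2 := by positivity
  have e1 : α * β ≤ (8 - κ) / 24 * α ^ 2 := by nlinarith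
  have e2 : β ^ 2 ≤ α * β := by nlinarith
  have e3 : mb * β ^ 2 - ma * α ^ 2 ≤ 2 * β ^ 2 + (κ - 4) / 2 * α ^ 2 := by
    have := abs_le.1 hma
    have := abs_le.1 hmb
    nlinarith
  have e4 : c1 * (mb * β ^ 2 - ma * α ^ 2) ≤ 2 * β ^ 2 + (κ - 4) / 2 * α ^ 2 := by
    have p : 0 ≤ 2 * β ^ 2 + (κ - 4) / 2 * α ^ 2 := by
      have : 0 ≤ (κ - 4) / 2 := by linarith
      positivity
    nlinarith
  have e5 : κ / 2 * c2 * (ua - ub) ^ 2 ≤ 4 * ((8 - κ) / 64) * (4 * α ^ 2) := by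
    have : 0 ≤ (8 - κ) / 64 := by linarith
    have h3 : c2 ≤ (8 - κ) / 64 := h2'.trans he
    gcongr
    linarith
  refine ⟨by nlinarith, ?_⟩
  rw [abs_mul, abs_of_nonneg h1]
  nlinarith [abs_nonneg (ua - ub)]

theorem kch_mu (hκ4 : 4 < κ) (p : St) : |mu κ p - 2| ≤ (κ - 4) / 2 := by
  have h0 := ss_pos p
  have h1 := ss_le_one p
  unfold mu
  rw [abs_le]
  constructor <;> nlinarith

theorem kch_inv {p : St} (hp : 0 < p.y) : 0 < 1 / √(rho2 p) ∧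
    (1 / √(rho2 p)) ^ 2 = 1 / rho2 p ∧
    (p.x / rho2 p) ^ 2 + (p.y / rho2 p) ^ 2 = (1 / √(rho2 p)) ^ 2 := by
  have h := rho2_pos hp
  have e : (1 / √(rho2 p)) ^ 2 = 1 / rho2 p := by rw [div_pow, Real.sq_sqrt h.le, one_pow]
  refine ⟨by positivity, e, ?_⟩
  rw [e]
  have : rho2 p = p.x ^ 2 + p.y ^ 2 := rfl
  field_simp
  linarith

/-- noise coefficient of a link -/
noncomputable def kchN (χ1 : ℝ → ℝ) (p p' : St) : ℝ :=
  χ1 (lr p' - lr p) * (p.x / rho2 p - p'.x / rho2 p')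

/-- generator of a link -/
noncomputable def kchL (κ : ℝ) (χ1 χ2 : ℝ → ℝ) (p p' : St) : ℝ :=
  -2 * ((p.x / rho2 p - p'.x / rho2 p') ^ 2 + (p.y / rho2 p - p'.y / rho2 p') ^ 2) +
    (χ1 (lr p' - lr p) * ((mu κ p' - 2) / rho2 p' - (mu κ p - 2) / rho2 p) +
      κ / 2 * χ2 (lr p' - lr p) * (p.x / rho2 p - p'.x / rho2 p') ^ 2)

theorem kch_jt (hχ : Chi x0 e0 C0 χ χ1 χ2) (hy : 0 < y0) {R : Set (ℂ → St)} (a b : ℂ)
    (ha : ∀ P ∈ R, y0 ≤ (P a).y) (hb : ∀ P ∈ R, y0 ≤ (P b).y) :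
    Jt κ R (fun P η ξ => lk χ (eul (η ^ 2) (P a) ξ) (eul (η ^ 2) (P b) ξ))
      (fun P => lk χ (P a) (P b)) (fun P => kchN χ1 (P a) (P b))
      (fun P => kchL κ χ1 χ2 (P a) (P b)) := by
  have j1 := (jt_lq (κ := κ) hy).comap (R' := R) (fun P => (P a, P b))
    fun P hP => ⟨ha P hP, hb P hP⟩
  have j2 := (jt_lr (κ := κ) hy).comap (R' := R) (fun P => P b) fun P hP => hb P hP
  have j3 := (jt_lr (κ := κ) hy).comap (R' := R) (fun P => P a) fun P hP => ha P hP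
  have j4 := j2.add (Jt.smul (jetBd_const (-1)) j3)
  have j5 := j1.add (Jt.comp hχ.t3 j4 fun _ _ => mem_univ _)
  refine j5.congr (fun P _ η _ ξ => ?_) (fun P _ => ?_) (fun P _ => ?_) (fun P _ => ?_)
  · simp only [lk, neg_one_mul, ← sub_eq_add_neg]
  · simp only [lk, neg_one_mul, ← sub_eq_add_neg]
  · simp only [kchN, neg_one_mul, ← sub_eq_add_neg]
    ring
  · simp only [kchL, neg_one_mul, ← sub_eq_add_neg]
    ring

theorem kch_link (hκ4 : 4 < κ) (hκ8 : κ < 8) (hχ : Chi x0 e0 C0 χ χ1 χ2)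
    (hx : Real.exp (-x0) ≤ (8 - κ) / 24) (he : e0 ≤ (8 - κ) / 64) {p p' : St} (hp : 0 < p.y)
    (hp' : 0 < p'.y) : kchL κ χ1 χ2 p p' ≤ 0 ∧ (kchN χ1 p p' = 0 ∨
      (6 * √(rho2 p) ≤ √(rho2 p') ∧ |kchN χ1 p p'| ≤ 2 / √(rho2 p))) := by
  rcases le_or_gt (lr p' - lr p) x0 with h | h
  · obtain ⟨-, z1, z2⟩ := hχ.zero _ h
    refine ⟨?_, Or.inl (by rw [kchN, z1, zero_mul])⟩
    rw [kchL, z1, z2]
    nlinarith [sq_nonneg (p.x / rho2 p - p'.x / rho2 p'), sq_nonneg (p.y / rho2 p - p'.y / rho2 p')]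
  · obtain ⟨a0, a1, a2⟩ := kch_inv hp
    obtain ⟨b0, b1, b2⟩ := kch_inv hp'
    have s0 : 0 < √(rho2 p) := Real.sqrt_pos.2 (rho2_pos hp)
    have s1 : 0 < √(rho2 p') := Real.sqrt_pos.2 (rho2_pos hp')
    have k : √(rho2 p) ≤ Real.exp (-x0) * √(rho2 p') := by
      rw [← exp_lr hp, ← exp_lr hp', ← Real.exp_add]
      exact Real.exp_le_exp.2 (by linarith)
    have hr : 1 / √(rho2 p') ≤ Real.exp (-x0) * (1 / √(rho2 p)) := by
      rw [mul_one_div, div_le_div_iff₀ s1 s0]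
      linarith
    obtain ⟨r1, r2⟩ := kch_real hκ4 hκ8 a0 b0 a2 b2 hr hx (kch_mu hκ4 p) (kch_mu hκ4 p')
      (hχ.d1 (lr p' - lr p)).1 (hχ.d1 _).2 (hχ.d2 (lr p' - lr p)).1 (hχ.d2 _).2 he
    rw [a1, b1, mul_one_div, mul_one_div] at r1
    rw [mul_one_div] at r2
    exact ⟨r1, Or.inr ⟨by nlinarith, r2⟩⟩

theorem kch_half {p p' : St} (h : rho2 p ≤ 4 * rho2 p') : √(rho2 p) ≤ 2 * √(rho2 p') := by
  refine (Real.sqrt_le_sqrt h).trans_eq ?_
  rw [Real.sqrt_mul (by norm_num), show (4 : ℝ) = 2 ^ 2 by norm_num, Real.sqrt_sq (by norm_num)]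

theorem kch_zero {ι : Type*} (R : Set ι) :
    Jt κ R (fun _ _ _ => 0) (fun _ => 0) (fun _ => 0) (fun _ => 0) :=
  (Jt.lin (κ := κ) (R := R) (g := fun _ => 0) (jetBd_const 0)).congr (fun _ _ _ _ _ => by simp)
    (fun _ _ => rfl) (fun _ _ => rfl) (fun _ _ => rfl)

theorem jt_ln (hκ4 : 4 < κ) (hκ8 : κ < 8) (hχ : Chi x0 e0 C0 χ χ1 χ2)
    (hx : Real.exp (-x0) ≤ (8 - κ) / 24) (he : e0 ≤ (8 - κ) / 64) (hy : 0 < y0) (c : List ℂ) :
    ∃ n L : (ℂ → St) → ℝ, Jt κ {P | ∀ u ∈ c, y0 ≤ (P u).y}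
      (fun P η ξ => ln χ (c.map fun u => eul (η ^ 2) (P u) ξ)) (fun P => ln χ (c.map P)) n L ∧
      ∀ P, Up (c.map P) → L P ≤ 0 ∧
        ∀ R : ℝ, 0 < R → (∀ u ∈ c, R ≤ √(rho2 (P u))) → |n P| ≤ 4 / R := by
  induction c with
  | nil =>
    exact ⟨fun _ => 0, fun _ => 0, kch_zero _, fun P _ => ⟨le_rfl, fun R hR _ => by
      rw [abs_zero]; positivity⟩⟩
  | cons a t ih =>
    cases t with
    | nil =>
      exact ⟨fun _ => 0, fun _ => 0, kch_zero _, fun P _ => ⟨le_rfl, fun R hR _ => by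
        rw [abs_zero]; positivity⟩⟩
    | cons b t =>
      obtain ⟨n, L, hJ, hnL⟩ := ih
      have j1 := kch_jt (κ := κ) hχ hy (R := {P | ∀ u ∈ a :: b :: t, y0 ≤ (P u).y}) a b
        (fun P hP => hP a (by simp)) (fun P hP => hP b (by simp))
      have j2 := hJ.comap (R' := {P : ℂ → St | ∀ u ∈ a :: b :: t, y0 ≤ (P u).y}) (fun P => P)
        fun P hP u hu => hP u (List.mem_cons_of_mem _ hu)
      refine ⟨_, _, j1.add j2, fun P hP => ?_⟩
      have ya : 0 < (P a).y := hP.1 _ (by simp)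
      have yb : 0 < (P b).y := hP.1 _ (by simp)
      have hP' : Up ((b :: t).map P) :=
        ⟨fun p hp => hP.1 p (List.mem_cons_of_mem _ hp), (List.pairwise_cons.1 hP.2).2⟩
      obtain ⟨l1, l2⟩ := kch_link hκ4 hκ8 hχ hx he ya yb
      obtain ⟨i1, i2⟩ := hnL P hP'
      refine ⟨add_nonpos l1 i1, fun R hR hu => ?_⟩
      rcases l2 with z | ⟨w1, w2⟩
      · rw [z, zero_add]
        exact i2 R hR fun u h => hu u (List.mem_cons_of_mem _ h)
      · have ra := hu a (by simp)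
        have i3 := i2 (2 * R) (by positivity) fun u h => by
          rcases List.mem_cons.1 h with rfl | h
          · linarith
          · have := kch_half ((List.pairwise_cons.1 hP'.2).1 (P u) (List.mem_map_of_mem h))
            linarith
        have w3 : 2 / √(rho2 (P a)) ≤ 2 / R := by gcongr
        have w4 : 4 / (2 * R) = 2 / R := by field_simp; norm_num
        have w5 : 4 / R = 2 / R + 2 / R := by ring
        exact (abs_add_le _ _).trans (by linarith)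

/-- chain weights are supermartingales with a margin -/
theorem jt_cl (hκ4 : 4 < κ) (hκ8 : κ < 8) (hχ : Chi x0 e0 C0 χ χ1 χ2)
    (hx : Real.exp (-x0) ≤ (8 - κ) / 24) (he : e0 ≤ (8 - κ) / 64) (hy : 0 < y0) (c : List ℂ) :
    ∃ n L : (ℂ → St) → ℝ, Jt κ {P | ∀ u ∈ c, y0 ≤ (P u).y}
      (fun P η ξ => cl χ (c.map fun u => eul (η ^ 2) (P u) ξ)) (fun P => cl χ (c.map P)) n L ∧
      ∀ P, Up (c.map P) → ∀ g : ℝ, 0 ≤ g → g ≤ (8 - κ) / 2592 →
        g * L P + κ * (g * n P) ^ 2 ≤ -hdv (fun u => g * (8 - κ) / 4 / rho2 (P u)) c := by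
  cases c with
  | nil => exact ⟨fun _ => 0, fun _ => 0, kch_zero _, fun P _ g _ _ => by simp [hdv]⟩
  | cons a t =>
    obtain ⟨n, L, hJ, hnL⟩ := jt_ln hκ4 hκ8 hχ hx he hy (a :: t)
    have j1 := (jt_uu (κ := κ) hy).comap (R' := {P : ℂ → St | ∀ u ∈ a :: t, y0 ≤ (P u).y})
      (fun P => P a) fun P hP => hP a (by simp)
    have j2 := (Jt.smul (jetBd_const (-1)) j1).add hJ
    refine ⟨_, _, j2.congr (fun P _ η _ ξ => ?_) (fun P _ => ?_) (fun _ _ => rfl) (fun _ _ => rfl),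
      fun P hP g g0 g1 => ?_⟩
    · simp only [List.map_cons, cl, neg_one_mul]
    · simp only [List.map_cons, cl, neg_one_mul]
    · have ya : 0 < (P a).y := hP.1 _ (by simp)
      obtain ⟨a0, a1, a2⟩ := kch_inv ya
      have s0 : 0 < √(rho2 (P a)) := Real.sqrt_pos.2 (rho2_pos ya)
      obtain ⟨i1, i2⟩ := hnL P hP
      have i3 := i2 (√(rho2 (P a)) / 2) (by positivity) fun u h => by
        rcases List.mem_cons.1 h with rfl | h
        · linarith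
        · have := kch_half ((List.pairwise_cons.1 hP.2).1 (P u) (List.mem_map_of_mem h))
          linarith
      have w1 : 4 / (√(rho2 (P a)) / 2) = 8 * (1 / √(rho2 (P a))) := by field_simp; norm_num
      rw [w1] at i3
      have w2 : |(P a).x / rho2 (P a)| ≤ 1 / √(rho2 (P a)) :=
        abs_le.2 (abs_le_of_sq_le_sq' (by nlinarith [sq_nonneg ((P a).y / rho2 (P a))]) a0.le)
      have w3 : (8 - κ) / 2 ≤ mu κ (P a) := by
        have := ss_pos (P a)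
        unfold mu
        nlinarith
      simp only [hdv]
      rw [div_eq_mul_one_div (mu κ (P a)), div_eq_mul_one_div (g * (8 - κ) / 4), ← a1, neg_div]
      generalize 1 / √(rho2 (P a)) = α at a0 i3 w2
      generalize (P a).x / rho2 (P a) = u at w2
      have w4 : (-1 * -u + n P) ^ 2 ≤ (9 * α) ^ 2 := by
        have := abs_le.1 w2
        have := abs_le.1 i3
        exact sq_le_sq' (by linarith) (by linarith)
      have α2 : 0 < α ^ 2 := by positivity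
      have w5 : κ * (g * (-1 * -u + n P)) ^ 2 ≤ 8 * (g * ((8 - κ) / 2592) * (9 * α) ^ 2) := by
        rw [mul_pow, sq g]
        have : 0 ≤ (8 - κ) / 2592 := by linarith
        gcongr
      have w6 : g * ((8 - κ) / 2 * α ^ 2) ≤ g * (mu κ (P a) * α ^ 2) := by gcongr
      have w7 : g * L P ≤ 0 := mul_nonpos_of_nonneg_of_nonpos g0 i1
      nlinarith

end Vale.Agent.P164
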