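import Vale.Agent.P164.KDef

namespace Vale.Agent.P164

open Set

theorem T3.of_lip {φ φ1 φ2 : ℝ → ℝ} {K : ℝ} (h1 : ∀ x, HasDerivAt φ (φ1 x) x)
    (h2 : ∀ x, HasDerivAt φ1 (φ2 x) x) (b1 : ∀ x, |φ1 x| ≤ K) (b2 : ∀ x, |φ2 x| ≤ K)
    (hl : ∀ x y, |φ2 x - φ2 y| ≤ K * |x - y|) : T3 univ φ φ1 φ2 := by
  have hK : 0 ≤ K := (abs_nonneg _).trans (b1 0)
  refine fun H => ⟨K, fun a _ => ⟨b1 a, b2 a, ?_⟩⟩
  have d1 : ∀ x, HasDerivAt (fun h => φ1 (a + h) - (φ1 a + φ2 a * h)) (φ2 (a + x) - φ2 a) x :=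
    fun x => ((h2 (a + x)).comp_const_add a x).sub
      ((((hasDerivAt_id x).const_mul (φ2 a)).const_add (φ1 a)).congr_deriv (mul_one _))
  have d0 : ∀ x, HasDerivAt (fun h => φ (a + h) - (φ a + φ1 a * h + φ2 a / 2 * h ^ 2))
      (φ1 (a + x) - (φ1 a + φ2 a * x)) x := fun x => ((h1 (a + x)).comp_const_add a x).sub
    (((((hasDerivAt_id x).const_mul (φ1 a)).const_add (φ a)).add
      ((hasDerivAt_pow 2 x).const_mul (φ2 a / 2))).congr_deriv (by norm_num; ring))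
  refine jeta_step d0 (by simp) hK (jeta_step (n := 1) d1 (by simp) hK fun x _ => ?_)
  simpa using hl (a + x) a

theorem kchi_pow (n : ℕ) (c u : ℝ) :
    HasDerivAt (fun x : ℝ => max (x - c) 0 ^ (n + 2)) ((n + 2) * max (u - c) 0 ^ (n + 1)) u := by
  have h1 : HasDerivAt (fun x : ℝ => (x - c) ^ (n + 2)) ((n + 2) * (u - c) ^ (n + 1)) u :=
    (((hasDerivAt_id u).sub_const c).pow (n + 2)).congr_deriv (by simp)
  have h2 : HasDerivAt (fun _ : ℝ => (0 : ℝ) ^ (n + 2)) ((n + 2) * (0 : ℝ) ^ (n + 1)) u :=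
    (hasDerivAt_const u _).congr_deriv (by simp)
  rcases lt_trichotomy u c with h | h | h
  · rw [max_eq_right (sub_nonpos.2 h.le)]
    refine h2.congr_of_eventuallyEq ?_
    filter_upwards [Iio_mem_nhds h] with x hx
    rw [max_eq_right (sub_nonpos.2 (le_of_lt hx))]
  · subst h
    rw [sub_self] at h1
    rw [sub_self, max_self, ← hasDerivWithinAt_univ, ← Iic_union_Ici (a := u)]
    refine HasDerivWithinAt.union (h2.hasDerivWithinAt.congr (fun x hx => ?_) (by simp))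
      (h1.hasDerivWithinAt.congr (fun x hx => ?_) (by simp))
    · rw [max_eq_right (sub_nonpos.2 hx)]
    · rw [max_eq_left (sub_nonneg.2 hx)]
  · rw [max_eq_left (sub_nonneg.2 h.le)]
    refine h1.congr_of_eventuallyEq ?_
    filter_upwards [Ioi_mem_nhds h] with x hx
    rw [max_eq_left (sub_nonneg.2 (le_of_lt hx))]

theorem kchi_hat {a w : ℝ} (hw : 0 < w) (x : ℝ) :
    0 ≤ max (x - a) 0 - 2 * max (x - (a + w)) 0 + max (x - (a + 2 * w)) 0 ∧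
      max (x - a) 0 - 2 * max (x - (a + w)) 0 + max (x - (a + 2 * w)) 0 ≤ w := by
  simp only [max_def]
  split_ifs <;> constructor <;> linarith

theorem kchi_lip (c x y : ℝ) : |max (x - c) 0 - max (y - c) 0| ≤ |x - y| := by
  simpa using abs_max_sub_max_le_abs (x - c) (y - c) 0

theorem kchi_abs {x0 e0 C0 K : ℝ} {χ χ1 χ2 : ℝ → ℝ} (hx : 0 ≤ x0) (hC : x0 ≤ C0)
    (h1 : ∀ x, HasDerivAt χ (χ1 x) x) (h2 : ∀ x, HasDerivAt χ1 (χ2 x) x)
    (hl : ∀ x y, |χ2 x - χ2 y| ≤ K * |x - y|) (K1 : 1 ≤ K) (K2 : e0 ≤ K)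
    (zero : ∀ x ≤ x0, χ x = 0 ∧ χ1 x = 0 ∧ χ2 x = 0) (d2 : ∀ x, 0 ≤ χ2 x ∧ χ2 x ≤ e0) (M : ℝ)
    (top : ∀ x, M ≤ x → χ x = x - C0 ∧ χ1 x = 1) : Chi x0 e0 C0 χ χ1 χ2 := by
  have m1 : Monotone χ1 := monotone_of_hasDerivAt_nonneg h2 fun x => (d2 x).1
  have d1 : ∀ x, 0 ≤ χ1 x ∧ χ1 x ≤ 1 := fun x =>
    ⟨(zero _ (min_le_right x x0)).2.1 ▸ m1 (min_le_left x x0),
      (top _ (le_max_right x M)).2 ▸ m1 (le_max_left x M)⟩
  have m0 : Monotone χ := monotone_of_hasDerivAt_nonneg h1 fun x => (d1 x).1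
  have m2 : Monotone fun x => x - χ x := monotone_of_hasDerivAt_nonneg
    (fun x => (hasDerivAt_id x).sub (h1 x)) fun x => sub_nonneg.2 (d1 x).2
  refine ⟨T3.of_lip (K := K) h1 h2 (fun x => ?_) (fun x => ?_) hl, m0.measurable, m1.measurable, hx,
    hx.trans hC, zero, d1, d2, fun x => ?_,
    fun x => (zero _ (min_le_right x x0)).1 ▸ m0 (min_le_left x x0), fun x => ?_⟩
  · rw [abs_of_nonneg (d1 x).1]
    exact (d1 x).2.trans K1
  · rw [abs_of_nonneg (d2 x).1]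
    exact (d2 x).2.trans K2
  · have h3 : x - χ x ≤ max x M - χ (max x M) := m2 (le_max_left x M)
    rw [(top _ (le_max_right x M)).1] at h3
    linarith
  · rcases le_total x x0 with h | h
    · rw [(zero x h).1]
      exact le_max_right _ _
    · have h3 : x0 - χ x0 ≤ x - χ x := m2 h
      rw [(zero x0 le_rfl).1] at h3
      exact le_trans (by linarith) (le_max_left x 0)

theorem chi_ex {x0 e0 : ℝ} (hx : 0 ≤ x0) (he : 0 < e0) :
    ∃ (C0 : ℝ) (χ χ1 χ2 : ℝ → ℝ), Chi x0 e0 C0 χ χ1 χ2 := by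
  obtain ⟨w, hw, hwe⟩ : ∃ w : ℝ, 0 < w ∧ e0 * w = 1 := ⟨e0⁻¹, inv_pos.2 he, mul_inv_cancel₀ he.ne'⟩
  have h2 : 0 ≤ e0 ^ 2 := sq_nonneg _
  refine ⟨x0 + w, fun x => e0 ^ 2 / 6 * (max (x - x0) 0 ^ (1 + 2) -
      2 * max (x - (x0 + w)) 0 ^ (1 + 2) + max (x - (x0 + 2 * w)) 0 ^ (1 + 2)),
    fun x => e0 ^ 2 / 2 * (max (x - x0) 0 ^ (0 + 2) -
      2 * max (x - (x0 + w)) 0 ^ (0 + 2) + max (x - (x0 + 2 * w)) 0 ^ (0 + 2)),
    fun x => e0 ^ 2 * (max (x - x0) 0 - 2 * max (x - (x0 + w)) 0 + max (x - (x0 + 2 * w)) 0),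
    kchi_abs (K := 1 + e0 + 4 * e0 ^ 2) hx (by linarith) (fun x => ?_) (fun x => ?_)
      (fun x y => ?_) (by linarith) (by linarith) (fun x h => ?_) (fun x => ?_) (x0 + 2 * w)
      fun x h => ?_⟩
  · refine ((((kchi_pow 1 x0 x).sub ((kchi_pow 1 (x0 + w) x).const_mul 2)).add
      (kchi_pow 1 (x0 + 2 * w) x)).const_mul (e0 ^ 2 / 6)).congr_deriv ?_
    push_cast
    ring
  · refine ((((kchi_pow 0 x0 x).sub ((kchi_pow 0 (x0 + w) x).const_mul 2)).add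
      (kchi_pow 0 (x0 + 2 * w) x)).const_mul (e0 ^ 2 / 2)).congr_deriv ?_
    push_cast
    ring
  · have a1 := abs_le.1 (kchi_lip x0 x y)
    have a2 := abs_le.1 (kchi_lip (x0 + w) x y)
    have a3 := abs_le.1 (kchi_lip (x0 + 2 * w) x y)
    rw [← mul_sub, abs_mul, abs_of_nonneg h2]
    refine (mul_le_mul_of_nonneg_left (abs_le.2 ⟨?_, ?_⟩ : _ ≤ 4 * |x - y|) h2).trans ?_
    · linarith [a1.1, a2.2, a3.1]
    · linarith [a1.2, a2.1, a3.2]
    · nlinarith [abs_nonneg (x - y)]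
  · have a1 : max (x - x0) 0 = 0 := max_eq_right (by linarith)
    have a2 : max (x - (x0 + w)) 0 = 0 := max_eq_right (by linarith)
    have a3 : max (x - (x0 + 2 * w)) 0 = 0 := max_eq_right (by linarith)
    simp [a1, a2, a3]
  · refine ⟨mul_nonneg h2 (kchi_hat hw x).1,
      (mul_le_mul_of_nonneg_left (kchi_hat hw x).2 h2).trans_eq ?_⟩
    linear_combination e0 * hwe
  · have a1 : max (x - x0) 0 = x - x0 := max_eq_left (by linarith)
    have a2 : max (x - (x0 + w)) 0 = x - (x0 + w) := max_eq_left (by linarith)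
    have a3 : max (x - (x0 + 2 * w)) 0 = x - (x0 + 2 * w) := max_eq_left (by linarith)
    rw [a1, a2, a3]
    exact ⟨by linear_combination (x - (x0 + w)) * (e0 * w + 1) * hwe,
      by linear_combination (e0 * w + 1) * hwe⟩

end Vale.Agent.P164
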