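import Vale.Agent.P164.KDef

namespace Vale.Agent.P164

open Set

variable {Q : Finset ℂ} {r r' : ℂ → ℂ → Prop} {A A' : ℂ → Prop} {f : List ℂ → ℝ}

theorem mem_LL {c : List ℂ} : c ∈ LL Q ↔ c.Nodup ∧ ∀ u ∈ c, u ∈ Q := by
  unfold LL
  simp only [Finset.mem_biUnion, Finset.mem_powerset, List.mem_toFinset, List.mem_permutations]
  constructor
  · rintro ⟨F, hF, hp⟩
    exact ⟨hp.nodup_iff.2 F.nodup_toList, fun u hu => hF (Finset.mem_toList.1 (hp.subset hu))⟩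
  · rintro ⟨h1, h2⟩
    exact ⟨c.toFinset, fun u hu => h2 u (List.mem_toFinset.1 hu), (List.toFinset_toList h1).symm⟩

theorem rel_sto (m : ℂ → ℝ) : Sto (rel m) := by
  refine ⟨fun u h => ?_, fun u v w h1 h2 => ?_, fun u v => ?_⟩
  · rcases h with h | h
    · exact lt_irrefl _ h
    · exact irrefl_of WellOrderingRel u h.2
  · rcases h1 with h1 | h1 <;> rcases h2 with h2 | h2
    · exact Or.inl (h1.trans h2)
    · exact Or.inl (h1.trans_eq h2.1)
    · exact Or.inl (h1.1.trans_lt h2)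
    · exact Or.inr ⟨h1.1.trans h2.1, trans_of WellOrderingRel h1.2 h2.2⟩
  · rcases lt_trichotomy (m u) (m v) with h | h | h
    · exact Or.inl (Or.inl h)
    · rcases trichotomous_of WellOrderingRel u v with h' | h' | h'
      · exact Or.inl (Or.inr ⟨h, h'⟩)
      · exact Or.inr (Or.inl h')
      · exact Or.inr (Or.inr (Or.inr ⟨h.symm, h'⟩))
    · exact Or.inr (Or.inr (Or.inl h))

open Classical in
/-- the chains -/
noncomputable def CS_KComb (Q : Finset ℂ) (r : ℂ → ℂ → Prop) (A : ℂ → Prop) : Finset (List ℂ) :=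
  (LL Q).filter fun c => (∀ u ∈ c, A u) ∧ c.Pairwise r

theorem US_eq_KComb : US Q r A f = ∑ c ∈ CS_KComb Q r A, f c := by
  rw [US, CS_KComb, Finset.sum_filter]

theorem mem_CS_KComb {c : List ℂ} :
    c ∈ CS_KComb Q r A ↔ c.Nodup ∧ (∀ u ∈ c, u ∈ Q ∧ A u) ∧ c.Pairwise r := by
  classical
  rw [CS_KComb, Finset.mem_filter, mem_LL]
  exact ⟨fun h => ⟨h.1.1, fun u hu => ⟨h.1.2 u hu, h.2.1 u hu⟩, h.2.2⟩,
    fun h => ⟨⟨h.1, fun u hu => (h.2.1 u hu).1⟩, fun u hu => (h.2.1 u hu).2, h.2.2⟩⟩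

theorem US_ge (hf : ∀ c, 0 ≤ f c) : f [] ≤ US Q r A f := by
  rw [US_eq_KComb]
  exact Finset.single_le_sum (fun c _ => hf c) (mem_CS_KComb.2 (by simp))

theorem US_nil (hA : ∀ u ∈ Q, ¬ A u) : US Q r A f = f [] := by
  rw [US_eq_KComb]
  refine Finset.sum_eq_single_of_mem [] (mem_CS_KComb.2 (by simp)) fun c hc hne => ?_
  obtain ⟨u, hu⟩ := List.exists_mem_of_ne_nil c hne
  have h := (mem_CS_KComb.1 hc).2.1 u hu
  exact absurd h.2 (hA u h.1)

theorem US_mono (hf : ∀ c, 0 ≤ f c) (hA : ∀ u ∈ Q, A u → A' u)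
    (hr : ∀ u ∈ Q, ∀ v ∈ Q, A u → A v → r u v → r' u v) : US Q r A f ≤ US Q r' A' f := by
  rw [US_eq_KComb, US_eq_KComb]
  refine Finset.sum_le_sum_of_subset_of_nonneg (fun c hc => ?_) fun c _ _ => hf c
  obtain ⟨h1, h2, h3⟩ := mem_CS_KComb.1 hc
  exact mem_CS_KComb.2 ⟨h1, fun u hu => ⟨(h2 u hu).1, hA u (h2 u hu).1 (h2 u hu).2⟩,
    h3.imp_of_mem fun {u v} hu hv =>
      hr u (h2 u hu).1 v (h2 v hv).1 (h2 u hu).2 (h2 v hv).2⟩

theorem US_le {f' : List ℂ → ℝ} (h : ∀ c, (∀ u ∈ c, u ∈ Q ∧ A u) → c.Pairwise r → f c ≤ f' c) :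
    US Q r A f ≤ US Q r A f' := by
  rw [US_eq_KComb, US_eq_KComb]
  exact Finset.sum_le_sum fun c hc => h c (mem_CS_KComb.1 hc).2.1 (mem_CS_KComb.1 hc).2.2

theorem one_KComb (hr : Sto r) (hf : ∀ c, 0 ≤ f c) {K : ℝ} (hK0 : 0 ≤ K)
    (hK : ∀ (c1 c2 : List ℂ) (i : ℂ), (∀ u ∈ c1 ++ i :: c2, u ∈ Q ∧ A' u) →
      (c1 ++ i :: c2).Pairwise r → f (c1 ++ i :: c2) ≤ K * f (c1 ++ c2)) (i : ℂ) :
    US Q r A' f ≤ (1 + K) * US Q r (fun u => A' u ∧ u ≠ i) f := by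
  classical
  rw [US_eq_KComb, US_eq_KComb,
    ← Finset.sum_filter_not_add_sum_filter (CS_KComb Q r A') (fun c => i ∈ c), add_mul, one_mul]
  refine add_le_add ?_ ?_
  · refine Finset.sum_le_sum_of_subset_of_nonneg (fun c hc => ?_) fun c _ _ => hf c
    obtain ⟨hc1, hc2⟩ := Finset.mem_filter.1 hc
    obtain ⟨h1, h2, h3⟩ := mem_CS_KComb.1 hc1
    exact mem_CS_KComb.2 ⟨h1, fun u hu => ⟨(h2 u hu).1, (h2 u hu).2, fun h => hc2 (h ▸ hu)⟩, h3⟩
  · have e1 : ∑ c ∈ (CS_KComb Q r A').filter (fun c => i ∈ c), f c ≤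
        ∑ c ∈ (CS_KComb Q r A').filter (fun c => i ∈ c), K * f (c.erase i) := by
      refine Finset.sum_le_sum fun c hc => ?_
      obtain ⟨hc1, hc2⟩ := Finset.mem_filter.1 hc
      obtain ⟨-, h2, h3⟩ := mem_CS_KComb.1 hc1
      obtain ⟨c1, c2, -, h4, h5⟩ := List.exists_erase_eq hc2
      rw [h5]
      rw [h4] at h2 h3 ⊢
      exact hK c1 c2 i h2 h3
    refine e1.trans ?_
    rw [← Finset.mul_sum]
    refine mul_le_mul_of_nonneg_left ?_ hK0
    have inj : InjOn (fun c : List ℂ => c.erase i)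
        ((CS_KComb Q r A').filter (fun c => i ∈ c) : Finset (List ℂ)) := by
      intro c hc c' hc' he
      obtain ⟨hc1, hc2⟩ := Finset.mem_filter.1 (Finset.mem_coe.1 hc)
      obtain ⟨hd1, hd2⟩ := Finset.mem_filter.1 (Finset.mem_coe.1 hc')
      have he' : c.erase i = c'.erase i := he
      have hp : c.Perm c' := by
        refine (List.perm_cons_erase hc2).trans ?_
        rw [he']
        exact (List.perm_cons_erase hd2).symm
      exact List.Perm.eq_of_pairwise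
        (fun a b _ _ h1 h2 => absurd (hr.tr a b a h1 h2) (hr.irr a))
        (mem_CS_KComb.1 hc1).2.2 (mem_CS_KComb.1 hd1).2.2 hp
    rw [← Finset.sum_image (f := f) inj]
    refine Finset.sum_le_sum_of_subset_of_nonneg (fun c hc => ?_) fun c _ _ => hf c
    obtain ⟨c', hc', rfl⟩ := Finset.mem_image.1 hc
    obtain ⟨h1, h2, h3⟩ := mem_CS_KComb.1 (Finset.mem_filter.1 hc').1
    refine mem_CS_KComb.2 ⟨h1.erase i, fun u hu => ?_, h3.sublist List.erase_sublist⟩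
    have h4 := h1.mem_erase_iff.1 hu
    exact ⟨(h2 u h4.2).1, (h2 u h4.2).2, h4.1⟩

/-- cost of enrolling the points of `N` -/
theorem US_ins (hr : Sto r) (hf : ∀ c, 0 ≤ f c) {K : ℝ} (hK0 : 0 ≤ K)
    (hK : ∀ (c1 c2 : List ℂ) (i : ℂ), (∀ u ∈ c1 ++ i :: c2, u ∈ Q ∧ A' u) →
      (c1 ++ i :: c2).Pairwise r → f (c1 ++ i :: c2) ≤ K * f (c1 ++ c2))
    (N : Finset ℂ) (hN : ∀ u ∈ Q, A' u → A u ∨ u ∈ N) :
    US Q r A' f ≤ (1 + K) ^ N.card * US Q r (fun u => A u ∧ A' u) f := by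
  classical
  induction N using Finset.induction_on generalizing A' with
  | empty =>
    rw [Finset.card_empty, pow_zero, one_mul]
    refine US_mono hf (fun u hu h => ⟨?_, h⟩) fun _ _ _ _ _ _ h => h
    exact (hN u hu h).resolve_right (Finset.notMem_empty u)
  | insert i N hi ih =>
    have h1 := one_KComb hr hf hK0 hK i
    have h2 := ih (A' := fun u => A' u ∧ u ≠ i)
      (fun c1 c2 j h h' => hK c1 c2 j (fun u hu => ⟨(h u hu).1, (h u hu).2.1⟩) h')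
      (fun u hu h => (hN u hu h.1).imp_right fun h' =>
        (Finset.mem_insert.1 h').resolve_left h.2)
    have h3 : US Q r (fun u => A u ∧ (A' u ∧ u ≠ i)) f ≤ US Q r (fun u => A u ∧ A' u) f :=
      US_mono hf (fun u _ h => ⟨h.1, h.2.1⟩) fun _ _ _ _ _ _ h => h
    have hp : 0 ≤ 1 + K := by linarith
    rw [Finset.card_insert_of_notMem hi, pow_succ', mul_assoc]
    exact h1.trans (mul_le_mul_of_nonneg_left
      (h2.trans (mul_le_mul_of_nonneg_left h3 (pow_nonneg hp _))) hp)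

end Vale.Agent.P164
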