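import Vale.Agent.P164.KComb

namespace Vale.Agent.P164

open Set

variable {Q : Finset ℂ} {r : ℂ → ℂ → Prop} {A : ℂ → Prop} {f : List ℂ → ℝ}

open Classical in
/-- running costs are paid by the margins at the heads of the chains -/
theorem US_pay (hr : Sto r) (hf : ∀ c, 0 ≤ f c) {a d : ℂ → ℝ} (ha : ∀ u ∈ Q, A u → 0 ≤ a u)
    (hd : ∀ u ∈ Q, A u → 0 ≤ d u)
    (hb : ∀ (i : ℂ) (c : List ℂ), (∀ u ∈ i :: c, u ∈ Q ∧ A u) → (i :: c).Pairwise r →
      a i * f c ≤ d i / 2 * f (i :: c))
    (hc : ∀ l ∈ Q, A l → (∑ i ∈ Q, if A i ∧ ¬ r i l then a i else 0) ≤ d l / 2) :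
    (∑ i ∈ Q, if A i then a i else 0) * US Q r A f ≤ US Q r A fun c => hdv d c * f c := by
  set S := (LL Q).filter fun c => (∀ u ∈ c, A u) ∧ c.Pairwise r with hS
  set T := Q.filter A with hT
  have nd : ∀ c : List ℂ, c.Pairwise r → c.Nodup := fun c h =>
    List.Pairwise.imp (R := r) (S := fun x y => x ≠ y)
      (fun {x y} hxy e => hr.irr y (by rwa [e] at hxy)) h
  have mS : ∀ c, c ∈ S ↔ (∀ u ∈ c, u ∈ Q ∧ A u) ∧ c.Pairwise r := fun c => by
    rw [hS, Finset.mem_filter, mem_LL]
    refine ⟨fun h => ⟨fun u hu => ⟨h.1.2 u hu, h.2.1 u hu⟩, h.2.2⟩, fun h =>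
      ⟨⟨nd c h.2, fun u hu => (h.1 u hu).1⟩,
        fun u hu => (h.1 u hu).2, h.2⟩⟩
  have mT : ∀ i, i ∈ T ↔ i ∈ Q ∧ A i := fun i => Finset.mem_filter
  have g0 : ∀ c ∈ S, 0 ≤ hdv d c / 2 * f c := fun c hc' => by
    refine mul_nonneg (div_nonneg ?_ two_pos.le) (hf c)
    cases c with
    | nil => exact le_rfl
    | cons l t =>
      have := ((mS _).1 hc').1 l (List.mem_cons_self ..)
      exact hd l this.1 this.2
  have h1 : ∀ c ∈ S, (∑ i ∈ T, a i) * f c ≤
      (∑ i ∈ T, if (i :: c).Pairwise r then hdv d (i :: c) / 2 * f (i :: c) else 0) +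
        hdv d c / 2 * f c := fun c hc' => by
    have hc2 := (mS c).1 hc'
    have h2 : (∑ i ∈ T, if ¬ (i :: c).Pairwise r then a i else 0) ≤ hdv d c / 2 := by
      cases c with
      | nil => simp [hdv]
      | cons l t =>
        have hl := hc2.1 l (List.mem_cons_self ..)
        refine le_trans ?_ (hc l hl.1 hl.2)
        rw [hT, Finset.sum_filter]
        refine Finset.sum_le_sum fun i hi => ?_
        by_cases hA : A i
        · by_cases hil : r i l
          · have hp : (i :: l :: t).Pairwise r := List.pairwise_cons.2 ⟨fun u hu => by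
              rcases List.mem_cons.1 hu with rfl | hu
              · exact hil
              · exact hr.tr _ _ _ hil ((List.pairwise_cons.1 hc2.2).1 u hu), hc2.2⟩
            simp [hA, hil, hp]
          · rw [if_pos hA, if_pos (show A i ∧ ¬ r i l from ⟨hA, hil⟩)]
            split_ifs
            · exact ha i hi hA
            · exact le_rfl
        · simp [hA]
    refine le_trans ?_ (add_le_add le_rfl (mul_le_mul_of_nonneg_right h2 (hf c)))
    rw [Finset.sum_mul, Finset.sum_mul, ← Finset.sum_add_distrib]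
    refine Finset.sum_le_sum fun i hi => ?_
    by_cases hp : (i :: c).Pairwise r
    · rw [if_pos hp, if_neg (not_not.2 hp), zero_mul, add_zero]
      refine hb i c (fun u hu => ?_) hp
      rcases List.mem_cons.1 hu with rfl | hu
      · exact (mT _).1 hi
      · exact hc2.1 u hu
    · rw [if_neg hp, if_pos hp, zero_add]
  have h3 : (∑ c ∈ S, ∑ i ∈ T,
      if (i :: c).Pairwise r then hdv d (i :: c) / 2 * f (i :: c) else 0) ≤
        ∑ c ∈ S, hdv d c / 2 * f c := by
    rw [← Finset.sum_product', ← Finset.sum_filter,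
      ← Finset.sum_image (g := fun p : List ℂ × ℂ => p.2 :: p.1)
        (f := fun c => hdv d c / 2 * f c) (fun p _ q _ h => by
          simp only [List.cons.injEq] at h
          exact Prod.ext h.2 h.1)]
    refine Finset.sum_le_sum_of_subset_of_nonneg (fun c' hc' => ?_) fun c hc' _ => g0 c hc'
    obtain ⟨p, hp, rfl⟩ := Finset.mem_image.1 hc'
    obtain ⟨hp1, hp2⟩ := Finset.mem_filter.1 hp
    obtain ⟨hp3, hp4⟩ := Finset.mem_product.1 hp1
    refine (mS _).2 ⟨fun u hu => ?_, hp2⟩
    rcases List.mem_cons.1 hu with rfl | hu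
    · exact (mT _).1 hp4
    · exact ((mS _).1 hp3).1 u hu
  unfold US
  rw [← Finset.sum_filter, ← Finset.sum_filter, ← Finset.sum_filter, ← hS, ← hT, Finset.mul_sum]
  refine (Finset.sum_le_sum h1).trans ?_
  rw [Finset.sum_add_distrib]
  refine (add_le_add h3 le_rfl).trans (le_of_eq ?_)
  rw [← Finset.sum_add_distrib]
  exact Finset.sum_congr rfl fun c _ => by ring

end Vale.Agent.P164
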