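import Vale.Agent.P164.KDef

namespace Vale.Agent.P164

open Set MeasureTheory

open Classical in
/-- the step of the gated process -/
noncomputable def gtF {S : Type} (f : S → ℝ → S) (J : Set S) (δ L yc : ℝ) (s : S × St × ℝ) (ξ : ℝ) :
    S × St × ℝ :=
  (f s.1 ξ, tlC δ L yc s.2.1 ξ, if L < s.2.1.l ∧ s.1 ∉ J then 0 else s.2.2)

theorem gt_mF {S : Type} [MeasurableSpace S] {f : S → ℝ → S} {J : Set S} (δ L yc : ℝ)
    (hf : Measurable (Function.uncurry f)) (hJ : MeasurableSet J) :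
    Measurable (Function.uncurry (gtF f J δ L yc)) := by
  have hz : Measurable fun z : (S × St × ℝ) × ℝ => z.1.2.1 := measurable_fst.snd.fst
  have h1 : Measurable fun z : (S × St × ℝ) × ℝ => (z.1.1, z.2) :=
    measurable_fst.fst.prodMk measurable_snd
  refine Measurable.prodMk (hf.comp h1) (Measurable.prodMk ?_ ?_)
  · exact Measurable.ite ((measurableSet_lt measurable_const (measurable_l.comp hz)).inter
      (measurableSet_le measurable_const (measurable_y.comp hz)))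
      (measurable_eul' δ hz measurable_snd) hz
  · exact Measurable.ite ((measurableSet_lt measurable_const (measurable_l.comp hz)).inter
      (measurable_fst.fst hJ.compl)) measurable_const measurable_fst.snd.snd

theorem gt_run {S : Type} (f : S → ℝ → S) (J : Set S) (δ L yc : ℝ) (x0 : S) (z0 : St) (ξ : ℕ → ℝ)
    (n : ℕ) : (run (gtF f J δ L yc) (x0, z0, 1) ξ n).1 = run f x0 ξ n ∧
      (run (gtF f J δ L yc) (x0, z0, 1) ξ n).2.1 = run (tlC δ L yc) z0 ξ n ∧
      ((∀ m < n, run f x0 ξ m ∉ J → (run (tlC δ L yc) z0 ξ m).l ≤ L) →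
        (run (gtF f J δ L yc) (x0, z0, 1) ξ n).2.2 = 1) := by
  induction n with
  | zero => exact ⟨rfl, rfl, fun _ => rfl⟩
  | succ n ih =>
    obtain ⟨a, b, c⟩ := ih
    simp only [run_succ, gtF]
    refine ⟨congrArg (f · (ξ n)) a, congrArg (tlC δ L yc · (ξ n)) b, fun h => ?_⟩
    refine (if_neg fun h' => ?_).trans (c fun m hm => h m (by omega))
    exact absurd (b ▸ h'.1) (not_lt.2 (h n (by omega) (a ▸ h'.2)))

/-- a supermartingale that only moves after the centre `c` has reached level `L` -/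
theorem gated {κ : ℝ} (hκ : 0 < κ) (hκ8 : κ < 8) : ∃ C8 : ℝ, 0 < C8 ∧ ∀ c : ℂ, 1 ≤ c.im →
    c.im ≤ 2 → ∀ L yc T C1 : ℝ, L ≤ 0 → 0 < yc → 0 ≤ C1 → ∃ η0 : ℝ, 0 < η0 ∧ η0 ≤ 1 ∧
    ∀ η : ℝ, 0 < η → η ≤ η0 → ∀ N : ℕ, N * η ^ 2 ≤ T →
    ∀ (S : Type) [MeasurableSpace S] (f : S → ℝ → S) (I J : Set S) (V : S → ℝ) (x0 : S),
      Measurable (Function.uncurry f) → Measurable V → MeasurableSet J → x0 ∈ I →
      (∀ s ∈ I, ∀ ξ, f s ξ ∈ I) → (∀ s ∈ I, 0 ≤ V s) →
      (∀ s ∈ I, Integrable (fun ξ => V (f s ξ)) (gs κ η) ∧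
        ∫ ξ, V (f s ξ) ∂gs κ η ≤ (1 + C1 * η ^ 3) * V s) →
      (∀ s ∈ I, s ∈ J → ∀ ξ, V (f s ξ) ≤ V s) →
      ∃ Φ : (ℕ → ℝ) → ℝ, Measurable Φ ∧ (∀ ξ, 0 ≤ Φ ξ) ∧ Integrable Φ (GG κ η) ∧
        ∫ ξ, Φ ξ ∂GG κ η ≤ C8 * Real.exp ((1 - κ / 8) * L) * V x0 ∧
        ∀ ξ, (∀ n < N, run f x0 ξ n ∉ J →
            ∃ n' ≤ n, yc ≤ (fre (η ^ 2) c ξ n').y ∧ (fre (η ^ 2) c ξ n').l ≤ L) →
          (∀ n < N, run f x0 ξ n ∈ J) ∨ V (run f x0 ξ N) ≤ Φ ξ := by
  obtain ⟨C9, hC9, hV⟩ := tl_V hκ hκ8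
  refine ⟨2 * (C9 + 1), by positivity, ?_⟩
  intro c hc1 hc2 L yc T C2 hL hy c2
  obtain ⟨W, mW, V1, V2, C1, c1, V3⟩ := hV L yc hL hy
  have E0 := Real.exp_pos ((1 - κ / 8) * L)
  have E1 : Real.exp ((1 - κ / 8) * L) ≤ 1 := Real.exp_le_one_iff.2 (by nlinarith)
  obtain ⟨η1, h1, h1', herr⟩ := err_small (C1 + C2) T _ E0
  refine ⟨min η1 (yc / 2), by positivity, (min_le_left _ _).trans h1',
    fun η hη hη' N hN S _ f I0 J V x0 mf mV mJ hx0 fI V0 E3 hJ => ?_⟩
  obtain ⟨e1, e3⟩ := le_min_iff.1 hη'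
  have hη1 : η ∈ Ioc (0 : ℝ) 1 := ⟨hη, e1.trans h1'⟩
  obtain ⟨r1, r2⟩ := herr η hη e1 N hN
  have mΦ : Measurable fun s : S × St × ℝ => s.2.2 * if s.2.1.l ≤ L then V s.1 else V x0 * W s.2.1 :=
    measurable_snd.snd.mul
      (Measurable.ite (measurableSet_le (measurable_l.comp measurable_snd.fst) measurable_const)
        (mV.comp measurable_fst) ((mW.comp measurable_snd.fst).const_mul _))
  have mF := gt_mF (η ^ 2) L yc mf mJ
  have v0 := V0 _ hx0
  let I : Set (S × St × ℝ) := {s | s.1 ∈ I0 ∧ L - 1 ≤ s.2.1.l ∧ s.2.1.l ≤ 2 ∧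
    (s.2.2 = 0 ∨ s.2.2 = 1 ∧ (L < s.2.1.l → V s.1 ≤ V x0))}
  have hI : ∀ s ∈ I, ∀ ξ, gtF f J (η ^ 2) L yc s ξ ∈ I := by
    rintro ⟨P, z, H⟩ ⟨a1, a2, a3, a4⟩ ξ
    refine ⟨fI _ a1 ξ, ?_⟩
    simp only [gtF] at a2 a3 a4 ⊢
    refine ⟨?_, ?_, ?_⟩
    · unfold tlC
      split_ifs with h
      · linarith [eul_l_ge (sq_nonneg η) hy h.2 ξ, tl_mesh hη e3, h.1]
      · exact a2
    · unfold tlC
      split_ifs with h
      · exact (eul_l_le (sq_nonneg η) z ξ).trans a3
      · exact a3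
    · split_ifs with h
      · exact Or.inl rfl
      · refine a4.imp id fun a => ⟨a.1, fun h' => ?_⟩
        have h2 : L < z.l := lt_of_not_ge fun h2 => by
          rw [tl_stay h2] at h'
          exact absurd h' (not_lt.2 h2)
        exact (hJ P a1 (not_not.1 fun h3 => h ⟨h2, h3⟩) ξ).trans (a.2 h2)
  have h0 : ∀ s ∈ I, 0 ≤ s.2.2 * if s.2.1.l ≤ L then V s.1 else V x0 * W s.2.1 := fun s hs => by
    refine mul_nonneg (by rcases hs.2.2.2 with h | h <;> simp [h]) ?_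
    split_ifs
    · exact V0 _ hs.1
    · exact mul_nonneg v0 (V1 _ hs.2.1).1
  have l0 : 0 ≤ (ini c).l := Real.log_nonneg hc1
  have hx : (x0, ini c, (1 : ℝ)) ∈ I := ⟨hx0, by show L - 1 ≤ (ini c).l; linarith,
    (Real.log_le_sub_one_of_pos (by linarith : 0 < c.im)).trans (by linarith),
    Or.inr ⟨rfl, fun _ => le_rfl⟩⟩
  have q1 : 0 ≤ C1 * η ^ 3 := by positivity
  have q2 : 0 ≤ C2 * η ^ 3 := by positivity
  have ab : |C1 + C2| = C1 + C2 := abs_of_nonneg (by linarith)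
  obtain ⟨m1, m2⟩ := machine (κ := κ) (η := η) mF hI mΦ h0 (a := 1 + |C1 + C2| * η ^ 3)
    (b := (C1 + C2) * η ^ 3 * V x0) (le_add_of_nonneg_right (by positivity)) (by positivity) (by
      rintro ⟨P, z, H⟩ hs
      have b0 := h0 _ hs
      have b1 := fun ξ => h0 _ (hI _ hs ξ)
      have b2 := fun ξ => (hI _ hs ξ).2.1
      have b3 := mΦ.comp (mF.comp (measurable_const.prodMk measurable_id : Measurable fun ξ : ℝ =>
        ((P, z, H), ξ)))
      obtain ⟨a1, a2, a3, a4⟩ := hs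
      rw [ab]
      have k0 := mul_nonneg q1 v0
      have k0' := mul_nonneg q2 v0
      rcases a4 with a4 | ⟨a4, a5⟩
      · obtain rfl : H = 0 := a4
        simp only [gtF, ite_self, zero_mul, mul_zero, integral_zero]
        exact ⟨integrable_const _, by linarith⟩
      obtain rfl : H = 1 := a4
      by_cases h : z.l ≤ L
      · obtain ⟨i1, i2⟩ := E3 P a1
        have n1 : ¬ (L < z.l ∧ P ∉ J) := fun h' => absurd h'.1 (not_lt.2 h)
        simp only [gtF, tl_stay h, if_pos h, if_neg n1, one_mul]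
        refine ⟨i1, ?_⟩
        have k2 := mul_nonneg q1 (V0 P a1)
        linarith
      · simp only [if_neg h, one_mul] at b0 ⊢
        have k2 := mul_nonneg (add_nonneg q1 q2) b0
        by_cases hP : P ∈ J
        swap
        · have n1 : L < z.l ∧ P ∉ J := ⟨not_le.1 h, hP⟩
          simp only [gtF, if_pos n1, zero_mul, integral_zero]
          exact ⟨integrable_const _, by linarith⟩
        have n1 : ¬ (L < z.l ∧ P ∉ J) := fun h' => h'.2 hP
        by_cases h' : yc ≤ z.y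
        · obtain ⟨i1, i2⟩ := V3 z ⟨h', a2, a3⟩ η hη1
          have hz : ∀ ξ, tlC (η ^ 2) L yc z ξ = eul (η ^ 2) z ξ := fun ξ =>
            if_pos ⟨not_le.1 h, h'⟩
          have k3 : ∀ ξ, ((gtF f J (η ^ 2) L yc (P, z, 1) ξ).2.2 *
              if (gtF f J (η ^ 2) L yc (P, z, 1) ξ).2.1.l ≤ L then
                V (gtF f J (η ^ 2) L yc (P, z, 1) ξ).1 else
                V x0 * W (gtF f J (η ^ 2) L yc (P, z, 1) ξ).2.1) ≤
              V x0 * W (eul (η ^ 2) z ξ) := by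
            intro ξ
            have b4 := b2 ξ
            simp only [gtF, hz, if_neg n1, one_mul] at b4 ⊢
            split_ifs with h2
            · exact ((hJ P a1 hP ξ).trans (a5 (not_le.1 h))).trans
                (le_mul_of_one_le_right v0 ((V1 _ b4).2 h2))
            · exact le_rfl
          have k4 := (i1.const_mul (V x0)).mono' b3.aestronglyMeasurable
            (Filter.Eventually.of_forall fun ξ => (abs_of_nonneg (b1 ξ)).trans_le (k3 ξ))
          refine ⟨k4, (integral_mono k4 (i1.const_mul (V x0)) k3).trans ?_⟩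
          rw [integral_const_mul]
          have k5 := mul_le_mul_of_nonneg_left i2 v0
          linarith
        · have hz : ∀ ξ, tlC (η ^ 2) L yc z ξ = z := fun ξ => if_neg fun h2 => h' h2.2
          simp only [gtF, hz, if_neg h, if_neg n1, one_mul, integral_const, probReal_univ, one_smul]
          exact ⟨integrable_const _, by linarith⟩) hx N
  refine ⟨_, mΦ.comp (measurable_run mF _ N), fun ξ => h0 _ (run_mem hI hx ξ N), m1,
    m2.trans ?_, fun ξ hξ => ?_⟩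
  · have k1 : (1 * if (ini c).l ≤ L then V x0 else V x0 * W (ini c)) ≤
        V x0 * (C9 * Real.exp ((1 - κ / 8) * L)) := by
      refine le_trans ?_ (mul_le_mul_of_nonneg_left (V2 _ l0) v0)
      rw [one_mul]
      split_ifs with h
      · exact le_mul_of_one_le_right v0 ((V1 _ (by linarith)).2 h)
      · exact le_rfl
    have k2 : N * ((C1 + C2) * η ^ 3 * V x0) ≤ Real.exp ((1 - κ / 8) * L) * V x0 := by
      rw [← mul_assoc]
      exact mul_le_mul_of_nonneg_right r1 v0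
    refine (mul_le_mul (r2.trans (by linarith : _ ≤ (2 : ℝ))) (add_le_add k1 k2)
      (add_nonneg (h0 _ hx) (by positivity)) (by norm_num)).trans_eq ?_
    ring
  · have hl : ∀ n < N, run f x0 ξ n ∉ J → (run (tlC (η ^ 2) L yc) (ini c) ξ n).l ≤ L := by
      intro n hn h2
      obtain ⟨n', a1, a2, a3⟩ := hξ n hn h2
      refine tl_mono ?_ a1
      rcases tl_fre (L := L) (sq_nonneg η) (by linarith) ξ n' a2 with h3 | h3
      · exact h3
      · rwa [h3]
    obtain ⟨g1, g2, g3⟩ := gt_run f J (η ^ 2) L yc x0 (ini c) ξ N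
    by_cases h : (run (tlC (η ^ 2) L yc) (ini c) ξ N).l ≤ L
    · refine Or.inr ?_
      simp only [Function.comp, g1, g2, g3 hl, if_pos h, one_mul, le_refl]
    · exact Or.inl fun n hn => not_not.1 fun h2 => h (tl_mono (hl n hn h2) hn.le)

end Vale.Agent.P164
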