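import Vale.Agent.P164.KChi

namespace Vale.Agent.P164

open Set

theorem kpar_big (M : ℝ) {a ε : ℝ} (ha : 0 < a) (hε : 0 < ε) :
    ∀ᶠ x in Filter.atTop, M * Real.exp (-(a * x)) ≤ ε :=
  ((Real.tendsto_exp_neg_atTop_nhds_zero.comp (Filter.tendsto_id.const_mul_atTop ha)).const_mul
    M).eventually_le_const (by simpa using hε)

theorem kpar_small (M : ℝ) {ε : ℝ} (hε : 0 < ε) : ∀ᶠ c in nhdsWithin 0 (Ioi 0), M * c ≤ ε :=
  (((continuous_const_mul M).tendsto 0).mono_left nhdsWithin_le_nhds).eventually_le_const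
    (by simpa using hε)

/-- choice of the parameters -/
theorem pm_ex {κ : ℝ} (hκ4 : 4 < κ) (hκ8 : κ < 8) : ∃ (g c1 C1 lam0 ep x0 e0 C0 : ℝ)
    (χ χ1 χ2 : ℝ → ℝ), 0 < g ∧ g ≤ (8 - κ) ^ 2 / (32 * κ) ∧ 0 < c1 ∧ 0 < C1 ∧
    ∀ (d0 le la σ lam q Kc : ℝ) (Q : Finset ℂ), 0 < d0 → (σ = 1 ∨ σ = -1) → lam0 ≤ lam → 0 < q →
      0 ≤ Kc → q * Kc * Real.exp lam ≤ c1 →
      Pm.Ok ⟨κ, d0, le, la, σ, lam, ep, g, q, Kc, x0, e0, C0, χ, χ1, χ2, Q⟩ ∧
      Pm.q' ⟨κ, d0, le, la, σ, lam, ep, g, q, Kc, x0, e0, C0, χ, χ1, χ2, Q⟩ ≤ C1 * q ∧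
      c1 * q * Real.exp ((1 - 2 * g) * lam) ≤
        Pm.θ ⟨κ, d0, le, la, σ, lam, ep, g, q, Kc, x0, e0, C0, χ, χ1, χ2, Q⟩ := by
  have k8 : 0 < 8 - κ := by linarith
  have k0 : 0 < κ := by linarith
  obtain ⟨C0, χ, χ1, χ2, hχ⟩ := chi_ex (x0 := -Real.log ((8 - κ) / 24)) (e0 := (8 - κ) / 64)
    (neg_nonneg.2 (Real.log_nonpos (by positivity) (by linarith))) (by positivity)
  obtain ⟨g, g0, g1, g2⟩ : ∃ g : ℝ, 0 < g ∧ g ≤ (8 - κ) / 2592 ∧ g ≤ (8 - κ) ^ 2 / (32 * κ) :=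
    ⟨min _ _, lt_min (by positivity) (by positivity), min_le_left _ _, min_le_right _ _⟩
  obtain ⟨h, hh⟩ : ∃ h, h = (8 / κ - 1) / 2 := ⟨_, rfl⟩
  have g3 : 4 * g ≤ h := by
    have : 4 * ((8 - κ) / 2592) + 1 / 2 ≤ 4 / κ := by
      rw [le_div_iff₀ k0]
      nlinarith
    have e : 8 / κ = 2 * (4 / κ) := by ring
    linarith
  have h0 : 0 < h := by linarith
  obtain ⟨B, hB⟩ : ∃ B, B = g * (8 - κ) / 24 * Real.exp (-(5 + C0)) := ⟨_, rfl⟩
  have B0 : 0 < B := by rw [hB]; positivity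
  obtain ⟨E, hE⟩ : ∃ E, E = Real.exp (5 + C0) := ⟨_, rfl⟩
  have E0 : 0 < E := hE ▸ Real.exp_pos _
  obtain ⟨ep, e1, e2⟩ := ((kpar_big (24 * E) one_half_pos B0).and (Filter.eventually_ge_atTop 2)).exists
  obtain ⟨W, hW⟩ : ∃ W, W = Real.exp (h * ep + C0) := ⟨_, rfl⟩
  have W0 : 0 < W := hW ▸ Real.exp_pos _
  obtain ⟨l0, hl⟩ := Filter.eventually_atTop.1 ((kpar_big (10 * E * W) (half_pos h0) B0).and
    (Filter.eventually_ge_atTop (ep + 1 / h)))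
  obtain ⟨c, ⟨⟨c1, c2⟩, c3⟩, c0⟩ := ((((kpar_small 1 B0).and
    (kpar_small ((10 * E * W + B + 24 * E) * 2) (by positivity : 0 < g * (8 - κ) / 8))).and
    (kpar_small (4 * E * W) (by positivity : 0 < (8 - κ) / 32))).and self_mem_nhdsWithin).exists
  refine ⟨g, c, 2 * E, l0, ep, -Real.log ((8 - κ) / 24), (8 - κ) / 64, C0, χ, χ1, χ2, g0, g2, c0,
    by positivity, fun d0 le la σ lam q Kc Q hd hσ hlam hq hK hc => ?_⟩
  obtain ⟨l1, l2⟩ := hl lam hlam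
  have l3 : 0 ≤ lam := by linarith [one_div_pos.2 h0]
  have a1 : Real.exp (h * ep + C0 + (1 - h) * lam) ≤ W * Real.exp lam := by
    rw [hW, ← Real.exp_add]
    exact Real.exp_le_exp.2 (by linarith [mul_nonneg h0.le l3])
  have a2 : Real.exp ((1 - 2 * g) * lam) ≤ Real.exp lam :=
    Real.exp_le_exp.2 (by linarith [mul_nonneg g0.le l3])
  have a3 := le_mul_of_one_le_right (by positivity : 0 ≤ 12 * (2 * E * q)) (Real.one_le_exp l3)
  have eB : g * (8 - κ) / 8 * (q * Real.exp (-(5 + C0))) / 3 = q * B := by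
    rw [hB]
    ring
  refine ⟨⟨hκ4, hκ8, hd, hσ, hχ, ?_, le_rfl, g0, g1, hq, hK, e2, ?_, ?_, ?_, ?_, ?_⟩, ?_, ?_⟩ <;>
    simp only [Pm.h, Pm.q', Pm.Bq, Pm.θ, Pm.Wd, ← hh, ← hE, eB]
  · rw [neg_neg, Real.exp_log (by positivity)]
  · linarith [mul_le_mul_of_nonneg_left l2 h0.le, mul_one_div_cancel h0.ne']
  · have : Real.exp (h * ep + C0 + (1 - h) * lam) * Real.exp (-((1 - 2 * g) * lam)) ≤
        W * Real.exp (-(h / 2 * lam)) := by
      rw [hW, ← Real.exp_add, ← Real.exp_add]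
      exact Real.exp_le_exp.2 (by linarith [mul_le_mul_of_nonneg_right g3 l3])
    linarith [mul_le_mul_of_nonneg_left this (by positivity : 0 ≤ 10 * E * q),
      mul_le_mul_of_nonneg_left l1 hq.le]
  · have : Real.exp (-((1 - 2 * g) * ep)) ≤ Real.exp (-(1 / 2 * ep)) :=
      Real.exp_le_exp.2 (by nlinarith)
    linarith [mul_le_mul_of_nonneg_left this (by positivity : 0 ≤ 24 * E * q),
      mul_le_mul_of_nonneg_left e1 hq.le]
  · calc _ ≤ (5 * (2 * E * q) * (W * Real.exp lam) + q * B * Real.exp lam +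
          12 * (2 * E * q) * Real.exp lam) * (2 * Kc) :=
          mul_le_mul_of_nonneg_right (add_le_add (by gcongr) a3) (by positivity)
      _ = (10 * E * W + B + 24 * E) * 2 * (q * Kc * Real.exp lam) := by ring
      _ ≤ _ := le_trans (by gcongr) c2
  · calc _ ≤ 2 * (2 * E * q) * (W * Real.exp lam) * Kc := by gcongr
      _ = 4 * E * W * (q * Kc * Real.exp lam) := by ring
      _ ≤ _ := le_trans (by gcongr) c3
  · exact le_rfl
  · rw [mul_comm c]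
    gcongr
    linarith

end Vale.Agent.P164
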