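import Vale.Agent.P164.KStep
import Vale.Agent.P164.KGate
import Vale.Agent.P164.KPar

namespace Vale.Agent.P164

open Set MeasureTheory

namespace Pm

variable {A : Pm} {δ : ℝ}

theorem kc_run1 (ξ : ℕ → ℝ) (n : ℕ) :
    (run (A.kst δ) (ini, fun _ => 0, 1) ξ n).1 = fun u => frz A.d0 A.le δ u ξ n := by
  induction n with
  | zero => rfl
  | succ n ih =>
    rw [run_succ]
    funext u
    show stp A.d0 A.le δ ((run (A.kst δ) (ini, fun _ => 0, 1) ξ n).1 u) (ξ n) = _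
    rw [ih]
    rfl

theorem kc_run2 (ξ : ℕ → ℝ) (N : ℕ) (h : ∀ n < N, |ξ n| ≤ min 1 (ymin A.d0 A.le) ∧
    Car A.d0 A.le A.la A.Kc A.Q fun u => frz A.d0 A.le δ u ξ n) :
    (run (A.kst δ) (ini, fun _ => 0, 1) ξ N).2.2 =
      Real.exp (A.θ * TT A.d0 A.le δ A.la A.σ A.lam A.Q ξ N) := by
  induction N with
  | zero => simp [TT]
  | succ n ih =>
    have h1 := h n (Nat.lt_succ_self n)
    rw [run_succ, kst]
    dsimp only
    rw [kc_run1, if_pos ⟨h1.2, h1.1⟩, ih fun k hk => h k (by omega), ← Real.exp_add, TT, TT,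
      Finset.sum_range_succ, mul_add]

theorem kc_ini (hle : A.le ≤ 0) (hla : A.la < 0) (hQ : ∀ u ∈ A.Q, 1 ≤ u.im ∧ u.im ≤ 2) :
    ((ini, fun _ => 0, 1) : (ℂ → St) × (ℂ → ℝ) × ℝ) ∈ A.Inv := by
  refine ⟨zero_le_one, fun u hu => ⟨ini_FI hle (hQ u hu).1 (hQ u hu).2,
    fun h => absurd h (lt_irrefl _), fun h => ?_⟩⟩
  have h1 : Real.log u.im ≤ A.la := h.2.2
  linarith [Real.log_nonneg (hQ u hu).1]

theorem kc_VV (hA : A.Ok) :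
    A.VV (ini, fun _ => 0, 1) ≤ Real.exp (A.q' * A.Q.card) := by
  have hq : 0 ≤ A.q' := by
    have := hA.q0
    unfold q'
    positivity
  unfold VV
  dsimp only
  rw [US_nil fun _ _ => lt_irrefl _, one_mul]
  have h1 : A.wt ini [] = 1 := by simp [wt, cl]
  rw [h1, one_mul]
  refine Real.exp_le_exp.2 (mul_le_mul_of_nonneg_left ?_ hq)
  rw [Finset.card_eq_sum_ones]
  push_cast
  refine Finset.sum_le_sum fun u _ => ?_
  unfold ee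
  rw [if_neg (lt_irrefl _)]
  split_ifs <;> norm_num

theorem kc_mJ : MeasurableSet {s : (ℂ → St) × (ℂ → ℝ) × ℝ | ∀ u ∈ A.Q, ¬ A.lv (s.1 u)} := by
  have e : {s : (ℂ → St) × (ℂ → ℝ) × ℝ | ∀ u ∈ A.Q, ¬ A.lv (s.1 u)} =
      ⋂ u ∈ A.Q, ((fun s : (ℂ → St) × (ℂ → ℝ) × ℝ => s.1 u) ⁻¹'
        {p | P164.lv A.d0 A.le A.la p})ᶜ := by
    ext s
    simp only [mem_ofPred_eq, mem_iInter, mem_compl_iff, mem_preimage]
    rfl
  rw [e]
  exact A.Q.measurableSet_biInter fun u _ =>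
    (((measurable_pi_apply u).comp measurable_fst) (measurableSet_lv _ _ _)).compl

end Pm

theorem kc_TT {d0 le δ la σ lam : ℝ} (hδ : 0 ≤ δ) (Q : Finset ℂ) (ξ : ℕ → ℝ) (N : ℕ) :
    0 ≤ TT d0 le δ la σ lam Q ξ N := by
  refine Finset.sum_nonneg fun n _ => mul_nonneg hδ (Finset.sum_nonneg fun u _ => ?_)
  split_ifs
  · unfold ct
    split_ifs
    · exact div_nonneg (sn_pos _).le (rho2_nonneg _)
    · exact le_rfl
  · exact le_rfl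

/-- exponential tail of the total cost -/
theorem tcost {κ : ℝ} (hκ4 : 4 < κ) (hκ8 : κ < 8) : ∃ g c1 C1 lam0 C8 : ℝ, 0 < g ∧
    g ≤ (8 - κ) ^ 2 / (32 * κ) ∧ 0 < c1 ∧ 0 < C1 ∧ 0 < C8 ∧
    ∀ d0 le : ℝ, 0 < d0 → le ≤ 0 → ∀ (Q : Finset ℂ), (∀ u ∈ Q, 1 ≤ u.im ∧ u.im ≤ 2) →
    ∀ (la lam σ q Kc : ℝ) (c : ℂ), la < 0 → lam0 ≤ lam → (σ = 1 ∨ σ = -1) → 0 < q → 0 ≤ Kc →
    q * Kc * Real.exp lam ≤ c1 → 1 ≤ c.im → c.im ≤ 2 →
    ∀ L yc T : ℝ, L ≤ 0 → 0 < yc → ∃ η0 : ℝ, 0 < η0 ∧ ∀ η : ℝ, 0 < η → η ≤ η0 →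
    ∀ N : ℕ, N * η ^ 2 ≤ T → ∃ Φ : (ℕ → ℝ) → ℝ, Measurable Φ ∧ (∀ ξ, 0 ≤ Φ ξ) ∧
      Integrable Φ (GG κ η) ∧
      ∫ ξ, Φ ξ ∂GG κ η ≤ C8 * Real.exp ((1 - κ / 8) * L) * Real.exp (C1 * q * Q.card) ∧
      ∀ ξ, Gt d0 le (η ^ 2) la Q c L yc ξ N →
        (∀ n < N, |ξ n| ≤ min 1 (ymin d0 le) ∧
          Car d0 le la Kc Q fun u => frz d0 le (η ^ 2) u ξ n) →
        ∀ t : ℝ, 0 ≤ t → c1 * q * Real.exp ((1 - 2 * g) * lam) *
          (TT d0 le (η ^ 2) la σ lam Q ξ N - t) ≤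
          Real.exp (-(c1 * q * Real.exp ((1 - 2 * g) * lam) * t)) * Φ ξ := by
  obtain ⟨g, c1, C1, lam0, ep, x0, e0, C0, χ, χ1, χ2, hg, hg', hc1, hC1, H⟩ := pm_ex hκ4 hκ8
  obtain ⟨C8, hC8, Hg⟩ := gated (by linarith : 0 < κ) hκ8
  refine ⟨g, c1, C1, lam0, C8, hg, hg', hc1, hC1, hC8, ?_⟩
  intro d0 le hd hle Q hQ la lam σ q Kc c hla hlam hσ hq hK hqK hc hc' L yc T hL hyc
  obtain ⟨hA, hq', hθ⟩ := H d0 le la σ lam q Kc Q hd hσ hlam hq hK hqK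
  generalize hAe : (⟨κ, d0, le, la, σ, lam, ep, g, q, Kc, x0, e0, C0, χ, χ1, χ2, Q⟩ : Pm) = A
    at hA hq' hθ
  obtain rfl : κ = A.κ := by rw [← hAe]
  obtain rfl : d0 = A.d0 := by rw [← hAe]
  obtain rfl : le = A.le := by rw [← hAe]
  obtain rfl : la = A.la := by rw [← hAe]
  obtain rfl : σ = A.σ := by rw [← hAe]
  obtain rfl : lam = A.lam := by rw [← hAe]
  obtain rfl : Kc = A.Kc := by rw [← hAe]
  obtain rfl : Q = A.Q := by rw [← hAe]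
  clear hAe H
  obtain ⟨C, hC, hstep⟩ := Pm.step hA
  obtain ⟨η0, hη0, hη1, Hg'⟩ := Hg c hc hc' L yc T C hL hyc hC
  have ym := ymin_pos A.d0 A.le
  refine ⟨min η0 (ymin A.d0 A.le / 2), by positivity, fun η hη hη' N hN => ?_⟩
  obtain ⟨e1, e2⟩ := le_min_iff.1 hη'
  have hm := tl_mesh hη e2
  have hI := Pm.kst_inv hA (sq_nonneg η) hm
  have hx := Pm.kc_ini hle hla hQ
  obtain ⟨Φ, m1, m2, m3, m4, m5⟩ := Hg' η hη e1 N hN _ (A.kst (η ^ 2)) A.Inv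
    {s | ∀ u ∈ A.Q, ¬ A.lv (s.1 u)} A.VV (ini, fun _ => 0, 1) (Pm.measurable_kst hA _)
    (Pm.measurable_VV hA) Pm.kc_mJ hx hI (fun s hs => hs.1.trans (Pm.VV_ge hA hs))
    (hstep η ⟨hη, e1.trans hη1⟩ e2) fun s hs h ξ => Pm.idle_le hA (sq_nonneg η) hm hs h ξ
  refine ⟨Φ, m1, m2, m3, m4.trans (mul_le_mul_of_nonneg_left ((Pm.kc_VV hA).trans
    (Real.exp_le_exp.2 (mul_le_mul_of_nonneg_right hq' (Nat.cast_nonneg _)))) (by positivity)),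
    fun ξ hG hC t ht => ?_⟩
  have hβ : 0 < c1 * q * Real.exp ((1 - 2 * g) * A.lam) := by positivity
  generalize c1 * q * Real.exp ((1 - 2 * g) * A.lam) = β at hβ hθ ⊢
  have hT := kc_TT (d0 := A.d0) (le := A.le) (la := A.la) (σ := A.σ) (lam := A.lam)
    (sq_nonneg η) A.Q ξ N
  rcases m5 ξ (fun n hn h => by
    by_contra h2
    refine h fun u hu h3 => h2 (hG n hn u hu ?_)
    rw [Pm.kc_run1] at h3
    exact h3) with h | h
  · have h0 : TT A.d0 A.le (η ^ 2) A.la A.σ A.lam A.Q ξ N = 0 := by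
      refine Finset.sum_eq_zero fun n hn => mul_eq_zero_of_right _
        (Finset.sum_eq_zero fun u hu => if_neg ?_)
      have h1 := h n (Finset.mem_range.1 hn) u hu
      rw [Pm.kc_run1] at h1
      exact h1
    rw [h0]
    exact le_trans (by nlinarith) (mul_nonneg (Real.exp_pos _).le (m2 ξ))
  · have h1 := (Pm.VV_ge hA (run_mem hI hx ξ N)).trans h
    rw [Pm.kc_run2 ξ N hC] at h1
    refine le_trans ?_ (mul_le_mul_of_nonneg_left h1 (Real.exp_pos _).le)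
    rw [← Real.exp_add]
    refine le_trans ?_ (Real.add_one_le_exp _)
    nlinarith [mul_le_mul_of_nonneg_right hθ hT]

end Vale.Agent.P164
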