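import Vale.Agent.P164.Tail

namespace Vale.Agent.P164

open Set

/-- slowly bending cut-off: `0` left of `x0`, slope `1` far to the right -/
structure Chi (x0 e0 C0 : ℝ) (χ χ1 χ2 : ℝ → ℝ) : Prop where
  t3 : T3 univ χ χ1 χ2
  meas : Measurable χ
  meas1 : Measurable χ1
  hx : 0 ≤ x0
  hC : 0 ≤ C0
  zero : ∀ x ≤ x0, χ x = 0 ∧ χ1 x = 0 ∧ χ2 x = 0
  d1 : ∀ x, 0 ≤ χ1 x ∧ χ1 x ≤ 1
  d2 : ∀ x, 0 ≤ χ2 x ∧ χ2 x ≤ e0
  lo : ∀ x, x - C0 ≤ χ x
  nn : ∀ x, 0 ≤ χ x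
  hi : ∀ x, χ x ≤ max x 0

/-- minus the logarithm of the sine of the argument -/
noncomputable def uu (p : St) : ℝ := Real.log (1 + tau p ^ 2) / 2

/-- the sine of the argument -/
noncomputable def sn (p : St) : ℝ := Real.exp (-uu p)

/-- the logarithm of the modulus -/
noncomputable def lr (p : St) : ℝ := Real.log (rho2 p) / 2

/-- the logarithm of `1 - ` (pseudo-hyperbolic distance) squared -/
noncomputable def lq (p p' : St) : ℝ :=
  Real.log (4 * p.y * p'.y / ((p.x - p'.x) ^ 2 + (p.y + p'.y) ^ 2))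

noncomputable def lk (χ : ℝ → ℝ) (p p' : St) : ℝ := lq p p' + χ (lr p' - lr p)

/-- sum of the links along a chain -/
noncomputable def ln (χ : ℝ → ℝ) : List St → ℝ
  | a :: b :: t => lk χ a b + ln χ (b :: t)
  | _ => 0

/-- logarithmic weight of a chain -/
noncomputable def cl (χ : ℝ → ℝ) : List St → ℝ
  | [] => 0
  | a :: t => -uu a + ln χ (a :: t)

/-- approximately increasing moduli -/
def Up (c : List St) : Prop := (∀ p ∈ c, 0 < p.y) ∧ c.Pairwise fun p p' => rho2 p ≤ 4 * rho2 p'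

/-- drift of `uu` in the clock `dt / |Z|^2` -/
noncomputable def mu (κ : ℝ) (p : St) : ℝ := (8 - κ) / 2 + (κ - 4) * ss p

/-- `exp (a l) S ^ c` for `S ≥ exp (-lam)`, proportional to `S` for small `S` -/
noncomputable def famc (χ : ℝ → ℝ) (a c lam : ℝ) (p : St) : ℝ :=
  Real.exp (a * p.l - c * uu p - (1 - c) * χ (uu p - lam))

noncomputable def cc (χ1 : ℝ → ℝ) (c lam : ℝ) (p : St) : ℝ := c + (1 - c) * χ1 (uu p - lam)

noncomputable def rc (κ : ℝ) (χ1 χ2 : ℝ → ℝ) (a c lam : ℝ) (p : St) : ℝ :=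
  -4 * a * ss p - cc χ1 c lam p * mu κ p - (1 - c) * χ2 (uu p - lam) * κ * (1 - ss p) / 2 +
    κ * (1 - ss p) * cc χ1 c lam p ^ 2 / 2

/-- level window of width `log 2` -/
def lv (d0 le la : ℝ) (p : St) : Prop := lev d0 le la (la - Real.log 2) p

open Classical in
/-- cost rate of a deep point on side `σ` -/
noncomputable def ct (σ lam : ℝ) (p : St) : ℝ :=
  if lam ≤ uu p ∧ 0 < σ * p.x then sn p / rho2 p else 0

open Classical in
noncomputable def cst (d0 le la σ lam : ℝ) (Q : Finset ℂ) (P : ℂ → St) : ℝ :=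
  ∑ u ∈ Q, if lv d0 le la (P u) then ct σ lam (P u) else 0

/-- total cost on side `σ` -/
noncomputable def TT (d0 le δ la σ lam : ℝ) (Q : Finset ℂ) (ξ : ℕ → ℝ) (N : ℕ) : ℝ :=
  ∑ n ∈ Finset.range N, δ * cst d0 le la σ lam Q fun u => frz d0 le δ u ξ n

/-- the modified mass -/
noncomputable def mt (κ : ℝ) (χ : ℝ → ℝ) (lam : ℝ) (p : St) : ℝ :=
  famc χ (κ / 8 - 1) (8 / κ - 1) lam p

open Classical in
/-- increments of the modified mass in the level window -/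
noncomputable def AT (κ : ℝ) (χ : ℝ → ℝ) (d0 le δ la lam : ℝ) (Q : Finset ℂ) (ξ : ℕ → ℝ) (N : ℕ) :
    ℝ :=
  ∑ n ∈ Finset.range N, ∑ u ∈ Q, if lv d0 le la (frz d0 le δ u ξ n) then
    mt κ χ lam (frz d0 le δ u ξ (n + 1)) - mt κ χ lam (frz d0 le δ u ξ n) else 0

open Classical in
/-- its discrete quadratic variation -/
noncomputable def qt (κ : ℝ) (χ χ1 : ℝ → ℝ) (d0 le δ la lam : ℝ) (Q : Finset ℂ) (ξ : ℕ → ℝ)
    (N : ℕ) : ℝ :=
  ∑ n ∈ Finset.range N, δ * (∑ u ∈ Q, if lv d0 le la (frz d0 le δ u ξ n) then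
    mt κ χ lam (frz d0 le δ u ξ n) * cc χ1 (8 / κ - 1) lam (frz d0 le δ u ξ n) *
      (frz d0 le δ u ξ n).x / rho2 (frz d0 le δ u ξ n) else 0) ^ 2

open Classical in
/-- Carleson packing condition -/
def Car (d0 le la Kc : ℝ) (Q : Finset ℂ) (P : ℂ → St) : Prop :=
  ∀ v ∈ Q, lv d0 le la (P v) → (∑ u ∈ Q, if lv d0 le la (P u) ∧ rho2 (P v) ≤ 4 * rho2 (P u) then
    (P u).y / rho2 (P u) else 0) ≤ Kc / √(rho2 (P v))

/-- whenever a point is in the window, the centre `c` has reached level `L` -/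
def Gt (d0 le δ la : ℝ) (Q : Finset ℂ) (c : ℂ) (L yc : ℝ) (ξ : ℕ → ℝ) (N : ℕ) : Prop :=
  ∀ n < N, ∀ u ∈ Q, lv d0 le la (frz d0 le δ u ξ n) →
    ∃ n' ≤ n, yc ≤ (fre δ c ξ n').y ∧ (fre δ c ξ n').l ≤ L

open Classical in
/-- lists without repetition of points of `Q` -/
noncomputable def LL (Q : Finset ℂ) : Finset (List ℂ) :=
  Q.powerset.biUnion fun F => F.toList.permutations.toFinset

open Classical in
/-- sum over the `r`-increasing chains of points of `A` -/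
noncomputable def US (Q : Finset ℂ) (r : ℂ → ℂ → Prop) (A : ℂ → Prop) (f : List ℂ → ℝ) : ℝ :=
  ∑ c ∈ LL Q, if (∀ u ∈ c, A u) ∧ c.Pairwise r then f c else 0

/-- value at the head of a list -/
def hdv {α : Type} (d : α → ℝ) : List α → ℝ
  | [] => 0
  | a :: _ => d a

/-- strict total order -/
structure Sto (r : ℂ → ℂ → Prop) : Prop where
  irr : ∀ u, ¬ r u u
  tr : ∀ u v w, r u v → r v w → r u w
  tot : ∀ u v, r u v ∨ u = v ∨ r v u

/-- order by markers -/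
def rel (m : ℂ → ℝ) (u v : ℂ) : Prop := m u < m v ∨ (m u = m v ∧ WellOrderingRel u v)

/-- parameters of the chain potential -/
structure Pm where
  (κ d0 le la σ lam ep g q Kc x0 e0 C0 : ℝ)
  (χ χ1 χ2 : ℝ → ℝ)
  Q : Finset ℂ

namespace Pm

variable (A : Pm)

noncomputable def h : ℝ := (8 / A.κ - 1) / 2
noncomputable def q' : ℝ := 2 * Real.exp (5 + A.C0) * A.q
noncomputable def Bq : ℝ := A.g * (8 - A.κ) / 8 * (A.q * Real.exp (-(5 + A.C0)))
noncomputable def θ : ℝ := A.Bq / 3 * Real.exp ((1 - 2 * A.g) * A.lam)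
noncomputable def Wd : ℝ := Real.exp (A.h * A.ep + A.C0 + (1 - A.h) * A.lam)
def lv (p : St) : Prop := P164.lv A.d0 A.le A.la p
def alive (p : St) : Prop := actv A.d0 A.le p ∧ A.la - Real.log 2 < p.l
noncomputable def ww (p : St) : ℝ := Real.exp (A.h * A.ep) * famc A.χ 0 A.h A.lam p
noncomputable def wt (P : ℂ → St) (c : List ℂ) : ℝ :=
  A.q ^ c.length * Real.exp (A.g * cl A.χ (c.map P))

/-- Euler step of a boundary marker -/
noncomputable def mv (δ m ξ : ℝ) : ℝ := m + 2 * δ / m - A.σ * ξ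

/-- a point with a valid marker -/
def Mk (p : St) (m : ℝ) : Prop :=
  A.lv p ∧ A.ep ≤ uu p ∧ 0 < A.σ * p.x ∧ |m - A.σ * p.x| ≤ p.y

open Classical in
/-- new marker (zero for a point that is not enrolled) -/
noncomputable def upd (δ : ℝ) (p : St) (m ξ : ℝ) : ℝ :=
  if 0 < m ∧ A.Mk (stp A.d0 A.le δ p ξ) (A.mv δ m ξ) then A.mv δ m ξ
  else if A.lv (stp A.d0 A.le δ p ξ) ∧ 0 < A.σ * (stp A.d0 A.le δ p ξ).x ∧
    (A.lam ≤ uu (stp A.d0 A.le δ p ξ) ∨ (0 < m ∧ A.ep ≤ uu (stp A.d0 A.le δ p ξ)))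
  then A.σ * (stp A.d0 A.le δ p ξ).x else 0

open Classical in
noncomputable def ee (p : St) (m : ℝ) : ℝ :=
  if 0 < m then A.ww p + |m - A.σ * p.x| / p.y else if A.alive p then 1 else 0

open Classical in
/-- one step of the process -/
noncomputable def kst (δ : ℝ) (s : (ℂ → St) × (ℂ → ℝ) × ℝ) (ξ : ℝ) : (ℂ → St) × (ℂ → ℝ) × ℝ :=
  (fun u => stp A.d0 A.le δ (s.1 u) ξ, fun u => A.upd δ (s.1 u) (s.2.1 u) ξ,
    if Car A.d0 A.le A.la A.Kc A.Q s.1 ∧ |ξ| ≤ min 1 (ymin A.d0 A.le) then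
      s.2.2 * Real.exp (A.θ * (δ * cst A.d0 A.le A.la A.σ A.lam A.Q s.1)) else 0)

/-- the potential -/
noncomputable def VV (s : (ℂ → St) × (ℂ → ℝ) × ℝ) : ℝ :=
  s.2.2 * (US A.Q (rel s.2.1) (fun u => 0 < s.2.1 u) (A.wt s.1) *
    Real.exp (A.q' * ∑ u ∈ A.Q, A.ee (s.1 u) (s.2.1 u)))

/-- invariant set -/
def Inv : Set ((ℂ → St) × (ℂ → ℝ) × ℝ) := {s | 0 ≤ s.2.2 ∧ ∀ u ∈ A.Q, s.1 u ∈ FI A.d0 A.le ∧
  (0 < s.2.1 u → A.Mk (s.1 u) (s.2.1 u)) ∧
  (A.lv (s.1 u) → 0 < A.σ * (s.1 u).x → A.lam ≤ uu (s.1 u) → 0 < s.2.1 u)}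

/-- admissible parameters -/
structure Ok : Prop where
  k4 : 4 < A.κ
  k8 : A.κ < 8
  hd : 0 < A.d0
  sg : A.σ = 1 ∨ A.σ = -1
  chi : Chi A.x0 A.e0 A.C0 A.χ A.χ1 A.χ2
  hx : Real.exp (-A.x0) ≤ (8 - A.κ) / 24
  he : A.e0 ≤ (8 - A.κ) / 64
  g0 : 0 < A.g
  g1 : A.g ≤ (8 - A.κ) / 2592
  q0 : 0 < A.q
  K0 : 0 ≤ A.Kc
  hp : 2 ≤ A.ep
  n1 : 1 ≤ A.h * (A.lam - A.ep)
  n3 : 5 * A.q' * A.Wd * Real.exp (-((1 - 2 * A.g) * A.lam)) ≤ A.Bq / 3
  n5 : 12 * A.q' * Real.exp (-((1 - 2 * A.g) * A.ep)) ≤ A.Bq / 3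
  n6 : (5 * A.q' * A.Wd + A.θ + 12 * A.q') * (2 * A.Kc) ≤ A.g * (8 - A.κ) / 8
  n7 : 2 * A.q' * A.Wd * A.Kc ≤ (8 - A.κ) / 32

end Pm

@[fun_prop] theorem measurable_uu : Measurable uu := by unfold uu; fun_prop
@[fun_prop] theorem measurable_sn : Measurable sn := by unfold sn; fun_prop
@[fun_prop] theorem measurable_lr : Measurable lr := by unfold lr; fun_prop

theorem uu_nonneg (p : St) : 0 ≤ uu p :=
  div_nonneg (Real.log_nonneg (by nlinarith [sq_nonneg (tau p)])) two_pos.le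

theorem sn_pos (p : St) : 0 < sn p := Real.exp_pos _

theorem sn_sq (p : St) : sn p ^ 2 = ss p := by
  rw [sn, ← Real.exp_nat_mul, uu, ss, one_div,
    ← Real.exp_log (show 0 < 1 + tau p ^ 2 by positivity), ← Real.exp_neg, Real.log_exp]
  congr 1
  push_cast
  ring

theorem exp_lr {p : St} (hp : 0 < p.y) : Real.exp (lr p) = √(rho2 p) := by
  rw [lr, Real.sqrt_eq_rpow, Real.rpow_def_of_pos (rho2_pos hp)]
  congr 1
  ring

theorem sn_eq {p : St} (hp : 0 < p.y) : sn p = p.y / √(rho2 p) := by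
  have h := rho2_pos hp
  rw [← Real.sqrt_sq (sn_pos p).le, sn_sq, ss_eq hp, Real.sqrt_div (sq_nonneg _),
    Real.sqrt_sq hp.le]

theorem measurable_famc {χ : ℝ → ℝ} (hχ : Measurable χ) (a c lam : ℝ) :
    Measurable (famc χ a c lam) := by
  unfold famc
  have : Measurable fun p : St => χ (uu p - lam) := hχ.comp (by fun_prop)
  fun_prop

theorem measurableSet_lv (d0 le la : ℝ) : MeasurableSet {p | lv d0 le la p} := tl_lev _ _ _ _

theorem famc_pos (χ : ℝ → ℝ) (a c lam : ℝ) (p : St) : 0 < famc χ a c lam p := Real.exp_pos _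

end Vale.Agent.P164
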