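import Vale.Agent.P164.KDef

namespace Vale.Agent.P164

open Set MeasureTheory

variable {κ y0 x0 e0 C0 a c lam : ℝ} {χ χ1 χ2 : ℝ → ℝ}

theorem jt_uu (hy : 0 < y0) : Jt κ {p : St | y0 ≤ p.y} (fun p η ξ => uu (eul (η ^ 2) p ξ)) uu
    (fun p => -p.x / rho2 p) (fun p => mu κ p / rho2 p) := by
  have h1 := (Jt.comp T3_log (jt_tau (κ := κ) hy) fun _ _ => mem_univ _).smul
    (c := fun _ => 1 / 2) (jetBd_const _)
  refine h1.congr (fun p _ η _ ξ => ?_) (fun p _ => ?_) (fun p hp => ?_) fun p hp => ?_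
  · rw [uu]; ring
  · rw [uu]; ring
  · have hp0 : 0 < p.y := hy.trans_le hp
    have e : p.x = tau p * p.y := by rw [tau]; field_simp
    rw [rho2_eq hp0, e]
    field_simp
  · have hp0 : 0 < p.y := hy.trans_le hp
    simp only [mu, ss]
    rw [rho2_eq hp0]
    field_simp
    ring

theorem lr_eq_KJet {p : St} (hp : 0 < p.y) : lr p = Real.log p.y + uu p := by
  rw [lr, uu, rho2_eq hp, Real.log_mul (by positivity) (by positivity), Real.log_pow]
  push_cast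
  ring

theorem jt_lr (hy : 0 < y0) : Jt κ {p : St | y0 ≤ p.y} (fun p η ξ => lr (eul (η ^ 2) p ξ)) lr
    (fun p => -p.x / rho2 p) (fun p => (mu κ p - 2) / rho2 p) := by
  have h0 : Jt κ {p : St | y0 ≤ p.y} (fun p η _ => Real.log p.y + -2 / rho2 p * η ^ 2)
      (fun p => Real.log p.y) (fun _ => 0) fun p => -2 / rho2 p := by
    refine Jt.lin ⟨2 * (1 / y0) ^ 2, fun p hp => ?_⟩
    have h1 := fam_inv_rho2 hy (p := p) hp
    rw [abs_div, abs_neg, abs_two, abs_of_nonneg (rho2_nonneg p), div_eq_mul_one_div]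
    linarith
  refine (h0.add (jt_uu hy)).congr (fun p hp η _ ξ => ?_) (fun p hp => ?_) (fun p _ => ?_)
    fun p _ => ?_
  · have hp0 : 0 < p.y := hy.trans_le hp
    rw [lr_eq_KJet (eul_y_pos _ hp0 ξ), log_eul_y _ hp0]
    ring
  · exact lr_eq_KJet (hy.trans_le hp)
  · ring
  · ring

theorem jt_famc (hχ : Chi x0 e0 C0 χ χ1 χ2) (hy : 0 < y0) (l0 a lam : ℝ) (h0 : 0 ≤ c)
    (h1 : c ≤ 1) : Jt κ (Reg y0 l0) (fun p η ξ => famc χ a c lam (eul (η ^ 2) p ξ))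
      (famc χ a c lam) (fun p => famc χ a c lam p * cc χ1 c lam p * p.x / rho2 p)
      (fun p => famc χ a c lam p * rc κ χ1 χ2 a c lam p / rho2 p) := by
  have hu := jt_uu (κ := κ) hy
  have hs : Jt κ {p : St | y0 ≤ p.y} (fun p η ξ => uu (eul (η ^ 2) p ξ) - lam)
      (fun p => uu p - lam) (fun p => -p.x / rho2 p) (fun p => mu κ p / rho2 p) :=
    (hu.add (Jt.lin (g := fun _ => -lam) (d := fun _ => 0) (jetBd_const 0))).congr
      (fun p _ η _ ξ => by ring) (fun p _ => by ring) (fun p _ => by ring) fun p _ => by ring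
  have hc := Jt.comp hχ.t3 hs fun _ _ => mem_univ _
  have h2 := ((((jt_l (κ := κ) hy).smul (c := fun _ => a) (jetBd_const _)).add
    (hu.smul (c := fun _ => -c) (jetBd_const _))).add
    (hc.smul (c := fun _ => -(1 - c)) (jetBd_const _))).comap (R' := Reg y0 l0)
    (fun p => p) fun p hp => hp.1
  have ef : ∀ p : St, famc χ a c lam p =
      Real.exp (a * p.l + -c * uu p + -(1 - c) * χ (uu p - lam)) := fun p => by
    rw [famc]
    congr 1
    ring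
  refine (Jt.comp (T3_exp (|a| * (|l0| + 2))) h2 fun p hp => ?_).congr (fun p _ η _ ξ => ef _)
    (fun p _ => ef _) (fun p hp => ?_) fun p hp => ?_
  · have e2 : |p.l| ≤ |l0| + 2 :=
      abs_le.2 ⟨by linarith [neg_abs_le l0, hp.2.1], by linarith [abs_nonneg l0, hp.2.2]⟩
    have e3 : a * p.l ≤ |a| * (|l0| + 2) :=
      (le_abs_self _).trans ((abs_mul _ _).trans_le (mul_le_mul_of_nonneg_left e2 (abs_nonneg _)))
    have e4 := mul_nonneg h0 (uu_nonneg p)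
    have e5 := mul_nonneg (sub_nonneg.2 h1) (hχ.nn (uu p - lam))
    show a * p.l + -c * uu p + -(1 - c) * χ (uu p - lam) ≤ _
    linarith
  · rw [← ef, cc]
    ring
  · have hp0 : 0 < p.y := hy.trans_le hp.1
    have hr := rho2_pos hp0
    have e : 1 - ss p = p.x ^ 2 / rho2 p := by
      rw [ss_eq hp0, eq_div_iff hr.ne', sub_mul, div_mul_cancel₀ _ hr.ne', rho2]
      ring
    rw [← ef, rc, e, cc]
    field_simp
    ring

theorem famc_le (hχ : Chi x0 e0 C0 χ χ1 χ2) (h0 : 0 ≤ c) (h1 : c ≤ 1) (p : St) :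
    famc χ a c lam p ≤ Real.exp (a * p.l + C0 + (1 - c) * lam) * sn p := by
  rw [famc, sn, ← Real.exp_add, Real.exp_le_exp]
  have h2 := mul_le_mul_of_nonneg_left (hχ.lo (uu p - lam)) (sub_nonneg.2 h1)
  have h3 := mul_nonneg h0 hχ.hC
  linarith

theorem fam_uu (a c : ℝ) (p : St) : fam a c p = Real.exp (a * p.l - c * uu p) := by
  rw [fam, uu]
  congr 1
  ring

theorem famc_le_fam (hχ : Chi x0 e0 C0 χ χ1 χ2) (h1 : c ≤ 1) (p : St) :
    famc χ a c lam p ≤ fam a c p := by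
  rw [famc, fam_uu, Real.exp_le_exp]
  have h2 := mul_nonneg (sub_nonneg.2 h1) (hχ.nn (uu p - lam))
  linarith

theorem famc_eq (hχ : Chi x0 e0 C0 χ χ1 χ2) {p : St} (hp : uu p ≤ lam) :
    famc χ a c lam p = fam a c p := by
  rw [famc, fam_uu, (hχ.zero (uu p - lam) (by linarith [hχ.hx])).1, mul_zero, sub_zero]

theorem cc_mem (hχ : Chi x0 e0 C0 χ χ1 χ2) (h1 : c ≤ 1) (p : St) :
    c ≤ cc χ1 c lam p ∧ cc χ1 c lam p ≤ 1 := by
  have h2 := mul_nonneg (sub_nonneg.2 h1) (hχ.d1 (uu p - lam)).1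
  have h3 := mul_le_mul_of_nonneg_left (hχ.d1 (uu p - lam)).2 (sub_nonneg.2 h1)
  rw [cc]
  constructor <;> linarith

theorem cc_eq (hχ : Chi x0 e0 C0 χ χ1 χ2) {p : St} (hp : uu p ≤ lam) : cc χ1 c lam p = c := by
  rw [cc, (hχ.zero (uu p - lam) (by linarith [hχ.hx])).2.1, mul_zero, add_zero]

theorem rc_zero (hκ4 : 4 < κ) (hχ : Chi x0 e0 C0 χ χ1 χ2) (h0 : 0 ≤ c) (h1 : c ≤ 1) (p : St) :
    rc κ χ1 χ2 0 c lam p ≤ cc χ1 c lam p * (-(8 - κ) / 2 + κ * cc χ1 c lam p / 2) := by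
  have hc : 0 ≤ cc χ1 c lam p := h0.trans (cc_mem hχ h1 p).1
  have s0 := ss_pos p
  have s1 := ss_le_one p
  have e1 : 0 ≤ (1 - c) * χ2 (uu p - lam) * κ * (1 - ss p) :=
    mul_nonneg (mul_nonneg (mul_nonneg (sub_nonneg.2 h1) (hχ.d2 _).1) (by linarith))
      (sub_nonneg.2 s1)
  have e2 : 0 ≤ cc χ1 c lam p * ((κ - 4) * ss p) :=
    mul_nonneg hc (mul_nonneg (by linarith) s0.le)
  have e3 : 0 ≤ κ * ss p * cc χ1 c lam p ^ 2 :=
    mul_nonneg (mul_nonneg (by linarith) s0.le) (sq_nonneg _)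
  rw [rc, mu]
  linarith

open Classical in
theorem rc_mt (hκ4 : 4 < κ) (hκ8 : κ < 8) (hχ : Chi x0 e0 C0 χ χ1 χ2) (p : St) :
    rc κ χ1 χ2 (κ / 8 - 1) (8 / κ - 1) lam p ≤ if lam ≤ uu p then 4 else 0 := by
  have hκ : 0 < κ := by linarith
  obtain ⟨c, hc⟩ : ∃ c, c = 8 / κ - 1 := ⟨_, rfl⟩
  have hk : κ * c = 8 - κ := by rw [hc]; field_simp
  have c0 : 0 ≤ c := by
    by_contra hn
    nlinarith [mul_pos hκ (neg_pos.2 (not_le.1 hn))]
  have c1 : c ≤ 1 := by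
    by_contra hn
    nlinarith [mul_pos hκ (sub_pos.2 (not_le.1 hn))]
  rw [← hc]
  have s0 := ss_pos p
  have s1 := ss_le_one p
  have e1 : 0 ≤ (1 - c) * χ2 (uu p - lam) * κ * (1 - ss p) :=
    mul_nonneg (mul_nonneg (mul_nonneg (sub_nonneg.2 c1) (hχ.d2 _).1) hκ.le) (sub_nonneg.2 s1)
  obtain ⟨b, hb⟩ : ∃ b, b = (1 - c) * χ1 (uu p - lam) := ⟨_, rfl⟩
  have b0 : 0 ≤ b := by rw [hb]; exact mul_nonneg (sub_nonneg.2 c1) (hχ.d1 _).1
  have b1 : c + b ≤ 1 := by rw [hb]; exact (cc_mem (lam := lam) hχ c1 p).2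
  have key : rc κ χ1 χ2 (κ / 8 - 1) c lam p ≤ κ * b * (c + b) / 2 := by
    rw [rc, cc, ← hb, mu]
    have e2 : 0 ≤ b * ((κ - 4) * ss p) := mul_nonneg b0 (mul_nonneg (by linarith) s0.le)
    have e3 : 0 ≤ κ * ss p * (b * (2 * c + b)) :=
      mul_nonneg (mul_nonneg hκ.le s0.le) (mul_nonneg b0 (by linarith))
    have e4 : -4 * (κ / 8 - 1) * ss p - (c + b) * ((8 - κ) / 2 + (κ - 4) * ss p) +
        κ * (1 - ss p) * (c + b) ^ 2 / 2 = κ * b * (c + b) / 2 - b * ((κ - 4) * ss p) -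
        κ * ss p * (b * (2 * c + b)) / 2 := by
      linear_combination ((c + b) / 2 - ss p * (1 + c) / 2) * hk
    linarith
  split_ifs with h
  · have e5 : b * (c + b) ≤ 1 := mul_le_one₀ (by linarith) (by linarith) b1
    have e6 := mul_le_mul_of_nonneg_left e5 hκ.le
    linarith
  · have hb0 : b = 0 := by
      rw [hb, (hχ.zero (uu p - lam) (by linarith [hχ.hx, not_le.1 h])).2.1, mul_zero]
    rw [hb0, mul_zero, zero_mul, zero_div] at key
    exact key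

/-- expectation of a truncated jet -/
theorem Jt.trunc {ι : Type*} {R : Set ι} {G : ι → ℝ → ℝ → ℝ} {g n L : ι → ℝ} (hκ : 0 < κ)
    (h : Jt κ R G g n L) (hm : ∀ i ∈ R, ∀ η ∈ Ioc (0 : ℝ) 1, Measurable (G i η))
    (hg : ∀ i ∈ R, 0 ≤ g i) : ∃ C : ℝ, 0 ≤ C ∧ ∀ i ∈ R, ∀ η ∈ Ioc (0 : ℝ) 1,
      Integrable (fun ξ => if |ξ| ≤ 1 then G i η ξ else 0) (gs κ η) ∧
      ∫ ξ, (if |ξ| ≤ 1 then G i η ξ else 0) ∂gs κ η ≤ g i + L i * η ^ 2 + C * η ^ 3 := by
  obtain ⟨q, d, C, h⟩ := h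
  have hs : MeasurableSet {ξ : ℝ | |ξ| ≤ 1} := measurableSet_le (by fun_prop) measurable_const
  have h2 : Jt κ R (fun i η ξ => if |ξ| ≤ 1 then G i η ξ else g i) g n L :=
    ⟨q, d, C, fun i hi => ⟨(h i hi).1, (h i hi).2.1, (h i hi).2.2.1, (h i hi).2.2.2.1,
      fun η hη ξ hξ => by
        simp only [if_pos hξ]
        exact (h i hi).2.2.2.2 η hη ξ hξ⟩⟩
  obtain ⟨D, hD, h3⟩ := h2.integral hκ
    (fun i hi η hη => Measurable.ite hs (hm i hi η hη) measurable_const)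
    ⟨5 * C, fun i hi η hη ξ => by
      obtain ⟨-, a2, a3, a4, a5⟩ := h i hi
      have C0 : 0 ≤ C := (abs_nonneg _).trans a2
      by_cases hξ : |ξ| ≤ 1
      · simp only [if_pos hξ]
        exact (jetB_core a2 a3 a4 hη hξ (a5 η hη ξ hξ)).2.2.trans
          (mul_le_of_le_one_right (by positivity) (max_le hξ hη.2))
      · simp only [if_neg hξ, sub_self, abs_zero]
        positivity⟩
  refine ⟨D, hD, fun i hi η hη => ?_⟩
  obtain ⟨i1, i2⟩ := h3 i hi η hη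
  have i3 : Integrable (fun ξ => if |ξ| ≤ 1 then G i η ξ else 0) (gs κ η) := by
    refine (i1.indicator hs).congr (Filter.Eventually.of_forall fun ξ => ?_)
    by_cases hξ : |ξ| ≤ 1
    · simp only [indicator_of_mem (show ξ ∈ {ξ : ℝ | |ξ| ≤ 1} from hξ), if_pos hξ]
    · simp only [indicator_of_notMem (show ξ ∉ {ξ : ℝ | |ξ| ≤ 1} from hξ), if_neg hξ]
  refine ⟨i3, ?_⟩
  have i4 := integral_mono i3 i1 fun ξ => by
    by_cases hξ : |ξ| ≤ 1
    · simp only [if_pos hξ, le_refl]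
    · simp only [if_neg hξ]
      exact hg i hi
  have i5 := (abs_le.1 i2).2
  linarith

end Vale.Agent.P164
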