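import Vale.Agent.P164.Tail
import Vale.Agent.P164.Grid
import Vale.Agent.P164.Gauge

namespace Vale.Agent.P164

open Set MeasureTheory Filter
open scoped Topology

theorem ls_ev {P : ℝ → Prop} :
    (∃ η0 : ℝ, 0 < η0 ∧ ∀ η, 0 < η → η ≤ η0 → P η) ↔ ∀ᶠ η in 𝓝[>] (0 : ℝ), P η := by
  refine Iff.trans ?_ mem_nhdsGT_iff_exists_Ioc_subset.symm
  exact ⟨fun ⟨a, h1, h2⟩ => ⟨a, h1, fun η h => h2 η h.1 h.2⟩,
    fun ⟨a, h1, h2⟩ => ⟨a, h1, fun η b c => h2 ⟨b, c⟩⟩⟩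

theorem ls_num {κ C M r s A E p : ℝ} (hκ : 0 < κ) (hC : 0 < C) (hM4 : 4 ≤ M) (hM : 4 * κ * C ≤ M)
    (hr : 0 < r) (hs : 0 < s) (hA : 0 < A) (hE : 0 < E) (hp : 0 < p) (hp1 : p ≤ 1) :
    ∃ x β : ℝ, 0 ≤ x ∧ 0 < β ∧ s ^ 2 * x = M * (r ^ 2 * A / E) * p ∧ ∀ q : ℝ,
      s ^ 4 * q ≤ 4 * C * r ^ 2 * (A ^ 2 * p ^ 4) →
      s ^ 2 * (β⁻¹ * Real.exp (-(β * x) + β ^ 2 * κ * q / 2)) ≤
        A * E * p * Real.exp (-2 * (r ^ 2 / E ^ 2)) := by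
  have hM0 : 0 < M := by linarith
  have hp2 : p ^ 2 ≤ 1 := pow_le_one₀ hp.le hp1
  have h0 : 4 * κ * C * p ^ 2 ≤ M := (mul_le_of_le_one_right (by positivity) hp2).trans hM
  obtain ⟨X, hX⟩ : ∃ X, X = M * (r ^ 2 * A / E) * p := ⟨_, rfl⟩
  obtain ⟨V, hV⟩ : ∃ V, V = 4 * C * r ^ 2 * (A ^ 2 * p ^ 4) := ⟨_, rfl⟩
  have X0 : 0 < X := by
    rw [hX]
    positivity
  have V0 : 0 < V := by
    rw [hV]
    positivity
  refine ⟨X / s ^ 2, X * s ^ 2 / (κ * V), by positivity, by positivity, ?_, fun q hq => ?_⟩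
  · rw [← hX]
    field_simp
  rw [← hV] at hq
  rw [← mul_assoc]
  refine mul_le_mul ?_ (Real.exp_le_exp.2 ?_) (Real.exp_pos _).le (by positivity)
  · have e : s ^ 2 * (X * s ^ 2 / (κ * V))⁻¹ = κ * V / X := by field_simp
    have e2 : A * E * p * X = M * (r ^ 2 * A ^ 2 * p ^ 2) := by
      rw [hX]
      field_simp
    rw [e, div_le_iff₀ X0, e2, hV]
    have := mul_le_mul_of_nonneg_right h0 (show 0 ≤ r ^ 2 * A ^ 2 * p ^ 2 by positivity)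
    linarith
  · have e : -(X * s ^ 2 / (κ * V) * (X / s ^ 2)) + (X * s ^ 2 / (κ * V)) ^ 2 * κ * q / 2 =
        -(X ^ 2 / (κ * V)) + X ^ 2 / (κ * V) * (s ^ 4 * q / V) / 2 := by field_simp
    have e2 : X ^ 2 / (κ * V) = M * M / (4 * κ * C * p ^ 2) * (r ^ 2 / E ^ 2) := by
      rw [hX, hV]
      field_simp
    have h1 : s ^ 4 * q / V ≤ 1 := (div_le_one V0).2 hq
    have h2 := mul_le_mul_of_nonneg_left h1 (show 0 ≤ X ^ 2 / (κ * V) by positivity)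
    have h3 : 4 ≤ M * M / (4 * κ * C * p ^ 2) := by
      rw [le_div_iff₀ (by positivity)]
      exact mul_le_mul hM4 h0 (by positivity) hM0.le
    have h4 := mul_le_mul_of_nonneg_right h3 (show 0 ≤ r ^ 2 / E ^ 2 by positivity)
    rw [e]
    linarith

theorem ls_scale (κ : ℝ) {r : ℝ} (h0 : 0 < r) (hr : r ≤ Real.exp (-Real.exp 1)) :
    ∃ la : ℝ, la ≤ Real.log r ∧ 2 * Real.log r ≤ la ∧
      gau κ r = r ^ 2 * Real.exp (κ / 8 * la) / Real.exp la ∧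
      Real.exp (-2 * (r ^ 2 / Real.exp la ^ 2)) = (Real.log r ^ 2)⁻¹ := by
  obtain ⟨h1, h2⟩ := gau_one h0 hr
  have h3 : 0 < Real.log (1 / r) := (Real.exp_pos 1).trans_le h1
  have h4 : 0 < Real.log (Real.log (1 / r)) := by linarith
  have h5 := Real.log_nonneg h2
  have h6 := Real.log_le_sub_one_of_pos h3
  have h7 := Real.log_le_sub_one_of_pos h4
  have h8 : Real.log (1 / r) = -Real.log r := by rw [one_div, Real.log_inv]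
  have h9 : r ^ 2 = Real.exp (2 * Real.log r) := by
    rw [two_mul, Real.exp_add, Real.exp_log h0, sq]
  refine ⟨Real.log r - Real.log (Real.log (Real.log (1 / r))) / 2, by linarith, by linarith,
    ?_, ?_⟩
  · rw [gau_eq hr, Real.rpow_def_of_pos h0, Real.rpow_def_of_pos h4, h9, ← Real.exp_add,
      ← Real.exp_add, ← Real.exp_sub]
    congr 1
    ring
  · have e : r ^ 2 / Real.exp (Real.log r - Real.log (Real.log (Real.log (1 / r))) / 2) ^ 2 =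
        Real.log (Real.log (1 / r)) := by
      rw [h9, sq, ← Real.exp_add, ← Real.exp_sub]
      refine Eq.trans ?_ (Real.exp_log h4)
      congr 1
      ring
    rw [e, neg_mul, Real.exp_neg, two_mul, Real.exp_add, Real.exp_log h3, h8, neg_mul_neg, sq]

/-- the conclusion of `tail` -/
def LsT (κ C8 : ℝ) : Prop := ∀ d0 le : ℝ, 0 < d0 → le ≤ 0 →
    ∀ (Q : Finset ℂ), (∀ u ∈ Q, 1 ≤ u.im ∧ u.im ≤ 2) → ∀ (la lb : ℝ) (c : ℂ), 1 ≤ c.im → c.im ≤ 2 →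
    ∀ L yc β T : ℝ, L ≤ 0 → 0 < yc → 0 < β → ∃ η0 : ℝ, 0 < η0 ∧ ∀ η : ℝ, 0 < η → η ≤ η0 →
    ∀ N : ℕ, N * η ^ 2 ≤ T → ∃ Φ : (ℕ → ℝ) → ℝ, Measurable Φ ∧ (∀ ξ, 0 ≤ Φ ξ) ∧
      Integrable Φ (GG κ η) ∧ ∫ ξ, Φ ξ ∂GG κ η ≤ C8 * Real.exp ((1 - κ / 8) * L) ∧
      ∀ ξ, (∀ n < N, ∀ u ∈ Q, lev d0 le la lb (frz d0 le (η ^ 2) u ξ n) →
          ∃ n' ≤ n, yc ≤ (fre (η ^ 2) c ξ n').y ∧ (fre (η ^ 2) c ξ n').l ≤ L) →
        ∀ x : ℝ, 0 ≤ x → max (AA κ d0 le (η ^ 2) la lb Q ξ N - x) 0 ≤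
          β⁻¹ * Real.exp (-(β * x) + β ^ 2 * κ * qv κ d0 le (η ^ 2) la lb Q ξ N / 2) * Φ ξ

/-- the conclusions of `gate` and `qv_le` -/
def LsG (κ C7 C9 d0 le T δ : ℝ) (ξ : ℕ → ℝ) : Prop :=
  (∀ n : ℕ, n * δ ≤ T → ∀ (r : ℝ) (u c : ℂ), 0 < r → 1 ≤ u.im → u.im ≤ 2 → 1 ≤ c.im →
    ‖u - c‖ ≤ 2 * r → actv d0 le (frz d0 le δ u ξ n) → (frz d0 le δ u ξ n).l ≤ Real.log r →
    ∃ n' ≤ n, ymin d0 le / 12 ≤ (fre δ c ξ n').y ∧ (fre δ c ξ n').l ≤ Real.log (C7 * r)) ∧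
  ∀ N : ℕ, N * δ ≤ T → ∀ (s la : ℝ) (Q : Finset ℂ), 0 < s → s ≤ Real.exp la →
    (∀ u ∈ Q, IsLat s u ∧ 1 ≤ u.im ∧ u.im ≤ 2) →
    s ^ 2 * qv κ d0 le δ la (la - Real.log 2) Q ξ N ≤ C9 * Q.card * Real.exp (κ / 4 * la)

/-- a lattice cell of size `r` -/
structure LsQ (s r : ℝ) (Q : Finset ℂ) : Prop where
  s0 : 0 < s
  sr : s ≤ r
  ne : Q.Nonempty
  lat : ∀ u ∈ Q, IsLat s u ∧ 1 ≤ u.im ∧ u.im ≤ 2
  box : ∀ z ∈ Q, ∀ w ∈ Q, |z.re - w.re| ≤ r ∧ |z.im - w.im| ≤ r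

theorem LsQ.card {s r : ℝ} {Q : Finset ℂ} (h : LsQ s r Q) : (Q.card : ℝ) * s ^ 2 ≤ 4 * r ^ 2 := by
  have h0 := h.s0
  have h1 := h.sr
  refine (card_le_box h0 (h0.le.trans h1) Q (fun z hz => (h.lat z hz).1) h.box).trans ?_
  nlinarith

theorem ls_level {κ C7 C8 C9 M d0 le T s r la A E p : ℝ} {Q : Finset ℂ} (hκ : 0 < κ)
    (h8 : LsT κ C8) (hC7 : 0 < C7) (hC : 0 < C9) (hM4 : 4 ≤ M) (hM : 4 * κ * C9 ≤ M) (hd : 0 < d0)
    (hle : le ≤ 0) (hQ : LsQ s r Q) (hr : C7 * r ≤ 1) (hA : 0 < A) (hE : 0 < E) (hp : 0 < p)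
    (hp1 : p ≤ 1) (hla : la ≤ Real.log r) (hs : s ≤ Real.exp la)
    (hAp : Real.exp (κ / 4 * la) = A ^ 2 * p ^ 4) :
    ∀ᶠ η in 𝓝[>] (0 : ℝ), ∀ N : ℕ, N * η ^ 2 ≤ T → ∃ Φ : (ℕ → ℝ) → ℝ, Measurable Φ ∧
      (∀ ξ, 0 ≤ Φ ξ) ∧ Integrable Φ (GG κ η) ∧
      ∫ ξ, Φ ξ ∂GG κ η ≤ C8 * Real.exp ((1 - κ / 8) * Real.log (C7 * r)) ∧
      ∀ ξ, LsG κ C7 C9 d0 le T (η ^ 2) ξ →
        s ^ 2 * AA κ d0 le (η ^ 2) la (la - Real.log 2) Q ξ N ≤ M * (r ^ 2 * A / E) * p +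
          A * E * p * Real.exp (-2 * (r ^ 2 / E ^ 2)) * Φ ξ := by
  have hr0 : 0 < r := hQ.s0.trans_le hQ.sr
  obtain ⟨x, β, hx, hβ, h1, h2⟩ := ls_num hκ hC hM4 hM hr0 hQ.s0 hA hE hp hp1
  obtain ⟨c, hc⟩ := hQ.ne
  have hy := ymin_pos d0 le
  filter_upwards [ls_ev.1 (h8 d0 le hd hle Q (fun u hu => (hQ.lat u hu).2) la (la - Real.log 2) c
    (hQ.lat c hc).2.1 (hQ.lat c hc).2.2 (Real.log (C7 * r)) (ymin d0 le / 12) β T
    (Real.log_nonpos (by positivity) hr) (by positivity) hβ)] with η hη N hN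
  obtain ⟨Φ, a1, a2, a3, a4, a5⟩ := hη N hN
  refine ⟨Φ, a1, a2, a3, a4, fun ξ hG => ?_⟩
  have b1 := a5 ξ (fun n hn u hu hl => hG.1 n (le_trans (mul_le_mul_of_nonneg_right
    (Nat.cast_le.2 hn.le) (sq_nonneg η)) hN) r u c hr0 (hQ.lat u hu).2.1 (hQ.lat u hu).2.2
    (hQ.lat c hc).2.1 ((Complex.norm_le_abs_re_add_abs_im _).trans (by
      rw [Complex.sub_re, Complex.sub_im]
      linarith [hQ.box u hu c hc])) hl.1 (hl.2.2.trans hla)) x hx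
  have b2 := mul_le_mul_of_nonneg_left (hG.2 N hN s la Q hQ.s0 hs hQ.lat) (sq_nonneg s)
  have b3 := mul_le_mul_of_nonneg_left hQ.card (show 0 ≤ C9 * (A ^ 2 * p ^ 4) by positivity)
  rw [hAp] at b2
  have b4 := mul_le_mul_of_nonneg_right
    (h2 (qv κ d0 le (η ^ 2) la (la - Real.log 2) Q ξ N) (by linarith)) (a2 ξ)
  have b5 := mul_le_mul_of_nonneg_left ((le_max_left _ _).trans b1) (sq_nonneg s)
  linarith

theorem ls_geom {ρ : ℝ} (h0 : 0 < ρ) (h1 : ρ < 1) (n : ℕ) :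
    ∑ k ∈ Finset.range n, ρ ^ k ≤ (1 - ρ)⁻¹ := by
  have h := geom_sum_Ico_le_of_lt_one (m := 0) (n := n) h0.le h1
  rwa [pow_zero, one_div, ← Finset.range_eq_Ico] at h

theorem ls_cell {κ C7 C9 : ℝ} (hκ : 0 < κ) (hκ8 : κ < 8) (hC7 : 1 ≤ C7) (hC : 0 < C9) :
    ∃ K C : ℝ, 0 < K ∧ 0 ≤ C ∧ ∀ (d0 T s r : ℝ) (Q : Finset ℂ), 0 < d0 → LsQ s r Q → s ≤ r ^ 2 →
      r ≤ Real.exp (-Real.exp 1) → C7 * r ≤ 1 → ∀ᶠ η in 𝓝[>] (0 : ℝ), ∀ N : ℕ, N * η ^ 2 ≤ T →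
      ∃ b : (ℕ → ℝ) → ℝ, Measurable b ∧ (∀ ξ, 0 ≤ b ξ) ∧ Integrable b (GG κ η) ∧
        ∫ ξ, b ξ ∂GG κ η ≤ C * r ^ 2 * (Real.log r ^ 2)⁻¹ ∧
        ∀ ξ, LsG κ C7 C9 d0 (Real.log s) T (η ^ 2) ξ →
          K * gau κ r ≤ ∑ u ∈ Q, s ^ 2 * mh κ d0 (Real.log s) (η ^ 2) ξ N u →
          ∑ u ∈ Q, s ^ 2 * mh κ d0 (Real.log s) (η ^ 2) ξ N u ≤ b ξ := by
  obtain ⟨C8, hC8, h8⟩ : ∃ C8 : ℝ, 0 < C8 ∧ LsT κ C8 := tail hκ hκ8
  have hl2 : 0 < Real.log 2 := Real.log_pos one_lt_two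
  obtain ⟨ρ, hρ⟩ : ∃ ρ, ρ = Real.exp (-(κ / 16 * Real.log 2)) := ⟨_, rfl⟩
  have ρ0 : 0 < ρ := hρ ▸ Real.exp_pos _
  have ρ1 : ρ < 1 := hρ ▸ Real.exp_lt_one_iff.2 (neg_lt_zero.2 (by positivity))
  have ρ2 : 0 < 1 - ρ := by linarith
  have ρ3 : 1 ≤ (1 - ρ)⁻¹ := (one_le_inv₀ ρ2).2 (by linarith)
  have hk : 0 < κ * C9 := by positivity
  refine ⟨4 * ((6 + 4 * κ * C9) * (1 - ρ)⁻¹), 4 * (1 - ρ)⁻¹ * C8 * C7, by positivity,
    by positivity, fun d0 T s r Q hd hQ hs hr hr7 => ?_⟩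
  have hs0 := hQ.s0
  have hr0 : 0 < r := hs0.trans_le hQ.sr
  obtain ⟨la, l1, l2, l3, l4⟩ := ls_scale κ hr0 hr
  have l5 : Real.log r ≤ 0 := Real.log_nonpos hr0.le (by nlinarith)
  have l6 : Real.log s ≤ la := by
    have := Real.log_le_log hs0 hs
    rw [Real.log_pow] at this
    push_cast at this
    linarith
  have hy := ymin_pos d0 (Real.log s)
  obtain ⟨n, hn⟩ : ∃ n, n = ⌈(la - Real.log s) / Real.log 2⌉₊ := ⟨_, rfl⟩
  have n1 : la - n * Real.log 2 ≤ Real.log s := by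
    have := (div_le_iff₀ hl2).1 (Nat.le_ceil ((la - Real.log s) / Real.log 2))
    rw [← hn] at this
    linarith
  have key := (eventually_all_finset (Finset.range n)).2 fun k hk =>
    ls_level (T := T) (M := 6 + 4 * κ * C9) (la := la - k * Real.log 2) hκ h8 (by linarith) hC
      (by linarith) (by linarith) hd (l6.trans (l1.trans l5)) hQ hr7
      (Real.exp_pos (κ / 8 * la)) (Real.exp_pos la) (pow_pos ρ0 k) (pow_le_one₀ ρ0.le ρ1.le)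
      (by nlinarith [mul_nonneg (Nat.cast_nonneg (α := ℝ) k) hl2.le])
      (by
        have := (lt_div_iff₀ hl2).1 (Nat.lt_ceil.1 (hn ▸ Finset.mem_range.1 hk))
        rw [← Real.log_le_iff_le_exp hs0]
        linarith)
      (by
        rw [hρ, ← Real.exp_nat_mul, ← Real.exp_nat_mul, ← Real.exp_nat_mul, ← Real.exp_add]
        congr 1
        push_cast
        ring)
  filter_upwards [key, Ioc_mem_nhdsGT (half_pos hy)] with η hη hη' N hN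
  choose! Φ a1 a2 a3 a4 a5 using fun k hk => hη k hk N hN
  rw [l4, ← l3] at a5
  obtain ⟨w, hw⟩ : ∃ w, w = Real.exp (κ / 8 * la) * Real.exp la := ⟨_, rfl⟩
  obtain ⟨z, hz⟩ : ∃ z, z = (Real.log r ^ 2)⁻¹ := ⟨_, rfl⟩
  have w0 : 0 < w := by
    rw [hw]
    positivity
  have z0 : 0 ≤ z := by
    rw [hz]
    positivity
  rw [← hw, ← hz] at a5
  have i1 : ∀ k ∈ Finset.range n, Integrable (fun ξ => w * ρ ^ k * z * Φ k ξ) (GG κ η) :=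
    fun k hk => (a3 k hk).const_mul _
  refine ⟨fun ξ => 4 * ∑ k ∈ Finset.range n, w * ρ ^ k * z * Φ k ξ,
    (Finset.measurable_sum _ fun k hk => (a1 k hk).const_mul _).const_mul _,
    fun ξ => mul_nonneg (by norm_num) (Finset.sum_nonneg fun k hk =>
      mul_nonneg (by positivity) (a2 k hk ξ)), (integrable_finsetSum _ i1).const_mul _, ?_,
    fun ξ hG hK => ?_⟩
  · rw [integral_const_mul, integral_finsetSum _ i1, ← hz]
    have b1 : w * Real.exp ((1 - κ / 8) * Real.log (C7 * r)) ≤ C7 * r ^ 2 := by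
      have c1 := Real.log_nonneg hC7
      rw [hw, ← Real.exp_add, ← Real.exp_add, ← Real.le_log_iff_exp_le (by positivity),
        Real.log_mul (by linarith) hr0.ne', Real.log_mul (by linarith) (by positivity),
        Real.log_pow]
      push_cast
      nlinarith [mul_nonneg hκ.le c1, mul_le_mul_of_nonneg_left l1 hκ.le]
    have b2 : ∑ k ∈ Finset.range n, ∫ ξ, w * ρ ^ k * z * Φ k ξ ∂GG κ η ≤
        ∑ k ∈ Finset.range n, C8 * (C7 * r ^ 2) * z * ρ ^ k := Finset.sum_le_sum fun k hk => by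
      rw [integral_const_mul]
      have c1 := mul_le_mul_of_nonneg_left (a4 k hk) (show 0 ≤ w * ρ ^ k * z by positivity)
      have c2 := mul_le_mul_of_nonneg_left b1 (show 0 ≤ C8 * z * ρ ^ k by positivity)
      linarith
    rw [← Finset.mul_sum] at b2
    have b3 := mul_le_mul_of_nonneg_left (ls_geom ρ0 ρ1 n)
      (show 0 ≤ C8 * (C7 * r ^ 2) * z by positivity)
    linarith
  · have hδ1 : 4 * (η ^ 2 / ymin d0 (Real.log s) ^ 2) ≤ 1 := by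
      rw [← mul_div_assoc, div_le_one (by positivity)]
      nlinarith [hη'.1, hη'.2]
    have b1 := mul_le_mul_of_nonneg_left (decomp (ξ := ξ) hκ hκ8 hd (sq_nonneg η) hδ1
      (l1.trans l5) l6 n1 Q (fun u hu => (hQ.lat u hu).2) N) (sq_nonneg s)
    have g0 : 0 < gau κ r := by
      rw [l3]
      positivity
    have b2 : s ^ 2 * (Q.card * (3 * Real.exp ((κ / 8 - 1) * la))) ≤ 12 * gau κ r := by
      have c1 := mul_le_mul_of_nonneg_right hQ.card (Real.exp_pos ((κ / 8 - 1) * la)).le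
      have c2 : gau κ r = r ^ 2 * Real.exp ((κ / 8 - 1) * la) := by
        rw [l3, mul_div_assoc, ← Real.exp_sub, sub_mul, one_mul]
      linarith
    have b3 : ∑ k ∈ Finset.range n, s ^ 2 * AA κ d0 (Real.log s) (η ^ 2) (la - k * Real.log 2)
        (la - (k + 1) * Real.log 2) Q ξ N ≤ ∑ k ∈ Finset.range n,
          ((6 + 4 * κ * C9) * gau κ r * ρ ^ k + w * ρ ^ k * z * Φ k ξ) :=
      Finset.sum_le_sum fun k hk => by
        rw [add_one_mul, ← sub_sub]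
        exact a5 k hk ξ hG
    rw [Finset.sum_add_distrib, ← Finset.mul_sum, ← Finset.mul_sum] at b3
    have b4 := mul_le_mul_of_nonneg_left (ls_geom ρ0 ρ1 n)
      (show 0 ≤ (6 + 4 * κ * C9) * gau κ r by positivity)
    have b5 := mul_le_mul_of_nonneg_left ρ3 (show 0 ≤ (6 + 4 * κ * C9) * gau κ r by positivity)
    have b6 := mul_pos hk g0
    rw [← Finset.mul_sum] at hK ⊢
    rw [mul_add] at b1
    beta_reduce
    linarith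

end Vale.Agent.P164
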