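import Vale.Agent.P164.KMass
import Vale.Agent.P164.KAa
import Vale.Agent.P164.KCost
import Vale.Agent.P164.LStageAux

namespace Vale.Agent.P164

open Set MeasureTheory Filter
open scoped Topology

/-- the conclusions of `gate`, `car_ok` and `qt_le` -/
def KsG (κ : ℝ) (χ χ1 : ℝ → ℝ) (C7 C9 d0 le T δ : ℝ) (ξ : ℕ → ℝ) : Prop :=
  (∀ n : ℕ, n * δ ≤ T → ∀ (r : ℝ) (u c : ℂ), 0 < r → 1 ≤ u.im → u.im ≤ 2 → 1 ≤ c.im →
    ‖u - c‖ ≤ 2 * r → actv d0 le (frz d0 le δ u ξ n) → (frz d0 le δ u ξ n).l ≤ Real.log r →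
    ∃ n' ≤ n, ymin d0 le / 12 ≤ (fre δ c ξ n').y ∧ (fre δ c ξ n').l ≤ Real.log (C7 * r)) ∧
  (∀ n : ℕ, n * δ ≤ T → |ξ n| ≤ min 1 (ymin d0 le) ∧
    ∀ (s la : ℝ) (Q : Finset ℂ), 0 < s → s ≤ Real.exp la →
      (∀ u ∈ Q, IsLat s u ∧ 1 ≤ u.im ∧ u.im ≤ 2) →
      Car d0 le la (C9 * Real.exp la ^ 2 / s ^ 2) Q fun u => frz d0 le δ u ξ n) ∧
  ∀ N : ℕ, N * δ ≤ T → ∀ (s la lam : ℝ) (Q : Finset ℂ), 0 < s → s ≤ Real.exp la →
    (∀ u ∈ Q, IsLat s u ∧ 1 ≤ u.im ∧ u.im ≤ 2) →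
    s ^ 2 * qt κ χ χ1 d0 le δ la lam Q ξ N ≤
      C9 * Q.card * Real.exp (κ / 4 * la + 2 * (2 - 8 / κ) * lam)

variable {κ x0 e0 C0 : ℝ} {χ χ1 χ2 : ℝ → ℝ}

theorem kl_cost {B H th τ T e Φ : ℝ} (h0 : 0 < th) (hB0 : 0 ≤ B) (hB : B ≤ H * th) (hτ : 0 ≤ τ)
    (he : 0 ≤ e * Φ) (h : th * (T - τ / th) ≤ e * Φ) : B * T ≤ H * (τ + e * Φ) := by
  have h1 : T ≤ (τ + e * Φ) / th := by
    rw [mul_sub, mul_div_cancel₀ _ h0.ne'] at h
    rw [le_div_iff₀ h0]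
    linarith
  refine (mul_le_mul_of_nonneg_left h1 hB0).trans
    ((mul_le_mul_of_nonneg_right hB (div_nonneg (add_nonneg hτ he) h0.le)).trans_eq ?_)
  field_simp

theorem kl_eta {η y : ℝ} (h : η ∈ Ioc 0 (y / 2)) : 4 * (η ^ 2 / y ^ 2) ≤ 1 := by
  have hy : 0 < y := by linarith [h.1, h.2]
  rw [← mul_div_assoc, div_le_one (by positivity)]
  nlinarith [h.1, h.2]

theorem kl_exp {κ l0 lam C0 g c1 s : ℝ} (hκ : 0 < κ) (hl : 0 ≤ lam) (hc : 0 < c1)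
    (hg : g ≤ (8 - κ) ^ 2 / (32 * κ)) :
    Real.exp ((κ / 8 - 1) * (l0 - lam) - (8 / κ - 1) * lam) ≤
      Real.exp (κ / 8 * l0) / Real.exp l0 * Real.exp (-((8 - κ) ^ 2 / (16 * κ) * lam)) ∧
    Real.exp (κ / 4 * (l0 - lam) + 2 * (2 - 8 / κ) * lam) =
      Real.exp (κ / 8 * l0) ^ 2 * Real.exp (-((8 - κ) ^ 2 / (16 * κ) * lam)) ^ 4 ∧
    s ^ 2 * (8 * Real.exp ((κ / 8 - 1) * (l0 - lam) + C0 + (2 - 8 / κ) * lam)) ≤
      8 * Real.exp C0 / c1 * (Real.exp (κ / 8 * l0) * Real.exp l0 *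
        Real.exp (-((8 - κ) ^ 2 / (16 * κ) * lam))) *
        (c1 * (s ^ 2 / Real.exp l0 ^ 2) * Real.exp ((1 - 2 * g) * lam)) := by
  have e : (8 - κ) ^ 2 / (16 * κ) = κ / 16 - 1 + 4 / κ := by
    field_simp
    ring
  have e' : (8 - κ) ^ 2 / (32 * κ) = (κ / 16 - 1 + 4 / κ) / 2 := by
    field_simp
    ring
  have h0 : 0 ≤ (8 - κ) ^ 2 / (16 * κ) * lam := by positivity
  have h1 := mul_le_mul_of_nonneg_right hg hl
  rw [e'] at h1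
  rw [e] at h0 ⊢
  refine ⟨?_, ?_, ?_⟩
  · rw [← Real.exp_sub, ← Real.exp_add]
    refine Real.exp_le_exp.2 ?_
    linear_combination h0
  · rw [← Real.exp_nat_mul, ← Real.exp_nat_mul, ← Real.exp_add]
    congr 1
    push_cast
    ring
  · have h2 : Real.exp ((κ / 8 - 1) * (l0 - lam) + C0 + (2 - 8 / κ) * lam) ≤
        Real.exp C0 * Real.exp (κ / 8 * l0) * Real.exp (-((κ / 16 - 1 + 4 / κ) * lam)) *
          Real.exp ((1 - 2 * g) * lam) / Real.exp l0 := by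
      rw [← Real.exp_add, ← Real.exp_add, ← Real.exp_add, ← Real.exp_sub]
      refine Real.exp_le_exp.2 ?_
      linear_combination 2 * h1
    refine (mul_le_mul_of_nonneg_left (mul_le_mul_of_nonneg_left h2 (by norm_num))
      (sq_nonneg s)).trans_eq ?_
    field_simp

/-- one level `l0 - lam` below the top level `l0` -/
theorem ks_level (hκ4 : 4 < κ) (hκ8 : κ < 8) (hχ : Chi x0 e0 C0 χ χ1 χ2) {C7 C9 : ℝ}
    (hC7 : 1 ≤ C7) (hC : 0 < C9) : ∃ M C8 lam1 : ℝ, 0 < M ∧ 0 < C8 ∧ 0 < lam1 ∧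
    ∀ (d0 le T s r l0 lam : ℝ) (Q : Finset ℂ), 0 < d0 → le ≤ 0 → LsQ s r Q → C7 * r ≤ 1 →
      l0 ≤ Real.log r → lam1 ≤ lam → s ≤ Real.exp (l0 - lam) →
      ∀ᶠ η in 𝓝[>] (0 : ℝ), ∀ N : ℕ, N * η ^ 2 ≤ T → ∃ Φ : (ℕ → ℝ) → ℝ, Measurable Φ ∧
        (∀ ξ, 0 ≤ Φ ξ) ∧ Integrable Φ (GG κ η) ∧
        ∫ ξ, Φ ξ ∂GG κ η ≤ C8 * Real.exp ((1 - κ / 8) * Real.log (C7 * r)) ∧
        ∀ ξ, KsG κ χ χ1 C7 C9 d0 le T (η ^ 2) ξ →
          s ^ 2 * AA κ d0 le (η ^ 2) (l0 - lam) (l0 - lam - Real.log 2) Q ξ N ≤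
            M * (r ^ 2 * Real.exp (κ / 8 * l0) / Real.exp l0) *
              Real.exp (-((8 - κ) ^ 2 / (16 * κ) * lam)) +
            Real.exp (κ / 8 * l0) * Real.exp l0 * Real.exp (-((8 - κ) ^ 2 / (16 * κ) * lam)) *
              Real.exp (-2 * (r ^ 2 / Real.exp l0 ^ 2)) * Φ ξ := by
  have hκ : 0 < κ := by linarith
  obtain ⟨C8, hC8, hm⟩ := mass_tail hκ4 hκ8 hχ
  obtain ⟨g, c1, C1, lam0, C8', -, hg, hc1, hC1, hC8', ht⟩ := tcost hκ4 hκ8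
  obtain ⟨K, hK⟩ : ∃ K, K = 8 * Real.exp C0 / c1 := ⟨_, rfl⟩
  have K0 : 0 < K := by
    rw [hK]
    positivity
  have hk : 0 < κ * C9 := by positivity
  refine ⟨4 + 4 * κ * C9 + 12 + 2 * K * (4 * C1 + 2), C8 + 2 * K * C8',
    max (max 1 lam0) (Real.log (C9 / c1)), by positivity, by positivity,
    one_pos.trans_le ((le_max_left _ _).trans (le_max_left _ _)),
    fun d0 le T s r l0 lam Q hd hle hQ hr hl0 hlam hs => ?_⟩
  obtain ⟨hl1, hl3⟩ := max_le_iff.1 hlam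
  obtain ⟨hl1, hl2⟩ := max_le_iff.1 hl1
  have hs0 := hQ.s0
  have hr0 : 0 < r := hs0.trans_le hQ.sr
  have hlr : Real.log r ≤ 0 := Real.log_nonpos hr0.le ((le_mul_of_one_le_left hr0.le hC7).trans hr)
  obtain ⟨e1, e2, e3⟩ := kl_exp (l0 := l0) (C0 := C0) (s := s) hκ (by linarith : 0 ≤ lam) hc1 hg
  have hq : s ^ 2 / Real.exp l0 ^ 2 * (C9 * Real.exp (l0 - lam) ^ 2 / s ^ 2) * Real.exp lam ≤ c1 := by
    have h1 := (Real.log_le_iff_le_exp (by positivity)).1 hl3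
    rw [div_le_iff₀ hc1] at h1
    rw [Real.exp_sub]
    refine le_trans (le_of_eq ?_) ((div_le_iff₀' (Real.exp_pos lam)).2 h1)
    field_simp
  have hp1 : Real.exp (-((8 - κ) ^ 2 / (16 * κ) * lam)) ≤ 1 :=
    Real.exp_le_one_iff.2 (neg_nonpos.2 (mul_nonneg (by positivity) (by linarith)))
  have hth : 0 < Real.exp ((1 - 2 * g) * lam) := Real.exp_pos _
  rw [← hK] at e3
  obtain ⟨A, hA⟩ : ∃ A, A = Real.exp (κ / 8 * l0) := ⟨_, rfl⟩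
  obtain ⟨E, hE⟩ : ∃ E, E = Real.exp l0 := ⟨_, rfl⟩
  obtain ⟨p, hp⟩ : ∃ p, p = Real.exp (-((8 - κ) ^ 2 / (16 * κ) * lam)) := ⟨_, rfl⟩
  have A0 : 0 < A := hA ▸ Real.exp_pos _
  have E0 : 0 < E := hE ▸ Real.exp_pos _
  have p0 : 0 < p := hp ▸ Real.exp_pos _
  rw [← hA, ← hE, ← hp] at e1 e3 ⊢
  rw [← hA, ← hp] at e2
  rw [← hE] at hq
  rw [← hp] at hp1
  obtain ⟨x, β, hx, hβ, h1, h2⟩ := ls_num (M := 4 + 4 * κ * C9) hκ hC (by linarith) (by linarith)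
    hr0 hs0 A0 E0 p0 hp1
  obtain ⟨c, hc⟩ := hQ.ne
  have hy := ymin_pos d0 le
  have hL : Real.log (C7 * r) ≤ 0 := Real.log_nonpos (by positivity) hr
  have hQ' : ∀ u ∈ Q, 1 ≤ u.im ∧ u.im ≤ 2 := fun u hu => (hQ.lat u hu).2
  have ht' := fun σ hσ => ls_ev.1 (ht d0 le hd hle Q hQ' (l0 - lam) lam σ _ _ c (by linarith) hl2 hσ
    (by positivity) (by positivity) hq (hQ' c hc).1 (hQ' c hc).2 _ (ymin d0 le / 12) T hL
    (by positivity))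
  filter_upwards [ls_ev.1 (hm d0 le hd hle Q hQ' (l0 - lam) lam c (by linarith) (hQ' c hc).1
    (hQ' c hc).2 _ (ymin d0 le / 12) β T hL (by positivity) hβ), ht' 1 (Or.inl rfl),
    ht' (-1) (Or.inr rfl), Ioc_mem_nhdsGT (half_pos hy)] with η hη hη1 hη2 hη' N hN
  obtain ⟨Φ, a1, a2, a3, a4, a5⟩ := hη N hN
  obtain ⟨Φ1, b1, b2, b3, b4, b5⟩ := hη1 N hN
  obtain ⟨Φ2, c1', c2, c3, c4, c5⟩ := hη2 N hN
  obtain ⟨z, hz⟩ : ∃ z, z = Real.exp (-(4 * C1 * (r ^ 2 / E ^ 2))) := ⟨_, rfl⟩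
  have z0 : 0 < z := hz ▸ Real.exp_pos _
  have hcard := hQ.card
  refine ⟨fun ξ => Φ ξ + K * z * (Φ1 ξ + Φ2 ξ), a1.add ((b1.add c1').const_mul _),
    fun ξ => add_nonneg (a2 ξ) (mul_nonneg (by positivity) (add_nonneg (b2 ξ) (c2 ξ))),
    a3.add ((b3.add c3).const_mul _), ?_, fun ξ hG => ?_⟩
  · have i1 : Integrable (fun ξ => Φ1 ξ + Φ2 ξ) (GG κ η) := b3.add c3
    beta_reduce
    rw [integral_add a3 (i1.const_mul _), integral_const_mul, integral_add b3 c3]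
    have d1 : z * Real.exp (C1 * (s ^ 2 / E ^ 2) * Q.card) ≤ 1 := by
      rw [hz, ← Real.exp_add, Real.exp_le_one_iff]
      have := mul_le_mul_of_nonneg_left hcard (show 0 ≤ C1 / E ^ 2 by positivity)
      linear_combination this
    have d2 := mul_le_mul_of_nonneg_left (add_le_add b4 c4) (show 0 ≤ K * z by positivity)
    have d3 := mul_le_mul_of_nonneg_left d1
      (show 0 ≤ 2 * K * C8' * Real.exp ((1 - κ / 8) * Real.log (C7 * r)) by positivity)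
    linear_combination a4 + d2 + d3
  · have hn : ∀ n < N, (n : ℝ) * η ^ 2 ≤ T := fun n hn =>
      le_trans (mul_le_mul_of_nonneg_right (Nat.cast_le.2 hn.le) (sq_nonneg η)) hN
    have gt : Gt d0 le (η ^ 2) (l0 - lam) Q c (Real.log (C7 * r)) (ymin d0 le / 12) ξ N :=
      fun n h u hu hl => hG.1 n (hn n h) r u c hr0 (hQ' u hu).1 (hQ' u hu).2 (hQ' c hc).1
        ((Complex.norm_le_abs_re_add_abs_im _).trans (by
          rw [Complex.sub_re, Complex.sub_im]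
          linarith [hQ.box u hu c hc])) hl.1 (hl.2.2.trans (by linarith))
    have car := fun n h => And.intro (hG.2.1 n (hn n h)).1
      ((hG.2.1 n (hn n h)).2 s (l0 - lam) Q hs0 hs hQ.lat)
    have hδ1 : 4 * (η ^ 2 / ymin d0 le ^ 2) ≤ 1 := kl_eta hη'
    have d0' := mul_le_mul_of_nonneg_left
      (aa_le hκ4 hκ8 hχ hd (sq_nonneg η) hδ1 hle (l0 - lam) lam Q hQ' ξ N) (sq_nonneg s)
    have d1 := mul_le_mul hcard e1 (Real.exp_pos _).le (by positivity)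
    have d2 := mul_le_mul_of_nonneg_left (hG.2.2 N hN s (l0 - lam) lam Q hs0 hs hQ.lat) (sq_nonneg s)
    have d3 := mul_le_mul_of_nonneg_left hcard (show 0 ≤ C9 * (A ^ 2 * p ^ 4) by positivity)
    rw [e2] at d2
    have d4 := mul_le_mul_of_nonneg_right
      (h2 (qt κ χ χ1 d0 le (η ^ 2) (l0 - lam) lam Q ξ N) (by linear_combination d2 + d3)) (a2 ξ)
    have d5 := mul_le_mul_of_nonneg_left ((le_max_left _ _).trans (a5 ξ gt x hx)) (sq_nonneg s)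
    have τ0 : 0 ≤ (4 * C1 + 2) * (r ^ 2 / E ^ 2) := by positivity
    have th0 : 0 < c1 * (s ^ 2 / E ^ 2) * Real.exp ((1 - 2 * g) * lam) := by positivity
    have d6 := b5 ξ gt car _ (div_nonneg τ0 th0.le)
    have d7 := c5 ξ gt car _ (div_nonneg τ0 th0.le)
    have ez : Real.exp (-((4 * C1 + 2) * (r ^ 2 / E ^ 2))) = z * Real.exp (-2 * (r ^ 2 / E ^ 2)) := by
      rw [hz, ← Real.exp_add]
      congr 1
      ring
    rw [mul_div_cancel₀ _ th0.ne', ez] at d6 d7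
    have d8 := kl_cost th0 (by positivity) e3 τ0 (mul_nonneg (by positivity) (b2 ξ)) d6
    have d9 := kl_cost th0 (by positivity) e3 τ0 (mul_nonneg (by positivity) (c2 ξ)) d7
    have ee : A * E * (r ^ 2 / E ^ 2) = r ^ 2 * A / E := by field_simp
    beta_reduce
    linear_combination d0' + 3 * d1 + d4 + d5 + d8 + d9 + h1.le +
      2 * K * (4 * C1 + 2) * p * ee

end Vale.Agent.P164
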