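import Vale.Agent.P164.KDef

namespace Vale.Agent.P164

open Set

variable {x0 e0 C0 : ℝ} {χ χ1 χ2 : ℝ → ℝ}

/-- squared distance to the conjugate point -/
noncomputable def klinkD (p n : St) : ℝ := (p.x - n.x) ^ 2 + (p.y + n.y) ^ 2

theorem klink_pos {p n : St} (hp : 0 < p.y) (hn : 0 < n.y) : 0 < klinkD p n := by
  unfold klinkD
  positivity

theorem klink_y {p : St} (hp : 0 < p.y) : Real.log p.y = lr p - uu p := by
  have h := congrArg Real.log (sn_eq hp)
  rw [sn, Real.log_exp, ← exp_lr hp, Real.log_div hp.ne' (Real.exp_pos _).ne', Real.log_exp] at h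
  linarith

theorem klink_four : Real.log 4 = 2 * Real.log 2 := by
  rw [show (4 : ℝ) = 2 ^ 2 by norm_num, Real.log_pow, Nat.cast_ofNat]

theorem klink_lq {p n : St} (hp : 0 < p.y) (hn : 0 < n.y) : lq p n =
    2 * Real.log 2 + Real.log p.y + Real.log n.y - Real.log (klinkD p n) := by
  rw [lq, Real.log_div (by positivity) (by positivity), Real.log_mul (by positivity) hn.ne',
    Real.log_mul (by norm_num) hp.ne', klink_four, klinkD]

theorem klink_log {a b c d : ℝ} (ha : 0 < a) (hb : 0 < b) (hc : 0 < c) (hd : 0 < d)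
    (h : a * b ≤ c * d) : Real.log a + Real.log b ≤ Real.log c + Real.log d := by
  rw [← Real.log_mul ha.ne' hb.ne', ← Real.log_mul hc.ne' hd.ne']
  exact Real.log_le_log (mul_pos ha hb) h

theorem klink_f1 {p n : St} (hp : 0 < p.y) (hn : 0 < n.y) :
    2 * Real.log p.y + 2 * lr n ≤ 2 * lr p + Real.log (klinkD p n) := by
  have h := klink_log (pow_pos hp 2) (rho2_pos hn) (rho2_pos hp) (klink_pos hp hn) (by
    unfold rho2 klinkD
    nlinarith [sq_nonneg (p.x * (p.x - n.x) + p.y ^ 2), mul_pos (pow_pos hp 3) hn,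
      mul_nonneg (sq_nonneg p.x) (mul_pos hp hn).le, mul_nonneg (sq_nonneg p.x) (sq_nonneg n.y)])
  rw [Real.log_pow, Nat.cast_ofNat] at h
  unfold lr
  linarith

theorem klink_f2 {p n : St} (hp : 0 < p.y) (hn : 0 < n.y) :
    p.y ^ 2 ≤ klinkD p n ∧ n.y ^ 2 ≤ klinkD p n ∧ 4 * (p.y * n.y) ≤ klinkD p n := by
  unfold klinkD
  refine ⟨?_, ?_, ?_⟩ <;>
    nlinarith [sq_nonneg (p.x - n.x), mul_pos hp hn, sq_nonneg (p.y - n.y)]

theorem klink_chi (hχ : Chi x0 e0 C0 χ χ1 χ2) {p n : St} (hp : 0 < p.y) (hn : 0 < n.y)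
    (h : rho2 p ≤ 4 * rho2 n) : χ (lr n - lr p) ≤ lr n - lr p + Real.log 2 := by
  have h1 := Real.log_le_log (rho2_pos hp) h
  rw [Real.log_mul (by norm_num) (rho2_pos hn).ne', klink_four] at h1
  refine (hχ.hi _).trans (max_le (by linarith [Real.log_two_gt_d9]) ?_)
  unfold lr
  linarith

theorem klink_b (hχ : Chi x0 e0 C0 χ χ1 χ2) {p n : St} (hp : 0 < p.y) (hn : 0 < n.y)
    (h : rho2 p ≤ 4 * rho2 n) : -uu p + lk χ p n ≤ -uu n + (5 + C0) := by
  rw [lk, klink_lq hp hn]
  linarith [klink_chi hχ hp hn h, klink_f1 hp hn, klink_y hp, klink_y hn, hχ.hC,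
    Real.log_two_lt_d9]

theorem klink_c (hχ : Chi x0 e0 C0 χ χ1 χ2) {p n : St} (hp : 0 < p.y) (hn : 0 < n.y)
    (h : rho2 p ≤ 4 * rho2 n) : lk χ p n ≤ 5 + C0 := by
  have h1 := Real.log_le_log (pow_pos hn 2) (klink_f2 hp hn).2.1
  rw [Real.log_pow, Nat.cast_ofNat] at h1
  rw [lk, klink_lq hp hn]
  linarith [klink_chi hχ hp hn h, klink_f1 hp hn, hχ.hC, Real.log_two_lt_d9]

theorem klink_d (hχ : Chi x0 e0 C0 χ χ1 χ2) {a p n : St} (ha : 0 < a.y) (hp : 0 < p.y)
    (hn : 0 < n.y) (h1 : rho2 a ≤ 4 * rho2 p) (h2 : rho2 p ≤ 4 * rho2 n) :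
    lk χ a p + lk χ p n ≤ lk χ a n + (5 + C0) := by
  have k1 : klinkD a n ≤ 2 * (klinkD a p + klinkD p n) := by
    unfold klinkD
    nlinarith [sq_nonneg (a.x - p.x - (p.x - n.x)), sq_nonneg (a.y - n.y), mul_pos ha hp,
      mul_pos hp hn, sq_nonneg p.y]
  have p1 := klink_pos ha hp
  have p2 := klink_pos hp hn
  have k2 := klink_log (pow_pos hp 2) (klink_pos ha hn) (mul_pos four_pos p1) p2 (by
    nlinarith [mul_le_mul_of_nonneg_left k1 (sq_nonneg p.y),
      mul_le_mul_of_nonneg_right (klink_f2 ha hp).2.1 p2.le,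
      mul_le_mul_of_nonneg_right (klink_f2 hp hn).1 p1.le])
  rw [Real.log_pow, Nat.cast_ofNat, Real.log_mul (by norm_num) p1.ne', klink_four] at k2
  rw [lk, lk, lk, klink_lq ha hp, klink_lq hp hn, klink_lq ha hn]
  linarith [klink_chi hχ ha hp h1, klink_chi hχ hp hn h2, hχ.lo (lr n - lr a), Real.log_two_lt_d9]

theorem klink_ln (hχ : Chi x0 e0 C0 χ χ1 χ2) {c2 : List St} {p : St} (t : List St) (a : St)
    (h : Up (a :: t ++ p :: c2)) : ln χ (a :: (t ++ p :: c2)) ≤ ln χ (a :: (t ++ c2)) + (5 + C0) := by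
  induction t generalizing a with
  | nil =>
    obtain ⟨h1, h2⟩ := h
    cases c2 with
    | nil =>
      simp only [List.cons_append, List.nil_append, List.pairwise_cons,
        List.forall_mem_cons] at h1 h2
      simp only [List.nil_append, ln]
      linarith [klink_c hχ h1.1 h1.2.1 h2.1.1]
    | cons n t =>
      simp only [List.cons_append, List.nil_append, List.pairwise_cons,
        List.forall_mem_cons] at h1 h2
      simp only [List.nil_append, ln]
      linarith [klink_d hχ h1.1 h1.2.1 h1.2.2.1 h2.1.1 h2.2.1.1]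
  | cons b t ih =>
    simp only [List.cons_append, ln]
    linarith [ih b ⟨fun q hq => h.1 q (List.mem_cons_of_mem _ hq), h.2.of_cons⟩]

/-- inserting a point in a chain -/
theorem cl_ins (hχ : Chi x0 e0 C0 χ χ1 χ2) {c1 c2 : List St} {p : St} (h : Up (c1 ++ p :: c2)) :
    cl χ (c1 ++ p :: c2) ≤ cl χ (c1 ++ c2) + (5 + C0) := by
  cases c1 with
  | nil =>
    cases c2 with
    | nil =>
      simp only [List.nil_append, cl, ln]
      linarith [uu_nonneg p, hχ.hC]
    | cons n t =>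
      obtain ⟨h1, h2⟩ := h
      simp only [List.nil_append, List.pairwise_cons, List.forall_mem_cons] at h1 h2
      simp only [List.nil_append, cl, ln]
      linarith [klink_b hχ h1.1 h1.2.1 h2.1.1]
  | cons a t =>
    simp only [List.cons_append, cl]
    linarith [klink_ln hχ t a h]

/-- adding a first point to a chain -/
theorem cl_cons (hχ : Chi x0 e0 C0 χ χ1 χ2) {c : List St} {p : St} (h : Up (p :: c)) :
    cl χ c - 2 * uu p - (5 + C0) ≤ cl χ (p :: c) := by
  cases c with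
  | nil =>
    simp only [cl, ln]
    linarith [uu_nonneg p, hχ.hC]
  | cons n t =>
    obtain ⟨h1, h2⟩ := h
    simp only [List.pairwise_cons, List.forall_mem_cons] at h1 h2
    have hp := h1.1
    have hn := h1.2.1
    have k1 := h2.1.1
    have k2 := klink_log (klink_pos hp hn) one_pos (show (0 : ℝ) < 2 ^ 4 by norm_num) (rho2_pos hn)
      (by
        unfold rho2 at k1
        unfold rho2 klinkD
        nlinarith [sq_nonneg (p.x + n.x), sq_nonneg (p.y - n.y), sq_nonneg n.x, sq_nonneg n.y])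
    rw [Real.log_one, Real.log_pow, Nat.cast_ofNat] at k2
    have k3 : Real.log (rho2 n) = 2 * lr n := by
      unfold lr
      ring
    simp only [cl, ln, lk]
    rw [klink_lq hp hn]
    linarith [klink_y hp, klink_y hn, hχ.lo (lr n - lr p), Real.log_two_lt_d9]

end Vale.Agent.P164
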