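import Vale.Agent.P164.KJet
import Vale.Agent.P164.KGate

namespace Vale.Agent.P164

open Set MeasureTheory

variable {κ x0 e0 C0 : ℝ} {χ χ1 χ2 : ℝ → ℝ}

open Classical in
noncomputable def kmA (κ : ℝ) (χ : ℝ → ℝ) (d0 le δ la lam B : ℝ) (Q : Finset ℂ) (P : ℂ → St)
    (ξ : ℝ) : ℝ :=
  ∑ u ∈ Q, if lv d0 le la (P u) then mt κ χ lam (eul δ (P u) ξ) - mt κ χ lam (P u) -
    B * (δ * (ct 1 lam (P u) + ct (-1) lam (P u))) else 0

open Classical in
noncomputable def kmN (κ : ℝ) (χ χ1 : ℝ → ℝ) (d0 le la lam : ℝ) (Q : Finset ℂ) (P : ℂ → St) : ℝ :=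
  ∑ u ∈ Q, if lv d0 le la (P u) then
    mt κ χ lam (P u) * cc χ1 (8 / κ - 1) lam (P u) * (P u).x / rho2 (P u) else 0

noncomputable def kmE (κ : ℝ) (χ χ1 : ℝ → ℝ) (d0 le δ la lam B : ℝ) (Q : Finset ℂ) (β : ℝ)
    (P : ℂ → St) (ξ : ℝ) : ℝ :=
  β * kmA κ χ d0 le δ la lam B Q P ξ - β ^ 2 * κ * (δ * kmN κ χ χ1 d0 le la lam Q P ^ 2) / 2

noncomputable def kmF (κ : ℝ) (χ χ1 : ℝ → ℝ) (d0 le δ la lam B : ℝ) (Q : Finset ℂ) (β : ℝ)
    (s : (ℂ → St) × ℝ) (ξ : ℝ) : (ℂ → St) × ℝ :=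
  (fun u => stp d0 le δ (s.1 u) ξ, s.2 + kmE κ χ χ1 d0 le δ la lam B Q β s.1 ξ)

section

variable {d0 le δ la lam B β : ℝ} {Q : Finset ℂ}

theorem km_mct (σ lam : ℝ) : Measurable (ct σ lam) :=
  Measurable.ite ((measurableSet_le measurable_const measurable_uu).inter
    (measurableSet_lt measurable_const (measurable_x.const_mul σ)))
    (measurable_sn.div measurable_rho2) measurable_const

theorem km_ct (σ lam : ℝ) (p : St) : 0 ≤ ct σ lam p ∧ ct σ lam p ≤ 1 / rho2 p := by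
  have h1 : sn p ≤ 1 := Real.exp_le_one_iff.2 (neg_nonpos.2 (uu_nonneg p))
  have h2 := rho2_nonneg p
  unfold ct
  split_ifs
  · exact ⟨div_nonneg (sn_pos p).le h2, div_le_div_of_nonneg_right h1 h2⟩
  · exact ⟨le_rfl, by positivity⟩

theorem km_mE (hχ : Chi x0 e0 C0 χ χ1 χ2) :
    Measurable fun z : (ℂ → St) × ℝ => kmE κ χ χ1 d0 le δ la lam B Q β z.1 z.2 := by
  have hu : ∀ u, Measurable fun z : (ℂ → St) × ℝ => z.1 u := fun u =>
    (measurable_pi_apply u).comp measurable_fst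
  have hm : Measurable (mt κ χ lam) := measurable_famc hχ.meas _ _ _
  have hc : Measurable (cc χ1 (8 / κ - 1) lam) :=
    ((hχ.meas1.comp (measurable_uu.sub_const lam)).const_mul _).const_add _
  have h1 : Measurable fun z : (ℂ → St) × ℝ => kmA κ χ d0 le δ la lam B Q z.1 z.2 :=
    Finset.measurable_sum _ fun u _ => Measurable.ite (hu u (measurableSet_lv d0 le la))
      (((hm.comp (measurable_eul' δ (hu u) measurable_snd)).sub (hm.comp (hu u))).sub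
        (((((km_mct 1 lam).comp (hu u)).add ((km_mct (-1) lam).comp (hu u))).const_mul
          δ).const_mul B)) measurable_const
  have h2 : Measurable fun z : (ℂ → St) × ℝ => kmN κ χ χ1 d0 le la lam Q z.1 :=
    Finset.measurable_sum _ fun u _ => Measurable.ite (hu u (measurableSet_lv d0 le la))
      ((((hm.comp (hu u)).mul (hc.comp (hu u))).mul (measurable_x.comp (hu u))).div
        (measurable_rho2.comp (hu u))) measurable_const
  exact (h1.const_mul β).sub ((((h2.pow_const 2).const_mul δ).const_mul _).div_const 2)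

theorem km_mF (hχ : Chi x0 e0 C0 χ χ1 χ2) :
    Measurable (Function.uncurry (kmF κ χ χ1 d0 le δ la lam B Q β)) := by
  have h0 : Measurable fun z : ((ℂ → St) × ℝ) × ℝ => (z.1.1, z.2) :=
    measurable_fst.fst.prodMk measurable_snd
  have h2 := (km_mE (κ := κ) (d0 := d0) (le := le) (δ := δ) (la := la) (lam := lam) (B := B)
    (β := β) (Q := Q) hχ).comp h0
  refine Measurable.prodMk (measurable_pi_lambda _ fun u => ?_) (measurable_fst.snd.add h2)
  have h1 : Measurable fun z : ((ℂ → St) × ℝ) × ℝ => (z.1.1 u, z.2) :=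
    ((measurable_pi_apply u).comp measurable_fst.fst).prodMk measurable_snd
  exact (measurable_stp d0 le δ).comp h1

theorem km_c (hκ4 : 4 < κ) (hκ8 : κ < 8) : 0 ≤ 8 / κ - 1 ∧ 8 / κ - 1 ≤ 1 := by
  have hκ : 0 < κ := by linarith
  rw [sub_nonneg, le_div_iff₀ hκ, sub_le_iff_le_add, div_le_iff₀ hκ]
  constructor <;> linarith

theorem km_drift (hκ4 : 4 < κ) (hκ8 : κ < 8) (hχ : Chi x0 e0 C0 χ χ1 χ2) (hlam : 0 < lam) {p : St}
    (hl : la - Real.log 2 < p.l) :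
    mt κ χ lam p * rc κ χ1 χ2 (κ / 8 - 1) (8 / κ - 1) lam p / rho2 p ≤
      8 * Real.exp ((κ / 8 - 1) * la + C0 + (2 - 8 / κ) * lam) * (ct 1 lam p + ct (-1) lam p) := by
  have h1 := rc_mt (lam := lam) hκ4 hκ8 hχ p
  have h2 : 0 < mt κ χ lam p := famc_pos _ _ _ _ _
  have h3 := rho2_nonneg p
  by_cases h : lam ≤ uu p
  · rw [if_pos h] at h1
    have hx : p.x ≠ 0 := fun h0 => by
      rw [uu, tau, h0] at h
      norm_num at h
      linarith
    have h4 : ct 1 lam p + ct (-1) lam p = sn p / rho2 p := by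
      unfold ct
      rcases lt_or_gt_of_ne hx with h5 | h5
      · rw [if_neg fun h6 => by linarith [h6.2], if_pos ⟨h, by linarith⟩, zero_add]
      · rw [if_pos ⟨h, by linarith⟩, if_neg fun h6 => by linarith [h6.2], add_zero]
    have h5 : mt κ χ lam p ≤ _ := famc_le hχ (km_c hκ4 hκ8).1 (km_c hκ4 hκ8).2 p
    have h6 : Real.exp ((κ / 8 - 1) * p.l + C0 + (1 - (8 / κ - 1)) * lam) ≤
        Real.exp (Real.log 2 + ((κ / 8 - 1) * la + C0 + (2 - 8 / κ) * lam)) := by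
      have := Real.log_pos one_lt_two
      exact Real.exp_le_exp.2 (by nlinarith)
    rw [Real.exp_add (Real.log 2), Real.exp_log two_pos] at h6
    rw [h4, ← mul_div_assoc]
    refine div_le_div_of_nonneg_right ?_ h3
    have h7 := mul_le_mul_of_nonneg_left h1 h2.le
    have h8 := mul_le_mul_of_nonneg_right h6 (sn_pos p).le
    linarith
  · rw [if_neg h] at h1
    exact (div_nonpos_of_nonpos_of_nonneg (mul_nonpos_of_nonneg_of_nonpos h2.le h1) h3).trans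
      (mul_nonneg (by positivity) (add_nonneg (km_ct _ _ p).1 (km_ct _ _ p).1))

theorem km_exp (hκ4 : 4 < κ) (hκ8 : κ < 8) (hχ : Chi x0 e0 C0 χ χ1 χ2) (hd : 0 < d0)
    (hlam : 0 < lam) (hβ : 0 < β)
    (hB : B = 8 * Real.exp ((κ / 8 - 1) * la + C0 + (2 - 8 / κ) * lam)) :
    Sup κ {P : ℂ → St | ∀ u ∈ Q, P u ∈ FI d0 le}
      (fun P η ξ => Real.exp (kmE κ χ χ1 d0 le (η ^ 2) la lam B Q β P ξ)) fun _ => 1 := by
  classical
  have hκ : 0 < κ := by linarith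
  obtain ⟨c0, c1⟩ := km_c hκ4 hκ8
  have ym := ymin_pos d0 le
  have hB0 : 0 ≤ B := by rw [hB]; positivity
  have h1 : Jt κ {P : ℂ → St | ∀ u ∈ Q, P u ∈ FI d0 le}
      (fun P η ξ => kmA κ χ d0 le (η ^ 2) la lam B Q P ξ) (fun _ => 0) (kmN κ χ χ1 d0 le la lam Q)
      fun P => ∑ u ∈ Q, if lv d0 le la (P u) then
        mt κ χ lam (P u) * rc κ χ1 χ2 (κ / 8 - 1) (8 / κ - 1) lam (P u) / rho2 (P u) -
          B * (ct 1 lam (P u) + ct (-1) lam (P u)) else 0 := by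
    refine (Jt.sum Q (g := fun _ _ => 0) fun u hu => ?_).congr
      (fun _ _ _ _ _ => rfl) (fun _ _ => by simp) (fun _ _ => rfl) fun _ _ => rfl
    have hb : ∀ σ, Bd {P : ℂ → St | ∀ u ∈ Q, P u ∈ FI d0 le} fun P => ct σ lam (P u) := fun σ =>
      ⟨(1 / ymin d0 le) ^ 2, fun P hP => (abs_of_nonneg (km_ct _ _ _).1).trans_le
        ((km_ct _ _ _).2.trans (fam_inv_rho2 ym (FI.ymin_le hd (hP u hu))))⟩
    have h2 := (((jt_famc (κ := κ) hχ ym (le - 1) (κ / 8 - 1) lam c0 c1).comap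
      (R' := {P : ℂ → St | ∀ u ∈ Q, P u ∈ FI d0 le}) (fun P => P u)
      fun P hP => FI.reg hd (hP u hu)).add
      (Jt.lin (g := fun P => -mt κ χ lam (P u))
        (jetBd_mul (lyap_bd_const _ (-B)) (jetBd_add (hb 1) (hb (-1)))))).smul
      (c := fun P => if lv d0 le la (P u) then 1 else 0)
      ⟨1, fun P _ => by beta_reduce; split_ifs <;> simp⟩
    refine h2.congr (fun P _ η _ ξ => ?_) (fun P _ => ?_) (fun P _ => ?_) fun P _ => ?_
    all_goals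
      unfold mt
      split_ifs <;> ring
  have h3 := Jt.comp (T3_exp 0) ((h1.smul (lyap_bd_const _ β)).add (Jt.lin (g := fun _ => 0)
    (jetBd_mul (lyap_bd_const _ (-(β ^ 2 * κ / 2))) (jetBd_mul h1.bd_n h1.bd_n))))
    fun _ _ => by simp
  refine (h3.congr (n' := _) (L' := fun P => β * ∑ u ∈ Q, if lv d0 le la (P u) then
        mt κ χ lam (P u) * rc κ χ1 χ2 (κ / 8 - 1) (8 / κ - 1) lam (P u) / rho2 (P u) -
          B * (ct 1 lam (P u) + ct (-1) lam (P u)) else 0) (fun P _ η _ ξ => ?_)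
    (fun _ _ => by simp) (fun _ _ => rfl) fun P _ => ?_).sup hκ
    (fun P _ η _ => ((km_mE hχ).comp (measurable_const.prodMk measurable_id)).exp) ?_
    fun P _ => mul_nonpos_of_nonneg_of_nonpos hβ.le (Finset.sum_nonpos fun u _ => ?_)
  · unfold kmE
    congr 1
    ring
  · simp only [mul_zero, add_zero, Real.exp_zero]
    ring
  · obtain ⟨C, hC⟩ := fam_bd ym (le - 1) (κ / 8 - 1) c0
    refine ⟨Real.exp (β * ∑ _u ∈ Q, |C|) + 1, fun P hP η hη ξ => ?_⟩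
    have h4 : kmA κ χ d0 le (η ^ 2) la lam B Q P ξ ≤ ∑ _u ∈ Q, |C| := by
      refine Finset.sum_le_sum fun u hu => ?_
      split_ifs
      · have a1 : mt κ χ lam (eul (η ^ 2) (P u) ξ) ≤ |C| := (famc_le_fam hχ c1 _).trans
          (((hC _ (FI.reg hd (hP u hu))).2 η hη ξ).trans (le_abs_self C))
        have a2 : 0 < mt κ χ lam (P u) := famc_pos _ _ _ _ _
        have a3 := mul_nonneg hB0 (mul_nonneg (sq_nonneg η)
          (add_nonneg (km_ct 1 lam (P u)).1 (km_ct (-1) lam (P u)).1))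
        linarith
      · exact abs_nonneg C
    have h5 : kmE κ χ χ1 d0 le (η ^ 2) la lam B Q β P ξ ≤ β * ∑ _u ∈ Q, |C| := by
      have := mul_le_mul_of_nonneg_left h4 hβ.le
      have h6 : 0 ≤ β ^ 2 * κ * (η ^ 2 * kmN κ χ χ1 d0 le la lam Q P ^ 2) / 2 := by positivity
      unfold kmE
      linarith
    have h6 := Real.exp_le_exp.2 h5
    have h7 := Real.exp_pos (kmE κ χ χ1 d0 le (η ^ 2) la lam B Q β P ξ)
    exact abs_le.2 ⟨by linarith, by linarith⟩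
  · split_ifs with h
    · rw [sub_nonpos, hB]
      exact km_drift hκ4 hκ8 hχ hlam h.2.1
    · exact le_rfl

theorem km_run (ξ : ℕ → ℝ) (n : ℕ) : run (kmF κ χ χ1 d0 le δ la lam B Q β) (ini, 0) ξ n =
    (fun u => frz d0 le δ u ξ n, ∑ k ∈ Finset.range n,
      kmE κ χ χ1 d0 le δ la lam B Q β (fun u => frz d0 le δ u ξ k) (ξ k)) := by
  induction n with
  | zero => rfl
  | succ n ih => rw [run_succ, ih, Finset.sum_range_succ]; rfl

theorem km_AT (ξ : ℕ → ℝ) (N : ℕ) : AT κ χ d0 le δ la lam Q ξ N -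
    B * (TT d0 le δ la 1 lam Q ξ N + TT d0 le δ la (-1) lam Q ξ N) =
    ∑ n ∈ Finset.range N, kmA κ χ d0 le δ la lam B Q (fun u => frz d0 le δ u ξ n) (ξ n) := by
  unfold AT TT cst kmA
  rw [← Finset.sum_add_distrib, Finset.mul_sum, ← Finset.sum_sub_distrib]
  refine Finset.sum_congr rfl fun n _ => ?_
  rw [Finset.mul_sum, Finset.mul_sum, ← Finset.sum_add_distrib, Finset.mul_sum,
    ← Finset.sum_sub_distrib]
  refine Finset.sum_congr rfl fun u _ => ?_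
  split_ifs with h
  · rw [ldef_pos h.1]
    ring
  · ring

theorem km_zero {P : ℂ → St} (h : ∀ u ∈ Q, ¬ lv d0 le la (P u)) (ξ : ℝ) :
    kmA κ χ d0 le δ la lam B Q P ξ = 0 ∧ kmE κ χ χ1 d0 le δ la lam B Q β P ξ = 0 := by
  have h1 : kmA κ χ d0 le δ la lam B Q P ξ = 0 := Finset.sum_eq_zero fun u hu => if_neg (h u hu)
  have h2 : kmN κ χ χ1 d0 le la lam Q P = 0 := Finset.sum_eq_zero fun u hu => if_neg (h u hu)
  refine ⟨h1, ?_⟩
  rw [kmE, h1, h2]
  ring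

end

/-- gated exponential supermartingale for the modified mass -/
theorem mass_tail (hκ4 : 4 < κ) (hκ8 : κ < 8) (hχ : Chi x0 e0 C0 χ χ1 χ2) : ∃ C8 : ℝ, 0 < C8 ∧
    ∀ d0 le : ℝ, 0 < d0 → le ≤ 0 → ∀ (Q : Finset ℂ), (∀ u ∈ Q, 1 ≤ u.im ∧ u.im ≤ 2) →
    ∀ (la lam : ℝ) (c : ℂ), 0 < lam → 1 ≤ c.im → c.im ≤ 2 →
    ∀ L yc β T : ℝ, L ≤ 0 → 0 < yc → 0 < β → ∃ η0 : ℝ, 0 < η0 ∧ ∀ η : ℝ, 0 < η → η ≤ η0 →
    ∀ N : ℕ, N * η ^ 2 ≤ T → ∃ Φ : (ℕ → ℝ) → ℝ, Measurable Φ ∧ (∀ ξ, 0 ≤ Φ ξ) ∧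
      Integrable Φ (GG κ η) ∧ ∫ ξ, Φ ξ ∂GG κ η ≤ C8 * Real.exp ((1 - κ / 8) * L) ∧
      ∀ ξ, Gt d0 le (η ^ 2) la Q c L yc ξ N → ∀ x : ℝ, 0 ≤ x →
        max (AT κ χ d0 le (η ^ 2) la lam Q ξ N -
          8 * Real.exp ((κ / 8 - 1) * la + C0 + (2 - 8 / κ) * lam) *
            (TT d0 le (η ^ 2) la 1 lam Q ξ N + TT d0 le (η ^ 2) la (-1) lam Q ξ N) - x) 0 ≤
          β⁻¹ * Real.exp (-(β * x) + β ^ 2 * κ * qt κ χ χ1 d0 le (η ^ 2) la lam Q ξ N / 2) *
            Φ ξ := by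
  have hκ : 0 < κ := by linarith
  obtain ⟨C8, hC8, hG⟩ := gated hκ hκ8
  refine ⟨C8, hC8, ?_⟩
  intro d0 le hd hle Q hQ la lam c hlam hc1 hc2 L yc β T hL hy hβ
  generalize hB : 8 * Real.exp ((κ / 8 - 1) * la + C0 + (2 - 8 / κ) * lam) = B
  obtain ⟨C1, c1, E3⟩ := km_exp (le := le) (Q := Q) hκ4 hκ8 hχ hd hlam hβ hB.symm
  obtain ⟨η1, h1, h1', hG⟩ := hG c hc1 hc2 L yc T C1 hL hy c1
  have ym := ymin_pos d0 le
  refine ⟨min η1 (ymin d0 le / 2), by positivity, fun η hη hη' N hN => ?_⟩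
  obtain ⟨e1, e2⟩ := le_min_iff.1 hη'
  have mu : ∀ u, Measurable fun s : (ℂ → St) × ℝ => s.1 u := fun u =>
    (measurable_pi_apply u).comp measurable_fst
  obtain ⟨Φ, m1, m2, m3, m4, m5⟩ := hG η hη e1 N hN ((ℂ → St) × ℝ)
    (kmF κ χ χ1 d0 le (η ^ 2) la lam B Q β) {s | ∀ u ∈ Q, s.1 u ∈ FI d0 le}
    (⋂ u ∈ Q, {s | lv d0 le la (s.1 u)}ᶜ) (fun s => Real.exp s.2) (ini, 0) (km_mF hχ)
    measurable_snd.exp
    (Q.measurableSet_biInter fun u _ => (mu u (measurableSet_lv d0 le la)).compl)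
    (fun u hu => ini_FI hle (hQ u hu).1 (hQ u hu).2)
    (fun s hs ξ u hu => stp_FI hd (sq_nonneg η) (tl_mesh hη e2) _ (hs u hu) ξ)
    (fun s _ => (Real.exp_pos _).le)
    (fun s hs => by
      obtain ⟨i1, i2⟩ := E3 s.1 hs η ⟨hη, e1.trans h1'⟩
      simp only [kmF, Real.exp_add]
      refine ⟨i1.const_mul _, ?_⟩
      rw [integral_const_mul, mul_comm]
      exact mul_le_mul_of_nonneg_right i2 (Real.exp_pos _).le)
    (fun s _ hs ξ => by
      simp only [kmF, (km_zero (fun u hu => mem_iInter₂.1 hs u hu) ξ).2, add_zero, le_refl])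
  refine ⟨Φ, m1, m2, m3, by simpa using m4, fun ξ hξ x hx0 => ?_⟩
  rw [km_AT]
  rcases m5 ξ (fun n hn h => by
    rw [km_run, mem_iInter₂] at h
    obtain ⟨u, hu⟩ := not_forall.1 h
    obtain ⟨h2, h3⟩ := not_forall.1 hu
    exact hξ n hn u h2 (not_not.1 h3)) with h | h
  · rw [Finset.sum_eq_zero fun k hk => (km_zero (χ1 := χ1) (β := β) (fun u hu => by
      have h2 := h k (Finset.mem_range.1 hk)
      rw [km_run] at h2
      exact mem_iInter₂.1 h2 u hu) _).1, max_eq_right (by linarith)]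
    exact mul_nonneg (by positivity) (m2 ξ)
  · have k1 : ∑ k ∈ Finset.range N,
        kmE κ χ χ1 d0 le (η ^ 2) la lam B Q β (fun u => frz d0 le (η ^ 2) u ξ k) (ξ k) =
        β * ∑ k ∈ Finset.range N,
          kmA κ χ d0 le (η ^ 2) la lam B Q (fun u => frz d0 le (η ^ 2) u ξ k) (ξ k) -
          β ^ 2 * κ * qt κ χ χ1 d0 le (η ^ 2) la lam Q ξ N / 2 := by
      rw [qt, Finset.mul_sum, Finset.mul_sum, Finset.sum_div, ← Finset.sum_sub_distrib]
      rfl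
    simp only [km_run, k1] at h
    refine le_trans ?_ (mul_le_mul_of_nonneg_left h (by positivity))
    rw [mul_assoc, ← Real.exp_add]
    refine max_le ?_ (by positivity)
    rw [le_inv_mul_iff₀ hβ]
    refine le_trans ?_ (Real.add_one_le_exp _)
    linarith

end Vale.Agent.P164
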