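import Vale.Agent.P164.KDef

namespace Vale.Agent.P164

open Set

section

variable {α : Type} [MeasurableSpace α]

theorem km_lk {χ : ℝ → ℝ} (hχ : Measurable χ) {p p' : α → St} (hp : Measurable p)
    (hp' : Measurable p') : Measurable fun a => lk χ (p a) (p' a) := by
  unfold lk lq
  fun_prop

theorem km_ln {χ : ℝ → ℝ} (hχ : Measurable χ) {P : α → ℂ → St}
    (hP : ∀ u, Measurable fun a => P a u) (c : List ℂ) :
    ∀ u, Measurable fun a => ln χ ((u :: c).map (P a)) := by
  induction c with
  | nil => exact fun u => measurable_const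
  | cons v c ih => exact fun u => (km_lk hχ (hP u) (hP v)).add (ih v)

theorem km_lv (d0 le la : ℝ) {p : α → St} (hp : Measurable p) :
    MeasurableSet {a | lv d0 le la (p a)} := hp (measurableSet_lv d0 le la)

theorem km_all {ι : Type} (Q : Finset ι) {p : ι → α → Prop}
    (h : ∀ i, MeasurableSet {a | p i a}) : MeasurableSet {a | ∀ i ∈ Q, p i a} := by
  have e : {a | ∀ i ∈ Q, p i a} = ⋂ i ∈ Q, {a | p i a} := by
    ext a
    simp
  rw [e]
  exact Q.measurableSet_biInter fun i _ => h i

theorem km_allL {ι : Type} (c : List ι) {p : ι → α → Prop}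
    (h : ∀ i, MeasurableSet {a | p i a}) : MeasurableSet {a | ∀ i ∈ c, p i a} := by
  induction c with
  | nil => simp
  | cons u c ih =>
    simp only [List.forall_mem_cons]
    exact (h u).inter ih

theorem km_pair {ι : Type} (c : List ι) {r : α → ι → ι → Prop}
    (h : ∀ i j, MeasurableSet {a | r a i j}) : MeasurableSet {a | c.Pairwise (r a)} := by
  induction c with
  | nil => simp
  | cons u c ih =>
    simp only [List.pairwise_cons]
    exact (km_allL c (h u)).inter ih

theorem km_rel {m : α → ℂ → ℝ} (hm : ∀ u, Measurable fun a => m a u) (u v : ℂ) :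
    MeasurableSet {a | rel (m a) u v} :=
  (measurableSet_lt (hm u) (hm v)).union
    ((measurableSet_eq_fun (hm u) (hm v)).inter (MeasurableSet.const _))

theorem km_imp {p q : α → Prop} (hp : MeasurableSet {a | p a}) (hq : MeasurableSet {a | q a}) :
    MeasurableSet {a | p a → q a} := by
  simp only [imp_iff_not_or]
  exact hp.compl.union hq

theorem km_car (d0 le la Kc : ℝ) (Q : Finset ℂ) {P : α → ℂ → St}
    (hP : ∀ u, Measurable fun a => P a u) : MeasurableSet {a | Car d0 le la Kc Q (P a)} := by
  have hr : ∀ u, Measurable fun a => rho2 (P a u) := fun u => measurable_rho2.comp (hP u)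
  refine km_all Q fun v => km_imp (km_lv d0 le la (hP v)) (measurableSet_le ?_ ?_)
  · refine Finset.measurable_sum _ fun u _ => Measurable.ite ((km_lv d0 le la (hP u)).inter
      (measurableSet_le (hr v) ((hr u).const_mul 4))) ?_ measurable_const
    exact (measurable_y.comp (hP u)).div (hr u)
  · exact measurable_const.div (hr v).sqrt

theorem kmeas_ct (σ lam : ℝ) : Measurable (ct σ lam) :=
  Measurable.ite ((measurableSet_le measurable_const measurable_uu).inter
    (measurableSet_lt measurable_const (measurable_x.const_mul σ)))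
    (measurable_sn.div measurable_rho2) measurable_const

theorem km_cst (d0 le la σ lam : ℝ) (Q : Finset ℂ) {P : α → ℂ → St}
    (hP : ∀ u, Measurable fun a => P a u) : Measurable fun a => cst d0 le la σ lam Q (P a) :=
  Finset.measurable_sum _ fun u _ => Measurable.ite (km_lv d0 le la (hP u))
    ((kmeas_ct σ lam).comp (hP u)) measurable_const

theorem km_mk (A : Pm) {p : α → St} {m : α → ℝ} (hp : Measurable p) (hm : Measurable m) :
    MeasurableSet {a | A.Mk (p a) (m a)} :=
  (km_lv A.d0 A.le A.la hp).inter ((measurableSet_le measurable_const (measurable_uu.comp hp)).inter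
    ((measurableSet_lt measurable_const ((measurable_x.comp hp).const_mul A.σ)).inter
      (measurableSet_le (hm.sub ((measurable_x.comp hp).const_mul A.σ)).abs
        (measurable_y.comp hp))))

theorem km_upd (A : Pm) (δ : ℝ) {p : α → St} {m ξ : α → ℝ} (hp : Measurable p) (hm : Measurable m)
    (hξ : Measurable ξ) : Measurable fun a => A.upd δ (p a) (m a) (ξ a) := by
  have hs : Measurable fun a => stp A.d0 A.le δ (p a) (ξ a) :=
    (measurable_stp A.d0 A.le δ).comp (hp.prodMk hξ)
  have hv : Measurable fun a => A.mv δ (m a) (ξ a) := by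
    unfold Pm.mv
    fun_prop
  have h0 : MeasurableSet {a | 0 < m a} := measurableSet_lt measurable_const hm
  have hx := (measurable_x.comp hs).const_mul A.σ
  have hu := measurable_uu.comp hs
  exact Measurable.ite (h0.inter (km_mk A hs hv)) hv (Measurable.ite
    ((km_lv A.d0 A.le A.la hs).inter ((measurableSet_lt measurable_const hx).inter
      ((measurableSet_le measurable_const hu).union
        (h0.inter (measurableSet_le measurable_const hu))))) hx measurable_const)

theorem km_ee {A : Pm} (hA : A.Ok) {p : α → St} {m : α → ℝ} (hp : Measurable p)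
    (hm : Measurable m) : Measurable fun a => A.ee (p a) (m a) := by
  have hw : Measurable fun a => A.ww (p a) :=
    ((measurable_famc hA.chi.meas 0 A.h A.lam).comp hp).const_mul _
  exact Measurable.ite (measurableSet_lt measurable_const hm)
    (hw.add ((hm.sub ((measurable_x.comp hp).const_mul A.σ)).abs.div (measurable_y.comp hp)))
    (Measurable.ite ((hp (measurableSet_actv A.d0 A.le)).inter
      (measurableSet_lt measurable_const (measurable_l.comp hp))) measurable_const measurable_const)

end

theorem measurable_cl {α : Type} [MeasurableSpace α] {χ : ℝ → ℝ} (hχ : Measurable χ) {P : α → ℂ → St}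
    (hP : ∀ u, Measurable fun a => P a u) (c : List ℂ) :
    Measurable fun a => cl χ (c.map (P a)) := by
  cases c with
  | nil => exact measurable_const
  | cons u c => exact (measurable_uu.comp (hP u)).neg.add (km_ln hχ hP c u)

namespace Pm

variable {A : Pm}

theorem measurable_kst (hA : A.Ok) (δ : ℝ) : Measurable (Function.uncurry (A.kst δ)) := by
  have hP : ∀ u, Measurable fun z : ((ℂ → St) × (ℂ → ℝ) × ℝ) × ℝ => z.1.1 u := fun u =>
    (measurable_pi_apply u).comp measurable_fst.fst
  have hm : ∀ u, Measurable fun z : ((ℂ → St) × (ℂ → ℝ) × ℝ) × ℝ => z.1.2.1 u := fun u =>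
    (measurable_pi_apply u).comp measurable_fst.snd.fst
  refine Measurable.prodMk (measurable_pi_lambda _ fun u => ?_)
    (Measurable.prodMk (measurable_pi_lambda _ fun u => ?_) ?_)
  · exact (measurable_stp A.d0 A.le δ).comp ((hP u).prodMk measurable_snd)
  · exact km_upd A δ (hP u) (hm u) measurable_snd
  · exact Measurable.ite ((km_car A.d0 A.le A.la A.Kc A.Q hP).inter
      (measurableSet_le measurable_snd.abs measurable_const))
      (measurable_fst.snd.snd.mul
        (((km_cst A.d0 A.le A.la A.σ A.lam A.Q hP).const_mul δ).const_mul A.θ).exp)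
      measurable_const

theorem measurable_VV (hA : A.Ok) : Measurable A.VV := by
  have hP : ∀ u, Measurable fun z : (ℂ → St) × (ℂ → ℝ) × ℝ => z.1 u := fun u =>
    (measurable_pi_apply u).comp measurable_fst
  have hm : ∀ u, Measurable fun z : (ℂ → St) × (ℂ → ℝ) × ℝ => z.2.1 u := fun u =>
    (measurable_pi_apply u).comp measurable_snd.fst
  refine measurable_snd.snd.mul (Measurable.mul ?_ ?_)
  · refine Finset.measurable_sum _ fun c _ => Measurable.ite
      ((km_allL c fun u => measurableSet_lt measurable_const (hm u)).inter
        (km_pair c (km_rel hm))) ?_ measurable_const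
    exact ((measurable_cl hA.chi.meas hP c).const_mul A.g).exp.const_mul _
  · exact ((Finset.measurable_sum _ fun u _ => km_ee hA (hP u) (hm u)).const_mul _).exp

end Pm

end Vale.Agent.P164
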