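import Vale.Agent.P164.KProc
import Vale.Agent.P164.KLink
import Vale.Agent.P164.KComb2

namespace Vale.Agent.P164

open Set

namespace Pm

variable {A : Pm}

open Classical in
/-- running cost of an enrolled point -/
noncomputable def ac (A : Pm) (p : St) : ℝ :=
  ((if A.lam ≤ uu p then 5 * A.q' * A.Wd + A.θ else 0) + 12 * A.q') * (sn p / rho2 p)

theorem pos_KPay (hA : A.Ok) : 0 < A.q' ∧ 0 < A.Wd ∧ 0 < A.Bq ∧ 0 < A.θ ∧ A.g ≤ 1 / 2 := by
  have h1 := hA.q0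
  have h2 := hA.g0
  have h3 : 0 < 8 - A.κ := by linarith [hA.k8]
  have h4 : 0 < A.Bq := by
    unfold Bq
    positivity
  refine ⟨?_, Real.exp_pos _, h4, ?_, by linarith [hA.g1, hA.k4]⟩
  · unfold q'
    positivity
  · unfold θ
    positivity

open Classical in
theorem coef_KPay (hA : A.Ok) {t : ℝ} (ht : A.ep ≤ t) :
    ((if A.lam ≤ t then 5 * A.q' * A.Wd + A.θ else 0) + 12 * A.q') * Real.exp (-t) ≤
      A.Bq * Real.exp (-(2 * A.g * t)) := by
  obtain ⟨a1, a2, a3, a4, a5⟩ := pos_KPay hA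
  have e : Real.exp (-t) = Real.exp (-((1 - 2 * A.g) * t)) * Real.exp (-(2 * A.g * t)) := by
    rw [← Real.exp_add]
    congr 1
    ring
  rw [e, ← mul_assoc]
  refine mul_le_mul_of_nonneg_right ?_ (Real.exp_pos _).le
  have mono : ∀ x, x ≤ t → Real.exp (-((1 - 2 * A.g) * t)) ≤ Real.exp (-((1 - 2 * A.g) * x)) :=
    fun x hx => Real.exp_le_exp.2 (neg_le_neg (mul_le_mul_of_nonneg_left hx (by linarith)))
  have b1 : 12 * A.q' * Real.exp (-((1 - 2 * A.g) * t)) ≤ A.Bq / 3 :=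
    (mul_le_mul_of_nonneg_left (mono _ ht) (by positivity)).trans hA.n5
  split_ifs with h
  · have b2 : 5 * A.q' * A.Wd * Real.exp (-((1 - 2 * A.g) * t)) ≤ A.Bq / 3 :=
      (mul_le_mul_of_nonneg_left (mono _ h) (by positivity)).trans hA.n3
    have b3 : A.θ * Real.exp (-((1 - 2 * A.g) * t)) ≤ A.Bq / 3 := by
      refine (mul_le_mul_of_nonneg_left (mono _ h) a4.le).trans_eq ?_
      rw [θ, mul_assoc, ← Real.exp_add, add_neg_cancel, Real.exp_zero, mul_one]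
    linarith
  · linarith

theorem ac_nonneg_KPay (hA : A.Ok) {p : St} (hy : 0 < p.y) : 0 ≤ A.ac p := by
  obtain ⟨a1, a2, a3, a4, a5⟩ := pos_KPay hA
  have h1 := sn_pos p
  have h2 := rho2_pos hy
  unfold ac
  split_ifs <;> positivity

theorem wt_KPay (hA : A.Ok) {P : ℂ → St} {i : ℂ} {c : List ℂ} (h : Up ((i :: c).map P)) :
    A.q * Real.exp (-(5 + A.C0)) * Real.exp (-(2 * A.g * uu (P i))) * A.wt P c ≤
      A.wt P (i :: c) := by
  obtain ⟨-, -, -, -, a5⟩ := pos_KPay hA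
  have h1 := cl_cons hA.chi (c := c.map P) (p := P i) h
  have h2 := mul_le_mul_of_nonneg_left h1 hA.g0.le
  have h3 : A.g * (5 + A.C0) ≤ 1 * (5 + A.C0) :=
    mul_le_mul_of_nonneg_right (by linarith) (by linarith [hA.chi.hC])
  have h4 : Real.exp (-(5 + A.C0)) * Real.exp (-(2 * A.g * uu (P i))) *
      Real.exp (A.g * cl A.χ (c.map P)) ≤ Real.exp (A.g * cl A.χ (P i :: c.map P)) := by
    rw [← Real.exp_add, ← Real.exp_add, Real.exp_le_exp]
    linarith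
  have h5 : 0 ≤ A.q ^ c.length * A.q := by
    have := hA.q0
    positivity
  have h6 := mul_le_mul_of_nonneg_left h4 h5
  simp only [wt, List.length_cons, List.map_cons, pow_succ]
  linarith

theorem hb_KPay (hA : A.Ok) {P : ℂ → St} {i : ℂ} {c : List ℂ} (h : Up ((i :: c).map P))
    (hy : 0 < (P i).y) (he : A.ep ≤ uu (P i)) :
    A.ac (P i) * A.wt P c ≤ A.g * (8 - A.κ) / 4 / rho2 (P i) / 2 * A.wt P (i :: c) := by
  have h1 := wt_KPay hA h
  have h2 := coef_KPay hA he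
  have h3 := rho2_pos hy
  have h4 := (wt_pos hA P c).le
  have h5 : 0 ≤ A.g * (8 - A.κ) / 4 / rho2 (P i) / 2 := by
    have := hA.g0
    have : 0 < 8 - A.κ := by linarith [hA.k8]
    positivity
  refine le_trans ?_ (mul_le_mul_of_nonneg_left h1 h5)
  rw [← mul_assoc]
  refine mul_le_mul_of_nonneg_right ?_ h4
  have e : A.g * (8 - A.κ) / 4 / rho2 (P i) / 2 *
      (A.q * Real.exp (-(5 + A.C0)) * Real.exp (-(2 * A.g * uu (P i)))) =
      A.Bq * Real.exp (-(2 * A.g * uu (P i))) / rho2 (P i) := by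
    unfold Bq
    ring
  rw [e, ac, ← mul_div_assoc]
  exact div_le_div_of_nonneg_right h2 h3.le

theorem ac_le_KPay (hA : A.Ok) {p p' : St} (hy : 0 < p.y) (hy' : 0 < p'.y)
    (h : rho2 p' ≤ 4 * rho2 p) :
    A.ac p ≤ (5 * A.q' * A.Wd + A.θ + 12 * A.q') * (2 / √(rho2 p')) * (p.y / rho2 p) := by
  obtain ⟨a1, a2, a3, a4, a5⟩ := pos_KPay hA
  have h1 := rho2_pos hy
  have h2 := Real.sqrt_pos.2 h1
  have h3 := Real.sqrt_pos.2 (rho2_pos hy')
  have h4 : √(rho2 p') ≤ 2 * √(rho2 p) := by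
    refine Real.sqrt_le_iff.2 ⟨by positivity, ?_⟩
    rw [mul_pow, Real.sq_sqrt h1.le]
    linarith
  have h5 : sn p / rho2 p ≤ 2 / √(rho2 p') * (p.y / rho2 p) := by
    rw [sn_eq hy, ← mul_div_assoc]
    refine div_le_div_of_nonneg_right ?_ h1.le
    rw [div_mul_eq_mul_div, div_le_div_iff₀ h2 h3]
    nlinarith
  rw [ac, mul_assoc _ (2 / √(rho2 p'))]
  refine mul_le_mul ?_ h5 (div_pos (sn_pos p) h1).le (by positivity)
  split_ifs
  · exact le_rfl
  · have : 0 < 5 * A.q' * A.Wd := by positivity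
    linarith

open Classical in
theorem hc_KPay (hA : A.Ok) {s : (ℂ → St) × (ℂ → ℝ) × ℝ} (hs : s ∈ A.Inv)
    (hc : Car A.d0 A.le A.la A.Kc A.Q s.1) (l : ℂ) (hl : l ∈ A.Q) (h0 : 0 < s.2.1 l) :
    (∑ i ∈ A.Q, if 0 < s.2.1 i ∧ ¬ rel s.2.1 i l then A.ac (s.1 i) else 0) ≤
      A.g * (8 - A.κ) / 4 / rho2 (s.1 l) / 2 := by
  obtain ⟨a1, a2, a3, a4, a5⟩ := pos_KPay hA
  have hy := (hs.2 l hl).1.1
  have hM := (hs.2 l hl).2.1 h0
  have h1 := rho2_pos hy
  have h2 := Real.sqrt_pos.2 h1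
  have h3 := hc l hl hM.1
  have hC : 0 ≤ (5 * A.q' * A.Wd + A.θ + 12 * A.q') * (2 / √(rho2 (s.1 l))) := by positivity
  refine le_trans ?_ ((mul_le_mul_of_nonneg_left h3 hC).trans ?_)
  · rw [Finset.mul_sum]
    refine Finset.sum_le_sum fun i hi => ?_
    have hyi := (hs.2 i hi).1.1
    have hri := rho2_pos hyi
    by_cases h : 0 < s.2.1 i ∧ ¬ rel s.2.1 i l
    · have hMi := (hs.2 i hi).2.1 h.1
      have h4 := Mk.rho hA hy hyi hM hMi (not_lt.1 fun h' => h.2 (Or.inl h'))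
      rw [if_pos h, if_pos ⟨hMi.1, h4⟩]
      exact ac_le_KPay hA hyi hy h4
    · rw [if_neg h]
      refine mul_nonneg hC ?_
      split_ifs <;> positivity
  · have e : (5 * A.q' * A.Wd + A.θ + 12 * A.q') * (2 / √(rho2 (s.1 l))) *
        (A.Kc / √(rho2 (s.1 l))) =
        (5 * A.q' * A.Wd + A.θ + 12 * A.q') * (2 * A.Kc) / rho2 (s.1 l) := by
      rw [mul_assoc, div_mul_div_comm, Real.mul_self_sqrt h1.le, mul_div_assoc _ (2 * A.Kc)]
    have e2 : A.g * (8 - A.κ) / 4 / rho2 (s.1 l) / 2 = A.g * (8 - A.κ) / 8 / rho2 (s.1 l) := by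
      ring
    rw [e, e2]
    exact div_le_div_of_nonneg_right hA.n6 h1.le

open Classical in
/-- the running costs are paid by the chains -/
theorem pay (hA : A.Ok) {s : (ℂ → St) × (ℂ → ℝ) × ℝ} (hs : s ∈ A.Inv)
    (hc : Car A.d0 A.le A.la A.Kc A.Q s.1) :
    (∑ u ∈ A.Q, if 0 < s.2.1 u then A.ac (s.1 u) else 0) *
      US A.Q (rel s.2.1) (fun u => 0 < s.2.1 u) (A.wt s.1) ≤
    US A.Q (rel s.2.1) (fun u => 0 < s.2.1 u) fun c =>
      hdv (fun u => A.g * (8 - A.κ) / 4 / rho2 (s.1 u)) c * A.wt s.1 c := by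
  refine US_pay (rel_sto s.2.1) (fun c => (wt_pos hA s.1 c).le)
    (fun u hu _ => ac_nonneg_KPay hA (hs.2 u hu).1.1) (fun u hu _ => ?_)
    (fun i c h1 h2 => ?_) (fun l hl h0 => hc_KPay hA hs hc l hl h0)
  · have := hA.g0
    have : 0 < 8 - A.κ := by linarith [hA.k8]
    have := rho2_pos (hs.2 u hu).1.1
    positivity
  · have h3 := h1 i List.mem_cons_self
    exact hb_KPay hA (up_of hA hs h1 h2) (hs.2 i h3.1).1.1 ((hs.2 i h3.1).2.1 h3.2).2.1

end Pm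

end Vale.Agent.P164
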