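import Vale.Agent.P164.KComb

namespace Vale.Agent.P164

open Set

namespace Pm

variable {A : Pm} {δ : ℝ}

theorem Ok.ep_le (hA : A.Ok) : 0 < A.h ∧ A.h ≤ 1 / 2 ∧ A.ep ≤ A.lam := by
  have h4 := hA.k4
  have h1 : 1 < 8 / A.κ := by rw [lt_div_iff₀ (by linarith)]; linarith [hA.k8]
  have h2 : 8 / A.κ ≤ 2 := by rw [div_le_iff₀ (by linarith)]; linarith
  have h3 : 0 < A.h := by unfold h; linarith
  refine ⟨h3, by unfold h; linarith, ?_⟩
  by_contra h0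
  linarith [hA.n1, mul_nonneg h3.le (sub_nonneg.2 (not_le.1 h0).le)]

theorem sq_sg_KProc (hA : A.Ok) : A.σ ^ 2 = 1 := by
  rcases hA.sg with h | h <;> rw [h] <;> norm_num

theorem Mk.bd (hA : A.Ok) {p : St} {m : ℝ} (hy : 0 < p.y) (h : A.Mk p m) :
    3 * p.y ≤ A.σ * p.x ∧ 2 * √(rho2 p) ≤ 3 * m ∧ 3 * m ≤ 4 * √(rho2 p) := by
  obtain ⟨-, h1, h2, h3⟩ := h
  have hr : 0 < √(rho2 p) := Real.sqrt_pos.2 (rho2_pos hy)
  have e7 : 7 ≤ Real.exp 2 := by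
    rw [show (2 : ℝ) = 1 + 1 by norm_num, Real.exp_add]
    nlinarith [Real.exp_one_gt_d9]
  have h4 : sn p ≤ 1 / 7 := by
    refine (Real.exp_le_exp.2 (neg_le_neg (hA.hp.trans h1))).trans ?_
    rw [Real.exp_neg, one_div]
    exact inv_anti₀ (by norm_num) e7
  rw [sn_eq hy, div_le_iff₀ hr] at h4
  have h5 : √(rho2 p) ^ 2 = (A.σ * p.x) ^ 2 + p.y ^ 2 := by
    rw [Real.sq_sqrt (rho2_nonneg p), mul_pow, sq_sg_KProc hA, one_mul, rho2]
  generalize √(rho2 p) = r at *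
  generalize A.σ * p.x = X at *
  have h6 : X ≤ r := by nlinarith
  have h7 : r ≤ X + p.y := by nlinarith [mul_pos h2 hy]
  obtain ⟨h8, h9⟩ := abs_le.1 h3
  exact ⟨by linarith, by linarith, by linarith⟩

theorem Mk.rho (hA : A.Ok) {p p' : St} {m m' : ℝ} (hy : 0 < p.y) (hy' : 0 < p'.y) (h : A.Mk p m)
    (h' : A.Mk p' m') (hm : m ≤ m') : rho2 p ≤ 4 * rho2 p' := by
  have h1 := (h.bd hA hy).2.1
  have h2 := (h'.bd hA hy').2.2
  rw [← Real.sq_sqrt (rho2_nonneg p), ← Real.sq_sqrt (rho2_nonneg p')]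
  have := pow_le_pow_left₀ (Real.sqrt_nonneg _) (show √(rho2 p) ≤ 2 * √(rho2 p') by linarith) 2
  linarith

theorem up_of (hA : A.Ok) {s : (ℂ → St) × (ℂ → ℝ) × ℝ} (hs : s ∈ A.Inv) {c : List ℂ}
    (h1 : ∀ u ∈ c, u ∈ A.Q ∧ 0 < s.2.1 u) (h2 : c.Pairwise (rel s.2.1)) : Up (c.map s.1) := by
  refine ⟨fun p hp => ?_, List.pairwise_map.2 (h2.imp_of_mem fun {u v} hu hv huv => ?_)⟩
  · obtain ⟨u, hu, rfl⟩ := List.mem_map.1 hp
    exact (hs.2 u (h1 u hu).1).1.1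
  · have a := hs.2 u (h1 u hu).1
    have b := hs.2 v (h1 v hv).1
    exact (a.2.1 (h1 u hu).2).rho hA a.1.1 b.1.1 (b.2.1 (h1 v hv).2)
      (huv.elim le_of_lt fun h => h.1.le)

theorem mv_lt (hδ : 0 ≤ δ) {m m' : ℝ} (h0 : 0 < m) (h0' : 0 < m') (hm : 2 * δ < m * m') (ξ : ℝ) :
    A.mv δ m ξ < A.mv δ m' ξ ↔ m < m' := by
  have e : A.mv δ m' ξ - A.mv δ m ξ = (m' - m) * ((m * m' - 2 * δ) / (m * m')) := by
    unfold mv
    field_simp
    ring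
  rw [← sub_pos, e, mul_pos_iff_of_pos_right (div_pos (sub_pos.2 hm) (mul_pos h0 h0')), sub_pos]

/-- rotation of the marker in one step -/
theorem mv_rot (hA : A.Ok) (hδ : 0 ≤ δ) {p : St} {m : ℝ} (hy : 0 < p.y)
    (hδ1 : 4 * (δ / p.y ^ 2) ≤ 1) (h : A.Mk p m) (ξ : ℝ) :
    |A.mv δ m ξ - A.σ * (eul δ p ξ).x| / (eul δ p ξ).y ≤
      |m - A.σ * p.x| / p.y + 12 * δ * (sn p / rho2 p) := by
  obtain ⟨-, b1, -⟩ := h.bd hA hy
  have h3 := h.2.2.2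
  have hR := rho2_pos hy
  have hr : 0 < √(rho2 p) := Real.sqrt_pos.2 hR
  have hm : 0 < m := by linarith
  have h5 : rho2 p = (A.σ * p.x) ^ 2 + p.y ^ 2 := by rw [mul_pow, sq_sg_KProc hA, one_mul, rho2]
  obtain ⟨t, ht⟩ : ∃ t, t = 2 * δ / rho2 p := ⟨_, rfl⟩
  have t0 : 0 ≤ t := by rw [ht]; positivity
  have t1 : t ≤ 1 / 2 := by
    have : δ / rho2 p ≤ δ / p.y ^ 2 := div_le_div_of_nonneg_left hδ (by positivity) (sq_y_le p)
    rw [ht, mul_div_assoc]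
    linarith
  have e : A.mv δ m ξ - A.σ * (eul δ p ξ).x =
      (m - A.σ * p.x) * (1 - t) + t * (p.y ^ 2 + (m - A.σ * p.x) ^ 2) / m := by
    have : 2 * δ / m = t * ((A.σ * p.x) ^ 2 + p.y ^ 2) / m := by
      rw [← h5, ht, div_mul_cancel₀ _ hR.ne']
    rw [mv, eul_x, this, mul_div_right_comm (2 * δ), ← ht]
    field_simp
    ring
  have e2 : 12 * δ * (sn p / rho2 p) = 6 * t * p.y / √(rho2 p) := by
    rw [sn_eq hy, ht]
    field_simp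
    ring
  have hE := Real.add_one_le_exp (-t)
  rw [e, e2, eul_y, ← ht, div_le_iff₀ (by positivity)]
  generalize Real.exp (-t) = E at *
  generalize m - A.σ * p.x = D at *
  generalize √(rho2 p) = r at *
  have a1 : |D * (1 - t)| ≤ |D| * E := by
    rw [abs_mul, abs_of_nonneg (show 0 ≤ 1 - t by linarith)]
    exact mul_le_mul_of_nonneg_left (by linarith) (abs_nonneg _)
  have a2 : D ^ 2 ≤ p.y ^ 2 := by
    rw [← sq_abs]
    exact pow_le_pow_left₀ (abs_nonneg _) h3 2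
  have a3 : t * (p.y ^ 2 + D ^ 2) / m ≤ 3 * t * p.y ^ 2 / r := by
    rw [div_le_div_iff₀ hm hr]
    have c1 : t * (p.y ^ 2 + D ^ 2) * r ≤ t * (2 * p.y ^ 2) * r :=
      mul_le_mul_of_nonneg_right (mul_le_mul_of_nonneg_left (by linarith) t0) hr.le
    have c2 := mul_le_mul_of_nonneg_left b1 (show 0 ≤ t * p.y ^ 2 by positivity)
    linarith
  have a4 : 3 * t * p.y ^ 2 / r ≤ 6 * t * p.y / r * (p.y * E) := by
    have := mul_le_mul_of_nonneg_left (show 1 ≤ 2 * E by linarith)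
      (show 0 ≤ 3 * t * p.y ^ 2 / r by positivity)
    calc _ = 3 * t * p.y ^ 2 / r * 1 := (mul_one _).symm
      _ ≤ _ := this
      _ = _ := by ring
  have a5 : |D| / p.y * (p.y * E) = |D| * E := by field_simp
  refine (abs_add_le _ _).trans ?_
  rw [abs_of_nonneg (show 0 ≤ t * (p.y ^ 2 + D ^ 2) / m by positivity), add_mul, a5]
  linarith

theorem kst_inv (hA : A.Ok) (hδ : 0 ≤ δ) (hδ1 : 4 * (δ / ymin A.d0 A.le ^ 2) ≤ 1) :
    ∀ s ∈ A.Inv, ∀ ξ, A.kst δ s ξ ∈ A.Inv := by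
  intro s hs ξ
  refine ⟨?_, fun u hu => ?_⟩
  · unfold kst
    dsimp only
    split_ifs
    · exact mul_nonneg hs.1 (Real.exp_pos _).le
    · exact le_rfl
  have hF := stp_FI hA.hd hδ hδ1 _ (hs.2 u hu).1 ξ
  refine ⟨hF, ?_⟩
  show (0 < A.upd δ (s.1 u) (s.2.1 u) ξ →
    A.Mk (stp A.d0 A.le δ (s.1 u) ξ) (A.upd δ (s.1 u) (s.2.1 u) ξ)) ∧
    (A.lv (stp A.d0 A.le δ (s.1 u) ξ) → 0 < A.σ * (stp A.d0 A.le δ (s.1 u) ξ).x →
      A.lam ≤ uu (stp A.d0 A.le δ (s.1 u) ξ) → 0 < A.upd δ (s.1 u) (s.2.1 u) ξ)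
  unfold upd
  split_ifs with h1 h2
  · refine ⟨fun _ => h1.2, fun _ _ _ => ?_⟩
    linarith [(h1.2.bd hA hF.1).2.1, Real.sqrt_pos.2 (rho2_pos hF.1)]
  · refine ⟨fun _ => ⟨h2.1, h2.2.2.elim (fun h => hA.ep_le.2.2.trans h) fun h => h.2, h2.2.1, ?_⟩,
      fun _ _ _ => h2.2.1⟩
    rw [sub_self, abs_zero]
    exact hF.1.le
  · exact ⟨fun h => absurd h (lt_irrefl _), fun a b c => absurd ⟨a, b, Or.inl c⟩ h2⟩

theorem wt_pos (hA : A.Ok) (P : ℂ → St) (c : List ℂ) : 0 < A.wt P c := by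
  exact mul_pos (pow_pos hA.q0 _) (Real.exp_pos _)

theorem ee_nonneg {p : St} (hy : 0 < p.y) (m : ℝ) : 0 ≤ A.ee p m := by
  unfold ee
  split_ifs
  · exact add_nonneg (mul_pos (Real.exp_pos _) (famc_pos _ _ _ _ _)).le (by positivity)
  · exact zero_le_one
  · exact le_rfl

theorem VV_ge (hA : A.Ok) {s : (ℂ → St) × (ℂ → ℝ) × ℝ} (hs : s ∈ A.Inv) : s.2.2 ≤ A.VV s := by
  have h1 := US_ge (Q := A.Q) (r := rel s.2.1) (A := fun u => 0 < s.2.1 u)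
    fun c => (wt_pos hA s.1 c).le
  rw [show A.wt s.1 [] = 1 by simp [wt, cl]] at h1
  have h2 : 0 ≤ A.q' := by
    have := hA.q0
    unfold q'
    positivity
  exact le_mul_of_one_le_right hs.1 (one_le_mul_of_one_le_of_one_le h1 (Real.one_le_exp
    (mul_nonneg h2 (Finset.sum_nonneg fun u hu => ee_nonneg (hs.2 u hu).1.1 _))))

end Pm

end Vale.Agent.P164
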