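import Vale.Agent.P164.KProc
import Vale.Agent.P164.KJet

namespace Vale.Agent.P164

open Set

theorem kw_schur {α : Type} (T : Finset α) (a r : α → ℝ) (ha : ∀ i ∈ T, 0 ≤ a i) :
    (∑ i ∈ T, a i) ^ 2 ≤ 2 * ∑ l ∈ T, a l * ∑ i ∈ T, if r l ≤ r i then a i else 0 := by
  have e : ∑ l ∈ T, a l * ∑ i ∈ T, (if r l ≤ r i then a i else 0) =
      ∑ l ∈ T, ∑ i ∈ T, a i * (if r i ≤ r l then a l else 0) := by
    simp only [Finset.mul_sum]
    exact Finset.sum_comm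
  rw [two_mul]
  nth_rewrite 1 [e]
  rw [sq, Finset.sum_mul_sum, ← Finset.sum_add_distrib]
  refine Finset.sum_le_sum fun l hl => ?_
  rw [Finset.mul_sum, ← Finset.sum_add_distrib]
  refine Finset.sum_le_sum fun i hi => ?_
  have := mul_nonneg (ha l hl) (ha i hi)
  split_ifs with h1 h2 h2
  · linarith
  · linarith
  · linarith
  · exact absurd (le_of_not_ge h1) h2

namespace Pm

variable {A : Pm}

theorem kw_ww (hA : A.Ok) (p : St) : 0 < A.ww p ∧ A.ww p ≤ A.Wd * sn p := by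
  obtain ⟨h0, h1, -⟩ := hA.ep_le
  refine ⟨mul_pos (Real.exp_pos _) (famc_pos _ _ _ _ _), ?_⟩
  have := famc_le (a := 0) (lam := A.lam) hA.chi h0.le (by linarith) p
  rw [ww, Wd, add_assoc, Real.exp_add, mul_assoc]
  rw [zero_mul, zero_add] at this
  exact mul_le_mul_of_nonneg_left this (Real.exp_pos _).le

theorem kw_cc (hA : A.Ok) (p : St) :
    0 ≤ cc A.χ1 A.h A.lam p ∧ cc A.χ1 A.h A.lam p ≤ 1 := by
  obtain ⟨h0, h1, -⟩ := hA.ep_le
  have := cc_mem (lam := A.lam) hA.chi (show A.h ≤ 1 by linarith) p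
  exact ⟨h0.le.trans this.1, this.2⟩

theorem kw_q (hA : A.Ok) : 0 < A.q' := by
  have := hA.q0
  unfold q'
  positivity

theorem kw_rc (hA : A.Ok) (p : St) :
    rc A.κ A.χ1 A.χ2 0 A.h A.lam p + A.κ * ((8 - A.κ) / 32) * cc A.χ1 A.h A.lam p ≤
      if A.lam ≤ uu p then 5 else 0 := by
  obtain ⟨h0, h1, -⟩ := hA.ep_le
  have h2 := rc_zero (lam := A.lam) hA.k4 hA.chi h0.le (by linarith) p
  obtain ⟨h3, h4⟩ := kw_cc hA p
  have k4 := hA.k4
  have k8 := hA.k8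
  have h5 : A.κ * ((8 - A.κ) / 32) ≤ (8 - A.κ) / 4 := by nlinarith
  have h6 := mul_le_mul_of_nonneg_right h5 h3
  split_ifs with h
  · nlinarith [mul_le_mul_of_nonneg_left h4 h3, mul_nonneg h3 h3]
  · have e : A.κ * A.h = (8 - A.κ) / 2 := by
      unfold Pm.h
      field_simp
    rw [cc_eq hA.chi (le_of_not_ge h)] at h2 h6 ⊢
    rw [e] at h2
    linarith

open Classical in
theorem kw_n (hA : A.Ok) {s : (ℂ → St) × (ℂ → ℝ) × ℝ} (hs : s ∈ A.Inv)
    (hc : Car A.d0 A.le A.la A.Kc A.Q s.1) :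
    (∑ u ∈ A.Q with 0 < s.2.1 u, A.q' * A.ww (s.1 u) * cc A.χ1 A.h A.lam (s.1 u) * (s.1 u).x /
      rho2 (s.1 u)) ^ 2 ≤ ∑ u ∈ A.Q with 0 < s.2.1 u,
        (8 - A.κ) / 32 * (A.q' * A.ww (s.1 u) * cc A.χ1 A.h A.lam (s.1 u) / rho2 (s.1 u)) := by
  have hq := kw_q hA
  have hW : 0 < A.Wd := Real.exp_pos _
  have hT : ∀ u ∈ A.Q.filter fun u => 0 < s.2.1 u, u ∈ A.Q ∧ 0 < (s.1 u).y ∧ A.lv (s.1 u) :=
    fun u hu => by
      obtain ⟨a, b⟩ := Finset.mem_filter.1 hu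
      exact ⟨a, (hs.2 u a).1.1, ((hs.2 u a).2.1 b).1⟩
  have hz : ∀ u, 0 ≤ A.q' * A.ww (s.1 u) * cc A.χ1 A.h A.lam (s.1 u) := fun u =>
    mul_nonneg (mul_pos hq (kw_ww hA _).1).le (kw_cc hA _).1
  have hz' : ∀ u, A.q' * A.ww (s.1 u) * cc A.χ1 A.h A.lam (s.1 u) ≤ A.q' * A.Wd * sn (s.1 u) :=
    fun u => (mul_le_of_le_one_right (mul_pos hq (kw_ww hA _).1).le (kw_cc hA _).2).trans
      (by rw [mul_assoc]; exact mul_le_mul_of_nonneg_left (kw_ww hA _).2 hq.le)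
  generalize hZ : (fun u => A.q' * A.ww (s.1 u) * cc A.χ1 A.h A.lam (s.1 u)) = z
  simp only [congrFun hZ] at hz hz' ⊢
  have h1 : |∑ u ∈ A.Q with 0 < s.2.1 u, z u * (s.1 u).x / rho2 (s.1 u)| ≤
      ∑ u ∈ A.Q with 0 < s.2.1 u, z u / √(rho2 (s.1 u)) := by
    refine (Finset.abs_sum_le_sum_abs _ _).trans (Finset.sum_le_sum fun u hu => ?_)
    have hr := rho2_pos (hT u hu).2.1
    have hx : |(s.1 u).x| ≤ √(rho2 (s.1 u)) :=
      Real.abs_le_sqrt (by unfold rho2; nlinarith [sq_nonneg (s.1 u).y])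
    rw [abs_div, abs_mul, abs_of_nonneg (hz u), abs_of_pos hr, mul_div_assoc, div_eq_mul_one_div (z u),
      one_div, ← Real.sqrt_div_self]
    exact mul_le_mul_of_nonneg_left (div_le_div_of_nonneg_right hx hr.le) (hz u)
  rw [← sq_abs]
  refine (pow_le_pow_left₀ (abs_nonneg _) h1 2).trans ((kw_schur _ _ (fun u => rho2 (s.1 u))
    fun u _ => div_nonneg (hz u) (Real.sqrt_nonneg _)).trans ?_)
  rw [Finset.mul_sum]
  refine Finset.sum_le_sum fun v hv => ?_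
  obtain ⟨v1, v2, v3⟩ := hT v hv
  have hr := rho2_pos v2
  have h2 : (∑ u ∈ A.Q with 0 < s.2.1 u, if rho2 (s.1 v) ≤ rho2 (s.1 u) then
      z u / √(rho2 (s.1 u)) else 0) ≤ A.q' * A.Wd * (A.Kc / √(rho2 (s.1 v))) := by
    refine le_trans ?_ (mul_le_mul_of_nonneg_left (hc v v1 v3) (mul_pos hq hW).le)
    rw [Finset.mul_sum, Finset.sum_filter]
    refine Finset.sum_le_sum fun u hu => ?_
    have hy := (hs.2 u hu).1.1
    have hr' := rho2_pos hy
    have h0 : 0 ≤ A.q' * A.Wd * if P164.lv A.d0 A.le A.la (s.1 u) ∧ rho2 (s.1 v) ≤ 4 * rho2 (s.1 u)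
        then (s.1 u).y / rho2 (s.1 u) else 0 := by
      split_ifs <;> positivity
    by_cases a : 0 < s.2.1 u
    · by_cases b : rho2 (s.1 v) ≤ rho2 (s.1 u)
      · rw [if_pos a, if_pos b, if_pos ⟨((hs.2 u hu).2.1 a).1, by linarith⟩]
        refine (div_le_div_of_nonneg_right (hz' u) (Real.sqrt_nonneg _)).trans_eq ?_
        rw [sn_eq hy, mul_div_assoc, div_div, Real.mul_self_sqrt hr'.le]
      · rwa [if_pos a, if_neg b]
    · rwa [if_neg a]
  have h3 : 0 ≤ z v / rho2 (s.1 v) := div_nonneg (hz v) hr.le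
  calc _ ≤ 2 * (z v / √(rho2 (s.1 v)) * (A.q' * A.Wd * (A.Kc / √(rho2 (s.1 v))))) :=
        mul_le_mul_of_nonneg_left (mul_le_mul_of_nonneg_left h2
          (div_nonneg (hz v) (Real.sqrt_nonneg _))) two_pos.le
    _ = 2 * A.q' * A.Wd * A.Kc * (z v / (√(rho2 (s.1 v)) * √(rho2 (s.1 v)))) := by ring
    _ ≤ _ := by
        rw [Real.mul_self_sqrt hr.le]
        exact mul_le_mul_of_nonneg_right hA.n7 h3

open Classical in
/-- the additive part of the potential -/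
theorem jt_w (hA : A.Ok) : ∃ n L : (ℂ → St) × (ℂ → ℝ) × ℝ → ℝ,
    Jt A.κ {s | s ∈ A.Inv ∧ Car A.d0 A.le A.la A.Kc A.Q s.1}
      (fun s η ξ => A.q' * ∑ u ∈ A.Q, if 0 < s.2.1 u then
        A.ww (eul (η ^ 2) (s.1 u) ξ) - A.ww (s.1 u) else 0) (fun _ => 0) n L ∧
    ∀ s ∈ A.Inv, Car A.d0 A.le A.la A.Kc A.Q s.1 → L s + A.κ * n s ^ 2 ≤
      ∑ u ∈ A.Q, if 0 < s.2.1 u ∧ A.lam ≤ uu (s.1 u) then
        5 * A.q' * A.Wd * (sn (s.1 u) / rho2 (s.1 u)) else 0 := by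
  obtain ⟨h0, h1, -⟩ := hA.ep_le
  have hq := kw_q hA
  refine ⟨fun s => ∑ u ∈ A.Q, if 0 < s.2.1 u then
      A.q' * A.ww (s.1 u) * cc A.χ1 A.h A.lam (s.1 u) * (s.1 u).x / rho2 (s.1 u) else 0,
    fun s => ∑ u ∈ A.Q, if 0 < s.2.1 u then
      A.q' * A.ww (s.1 u) * rc A.κ A.χ1 A.χ2 0 A.h A.lam (s.1 u) / rho2 (s.1 u) else 0, ?_,
    fun s hs hc => ?_⟩
  · refine (Jt.sum A.Q (G := fun u s η ξ => A.q' * if 0 < s.2.1 u then
      A.ww (eul (η ^ 2) (s.1 u) ξ) - A.ww (s.1 u) else 0) (g := fun _ _ => 0)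
      fun u hu => ?_).congr (fun _ _ _ _ _ => Finset.mul_sum _ _ _) (fun _ _ => by simp)
      (fun _ _ => rfl) fun _ _ => rfl
    have h2 := (((jt_famc (κ := A.κ) hA.chi (ymin_pos A.d0 A.le) (A.le - 1) 0 A.lam h0.le
      (show A.h ≤ 1 by linarith)).comap
      (R' := {s | s ∈ A.Inv ∧ Car A.d0 A.le A.la A.Kc A.Q s.1}) (fun s => s.1 u)
      fun s hs => FI.reg hA.hd (hs.1.2 u hu).1).add
      (Jt.lin (g := fun s => -famc A.χ 0 A.h A.lam (s.1 u)) (lyap_bd_const _ 0))).smul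
      (c := fun s => if 0 < s.2.1 u then A.q' * Real.exp (A.h * A.ep) else 0)
      ⟨|A.q' * Real.exp (A.h * A.ep)|, fun P _ => by
        beta_reduce
        split_ifs
        · exact le_rfl
        · rw [abs_zero]
          exact abs_nonneg _⟩
    refine h2.congr (fun P _ η _ ξ => ?_) (fun P _ => ?_) (fun P _ => ?_) fun P _ => ?_
    · unfold ww
      split_ifs <;> ring
    · ring
    · unfold ww
      split_ifs <;> ring
    · unfold ww
      split_ifs <;> ring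
  · have h2 := mul_le_mul_of_nonneg_left (kw_n hA hs hc) (show 0 ≤ A.κ by linarith [hA.k4])
    simp only [Finset.sum_filter] at h2
    refine (add_le_add le_rfl h2).trans ?_
    rw [Finset.mul_sum, ← Finset.sum_add_distrib]
    refine Finset.sum_le_sum fun u hu => ?_
    have hr := rho2_pos (hs.2 u hu).1.1
    by_cases a : 0 < s.2.1 u
    · obtain ⟨w0, w1⟩ := kw_ww hA (s.1 u)
      have h3 := mul_le_mul_of_nonneg_left (kw_rc hA (s.1 u))
        (show 0 ≤ A.q' * A.ww (s.1 u) / rho2 (s.1 u) by positivity)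
      simp only [a, true_and, if_true]
      refine le_trans (le_of_eq (by ring)) (h3.trans ?_)
      split_ifs
      · have := div_le_div_of_nonneg_right (mul_le_mul_of_nonneg_left w1 hq.le) hr.le
        calc _ = 5 * (A.q' * A.ww (s.1 u) / rho2 (s.1 u)) := by ring
          _ ≤ 5 * (A.q' * (A.Wd * sn (s.1 u)) / rho2 (s.1 u)) := by linarith
          _ = _ := by ring
      · rw [mul_zero]
    · simp [a]

end Pm

end Vale.Agent.P164
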