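import Vale.Agent.P164.KUpd
import Vale.Agent.P164.KW
import Vale.Agent.P164.KChain
import Vale.Agent.P164.KPay
import Vale.Agent.P164.KMeas

namespace Vale.Agent.P164

open Set MeasureTheory

namespace Pm

variable {A : Pm}

open Classical in
/-- deterministic part of the exponent -/
noncomputable def zz_KStep (A : Pm) (s : (ℂ → St) × (ℂ → ℝ) × ℝ) : ℝ :=
  A.θ * cst A.d0 A.le A.la A.σ A.lam A.Q s.1 +
    A.q' * ∑ u ∈ A.Q, if 0 < s.2.1 u then 12 * (sn (s.1 u) / rho2 (s.1 u)) else 0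

open Classical in
/-- the exponent of one step along the chain `c` -/
noncomputable def dl_KStep (A : Pm) (c : List ℂ) (s : (ℂ → St) × (ℂ → ℝ) × ℝ) (η ξ : ℝ) : ℝ :=
  A.g * cl A.χ (c.map fun u => eul (η ^ 2) (s.1 u) ξ) +
    (-(A.g * cl A.χ (c.map s.1)) + A.zz_KStep s * η ^ 2) +
    A.q' * ∑ u ∈ A.Q, if 0 < s.2.1 u then A.ww (eul (η ^ 2) (s.1 u) ξ) - A.ww (s.1 u) else 0

theorem pos_KStep (hA : A.Ok) : 0 < A.q' ∧ 0 < A.θ := by
  have h1 := hA.q0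
  have h2 := hA.g0
  have h3 : 0 < 8 - A.κ := by linarith [hA.k8]
  unfold Pm.q' Pm.θ Pm.Bq
  constructor <;> positivity

theorem sn_KStep (hA : A.Ok) {p : St} (hp : p ∈ FI A.d0 A.le) :
    0 ≤ sn p / rho2 p ∧ sn p / rho2 p ≤ (1 / ymin A.d0 A.le) ^ 2 := by
  refine ⟨div_nonneg (sn_pos p).le (rho2_nonneg p), le_trans ?_
    (fam_inv_rho2 (ymin_pos _ _) (FI.ymin_le hA.hd hp))⟩
  exact div_le_div_of_nonneg_right (Real.exp_le_one_iff.2 (neg_nonpos.2 (uu_nonneg p)))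
    (rho2_nonneg p)

theorem zz_bd_KStep (hA : A.Ok) : Bd A.Inv A.zz_KStep := by
  classical
  obtain ⟨h1, h2⟩ := pos_KStep hA
  refine ⟨∑ _u ∈ A.Q, (A.θ + A.q' * 12) * (1 / ymin A.d0 A.le) ^ 2, fun s hs => ?_⟩
  rw [zz_KStep, cst, Finset.mul_sum, Finset.mul_sum, ← Finset.sum_add_distrib]
  refine (Finset.abs_sum_le_sum_abs _ _).trans (Finset.sum_le_sum fun u hu => ?_)
  obtain ⟨a, b⟩ := sn_KStep hA (hs.2 u hu).1
  have a1 := mul_nonneg h1.le a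
  have a2 := mul_nonneg h2.le a
  have b1 := mul_le_mul_of_nonneg_left b h1.le
  have b2 := mul_le_mul_of_nonneg_left b h2.le
  unfold ct
  split_ifs <;> exact abs_le.2 ⟨by linarith, by linarith⟩

open Classical in
theorem zz_le_KStep (hA : A.Ok) {s : (ℂ → St) × (ℂ → ℝ) × ℝ} (hs : s ∈ A.Inv) :
    (∑ u ∈ A.Q, if 0 < s.2.1 u ∧ A.lam ≤ uu (s.1 u) then
      5 * A.q' * A.Wd * (sn (s.1 u) / rho2 (s.1 u)) else 0) + A.zz_KStep s ≤
      ∑ u ∈ A.Q, if 0 < s.2.1 u then A.ac (s.1 u) else 0 := by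
  obtain ⟨h1, h2⟩ := pos_KStep hA
  rw [zz_KStep, cst, Finset.mul_sum, Finset.mul_sum, ← Finset.sum_add_distrib,
    ← Finset.sum_add_distrib]
  refine Finset.sum_le_sum fun u hu => ?_
  have a2 := mul_nonneg h2.le (sn_KStep hA (hs.2 u hu).1).1
  have h3 := (hs.2 u hu).2.2
  unfold ct ac
  by_cases c1 : 0 < s.2.1 u
  · by_cases c2 : A.lam ≤ uu (s.1 u)
    · simp only [c1, c2, and_self, if_true, true_and]
      split_ifs <;> linarith
    · simp only [c1, c2, and_false, if_true, if_false, false_and, ite_self]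
      linarith
  · simp only [c1, false_and, if_false]
    split_ifs with c2 c3
    · exact absurd (h3 c2 c3.2 c3.1) c1
    · simp
    · simp

open Classical in
theorem chain_KStep (hA : A.Ok) (c : List ℂ) : ∃ C : ℝ, 0 ≤ C ∧ ∀ s ∈ A.Inv,
    Car A.d0 A.le A.la A.Kc A.Q s.1 → (∀ u ∈ c, u ∈ A.Q ∧ 0 < s.2.1 u) →
    c.Pairwise (rel s.2.1) → ∀ η ∈ Ioc (0 : ℝ) 1,
    Integrable (fun ξ => if |ξ| ≤ 1 then Real.exp (A.dl_KStep c s η ξ) else 0) (gs A.κ η) ∧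
    ∫ ξ, (if |ξ| ≤ 1 then Real.exp (A.dl_KStep c s η ξ) else 0) ∂gs A.κ η ≤
      1 + ((∑ u ∈ A.Q, if 0 < s.2.1 u then A.ac (s.1 u) else 0) -
        hdv (fun u => A.g * (8 - A.κ) / 4 / rho2 (s.1 u)) c) * η ^ 2 + C * η ^ 3 := by
  have hκ : 0 < A.κ := by linarith [hA.k4]
  obtain ⟨n1, L1, J1, b1⟩ := jt_cl hA.k4 hA.k8 hA.chi hA.hx hA.he (ymin_pos A.d0 A.le) c
  obtain ⟨n2, L2, J2, b2⟩ := jt_w hA
  obtain ⟨Cz, hz⟩ := zz_bd_KStep hA
  set R : Set ((ℂ → St) × (ℂ → ℝ) × ℝ) := {s | (s ∈ A.Inv ∧ Car A.d0 A.le A.la A.Kc A.Q s.1) ∧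
    (∀ u ∈ c, u ∈ A.Q ∧ 0 < s.2.1 u) ∧ c.Pairwise (rel s.2.1)}
  have J3 := (((J1.comap (R' := R) (fun s => s.1) fun s hs u hu =>
    FI.ymin_le hA.hd (hs.1.1.2 u (hs.2.1 u hu).1).1).smul (jetBd_const A.g)).add
    (Jt.lin (g := fun s => -(A.g * cl A.χ (c.map s.1))) (d := A.zz_KStep)
      ⟨Cz, fun s hs => hz s hs.1.1⟩)).add (J2.comap (R' := R) (fun s => s) fun s hs => hs.1)
  have J4 : Jt A.κ R (A.dl_KStep c) (fun _ => 0) (fun s => A.g * n1 s.1 + n2 s)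
      (fun s => A.g * L1 s.1 + A.zz_KStep s + L2 s) :=
    J3.congr (fun _ _ _ _ _ => rfl) (fun _ _ => by ring) (fun _ _ => by ring) fun _ _ => rfl
  obtain ⟨C, hC, h⟩ := (J4.comp (T3_exp 0) fun _ _ => le_refl (0 : ℝ)).trunc hκ
    (fun s _ η _ => by
      have m1 := measurable_cl hA.chi.meas (P := fun (ξ : ℝ) u => eul (η ^ 2) (s.1 u) ξ)
        (fun u => by fun_prop) c
      have m2 := measurable_famc hA.chi.meas 0 A.h A.lam
      refine ((m1.const_mul _).add_const _ |>.add (Measurable.const_mul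
        (Finset.measurable_sum _ fun u _ => ?_) _)).exp
      split_ifs
      · exact ((m2.comp (by fun_prop)).const_mul _).sub_const _
      · exact measurable_const) fun _ _ => (Real.exp_pos _).le
  refine ⟨C, hC, fun s hs hc h1 h2 η hη => ?_⟩
  obtain ⟨i1, i2⟩ := h s ⟨⟨hs, hc⟩, h1, h2⟩ η hη
  refine ⟨i1, i2.trans ?_⟩
  simp only [Real.exp_zero, one_mul, mul_one]
  have e1 := b1 s.1 (up_of hA hs h1 h2) A.g hA.g0.le hA.g1
  have e2 := b2 s hs hc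
  have e3 := zz_le_KStep hA hs
  have e4 := mul_nonneg hκ.le (sq_nonneg (A.g * n1 s.1 - n2 s))
  gcongr
  linarith

open Classical in
theorem pt_KStep (hA : A.Ok) {η : ℝ} (hη : 4 * (η ^ 2 / ymin A.d0 A.le ^ 2) ≤ 1)
    {s : (ℂ → St) × (ℂ → ℝ) × ℝ} (hs : s ∈ A.Inv) (ξ : ℝ) :
    A.VV (A.kst (η ^ 2) s ξ) ≤ s.2.2 * Real.exp (A.q' * ∑ u ∈ A.Q, A.ee (s.1 u) (s.2.1 u)) *
      ∑ c ∈ LL A.Q, if (∀ u ∈ c, 0 < s.2.1 u) ∧ c.Pairwise (rel s.2.1) then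
        A.wt s.1 c * (if |ξ| ≤ 1 then Real.exp (A.dl_KStep c s η ξ) else 0) else 0 := by
  have k0 := hs.1
  by_cases h : Car A.d0 A.le A.la A.Kc A.Q s.1 ∧ |ξ| ≤ min 1 (ymin A.d0 A.le)
  swap
  · have e : (A.kst (η ^ 2) s ξ).2.2 = 0 := if_neg h
    rw [VV, e, zero_mul]
    refine mul_nonneg (by positivity) (Finset.sum_nonneg fun c _ => ?_)
    have := wt_pos hA s.1 c
    split_ifs <;> positivity
  have e : (A.kst (η ^ 2) s ξ).2.2 =
    s.2.2 * Real.exp (A.θ * (η ^ 2 * cst A.d0 A.le A.la A.σ A.lam A.Q s.1)) := if_pos h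
  rw [VV, e]
  refine (mul_le_mul_of_nonneg_left (upd_le hA (sq_nonneg η) hη hs (h.2.trans (min_le_right _ _)))
    (by positivity)).trans (le_of_eq ?_)
  rw [US, Finset.sum_mul (LL A.Q), Finset.mul_sum (LL A.Q), Finset.mul_sum (LL A.Q)]
  refine Finset.sum_congr rfl fun c _ => ?_
  rw [if_pos (h.2.trans (min_le_left _ _))]
  split_ifs
  swap
  · simp
  have e2 : ∑ u ∈ A.Q, (A.ee (s.1 u) (s.2.1 u) + if 0 < s.2.1 u then
      A.ww (eul (η ^ 2) (s.1 u) ξ) - A.ww (s.1 u) + 12 * η ^ 2 * (sn (s.1 u) / rho2 (s.1 u))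
      else 0) = ∑ u ∈ A.Q, A.ee (s.1 u) (s.2.1 u) +
      (∑ u ∈ A.Q, if 0 < s.2.1 u then A.ww (eul (η ^ 2) (s.1 u) ξ) - A.ww (s.1 u) else 0) +
      (∑ u ∈ A.Q, if 0 < s.2.1 u then 12 * (sn (s.1 u) / rho2 (s.1 u)) else 0) * η ^ 2 := by
    rw [Finset.sum_mul, ← Finset.sum_add_distrib, ← Finset.sum_add_distrib]
    refine Finset.sum_congr rfl fun u _ => ?_
    split_ifs <;> ring
  have e3 : ∀ k w a b c d e f : ℝ, a + b + c = d + e + f → k * Real.exp a *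
      (w * Real.exp b * Real.exp c) = k * Real.exp d * (w * Real.exp e * Real.exp f) := by
    intro k w a b c d e f h
    have := congrArg Real.exp h
    simp only [Real.exp_add] at this
    linear_combination k * w * this
  rw [e2, wt, wt]
  refine e3 _ _ _ _ _ _ _ _ ?_
  rw [dl_KStep, zz_KStep]
  ring

/-- the potential is a supermartingale -/
theorem step (hA : A.Ok) : ∃ C : ℝ, 0 ≤ C ∧ ∀ η ∈ Ioc (0 : ℝ) 1, η ≤ ymin A.d0 A.le / 2 →
    ∀ s ∈ A.Inv, Integrable (fun ξ => A.VV (A.kst (η ^ 2) s ξ)) (gs A.κ η) ∧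
      ∫ ξ, A.VV (A.kst (η ^ 2) s ξ) ∂gs A.κ η ≤ (1 + C * η ^ 3) * A.VV s := by
  classical
  choose Cc h0 hC using chain_KStep hA
  have C0 : 0 ≤ ∑ c ∈ LL A.Q, Cc c := Finset.sum_nonneg fun c _ => h0 c
  refine ⟨∑ c ∈ LL A.Q, Cc c, C0, fun η hη hy s hs => ?_⟩
  have η0 := hη.1
  have hδ := tl_mesh η0 hy
  have V0 : 0 ≤ A.VV s := hs.1.trans (VV_ge hA hs)
  by_cases hc : Car A.d0 A.le A.la A.Kc A.Q s.1
  swap
  · have e : ∀ ξ, A.VV (A.kst (η ^ 2) s ξ) = 0 := fun ξ => by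
      have e : (A.kst (η ^ 2) s ξ).2.2 = 0 := if_neg fun h => hc h.1
      rw [VV, e, zero_mul]
    simp only [e, integral_zero]
    exact ⟨integrable_zero _ _ _, by positivity⟩
  have hT : ∀ c ∈ LL A.Q, Integrable (fun ξ =>
      if (∀ u ∈ c, 0 < s.2.1 u) ∧ c.Pairwise (rel s.2.1) then
        A.wt s.1 c * (if |ξ| ≤ 1 then Real.exp (A.dl_KStep c s η ξ) else 0) else 0) (gs A.κ η) ∧
      ∫ ξ, (if (∀ u ∈ c, 0 < s.2.1 u) ∧ c.Pairwise (rel s.2.1) then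
        A.wt s.1 c * (if |ξ| ≤ 1 then Real.exp (A.dl_KStep c s η ξ) else 0) else 0) ∂gs A.κ η ≤
      (1 + (∑ c ∈ LL A.Q, Cc c) * η ^ 3 +
        (∑ u ∈ A.Q, if 0 < s.2.1 u then A.ac (s.1 u) else 0) * η ^ 2) *
        (if (∀ u ∈ c, 0 < s.2.1 u) ∧ c.Pairwise (rel s.2.1) then A.wt s.1 c else 0) - η ^ 2 *
        if (∀ u ∈ c, 0 < s.2.1 u) ∧ c.Pairwise (rel s.2.1) then
          hdv (fun u => A.g * (8 - A.κ) / 4 / rho2 (s.1 u)) c * A.wt s.1 c else 0 := by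
    intro c hcQ
    by_cases h : (∀ u ∈ c, 0 < s.2.1 u) ∧ c.Pairwise (rel s.2.1)
    · simp only [if_pos h]
      obtain ⟨i1, i2⟩ := hC c s hs hc (fun u hu => ⟨(mem_LL.1 hcQ).2 u hu, h.1 u hu⟩) h.2 η hη
      refine ⟨i1.const_mul _, ?_⟩
      have w0 := (wt_pos hA s.1 c).le
      have h1 : Cc c ≤ ∑ c ∈ LL A.Q, Cc c := Finset.single_le_sum (fun c _ => h0 c) hcQ
      have h2 := mul_le_mul_of_nonneg_left
        (mul_le_mul_of_nonneg_right h1 (pow_pos η0 3).le) w0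
      have h3 := mul_le_mul_of_nonneg_left i2 w0
      rw [integral_const_mul]
      linarith
    · simp only [if_neg h]
      simp
  have iB := (integrable_finsetSum _ fun c hc => (hT c hc).1).const_mul
    (s.2.2 * Real.exp (A.q' * ∑ u ∈ A.Q, A.ee (s.1 u) (s.2.1 u)))
  have iV : Integrable (fun ξ => A.VV (A.kst (η ^ 2) s ξ)) (gs A.κ η) := by
    refine iB.mono' ((measurable_VV hA).comp
      ((measurable_kst hA _).comp measurable_prodMk_left)).aestronglyMeasurable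
      (Filter.Eventually.of_forall fun ξ => ?_)
    have hi := kst_inv hA (sq_nonneg η) hδ s hs ξ
    rw [Real.norm_of_nonneg (hi.1.trans (VV_ge hA hi))]
    exact pt_KStep hA hδ hs ξ
  refine ⟨iV, (integral_mono iV iB (pt_KStep hA hδ hs)).trans ?_⟩
  rw [integral_const_mul, integral_finsetSum _ fun c hc => (hT c hc).1]
  have h1 := Finset.sum_le_sum fun c hc => (hT c hc).2
  rw [Finset.sum_sub_distrib, ← Finset.mul_sum, ← Finset.mul_sum] at h1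
  have h2 := mul_le_mul_of_nonneg_left (pay hA hs hc) (sq_nonneg η)
  have k0 : 0 ≤ s.2.2 * Real.exp (A.q' * ∑ u ∈ A.Q, A.ee (s.1 u) (s.2.1 u)) :=
    mul_nonneg hs.1 (Real.exp_pos _).le
  refine (mul_le_mul_of_nonneg_left (h1.trans (b := _) (c := (1 + (∑ c ∈ LL A.Q, Cc c) * η ^ 3) *
    US A.Q (rel s.2.1) (fun u => 0 < s.2.1 u) (A.wt s.1)) ?_) k0).trans (le_of_eq ?_)
  · unfold US at h2 ⊢
    linarith
  · rw [VV]
    ring

end Pm

end Vale.Agent.P164
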