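import Vale.Agent.P164.KProc
import Vale.Agent.P164.KJet
import Vale.Agent.P164.KLink

namespace Vale.Agent.P164

open Set

namespace Pm

variable {A : Pm} {δ : ℝ}

theorem alive_KUpd (hδ : 0 ≤ δ) {p : St} {ξ : ℝ} (h : A.alive (stp A.d0 A.le δ p ξ)) :
    A.alive p := by
  unfold stp at h
  split_ifs at h with h1
  · exact ⟨h1, h.2.trans_le (eul_l_le hδ p ξ)⟩
  · exact h

theorem ww_pos_KUpd (p : St) : 0 < A.ww p := mul_pos (Real.exp_pos _) (famc_pos _ _ _ _ _)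

open Classical in
theorem pt_KUpd (hA : A.Ok) (hδ : 0 ≤ δ) (hδ1 : 4 * (δ / ymin A.d0 A.le ^ 2) ≤ 1) {p : St} {m ξ : ℝ}
    (hp : p ∈ FI A.d0 A.le) (hm : 0 < m → A.Mk p m) (hξ : |ξ| ≤ ymin A.d0 A.le) :
    A.ee (stp A.d0 A.le δ p ξ) (A.upd δ p m ξ) + (if 0 < A.upd δ p m ξ ∧
      ¬ (0 < m ∧ A.Mk (stp A.d0 A.le δ p ξ) (A.mv δ m ξ)) then 1 else 0) / 2 ≤
    A.ee p m + if 0 < m then A.ww (eul δ p ξ) - A.ww p + 12 * δ * (sn p / rho2 p) else 0 := by
  obtain ⟨e1, e2, e3⟩ := hA.ep_le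
  have hy := hp.1
  have hym := FI.ymin_le hA.hd hp
  have h0 : 0 < ymin A.d0 A.le := Real.exp_pos _
  by_cases m0 : 0 < m
  · have hM := hm m0
    have hs : stp A.d0 A.le δ p ξ = eul δ p ξ := if_pos hM.1.1
    have hy' := eul_y_pos δ hy ξ
    have hr := mv_rot hA hδ hy (le_trans (by gcongr) hδ1) hM ξ
    have hD : 0 ≤ |A.mv δ m ξ - A.σ * (eul δ p ξ).x| / (eul δ p ξ).y := by positivity
    have hw := ww_pos_KUpd (A := A) (eul δ p ξ)
    rw [if_pos m0, ee, ee, if_pos m0, upd, hs]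
    by_cases k : 0 < m ∧ A.Mk (eul δ p ξ) (A.mv δ m ξ)
    · have b := (k.2.bd hA hy').2.1
      have b1 := Real.sqrt_pos.2 (rho2_pos hy')
      rw [if_pos k, if_pos (by linarith), if_neg fun h => h.2 k]
      linarith
    rw [if_neg k]
    split_ifs with c1 c2 c3 c4 c5 c6 c7 c8 c9
    · have c : A.ep ≤ uu (eul δ p ξ) := c1.2.2.elim e3.trans fun h => h.2
      have d : (eul δ p ξ).y < |A.mv δ m ξ - A.σ * (eul δ p ξ).x| :=
        not_le.1 fun h => k ⟨m0, c1.1, c, c1.2.1, h⟩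
      have d1 := (one_lt_div hy').2 d
      rw [sub_self, abs_zero, zero_div]
      linarith
    · exact absurd ⟨c2, k⟩ c3
    · exact absurd c1.2.1 c2
    · exact absurd c1.2.1 c2
    · exact absurd c1.2.1 c2
    · exact absurd c1.2.1 c2
    all_goals first | exact absurd ‹(0 : ℝ) < 0› (lt_irrefl _) | skip
    all_goals first | exact absurd (‹(0 : ℝ) < 0 ∧ _›).1 (lt_irrefl _) | skip
    · have al : A.alive (eul δ p ξ) := by assumption
      have l1 : A.lv (eul δ p ξ) := ⟨al.1, al.2, (eul_l_le hδ p ξ).trans hM.1.2.2⟩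
      have l2 : 0 < A.σ * (eul δ p ξ).x := by
        have b := (hM.bd hA hy).1
        have b1 : 0 ≤ 2 * δ * (A.σ * p.x) / rho2 p :=
          div_nonneg (mul_nonneg (by linarith) hM.2.2.1.le) (rho2_nonneg p)
        have b2 : A.σ * ξ ≤ |ξ| := by
          rcases hA.sg with h | h <;> rw [h]
          · simpa using le_abs_self ξ
          · simpa using neg_le_abs ξ
        have b3 : A.σ * (eul δ p ξ).x =
            A.σ * p.x + 2 * δ * (A.σ * p.x) / rho2 p - A.σ * ξ := by rw [eul_x]; ring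
        linarith
      have l3 : uu (eul δ p ξ) < A.ep := not_le.1 fun h => c1 ⟨l1, l2, Or.inr ⟨m0, h⟩⟩
      have l4 : 1 ≤ A.ww (eul δ p ξ) := by
        rw [ww, famc_eq hA.chi (l3.le.trans e3), fam_uu, ← Real.exp_add]
        exact Real.one_le_exp (by nlinarith)
      linarith
    · linarith
  · have k : ¬ (0 < m ∧ A.Mk (stp A.d0 A.le δ p ξ) (A.mv δ m ξ)) := fun h => m0 h.1
    rw [if_neg m0, add_zero, ee, ee, if_neg m0, upd, if_neg k]
    by_cases c1 : A.lv (stp A.d0 A.le δ p ξ) ∧ 0 < A.σ * (stp A.d0 A.le δ p ξ).x ∧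
      (A.lam ≤ uu (stp A.d0 A.le δ p ξ) ∨ (0 < m ∧ A.ep ≤ uu (stp A.d0 A.le δ p ξ)))
    · have c : A.lam ≤ uu (stp A.d0 A.le δ p ξ) := c1.2.2.elim id fun h => absurd h.1 m0
      have l4 : A.ww (stp A.d0 A.le δ p ξ) ≤ 1 / 2 := by
        have a1 := famc_le_fam (a := 0) (lam := A.lam) hA.chi (show A.h ≤ 1 by linarith)
          (stp A.d0 A.le δ p ξ)
        refine (mul_le_mul_of_nonneg_left a1 (Real.exp_pos _).le).trans ?_
        rw [fam_uu, ← Real.exp_add]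
        refine (Real.exp_le_exp.2 (show _ ≤ -1 by nlinarith [hA.n1])).trans ?_
        rw [Real.exp_neg, one_div]
        exact inv_anti₀ two_pos (by linarith [Real.add_one_le_exp 1])
      rw [if_pos c1, if_pos c1.2.1, if_pos ⟨c1.2.1, k⟩,
        if_pos (alive_KUpd hδ ⟨c1.1.1, c1.1.2.1⟩), sub_self, abs_zero, zero_div]
      linarith
    · rw [if_neg c1, if_neg (lt_irrefl _), if_neg (c := (0 : ℝ) < 0 ∧ _) fun h => lt_irrefl _ h.1,
        zero_div, add_zero]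
      by_cases al : A.alive (stp A.d0 A.le δ p ξ)
      · rw [if_pos al, if_pos (alive_KUpd hδ al)]
      · rw [if_neg al]
        split_ifs <;> norm_num

open Classical in
/-- enrolling, releasing and marking again do not increase the potential -/
theorem upd_le (hA : A.Ok) (hδ : 0 ≤ δ) (hδ1 : 4 * (δ / ymin A.d0 A.le ^ 2) ≤ 1)
    {s : (ℂ → St) × (ℂ → ℝ) × ℝ} (hs : s ∈ A.Inv) {ξ : ℝ} (hξ : |ξ| ≤ ymin A.d0 A.le) :
    US A.Q (rel (A.kst δ s ξ).2.1) (fun u => 0 < (A.kst δ s ξ).2.1 u) (A.wt (A.kst δ s ξ).1) *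
      Real.exp (A.q' * ∑ u ∈ A.Q, A.ee ((A.kst δ s ξ).1 u) ((A.kst δ s ξ).2.1 u)) ≤
    US A.Q (rel s.2.1) (fun u => 0 < s.2.1 u) (A.wt fun u => eul δ (s.1 u) ξ) *
      Real.exp (A.q' * ∑ u ∈ A.Q, (A.ee (s.1 u) (s.2.1 u) + if 0 < s.2.1 u then
        A.ww (eul δ (s.1 u) ξ) - A.ww (s.1 u) + 12 * δ * (sn (s.1 u) / rho2 (s.1 u)) else 0)) := by
  have hI := kst_inv hA hδ hδ1 s hs ξ
  have h0 : 0 < ymin A.d0 A.le := Real.exp_pos _
  have hq := hA.q0
  set kp : ℂ → Prop := fun u =>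
    0 < s.2.1 u ∧ A.Mk (stp A.d0 A.le δ (s.1 u) ξ) (A.mv δ (s.2.1 u) ξ) with hkp
  set N := A.Q.filter fun u => 0 < (A.kst δ s ξ).2.1 u ∧ ¬ kp u with hN
  have a1 := US_ins (Q := A.Q) (A := kp) (A' := fun u => 0 < (A.kst δ s ξ).2.1 u)
    (rel_sto (A.kst δ s ξ).2.1) (fun c => (wt_pos hA (A.kst δ s ξ).1 c).le)
    (K := Real.exp (5 + A.C0) * A.q) (by positivity) (fun c1 c2 i h1 h2 => by
      have b := up_of hA hI h1 h2
      rw [List.map_append, List.map_cons] at b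
      have b1 := cl_ins hA.chi b
      have b2 : A.g * cl A.χ ((c1 ++ i :: c2).map (A.kst δ s ξ).1) ≤
          (5 + A.C0) + A.g * cl A.χ ((c1 ++ c2).map (A.kst δ s ξ).1) := by
        rw [List.map_append, List.map_cons, List.map_append]
        nlinarith [hA.g0, hA.g1, hA.k4, hA.chi.hC]
      have b3 := Real.exp_le_exp.2 b2
      rw [Real.exp_add] at b3
      have b4 : (c1 ++ i :: c2).length = (c1 ++ c2).length + 1 := by simp [add_assoc]
      rw [wt, wt, b4, pow_succ]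
      calc _ ≤ A.q ^ (c1 ++ c2).length * A.q * (Real.exp (5 + A.C0) *
            Real.exp (A.g * cl A.χ ((c1 ++ c2).map (A.kst δ s ξ).1))) := by gcongr
        _ = _ := by ring) N
    (fun u hu h => (Classical.em (kp u)).imp id fun k => Finset.mem_filter.2 ⟨hu, h, k⟩)
  have a2 : US A.Q (rel (A.kst δ s ξ).2.1) (fun u => kp u ∧ 0 < (A.kst δ s ξ).2.1 u)
      (A.wt (A.kst δ s ξ).1) ≤
      US A.Q (rel s.2.1) (fun u => 0 < s.2.1 u) (A.wt fun u => eul δ (s.1 u) ξ) := by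
    refine (US_le (f' := A.wt fun u => eul δ (s.1 u) ξ) fun c h1 _ => le_of_eq ?_).trans
      (US_mono (fun c => (wt_pos hA _ c).le) (fun u _ h => h.1.1) fun u hu v hv h1 h2 h => ?_)
    · have b : c.map (A.kst δ s ξ).1 = c.map fun u => eul δ (s.1 u) ξ :=
        List.map_congr_left fun u hu =>
          if_pos (((hs.2 u (h1 u hu).1).2.1 (h1 u hu).2.1.1).1.1)
      rw [wt, wt, b]
    · have b : ∀ w ∈ A.Q, kp w → 2 * ymin A.d0 A.le ≤ s.2.1 w ∧
          (A.kst δ s ξ).2.1 w = A.mv δ (s.2.1 w) ξ := fun w hw k => by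
        have d := (hs.2 w hw).2.1 k.1
        have d1 := (d.bd hA (hs.2 w hw).1.1).1
        have d2 := FI.ymin_le hA.hd (hs.2 w hw).1
        exact ⟨by linarith [(abs_le.1 d.2.2.2).1], if_pos k⟩
      obtain ⟨b1, b2⟩ := b u hu h1.1
      obtain ⟨b3, b4⟩ := b v hv h2.1
      have b5 : 2 * δ < s.2.1 u * s.2.1 v := by
        have d : 4 * δ ≤ ymin A.d0 A.le ^ 2 := by
          rw [← mul_div_assoc, div_le_one (by positivity)] at hδ1
          exact hδ1
        nlinarith [mul_le_mul b1 b3 (by positivity) h1.1.1.le, mul_pos h0 h0]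
      have b6 := mv_lt (A := A) hδ h1.1.1 h2.1.1 b5 ξ
      have b7 := mv_lt (A := A) hδ h2.1.1 h1.1.1 (by rwa [mul_comm (s.2.1 v)]) ξ
      rw [rel, b2, b4] at h
      exact h.imp b6.1 fun k => ⟨le_antisymm (not_lt.1 fun l => (b7.2 l).ne' k.1)
        (not_lt.1 fun l => (b6.2 l).ne k.1), k.2⟩
  have a3 : (1 + Real.exp (5 + A.C0) * A.q) ^ N.card ≤ Real.exp (A.q' * (N.card / 2)) := by
    rw [show A.q' * (N.card / 2) = N.card * (Real.exp (5 + A.C0) * A.q) by rw [q']; ring,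
      Real.exp_nat_mul]
    gcongr
    linarith [Real.add_one_le_exp (Real.exp (5 + A.C0) * A.q)]
  have a4 : (N.card : ℝ) / 2 + ∑ u ∈ A.Q, A.ee ((A.kst δ s ξ).1 u) ((A.kst δ s ξ).2.1 u) ≤
      ∑ u ∈ A.Q, (A.ee (s.1 u) (s.2.1 u) + if 0 < s.2.1 u then
        A.ww (eul δ (s.1 u) ξ) - A.ww (s.1 u) + 12 * δ * (sn (s.1 u) / rho2 (s.1 u)) else 0) := by
    rw [hN, Finset.card_filter, Nat.cast_sum, Finset.sum_div, ← Finset.sum_add_distrib]
    refine Finset.sum_le_sum fun u hu => ?_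
    have b := pt_KUpd hA hδ hδ1 (hs.2 u hu).1 (hs.2 u hu).2.1 hξ
    rw [add_comm]
    refine le_trans (le_of_eq ?_) b
    push_cast
    congr
  have a5 : 0 ≤ US A.Q (rel s.2.1) (fun u => 0 < s.2.1 u) (A.wt fun u => eul δ (s.1 u) ξ) :=
    (wt_pos hA _ _).le.trans (US_ge fun c => (wt_pos hA _ c).le)
  have a6 : 0 ≤ A.q' := by rw [q']; positivity
  calc _ ≤ Real.exp (A.q' * (N.card / 2)) *
        US A.Q (rel s.2.1) (fun u => 0 < s.2.1 u) (A.wt fun u => eul δ (s.1 u) ξ) *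
        Real.exp (A.q' * ∑ u ∈ A.Q, A.ee ((A.kst δ s ξ).1 u) ((A.kst δ s ξ).2.1 u)) := by
        refine mul_le_mul_of_nonneg_right (a1.trans ?_) (Real.exp_pos _).le
        exact (mul_le_mul_of_nonneg_left a2 (by positivity)).trans
          (mul_le_mul_of_nonneg_right a3 a5)
    _ ≤ _ := by
        rw [mul_comm (Real.exp _), mul_assoc, ← Real.exp_add, ← mul_add]
        gcongr

/-- nothing happens when no point is in the window -/
theorem idle_le (hA : A.Ok) (hδ : 0 ≤ δ) (hδ1 : 4 * (δ / ymin A.d0 A.le ^ 2) ≤ 1)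
    {s : (ℂ → St) × (ℂ → ℝ) × ℝ} (hs : s ∈ A.Inv) (h : ∀ u ∈ A.Q, ¬ A.lv (s.1 u)) (ξ : ℝ) :
    A.VV (A.kst δ s ξ) ≤ A.VV s := by
  classical
  by_cases c : Car A.d0 A.le A.la A.Kc A.Q s.1 ∧ |ξ| ≤ min 1 (ymin A.d0 A.le)
  · have a1 : cst A.d0 A.le A.la A.σ A.lam A.Q s.1 = 0 :=
      Finset.sum_eq_zero fun u hu => if_neg (h u hu)
    have a2 : (A.kst δ s ξ).2.2 = s.2.2 := by
      simp only [kst]
      rw [if_pos c, a1]
      simp
    have a3 : ∀ u ∈ A.Q, ¬ 0 < s.2.1 u := fun u hu k => h u hu ((hs.2 u hu).2.1 k).1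
    have a4 := upd_le hA hδ hδ1 hs (c.2.trans (min_le_right _ _))
    rw [VV, VV, a2]
    refine mul_le_mul_of_nonneg_left (a4.trans (le_of_eq ?_)) hs.1
    rw [US_nil a3, US_nil a3]
    refine congrArg₂ (· * ·) rfl (congrArg (fun t => Real.exp (A.q' * t)) ?_)
    refine Finset.sum_congr rfl fun u hu => ?_
    rw [if_neg (a3 u hu), add_zero]
  · have a2 : (A.kst δ s ξ).2.2 = 0 := by
      simp only [kst]
      rw [if_neg c]
    rw [VV, a2, zero_mul]
    exact hs.1.trans (VV_ge hA hs)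

end Pm

end Vale.Agent.P164
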