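import Vale.Agent.P164.Grid

namespace Vale.Agent.P164

open Set

open Classical in
/-- mass of the dyadic cell of generation `j` containing `u` -/
noncomputable def cm (G : Finset ℂ) (w : ℂ → ℝ) (j : ℕ) (u : ℂ) : ℝ :=
  ∑ v ∈ G with cidx ((1 / 2) ^ j) 0 v = cidx ((1 / 2) ^ j) 0 u, w v

open Classical in
/-- the weight `w` restricted to points with no heavy dyadic cell -/
noncomputable def cw (G : Finset ℂ) (w : ℂ → ℝ) (thr : ℕ → ℝ) (j0 j1 : ℕ) (u : ℂ) : ℝ :=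
  if ∀ j ∈ Finset.Icc j0 j1, cm G w j u < thr j then w u else 0

variable {G : Finset ℂ} {w : ℂ → ℝ} {thr : ℕ → ℝ} {j0 j1 : ℕ}

theorem measurable_cw {Ω : Type*} [MeasurableSpace Ω] {w : Ω → ℂ → ℝ}
    (hw : ∀ u, Measurable fun ω => w ω u) (u : ℂ) :
    Measurable fun ω => cw G (w ω) thr j0 j1 u := by
  refine Measurable.ite ?_ (hw u) measurable_const
  simp only [ofPred_forall]
  exact MeasurableSet.iInter fun j => MeasurableSet.iInter fun _ =>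
    measurableSet_lt (Finset.measurable_sum _ fun v _ => hw v) measurable_const

theorem cw_nonneg (hw : ∀ u, 0 ≤ w u) (u : ℂ) : 0 ≤ cw G w thr j0 j1 u := by
  unfold cw; split_ifs
  · exact hw u
  · exact le_rfl

theorem lcell_card (S : Finset (ℤ × ℤ)) (a b : ℤ) (m : ℕ)
    (h : ∀ e ∈ S, (a ≤ e.1 ∧ e.1 ≤ a + m) ∧ b ≤ e.2 ∧ e.2 ≤ b + m) : S.card ≤ (m + 1) ^ 2 := by
  refine (Finset.card_le_card (t := Finset.Icc a (a + m) ×ˢ Finset.Icc b (b + m)) fun e he =>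
    Finset.mem_product.mpr ⟨Finset.mem_Icc.mpr (h e he).1, Finset.mem_Icc.mpr (h e he).2⟩).trans ?_
  rw [Finset.card_product, Int.card_Icc, Int.card_Icc, sq]
  exact Nat.mul_le_mul (by omega) (by omega)

theorem lcell_le (hw : ∀ u, 0 ≤ w u) (u : ℂ) : cw G w thr j0 j1 u ≤ w u := by
  unfold cw
  split_ifs
  · exact le_rfl
  · exact hw u

theorem lcell_sum (hw : ∀ u, 0 ≤ w u) {j : ℕ} (hj : j ∈ Finset.Icc j0 j1) (ht : 0 ≤ thr j)
    {S : Finset ℂ} (hS : S ⊆ G) :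
    ∑ u ∈ S, cw G w thr j0 j1 u ≤ (S.image (cidx ((1 / 2) ^ j) 0)).card * thr j := by
  rw [← Finset.sum_fiberwise_of_maps_to fun u hu =>
    Finset.mem_image_of_mem (cidx ((1 / 2) ^ j) 0) hu, ← nsmul_eq_mul]
  refine Finset.sum_le_card_nsmul _ _ _ fun e _ => ?_
  by_cases h : ∀ u ∈ S.filter fun u => cidx ((1 / 2) ^ j) 0 u = e, cw G w thr j0 j1 u = 0
  · rwa [Finset.sum_eq_zero h]
  · push Not at h
    obtain ⟨u, hu, h⟩ := h
    have h1 : cm G w j u < thr j := by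
      by_contra h1
      exact h (if_neg fun h2 => h1 (h2 j hj))
    refine le_trans ((Finset.sum_le_sum fun v _ => lcell_le hw v).trans ?_) h1.le
    rw [← (Finset.mem_filter.mp hu).2]
    exact Finset.sum_le_sum_of_subset_of_nonneg (Finset.filter_subset_filter _ hS)
      fun v _ _ => hw v

theorem lcell_floor {ρ a b : ℝ} (hρ : 0 < ρ) (h : |a - b| ≤ ρ) (c : ℝ) :
    ⌊b / ρ - c⌋ - 1 ≤ ⌊a / ρ - c⌋ ∧ ⌊a / ρ - c⌋ ≤ ⌊b / ρ - c⌋ - 1 + (2 : ℕ) := by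
  have h1 : |a / ρ - b / ρ| ≤ 1 := by rwa [← sub_div, abs_div, abs_of_pos hρ, div_le_one hρ]
  have h2 : ⌊b / ρ - c - 1⌋ ≤ ⌊a / ρ - c⌋ := Int.floor_mono (by linarith [(abs_le.mp h1).1])
  have h3 : ⌊a / ρ - c⌋ ≤ ⌊b / ρ - c + 1⌋ := Int.floor_mono (by linarith [(abs_le.mp h1).2])
  rw [Int.floor_sub_one] at h2
  rw [Int.floor_add_one] at h3
  omega

theorem lcell_unit (j : ℕ) (k : ℤ) {x : ℝ} (h1 : k ≤ x) (h2 : x ≤ k + 1) :
    k * (2 ^ j : ℕ) ≤ ⌊x / (1 / 2) ^ j - (0 : ℕ) / 3⌋ ∧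
      ⌊x / (1 / 2) ^ j - (0 : ℕ) / 3⌋ ≤ k * (2 ^ j : ℕ) + (2 ^ j : ℕ) := by
  have e : x / (1 / 2) ^ j - (0 : ℕ) / 3 = x * 2 ^ j := by simp
  have h0 : (0 : ℝ) ≤ 2 ^ j := by positivity
  rw [e, Int.le_floor, Int.floor_le_iff]
  push_cast
  exact ⟨mul_le_mul_of_nonneg_right h1 h0, by linarith [mul_le_mul_of_nonneg_right h2 h0]⟩

/-- number of occupied cells -/
theorem card_cells (hG : ∀ u ∈ G, 0 ≤ u.re ∧ u.re ≤ 1 ∧ 1 ≤ u.im ∧ u.im ≤ 2) (j : ℕ) :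
    ((G.image (cidx ((1 / 2) ^ j) 0)).card : ℝ) ≤ 4 * 4 ^ j := by
  have h := lcell_card (G.image (cidx ((1 / 2) ^ j) 0)) (0 * (2 ^ j : ℕ)) (1 * (2 ^ j : ℕ)) (2 ^ j)
    fun e he => by
      obtain ⟨u, hu, rfl⟩ := Finset.mem_image.mp he
      obtain ⟨h1, h2, h3, h4⟩ := hG u hu
      exact ⟨lcell_unit j 0 (by simpa using h1) (by simpa using h2),
        lcell_unit j 1 (by simpa using h3) (by push_cast; linarith)⟩
  have h1 : (2 ^ j + 1) ^ 2 ≤ (2 * 2 ^ j) ^ 2 :=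
    Nat.pow_le_pow_left (by linarith [Nat.one_le_two_pow (n := j)]) 2
  have h2 : (2 * 2 ^ j) ^ 2 = 4 * 4 ^ j := by
    rw [mul_pow, ← pow_mul, mul_comm j, pow_mul]
    rfl
  exact_mod_cast h.trans (h1.trans_eq h2)

theorem cw_total (hw : ∀ u, 0 ≤ w u) (hG : ∀ u ∈ G, 0 ≤ u.re ∧ u.re ≤ 1 ∧ 1 ≤ u.im ∧ u.im ≤ 2)
    (hj : j0 ≤ j1) (ht : 0 ≤ thr j0) : ∑ u ∈ G, cw G w thr j0 j1 u ≤ 4 * 4 ^ j0 * thr j0 :=
  (lcell_sum hw (Finset.left_mem_Icc.mpr hj) ht Subset.rfl).trans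
    (mul_le_mul_of_nonneg_right (card_cells hG j0) ht)

open Classical in
theorem cw_ball (hw : ∀ u, 0 ≤ w u) {j : ℕ} (hj : j ∈ Finset.Icc j0 j1) (ht : 0 ≤ thr j) (x : ℂ)
    {r : ℝ} (hr : r ≤ (1 / 2) ^ j) :
    ∑ u ∈ G with ‖u - x‖ ≤ r, cw G w thr j0 j1 u ≤ 9 * thr j := by
  refine (lcell_sum hw hj ht (Finset.filter_subset _ _)).trans (mul_le_mul_of_nonneg_right ?_ ht)
  have h := lcell_card ((G.filter fun u => ‖u - x‖ ≤ r).image (cidx ((1 / 2) ^ j) 0)) _ _ 2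
    fun e he => by
      obtain ⟨u, hu, rfl⟩ := Finset.mem_image.mp he
      have h1 := (Finset.mem_filter.mp hu).2.trans hr
      exact ⟨lcell_floor (b := x.re) (by positivity) ((Complex.abs_re_le_norm (u - x)).trans h1) _,
        lcell_floor (b := x.im) (by positivity) ((Complex.abs_im_le_norm (u - x)).trans h1) _⟩
  exact_mod_cast h

open Classical in
/-- the discarded mass is at most the mass of the heavy cells -/
theorem cw_loss (hw : ∀ u, 0 ≤ w u) (b : ℕ → ℤ × ℤ → ℝ)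
    (hb : ∀ j ∈ Finset.Icc j0 j1, ∀ u ∈ G, 0 ≤ b j (cidx ((1 / 2) ^ j) 0 u) ∧
      (thr j ≤ cm G w j u → cm G w j u ≤ b j (cidx ((1 / 2) ^ j) 0 u))) :
    ∑ u ∈ G, w u - ∑ j ∈ Finset.Icc j0 j1, ∑ e ∈ G.image (cidx ((1 / 2) ^ j) 0), b j e ≤
      ∑ u ∈ G, cw G w thr j0 j1 u := by
  have h1 : ∀ u ∈ G, w u - cw G w thr j0 j1 u ≤
      ∑ j ∈ Finset.Icc j0 j1, if thr j ≤ cm G w j u then w u else 0 := by
    intro u _
    have h0 : ∀ j ∈ Finset.Icc j0 j1, 0 ≤ if thr j ≤ cm G w j u then w u else 0 := fun j _ =>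
      ite_nonneg (hw u) le_rfl
    unfold cw
    split_ifs with h
    · rw [sub_self]
      exact Finset.sum_nonneg h0
    · push Not at h
      obtain ⟨j, hj, h⟩ := h
      have h2 := Finset.single_le_sum h0 hj
      rw [if_pos h] at h2
      rwa [sub_zero]
  have h2 := Finset.sum_le_sum h1
  rw [Finset.sum_sub_distrib, Finset.sum_comm] at h2
  rw [sub_le_comm]
  refine h2.trans (Finset.sum_le_sum fun j hj => ?_)
  rw [← Finset.sum_fiberwise_of_maps_to fun u hu =>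
    Finset.mem_image_of_mem (cidx ((1 / 2) ^ j) 0) hu]
  refine Finset.sum_le_sum fun e he => ?_
  obtain ⟨u, hu, rfl⟩ := Finset.mem_image.mp he
  by_cases h : thr j ≤ cm G w j u
  · refine le_trans (Finset.sum_le_sum fun v _ => ?_) ((hb j hj u hu).2 h)
    split_ifs
    · exact le_rfl
    · exact hw v
  · refine le_trans (Finset.sum_eq_zero fun v hv => if_neg ?_).le (hb j hj u hu).1
    rwa [cm, (Finset.mem_filter.mp hv).2]

end Vale.Agent.P164
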