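import Vale.Agent.P164.Eul

namespace Vale.Agent.P164

open Set

/-- a point is active above the final level and while its angle is not too small -/
def actv (d0 le : ℝ) (p : St) : Prop := le < p.l ∧ d0 ^ 2 * Real.exp (p.l / 4) < ss p

open Classical in
noncomputable def stp (d0 le δ : ℝ) (p : St) (ξ : ℝ) : St := if actv d0 le p then eul δ p ξ else p

/-- Euler run frozen when it becomes inactive -/
noncomputable def frz (d0 le δ : ℝ) (u : ℂ) (ξ : ℕ → ℝ) (n : ℕ) : St :=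
  run (stp d0 le δ) (ini u) ξ n

noncomputable def ymin (d0 le : ℝ) : ℝ := Real.exp ((le - 2) / (2 * (d0 ^ 2 * Real.exp (le / 4))))

/-- active with `l ∈ (lb, la]` -/
def lev (d0 le la lb : ℝ) (p : St) : Prop := actv d0 le p ∧ lb < p.l ∧ p.l ≤ la

open Classical in
/-- total martingale increments collected in the level `(lb, la]` -/
noncomputable def AA (κ d0 le δ la lb : ℝ) (Q : Finset ℂ) (ξ : ℕ → ℝ) (N : ℕ) : ℝ :=
  ∑ n ∈ Finset.range N, ∑ u ∈ Q, if lev d0 le la lb (frz d0 le δ u ξ n) then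
    mart κ (frz d0 le δ u ξ (n + 1)) - mart κ (frz d0 le δ u ξ n) else 0

open Classical in
/-- discrete quadratic variation of `AA` -/
noncomputable def qv (κ d0 le δ la lb : ℝ) (Q : Finset ℂ) (ξ : ℕ → ℝ) (N : ℕ) : ℝ :=
  ∑ n ∈ Finset.range N, δ * (∑ u ∈ Q, if lev d0 le la lb (frz d0 le δ u ξ n) then
    (8 / κ - 1) * mart κ (frz d0 le δ u ξ n) * (frz d0 le δ u ξ n).x / rho2 (frz d0 le δ u ξ n)
    else 0) ^ 2

open Classical in
/-- final mass of a point that reached the last level -/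
noncomputable def mh (κ d0 le δ : ℝ) (ξ : ℕ → ℝ) (N : ℕ) (u : ℂ) : ℝ :=
  if (frz d0 le δ u ξ N).l ≤ le then mart κ (frz d0 le δ u ξ N) else 0

variable {κ d0 le δ : ℝ} {u : ℂ} {ξ : ℕ → ℝ}

theorem ymin_pos (d0 le : ℝ) : 0 < ymin d0 le := Real.exp_pos _

theorem measurableSet_actv (d0 le : ℝ) : MeasurableSet {p | actv d0 le p} :=
  (measurableSet_lt measurable_const measurable_l).inter
    (measurableSet_lt (by fun_prop) measurable_ss)

theorem measurable_stp (d0 le δ : ℝ) : Measurable (Function.uncurry (stp d0 le δ)) :=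
  Measurable.ite (measurable_fst (measurableSet_actv d0 le)) (measurable_eul δ) measurable_fst

theorem measurable_frz (d0 le δ : ℝ) (u : ℂ) (n : ℕ) : Measurable fun ξ => frz d0 le δ u ξ n :=
  measurable_run (measurable_stp d0 le δ) _ n

theorem measurable_mh (κ d0 le δ : ℝ) (N : ℕ) (u : ℂ) : Measurable fun ξ => mh κ d0 le δ ξ N u :=
  Measurable.ite (measurableSet_le (measurable_l.comp (measurable_frz d0 le δ u N)) measurable_const)
    ((measurable_mart κ).comp (measurable_frz d0 le δ u N)) measurable_const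

theorem mh_nonneg (N : ℕ) : 0 ≤ mh κ d0 le δ ξ N u := by
  unfold mh; split_ifs
  · exact (mart_pos _ _).le
  · exact le_rfl

theorem mh_congr {ξ' : ℕ → ℝ} {N : ℕ} (h : ∀ i < N, ξ i = ξ' i) :
    mh κ d0 le δ ξ N u = mh κ d0 le δ ξ' N u := by
  unfold mh frz; rw [run_congr _ _ N h]

/-- invariant set of the frozen run -/
def FI (d0 le : ℝ) : Set St := {p | 0 < p.y ∧ le - 1 ≤ p.l ∧ p.l ≤ 1 ∧
  p.l - 2 * (d0 ^ 2 * Real.exp (le / 4)) * Real.log p.y ≤ 1 ∧ 2 * Real.log p.y - p.l ≤ Real.log 2}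

theorem FI.ymin_le {p : St} (hd : 0 < d0) (hp : p ∈ FI d0 le) : ymin d0 le ≤ p.y := by
  refine (Real.le_log_iff_exp_le hp.1).mp ?_
  rw [div_le_iff₀ (by positivity)]
  linarith [hp.2.1, hp.2.2.2.1]

theorem FI.reg {p : St} (hd : 0 < d0) (hp : p ∈ FI d0 le) : p ∈ Reg (ymin d0 le) (le - 1) :=
  ⟨FI.ymin_le hd hp, hp.2.1, hp.2.2.1.trans one_le_two⟩

theorem ini_FI (hle : le ≤ 0) (h1 : 1 ≤ u.im) (h2 : u.im ≤ 2) : ini u ∈ FI d0 le := by
  have h0 : 0 < u.im := by linarith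
  have h3 := Real.log_nonneg h1
  have h4 := Real.log_le_sub_one_of_pos h0
  have h5 := Real.log_le_log h0 h2
  have h6 : 0 ≤ 2 * (d0 ^ 2 * Real.exp (le / 4)) * Real.log u.im := by positivity
  simp only [FI, mem_ofPred_eq, ini_y, ini_l]
  exact ⟨h0, by linarith, by linarith, by linarith, by linarith⟩

theorem stp_FI (hd : 0 < d0) (hδ : 0 ≤ δ) (hδ1 : 4 * (δ / ymin d0 le ^ 2) ≤ 1) :
    ∀ p ∈ FI d0 le, ∀ ξ, stp d0 le δ p ξ ∈ FI d0 le := by
  intro p hp x
  unfold stp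
  split_ifs with h
  swap
  · exact hp
  have h1 := eul_l_ge hδ (ymin_pos d0 le) (FI.ymin_le hd hp) x
  have h2 := eul_l_le hδ p x
  obtain ⟨p1, p2, p3, p4, p5⟩ := hp
  have h3 : 0 ≤ δ / rho2 p := div_nonneg hδ (rho2_nonneg p)
  have h4 : d0 ^ 2 * Real.exp (le / 4) ≤ ss p := (mul_le_mul_of_nonneg_left
    (Real.exp_le_exp.mpr (by linarith [h.1])) (sq_nonneg d0)).trans h.2.le
  have h5 := mul_le_mul_of_nonneg_right h4 h3
  have h6 := mul_le_mul_of_nonneg_right (ss_le_one p) h3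
  refine ⟨eul_y_pos δ p1 x, by linarith [h.1], h2.trans p3, ?_, ?_⟩ <;>
    rw [log_eul_y δ p1, eul_l_eq δ p1, mul_div_assoc] <;> linarith

theorem frz_FI (hd : 0 < d0) (hδ : 0 ≤ δ) (hδ1 : 4 * (δ / ymin d0 le ^ 2) ≤ 1) (hle : le ≤ 0)
    (h1 : 1 ≤ u.im) (h2 : u.im ≤ 2) (n : ℕ) : frz d0 le δ u ξ n ∈ FI d0 le :=
  run_mem (stp_FI hd hδ hδ1) (ini_FI hle h1 h2) ξ n

theorem ldef_pos {n : ℕ} (h : actv d0 le (frz d0 le δ u ξ n)) :
    frz d0 le δ u ξ (n + 1) = eul δ (frz d0 le δ u ξ n) (ξ n) := if_pos h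

theorem ldef_neg {n : ℕ} (h : ¬ actv d0 le (frz d0 le δ u ξ n)) :
    frz d0 le δ u ξ (n + 1) = frz d0 le δ u ξ n := if_neg h

theorem frz_act {n : ℕ} (h : actv d0 le (frz d0 le δ u ξ n)) :
    (∀ i ≤ n, actv d0 le (frz d0 le δ u ξ i)) ∧
      ∀ i ≤ n + 1, frz d0 le δ u ξ i = fre δ u ξ i := by
  have h1 : ∀ i ≤ n, actv d0 le (frz d0 le δ u ξ i) := by
    induction n with
    | zero =>
      intro i hi
      rwa [Nat.le_zero.mp hi]
    | succ n ih =>
      intro i hi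
      rcases Nat.of_le_succ hi with h2 | rfl
      · exact ih (by_contra fun hn => hn (ldef_neg hn ▸ h)) i h2
      · exact h
  refine ⟨h1, fun i hi => ?_⟩
  induction i with
  | zero => rfl
  | succ i ih => rw [ldef_pos (h1 i (by omega)), ih (by omega), fre_succ]

theorem frz_eq (n : ℕ) : ∃ τ ≤ n, frz d0 le δ u ξ n = fre δ u ξ τ := by
  induction n with
  | zero => exact ⟨0, le_rfl, rfl⟩
  | succ n ih =>
    by_cases h : actv d0 le (frz d0 le δ u ξ n)
    · exact ⟨n + 1, le_rfl, (frz_act h).2 _ le_rfl⟩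
    · obtain ⟨τ, h1, h2⟩ := ih
      exact ⟨τ, by omega, (ldef_neg h).trans h2⟩

theorem ldef_drop (hd : 0 < d0) (hδ : 0 ≤ δ) (hδ1 : 4 * (δ / ymin d0 le ^ 2) ≤ 1) {p : St}
    (hp : p ∈ FI d0 le) (h : actv d0 le p) (x : ℝ) :
    Real.exp ((eul δ p x).l / 2) ≤ Real.exp (p.l / 2) - δ * d0 ^ 4 / 2 := by
  have h1 := eul_l_ge hδ (ymin_pos d0 le) (FI.ymin_le hd hp) x
  have hy := hp.1
  have hr := rho2_pos hy
  have e : 4 * ss p * (δ / rho2 p) = 4 * (δ * ss p ^ 2 / p.y ^ 2) := by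
    rw [ss_eq hy]
    field_simp
  rw [eul_l_eq δ hy, e] at h1 ⊢
  have h2 : p.y ^ 2 ≤ 2 * Real.exp (p.l / 2) ^ 2 := by
    have h3 : Real.log (p.y ^ 2) ≤ Real.log 2 + p.l := by
      rw [Real.log_pow]
      push_cast
      linarith [hp.2.2.2.2]
    rw [Real.log_le_iff_le_exp (by positivity), Real.exp_add, Real.exp_log two_pos] at h3
    rw [← Real.exp_nat_mul]
    exact h3.trans_eq (by congr 2; push_cast; ring)
  have h3 : d0 ^ 4 * Real.exp (p.l / 2) ≤ ss p ^ 2 := by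
    have h4 := pow_le_pow_left₀ (by positivity) h.2.le 2
    rw [mul_pow, ← Real.exp_nat_mul, ← pow_mul] at h4
    exact le_trans (le_of_eq (by congr 2; push_cast; ring)) h4
  have hE := Real.exp_pos (p.l / 2)
  have h4 : δ * d0 ^ 4 / 2 ≤ Real.exp (p.l / 2) * (δ * ss p ^ 2 / p.y ^ 2) := by
    rw [← mul_div_assoc, div_le_div_iff₀ two_pos (by positivity)]
    have h5 := mul_le_mul_of_nonneg_left h2 (show 0 ≤ δ * d0 ^ 4 by positivity)
    have h6 := mul_le_mul_of_nonneg_left h3 (show 0 ≤ 2 * δ * Real.exp (p.l / 2) by positivity)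
    linarith
  have h5 : 0 ≤ δ * ss p ^ 2 / p.y ^ 2 := by positivity
  generalize δ * ss p ^ 2 / p.y ^ 2 = t at h1 h4 h5
  have h6 : Real.exp (-(2 * t)) ≤ 1 - t := by
    rw [Real.exp_neg, inv_le_comm₀ (Real.exp_pos _) (by linarith), inv_eq_one_div,
      div_le_iff₀ (by linarith)]
    have h7 := mul_le_mul_of_nonneg_right (Real.add_one_le_exp (2 * t)) (show 0 ≤ 1 - t by linarith)
    have h8 := mul_nonneg h5 (show 0 ≤ 1 - 2 * t by linarith)
    linarith
  rw [show (p.l - 4 * t) / 2 = p.l / 2 + -(2 * t) by ring, Real.exp_add]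
  have h7 := mul_le_mul_of_nonneg_left h6 hE.le
  linarith

/-- every point is frozen after time `4 / d0 ^ 4` -/
theorem frz_end (hd : 0 < d0) (hδ : 0 ≤ δ) (hδ1 : 4 * (δ / ymin d0 le ^ 2) ≤ 1) (hle : le ≤ 0)
    (h1 : 1 ≤ u.im) (h2 : u.im ≤ 2) {N : ℕ} (hN : 4 / d0 ^ 4 ≤ N * δ) :
    ¬ actv d0 le (frz d0 le δ u ξ N) := by
  intro h
  have h3 : ∀ i ≤ N, Real.exp ((frz d0 le δ u ξ i).l / 2) ≤ 2 - i * (δ * d0 ^ 4 / 2) := by
    intro i hi
    induction i with
    | zero =>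
      have h4 : Real.exp (Real.log u.im / 2) ≤ Real.exp (Real.log u.im) :=
        Real.exp_le_exp.mpr (by linarith [Real.log_nonneg h1])
      rw [Real.exp_log (by linarith)] at h4
      rw [Nat.cast_zero, zero_mul, sub_zero]
      exact h4.trans h2
    | succ i ih =>
      have h4 := (frz_act h).1 i (by omega)
      have h5 := ldef_drop hd hδ hδ1 (frz_FI hd hδ hδ1 hle h1 h2 i) h4 (ξ i)
      rw [ldef_pos h4, Nat.cast_add_one]
      linarith [ih (by omega)]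
  have h4 := (Real.exp_pos _).trans_le (h3 N le_rfl)
  rw [div_le_iff₀ (by positivity)] at hN
  linarith

theorem ldef_mart (hκ : 0 < κ) (hκ8 : κ < 8) {la : ℝ} {p : St} (h : la - 1 ≤ p.l) :
    mart κ p ≤ 3 * Real.exp ((κ / 8 - 1) * la) := by
  have hc : 0 ≤ 8 / κ - 1 := by
    rw [sub_nonneg, le_div_iff₀ hκ]
    linarith
  have h1 := mul_le_mul_of_nonpos_left h (show κ / 8 - 1 ≤ 0 by linarith)
  have h2 : Real.exp ((κ / 8 - 1) * p.l) ≤ Real.exp (1 + (κ / 8 - 1) * la) :=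
    Real.exp_le_exp.mpr (by linarith)
  rw [Real.exp_add] at h2
  exact (fam_le _ hc p).trans (h2.trans (mul_le_mul_of_nonneg_right
    (by linarith [Real.exp_one_lt_d9]) (Real.exp_pos _).le))

open Classical in
theorem ldef_lev {la : ℝ} {K : ℕ} (hK : la - K * Real.log 2 ≤ le) (p : St) (x : ℝ) :
    ∑ k ∈ Finset.range K, (if lev d0 le (la - k * Real.log 2) (la - (k + 1) * Real.log 2) p
      then x else 0) = if actv d0 le p ∧ p.l ≤ la then x else 0 := by
  by_cases h : actv d0 le p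
  · have e := Finset.sum_range_sub' (fun k : ℕ => if p.l ≤ la - k * Real.log 2 then x else 0) K
    rw [if_neg (show ¬ p.l ≤ la - K * Real.log 2 from not_le.mpr (hK.trans_lt h.1)),
      Nat.cast_zero, zero_mul, sub_zero, sub_zero] at e
    simp only [h, true_and]
    rw [← e]
    refine Finset.sum_congr rfl fun k _ => ?_
    have hl := Real.log_pos one_lt_two
    rw [Nat.cast_add_one]
    by_cases h1 : p.l ≤ la - (k + 1) * Real.log 2
    · rw [if_neg fun h2 => not_le.mpr h2.2.1 h1, if_pos h1, if_pos (by linarith), sub_self]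
    · by_cases h2 : p.l ≤ la - k * Real.log 2
      · rw [if_pos ⟨h, not_le.mp h1, h2⟩, if_pos h2, if_neg h1, sub_zero]
      · rw [if_neg fun h3 => h2 h3.2.2, if_neg h2, if_neg h1, sub_zero]
  · rw [if_neg fun h1 => h h1.1]
    exact Finset.sum_eq_zero fun k _ => if_neg fun h1 => h h1.1

open Classical in
theorem ldef_pt (hκ : 0 < κ) (hκ8 : κ < 8) (hd : 0 < d0) (hδ : 0 ≤ δ)
    (hδ1 : 4 * (δ / ymin d0 le ^ 2) ≤ 1) {la : ℝ} (hla : la ≤ 0) (hle : le ≤ la)
    (h1 : 1 ≤ u.im) (h2 : u.im ≤ 2) (N : ℕ) :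
    ((frz d0 le δ u ξ N).l ≤ la → mart κ (frz d0 le δ u ξ N) ≤ 3 * Real.exp ((κ / 8 - 1) * la) +
      ∑ n ∈ Finset.range N, if actv d0 le (frz d0 le δ u ξ n) ∧ (frz d0 le δ u ξ n).l ≤ la then
        mart κ (frz d0 le δ u ξ (n + 1)) - mart κ (frz d0 le δ u ξ n) else 0) ∧
    (la < (frz d0 le δ u ξ N).l →
      ∑ n ∈ Finset.range N, (if actv d0 le (frz d0 le δ u ξ n) ∧ (frz d0 le δ u ξ n).l ≤ la then
        mart κ (frz d0 le δ u ξ (n + 1)) - mart κ (frz d0 le δ u ξ n) else 0) = 0) := by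
  induction N with
  | zero =>
    refine ⟨fun _ => ?_, fun _ => rfl⟩
    rw [Finset.sum_range_zero, add_zero]
    exact ldef_mart hκ hκ8 (show la - 1 ≤ Real.log u.im by linarith [Real.log_nonneg h1])
  | succ N ih =>
    rw [Finset.sum_range_succ]
    by_cases h : actv d0 le (frz d0 le δ u ξ N)
    · have h3 := eul_l_le hδ (frz d0 le δ u ξ N) (ξ N)
      have h4 := eul_l_ge hδ (ymin_pos d0 le)
        (FI.ymin_le hd (frz_FI (ξ := ξ) hd hδ hδ1 (hle.trans hla) h1 h2 N)) (ξ N)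
      rw [← ldef_pos h] at h3 h4
      rcases le_or_gt (frz d0 le δ u ξ N).l la with h5 | h5
      · rw [if_pos ⟨h, h5⟩]
        exact ⟨fun _ => by linarith [ih.1 h5], fun h6 => absurd (h3.trans h5) (not_le.mpr h6)⟩
      · rw [if_neg fun h6 => not_le.mpr h5 h6.2, ih.2 h5, add_zero, add_zero]
        exact ⟨fun _ => ldef_mart hκ hκ8 (by linarith), fun _ => rfl⟩
    · rw [if_neg fun h3 => h h3.1, add_zero, ldef_neg h]
      exact ih

/-- decomposition of the final mass along dyadic levels -/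
theorem decomp (hκ : 0 < κ) (hκ8 : κ < 8) (hd : 0 < d0) (hδ : 0 ≤ δ)
    (hδ1 : 4 * (δ / ymin d0 le ^ 2) ≤ 1) {la : ℝ} (hla : la ≤ 0) (hle : le ≤ la) {K : ℕ}
    (hK : la - K * Real.log 2 ≤ le) (Q : Finset ℂ) (hQ : ∀ u ∈ Q, 1 ≤ u.im ∧ u.im ≤ 2) (N : ℕ) :
    ∑ u ∈ Q, mh κ d0 le δ ξ N u ≤ Q.card * (3 * Real.exp ((κ / 8 - 1) * la)) +
      ∑ k ∈ Finset.range K,
        AA κ d0 le δ (la - k * Real.log 2) (la - (k + 1) * Real.log 2) Q ξ N := by
  unfold AA
  rw [Finset.sum_comm, Finset.sum_congr rfl fun n _ => Finset.sum_comm, Finset.sum_comm,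
    ← nsmul_eq_mul, ← Finset.sum_const, ← Finset.sum_add_distrib]
  refine Finset.sum_le_sum fun u hu => ?_
  rw [Finset.sum_congr rfl fun n _ => ldef_lev hK _ _]
  obtain ⟨h1, h2⟩ := ldef_pt (ξ := ξ) hκ hκ8 hd hδ hδ1 hla hle (hQ u hu).1 (hQ u hu).2 N
  unfold mh
  split_ifs with h
  · exact h1 (h.trans hle)
  · rcases le_or_gt (frz d0 le δ u ξ N).l la with h3 | h3
    · exact (mart_pos _ _).le.trans (h1 h3)
    · rw [h2 h3]
      positivity

end Vale.Agent.P164
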