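import Vale.Agent.P164.Fam

namespace Vale.Agent.P164

open Set MeasureTheory

variable {κ : ℝ}

theorem lyap_bd_const {ι : Type*} (R : Set ι) (c : ℝ) : Bd R (fun _ => c) :=
  ⟨|c|, fun _ _ => le_rfl⟩

theorem lyap_diff {y0 : ℝ} (hy : 0 < y0) (l0 a : ℝ) {c : ℝ} (hc : 0 ≤ c) :
    ∃ C : ℝ, ∀ p ∈ Reg y0 l0, ∀ η ∈ Ioc (0 : ℝ) 1, ∀ ξ,
      |fam a c (eul (η ^ 2) p ξ) - fam a c p| ≤ C := by
  obtain ⟨C, hC⟩ := fam_bd hy l0 a hc
  refine ⟨C, fun p hp η hη ξ => abs_le.2 ⟨?_, ?_⟩⟩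
  · linarith [(hC p hp).1, fam_pos a c (eul (η ^ 2) p ξ)]
  · linarith [(hC p hp).2 η hη ξ, fam_pos a c p]

theorem lyap_num {c1 c2 c3 r g e : ℝ} (h2 : 0 < c2) (hr : 0 < r) (g0 : 0 ≤ g) (g1 : g ≤ 1)
    (he : 0 ≤ e) : ∃ A C : ℝ, 0 ≤ A ∧ 1 + A ≤ C ∧ ∀ s, 0 < s → s ≤ 1 →
      c1 * s + A * (s ^ g * (-c2 + c3 * s)) - C * (s ^ e * (r * s)) ≤ 0 := by
  obtain ⟨s0, hs0, hs1⟩ : ∃ s0 : ℝ, 0 < s0 ∧ |c3| * s0 ≤ c2 / 2 :=
    ⟨c2 / (2 * (|c3| + 1)), by positivity, by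
      rw [← mul_div_assoc, div_le_div_iff₀ (by positivity) (by norm_num)]
      nlinarith⟩
  have A0 : 0 ≤ 2 * |c1| / c2 := by positivity
  have k0 : 0 < s0 ^ e * (r * s0) := by positivity
  have q0 : 0 ≤ (|c1| + 2 * |c1| / c2 * |c3|) / (s0 ^ e * (r * s0)) := by positivity
  refine ⟨2 * |c1| / c2, 1 + 2 * |c1| / c2 + (|c1| + 2 * |c1| / c2 * |c3|) / (s0 ^ e * (r * s0)),
    A0, by linarith, fun s s0' s1 => ?_⟩
  have sg0 : 0 < s ^ g := Real.rpow_pos_of_pos s0' g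
  have sg1 : s ^ g ≤ 1 := Real.rpow_le_one s0'.le s1 g0
  have k1 : 0 < s ^ e * (r * s) := by positivity
  have a1 : c1 * s ≤ |c1| * s := mul_le_mul_of_nonneg_right (le_abs_self _) s0'.le
  have a3 : c3 * s ≤ |c3| * s := mul_le_mul_of_nonneg_right (le_abs_self _) s0'.le
  rcases le_total s s0 with h | h
  · have b1 : s ≤ s ^ g := by
      have := Real.rpow_le_rpow_of_exponent_ge s0' s1 g1
      rwa [Real.rpow_one] at this
    have b2 : |c3| * s ≤ |c3| * s0 := by gcongr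
    have b3 : s ^ g * (-c2 + c3 * s) ≤ s ^ g * (-(c2 / 2)) := by gcongr; linarith
    have b4 := mul_le_mul_of_nonneg_left b3 A0
    have b5 : 2 * |c1| / c2 * (s ^ g * (-(c2 / 2))) = -(|c1| * s ^ g) := by field_simp
    have b6 : |c1| * s ≤ |c1| * s ^ g := by gcongr
    have b7 := mul_nonneg (by linarith : 0 ≤ 1 + 2 * |c1| / c2 +
      (|c1| + 2 * |c1| / c2 * |c3|) / (s0 ^ e * (r * s0))) k1.le
    linarith
  · have b1 : s0 ^ e * (r * s0) ≤ s ^ e * (r * s) := by gcongr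
    have b2 : s ^ g * (-c2 + c3 * s) ≤ |c3| := by
      have : |c3| * s ≤ |c3| := mul_le_of_le_one_right (abs_nonneg _) s1
      calc s ^ g * (-c2 + c3 * s) ≤ s ^ g * |c3| := by gcongr; linarith
        _ ≤ |c3| := mul_le_of_le_one_left (abs_nonneg _) sg1
    have b3 := mul_le_mul_of_nonneg_left b2 A0
    have b4 : |c1| * s ≤ |c1| := mul_le_of_le_one_right (abs_nonneg _) s1
    have b5 := mul_le_mul_of_nonneg_left b1 q0
    rw [div_mul_cancel₀ _ k0.ne'] at b5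
    have b6 := mul_nonneg (by linarith : 0 ≤ 1 + 2 * |c1| / c2) k1.le
    linarith

theorem lyap_gen (hκ : 0 < κ) {a γ al A σ : ℝ} (hγ : 0 ≤ γ) (hal : 0 ≤ al)
    (h : ∀ p, rate κ a 0 p + A * (ss p ^ (γ / 2) * rate κ a γ p) +
      σ * (ss p ^ (al / 2) * rate κ a al p) ≤ 0) {y0 : ℝ} (l0 : ℝ) (hy : 0 < y0) :
    Sup κ (Reg y0 l0) (fun p η ξ => fam a 0 (eul (η ^ 2) p ξ) + A * fam a γ (eul (η ^ 2) p ξ) +
      σ * fam a al (eul (η ^ 2) p ξ)) (fun p => fam a 0 p + A * fam a γ p + σ * fam a al p) := by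
  refine (((jt_fam (κ := κ) hy l0 a le_rfl).add
    ((jt_fam hy l0 a hγ).smul (lyap_bd_const _ A))).add
    ((jt_fam hy l0 a hal).smul (lyap_bd_const _ σ))).sup hκ (fun p _ η _ => by fun_prop) ?_ ?_
  · obtain ⟨C1, h1⟩ := lyap_diff hy l0 a le_rfl
    obtain ⟨C2, h2⟩ := lyap_diff hy l0 a hγ
    obtain ⟨C3, h3⟩ := lyap_diff hy l0 a hal
    refine ⟨C1 + |A| * C2 + |σ| * C3, fun p hp η hη ξ => ?_⟩
    have e : fam a 0 (eul (η ^ 2) p ξ) + A * fam a γ (eul (η ^ 2) p ξ) +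
        σ * fam a al (eul (η ^ 2) p ξ) - (fam a 0 p + A * fam a γ p + σ * fam a al p) =
        (fam a 0 (eul (η ^ 2) p ξ) - fam a 0 p) + A * (fam a γ (eul (η ^ 2) p ξ) - fam a γ p) +
          σ * (fam a al (eul (η ^ 2) p ξ) - fam a al p) := by ring
    rw [e]
    refine (abs_add_three _ _ _).trans ?_
    rw [abs_mul, abs_mul]
    gcongr
    · exact h1 p hp η hη ξ
    · exact h2 p hp η hη ξ
    · exact h3 p hp η hη ξ
  · intro p _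
    have e : fam a 0 p * rate κ a 0 p / rho2 p + A * (fam a γ p * rate κ a γ p / rho2 p) +
        σ * (fam a al p * rate κ a al p / rho2 p) = Real.exp (a * p.l) / rho2 p *
        (rate κ a 0 p + A * (ss p ^ (γ / 2) * rate κ a γ p) +
          σ * (ss p ^ (al / 2) * rate κ a al p)) := by
      rw [fam_eq, fam_eq, fam_eq, zero_div, Real.rpow_zero]
      ring
    rw [e]
    exact mul_nonpos_of_nonneg_of_nonpos (div_nonneg (Real.exp_pos _).le (rho2_nonneg p)) (h p)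

theorem lyap_al (hκ : 0 < κ) (a : ℝ) (p : St) :
    rate κ a (8 / κ - 1) p = -(4 * (a - (κ / 8 - 1)) * ss p) := by
  unfold rate
  field_simp
  ring

theorem lyap_zero (a : ℝ) (p : St) : fam a 0 p = Real.exp (a * p.l) := by
  rw [fam_eq, zero_div, Real.rpow_zero, mul_one]

theorem lyap_choose (hκ : 0 < κ) (hκ8 : κ < 8) (a : ℝ) {r : ℝ} (hr : 0 < r) :
    ∃ γ A C : ℝ, 0 ≤ γ ∧ 0 ≤ A ∧ 1 + A ≤ C ∧ ∀ p, rate κ a 0 p +
      A * (ss p ^ (γ / 2) * rate κ a γ p) - C * (ss p ^ ((8 / κ - 1) / 2) * (r * ss p)) ≤ 0 := by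
  have hal : 0 < 8 / κ - 1 := by rw [sub_pos, lt_div_iff₀ hκ]; linarith
  obtain ⟨γ, g0, g1, g2⟩ : ∃ γ : ℝ, 0 < γ ∧ γ ≤ 1 ∧ γ ≤ (8 / κ - 1) / 2 :=
    ⟨min 1 ((8 / κ - 1) / 2), lt_min one_pos (by positivity), min_le_left _ _, min_le_right _ _⟩
  have h2 : 0 < γ * (4 - κ / 2 - γ * κ / 2) := by
    have e : 4 - κ / 2 - γ * κ / 2 = κ / 2 * (8 / κ - 1 - γ) := by field_simp; ring
    rw [e]
    exact mul_pos g0 (mul_pos (by positivity) (by linarith))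
  obtain ⟨A, C, hA, hC, h⟩ := lyap_num (c1 := -4 * a) (c3 := -4 * a + γ * (4 - κ - γ * κ / 2))
    (g := γ / 2) (e := (8 / κ - 1) / 2) h2 hr (by positivity) (by linarith) (by positivity)
  refine ⟨γ, A, C, g0.le, hA, hC, fun p => le_trans (le_of_eq ?_) (h _ (ss_pos p) (ss_le_one p))⟩
  unfold rate
  ring

theorem sup_mart (hκ : 0 < κ) (hκ8 : κ < 8) {y0 : ℝ} (hy : 0 < y0) (l0 : ℝ) :
    Sup κ (Reg y0 l0) (fun p η ξ => mart κ (eul (η ^ 2) p ξ)) (mart κ) ∧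
    Sup κ (Reg y0 l0) (fun p η ξ => -mart κ (eul (η ^ 2) p ξ)) (fun p => -mart κ p) := by
  have hc : 0 ≤ 8 / κ - 1 := by rw [sub_nonneg, le_div_iff₀ hκ]; linarith
  obtain ⟨C, hC⟩ := lyap_diff hy l0 (κ / 8 - 1) hc
  refine ⟨(jt_mart hκ hκ8 hy l0).sup hκ (fun p _ η _ => by fun_prop) ⟨C, hC⟩ fun _ _ => le_rfl, ?_⟩
  refine (((jt_mart hκ hκ8 hy l0).smul (lyap_bd_const _ (-1))).congr (L' := fun _ => 0)
    (fun _ _ _ _ _ => (neg_one_mul _).symm) (fun _ _ => (neg_one_mul _).symm) (fun _ _ => rfl)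
    (fun _ _ => (mul_zero _).symm)).sup hκ (fun p _ η _ => by fun_prop) ⟨C, fun p hp η hη ξ => ?_⟩
    fun _ _ => le_rfl
  rw [neg_sub_neg, abs_sub_comm]
  exact hC p hp η hη ξ

/-- Lyapunov function of order `ups ^ (d - 3)` -/
theorem lyap1 (hκ : 0 < κ) (hκ8 : κ < 8) : ∃ (C4 : ℝ) (F : St → ℝ), 1 ≤ C4 ∧ Measurable F ∧
    (∀ p, fam (κ / 8 - 2) 0 p - C4 * fam (κ / 8 - 2) (8 / κ - 1) p ≤ F p) ∧
    (∀ p, F p ≤ C4 * fam (κ / 8 - 2) 0 p) ∧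
    ∀ y0 l0 : ℝ, 0 < y0 → Sup κ (Reg y0 l0) (fun p η ξ => F (eul (η ^ 2) p ξ)) F := by
  have hc : 0 ≤ 8 / κ - 1 := by rw [sub_nonneg, le_div_iff₀ hκ]; linarith
  obtain ⟨γ, A, C, hγ, hA, hC, h⟩ := lyap_choose hκ hκ8 (κ / 8 - 2) (r := 4) (by norm_num)
  refine ⟨C, fun p => fam (κ / 8 - 2) 0 p + A * fam (κ / 8 - 2) γ p +
    -C * fam (κ / 8 - 2) (8 / κ - 1) p, by linarith, by fun_prop, fun p => ?_, fun p => ?_,
    fun y0 l0 hy => lyap_gen hκ hγ hc (fun p => le_trans (le_of_eq ?_) (h p)) l0 hy⟩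
  · have := mul_nonneg hA (fam_pos (κ / 8 - 2) γ p).le
    linarith
  · have h1 := mul_le_mul_of_nonneg_left (fam_le (κ / 8 - 2) hγ p) hA
    have h2 := mul_nonneg (by linarith : 0 ≤ C) (fam_pos (κ / 8 - 2) (8 / κ - 1) p).le
    have h3 := mul_le_mul_of_nonneg_right hC (Real.exp_pos ((κ / 8 - 2) * p.l)).le
    simp only [lyap_zero]
    linarith
  · rw [lyap_al hκ]
    ring

/-- nonnegative Lyapunov function of order `ups ^ (d - 2 + b)` -/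
theorem lyap2 (hκ : 0 < κ) (hκ8 : κ < 8) {b : ℝ} (hb : 0 < b) :
    ∃ (C5 : ℝ) (F : St → ℝ), 1 ≤ C5 ∧ Measurable F ∧
    (∀ p, fam (κ / 8 - 1 + b) 0 p ≤ F p) ∧ (∀ p, F p ≤ C5 * fam (κ / 8 - 1 + b) 0 p) ∧
    ∀ y0 l0 : ℝ, 0 < y0 → Sup κ (Reg y0 l0) (fun p η ξ => F (eul (η ^ 2) p ξ)) F := by
  have hc : 0 ≤ 8 / κ - 1 := by rw [sub_nonneg, le_div_iff₀ hκ]; linarith
  obtain ⟨γ, A, C, hγ, hA, hC, h⟩ :=
    lyap_choose hκ hκ8 (κ / 8 - 1 + b) (r := 4 * b) (by positivity)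
  have C0 : 0 ≤ C := by linarith
  refine ⟨1 + A + C, fun p => fam (κ / 8 - 1 + b) 0 p + A * fam (κ / 8 - 1 + b) γ p +
    C * fam (κ / 8 - 1 + b) (8 / κ - 1) p, by linarith, by fun_prop, fun p => ?_, fun p => ?_,
    fun y0 l0 hy => lyap_gen hκ hγ hc (fun p => le_trans (le_of_eq ?_) (h p)) l0 hy⟩
  · have h1 := mul_nonneg hA (fam_pos (κ / 8 - 1 + b) γ p).le
    have h2 := mul_nonneg C0 (fam_pos (κ / 8 - 1 + b) (8 / κ - 1) p).le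
    linarith
  · have h1 := mul_le_mul_of_nonneg_left (fam_le (κ / 8 - 1 + b) hγ p) hA
    have h2 := mul_le_mul_of_nonneg_left (fam_le (κ / 8 - 1 + b) hc p) C0
    simp only [lyap_zero]
    linarith
  · rw [lyap_al hκ]
    ring

end Vale.Agent.P164
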