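import Vale.Agent.P164.LDef
import Vale.Agent.P164.Lyap

namespace Vale.Agent.P164

open Set MeasureTheory

theorem lprob_out {a c s : ℝ} (hc : 0 ≤ c) {p : St}
    (h : ss p ≤ Real.exp s ^ 2 * Real.exp (p.l / 4)) :
    fam a c p ≤ Real.exp (c * s) * fam (a + c / 8) 0 p := by
  rw [← Real.exp_nat_mul, ← Real.exp_add, ← Real.log_le_iff_le_exp (ss_pos p), ss, one_div,
    Real.log_inv] at h
  rw [lyap_zero, ← Real.exp_add, fam]
  refine Real.exp_le_exp.2 ?_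
  have h1 := mul_le_mul_of_nonneg_left h hc
  push_cast at h1
  linarith

theorem lprob_ini {a c : ℝ} (ha : -1 ≤ a) (ha0 : a ≤ 0) (hc : 0 ≤ c) {u : ℂ} (h0 : |u.re| ≤ 1)
    (h1 : 1 ≤ u.im) (h2 : u.im ≤ 2) :
    Real.exp (-1 - c / 2) ≤ fam a c (ini u) ∧ fam (a + c / 8) 0 (ini u) ≤ Real.exp (c / 8) := by
  have a1 : 0 ≤ Real.log u.im := Real.log_nonneg h1
  have a2 : Real.log u.im ≤ 1 := by linarith [Real.log_le_sub_one_of_pos (by linarith : 0 < u.im)]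
  have a3 : tau (ini u) ^ 2 ≤ 1 := by
    rw [tau, ini_x, ini_y, div_pow, div_le_one (by positivity), ← sq_abs]
    exact pow_le_pow_left₀ (abs_nonneg _) (h0.trans h1) 2
  have a4 : Real.log (1 + tau (ini u) ^ 2) ≤ 1 := by
    linarith [Real.log_le_sub_one_of_pos (by positivity : 0 < 1 + tau (ini u) ^ 2)]
  rw [lyap_zero, fam, ini_l]
  refine ⟨Real.exp_le_exp.2 ?_, Real.exp_le_exp.2 ?_⟩
  · nlinarith [mul_le_mul_of_nonneg_left a4 hc, mul_le_mul_of_nonneg_right ha a1]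
  · nlinarith [mul_le_mul_of_nonneg_left a2 hc, mul_nonpos_of_nonpos_of_nonneg ha0 a1]

theorem lprob_sup {κ M t : ℝ} (ht : 0 ≤ t) {R : Set St} {f g : St → ℝ}
    (hf : Sup κ R (fun p η ξ => -f (eul (η ^ 2) p ξ)) fun p => -f p)
    (hg : Sup κ R (fun p η ξ => g (eul (η ^ 2) p ξ)) g) :
    Sup κ R (fun p η ξ => M + -f (eul (η ^ 2) p ξ) + t * g (eul (η ^ 2) p ξ))
      fun p => M + -f p + t * g p := by
  obtain ⟨C1, h1, hf⟩ := hf
  obtain ⟨C2, h2, hg⟩ := hg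
  refine ⟨C1 + t * C2, by positivity, fun p hp η hη => ?_⟩
  obtain ⟨a1, a2⟩ := hf p hp η hη
  obtain ⟨b1, b2⟩ := hg p hp η hη
  beta_reduce at a1 a2 b1 b2 ⊢
  have a3 : Integrable (fun ξ => M + -f (eul (η ^ 2) p ξ)) (gs κ η) := (integrable_const M).add a1
  refine ⟨a3.add (b1.const_mul t), ?_⟩
  rw [integral_add a3 (b1.const_mul t), integral_add (integrable_const M) a1, integral_const_mul]
  have b3 := mul_le_mul_of_nonneg_left b2 ht
  simp only [integral_const, probReal_univ, smul_eq_mul, one_mul]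
  linarith

theorem lprob_step {κ d0 le η C : ℝ} {Φ : St → ℝ} {p : St} (hC : 0 ≤ C)
    (h : Integrable (fun ξ => Φ (eul (η ^ 2) p ξ)) (gs κ η) ∧
      ∫ ξ, Φ (eul (η ^ 2) p ξ) ∂gs κ η ≤ Φ p + C) :
    Integrable (fun ξ => Φ (stp d0 le (η ^ 2) p ξ)) (gs κ η) ∧
      ∫ ξ, Φ (stp d0 le (η ^ 2) p ξ) ∂gs κ η ≤ 1 * Φ p + C := by
  rw [one_mul]
  by_cases ha : actv d0 le p
  · simpa only [stp, if_pos ha] using h
  · simp only [stp, if_neg ha]
    refine ⟨integrable_const _, ?_⟩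
    simp only [integral_const, probReal_univ, smul_eq_mul, one_mul]
    linarith

/-- the expected final mass of a point is bounded below -/
theorem lp1 {κ : ℝ} (hκ : 0 < κ) (hκ8 : κ < 8) : ∃ d0 c : ℝ, 0 < d0 ∧ d0 ≤ 1 ∧ 0 < c ∧
    ∀ le T : ℝ, le ≤ 0 → ∃ η0 : ℝ, 0 < η0 ∧ ∀ η : ℝ, 0 < η → η ≤ η0 → ∀ N : ℕ,
      4 / d0 ^ 4 ≤ N * η ^ 2 → N * η ^ 2 ≤ T → ∀ u : ℂ, |u.re| ≤ 1 → 1 ≤ u.im → u.im ≤ 2 →
      Integrable (fun ξ => mh κ d0 le (η ^ 2) ξ N u) (GG κ η) ∧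
        c ≤ ∫ ξ, mh κ d0 le (η ^ 2) ξ N u ∂GG κ η := by
  have hc : 0 < 8 / κ - 1 := by
    rw [sub_pos, lt_div_iff₀ hκ]
    linarith
  obtain ⟨C5, F, hC5, hF, F1, F2, F3⟩ := lyap2 hκ hκ8 (b := (8 / κ - 1) / 8) (by positivity)
  obtain ⟨m, hm⟩ : ∃ m, m = Real.exp (-1 - (8 / κ - 1) / 2) := ⟨_, rfl⟩
  have hm0 : 0 < m := hm ▸ Real.exp_pos _
  have hE := Real.exp_pos ((8 / κ - 1) / 8)
  obtain ⟨t, t0, t1, t2⟩ : ∃ t : ℝ, 0 < t ∧ t ≤ 1 ∧ t * (C5 * Real.exp ((8 / κ - 1) / 8)) ≤ m / 3 :=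
    ⟨min 1 (m / 3 / (C5 * Real.exp ((8 / κ - 1) / 8))), by positivity, min_le_left _ _,
      (le_div_iff₀ (by positivity)).1 (min_le_right _ _)⟩
  obtain ⟨s, hs0, hs⟩ : ∃ s : ℝ, s ≤ 0 ∧ Real.exp ((8 / κ - 1) * s) = t :=
    ⟨Real.log t / (8 / κ - 1), div_nonpos_of_nonpos_of_nonneg (Real.log_nonpos t0.le t1) hc.le,
      by rw [mul_div_cancel₀ _ hc.ne', Real.exp_log t0]⟩
  have hd := Real.exp_pos s
  refine ⟨Real.exp s, m / 3, hd, Real.exp_le_one_iff.2 hs0, by positivity, fun le T hle => ?_⟩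
  have hy := ymin_pos (Real.exp s) le
  obtain ⟨M, hM⟩ := fam_bd hy (le - 1) (κ / 8 - 1) hc.le
  obtain ⟨C, hC, hS⟩ := lprob_sup (M := M) t0.le (sup_mart hκ hκ8 hy (le - 1)).2 (F3 _ _ hy)
  obtain ⟨η0, e0, e1, he⟩ := err_small C T (m / 3) (by positivity)
  refine ⟨min η0 (ymin (Real.exp s) le / 2), by positivity,
    fun η hη hη' N hN hT u h0 h1 h2 => ?_⟩
  have hη0 := hη'.trans (min_le_left _ _)
  have hδ1 : 4 * (η ^ 2 / ymin (Real.exp s) le ^ 2) ≤ 1 := by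
    rw [← mul_div_assoc, div_le_one (by positivity)]
    nlinarith [hη'.trans (min_le_right _ _)]
  have hI := fun ξ => frz_FI (ξ := ξ) hd (sq_nonneg η) hδ1 hle h1 h2 N
  have hb : ∀ p ∈ FI (Real.exp s) le, mart κ p ≤ M := fun p hp => (hM p (FI.reg hd hp)).1
  have hF0 : ∀ p, 0 ≤ t * F p := fun p => mul_nonneg t0.le ((fam_pos _ _ p).le.trans (F1 p))
  obtain ⟨i1, i2⟩ := machine (κ := κ) (η := η) (measurable_stp (Real.exp s) le (η ^ 2))
    (stp_FI hd (sq_nonneg η) hδ1) (Φ := fun p => M + -mart κ p + t * F p) (by fun_prop)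
    (fun p hp => by linarith [hb p hp, hF0 p]) (a := 1) (b := C * η ^ 3) le_rfl (by positivity)
    (fun p hp => lprob_step (Φ := fun p => M + -mart κ p + t * F p) (by positivity)
      (hS p (FI.reg hd hp) η ⟨hη, hη0.trans e1⟩)) (ini_FI hle h1 h2) N
  have i3 : Integrable (fun ξ => mh κ (Real.exp s) le (η ^ 2) ξ N u) (GG κ η) := by
    refine Integrable.of_bound (measurable_mh _ _ _ _ _ _).aestronglyMeasurable M
      (ae_of_all _ fun ξ => ?_)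
    rw [Real.norm_of_nonneg (mh_nonneg N), mh]
    split_ifs
    · exact hb _ (hI ξ)
    · exact (mart_pos _ _).le.trans (hb _ (hI ξ))
  refine ⟨i3, ?_⟩
  have i4 := integral_mono ((integrable_const M).sub i1) i3 fun ξ => by
    change M - (M + -mart κ (frz (Real.exp s) le (η ^ 2) u ξ N) +
      t * F (frz (Real.exp s) le (η ^ 2) u ξ N)) ≤ mh κ (Real.exp s) le (η ^ 2) ξ N u
    rw [mh]
    split_ifs with hl
    · linarith [hF0 (frz (Real.exp s) le (η ^ 2) u ξ N)]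
    · have a1 := frz_end (ξ := ξ) hd (sq_nonneg η) hδ1 hle h1 h2 hN
      have a2 := lprob_out (a := κ / 8 - 1) hc.le (not_lt.1 fun h => a1 ⟨not_le.1 hl, h⟩)
      have a3 := mul_le_mul_of_nonneg_left (F1 (frz (Real.exp s) le (η ^ 2) u ξ N)) t0.le
      rw [hs] at a2
      rw [mart]
      linarith
  rw [integral_sub' (integrable_const M) i1] at i4
  simp only [integral_const, probReal_univ, smul_eq_mul, one_mul, one_pow] at i2 i4
  obtain ⟨j1, j2⟩ := lprob_ini (a := κ / 8 - 1) (by linarith) (by linarith) hc.le h0 h1 h2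
  have j3 := mul_le_mul_of_nonneg_left ((F2 (ini u)).trans
    (mul_le_mul_of_nonneg_left j2 (by linarith))) t0.le
  have j4 := (he η hη hη0 N hT).1
  have j5 : m ≤ mart κ (ini u) := hm ▸ j1
  linarith

end Vale.Agent.P164
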