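import Vale.Agent.P164.Eul

namespace Vale.Agent.P164

open Set MeasureTheory ProbabilityTheory Filter
open scoped ENNReal NNReal Topology

/-- law of one increment for mesh `η ^ 2` -/
noncomputable def gs (κ η : ℝ) : Measure ℝ := gaussianReal 0 (κ * η ^ 2).toNNReal

/-- law of the sequence of increments -/
noncomputable def GG (κ η : ℝ) : Measure (ℕ → ℝ) := Measure.infinitePi fun _ => gs κ η

instance (κ η : ℝ) : IsProbabilityMeasure (gs κ η) := by unfold gs; infer_instance
instance (κ η : ℝ) : IsProbabilityMeasure (GG κ η) := by unfold GG; infer_instance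

/-- driving function of a path -/
noncomputable def drv (κ : ℝ) (b : ℝ≥0 → ℝ) (t : ℝ) : ℝ := √κ * b t.toNNReal

theorem measurable_inc (κ δ : ℝ) : Measurable fun b : ℝ≥0 → ℝ => inc (drv κ b) δ := by
  refine measurable_pi_lambda _ fun n => ?_
  unfold inc drv
  fun_prop

variable {Ω : Type*} [MeasurableSpace Ω] {P : Measure Ω} {B : ℝ≥0 → Ω → ℝ}

theorem inc_law (hB : IsBrownianReal B P) {κ η : ℝ} (hκ : 0 < κ) (hη : 0 < η) :
    HasLaw (fun ω => inc (drv κ fun t => B t ω) (η ^ 2)) (GG κ η) P := by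
  have ht : Monotone fun n : ℕ => ((n : ℝ) * η ^ 2).toNNReal := fun m n h =>
    Real.toNNReal_le_toNNReal (mul_le_mul_of_nonneg_right (Nat.cast_le.2 h) (sq_nonneg η))
  have h1 := (hB.hasIndepIncrements.nat ht).comp (fun _ x => √κ * x) (fun _ => by fun_prop)
  have h2 : ∀ n : ℕ, HasLaw (fun ω => √κ * (B (((n + 1 : ℕ) : ℝ) * η ^ 2).toNNReal ω -
      B ((n : ℝ) * η ^ 2).toNNReal ω)) (gs κ η) P := fun n => by
    have h3 := gaussianReal_const_mul (hB.hasLaw_sub (((n + 1 : ℕ) : ℝ) * η ^ 2).toNNReal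
      ((n : ℝ) * η ^ 2).toNNReal) (√κ)
    rw [mul_zero] at h3
    convert h3 using 1
    · rfl
    unfold gs
    congr 1
    ext
    have e1 : (0 : ℝ) ≤ ((n + 1 : ℕ) : ℝ) * η ^ 2 := by positivity
    have e2 : (0 : ℝ) ≤ (n : ℝ) * η ^ 2 := by positivity
    simp only [NNReal.coe_mul, NNReal.coe_mk, coe_nndist, NNReal.val_eq_coe]
    rw [Real.coe_toNNReal _ (by positivity), Real.coe_toNNReal _ e1, Real.coe_toNNReal _ e2,
      Real.sq_sqrt hκ.le, Real.dist_eq]
    push_cast
    rw [show ((n : ℝ) + 1) * η ^ 2 - n * η ^ 2 = η ^ 2 by ring, abs_of_nonneg (sq_nonneg η)]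
  have h4 := iIndepFun.hasLaw_infinitePi h2 h1
    (aemeasurable_pi_iff.2 fun n => (h2 n).aemeasurable)
  convert h4 using 1
  swap
  · rfl
  funext ω n
  simp only [inc, drv]
  push_cast
  ring

theorem machine_step {S : Type*} [MeasurableSpace S] {κ η : ℝ} {f : S → ℝ → S}
    (hf : Measurable (Function.uncurry f)) (x0 : S) (n : ℕ) {Ψ Θ : S → ℝ≥0∞}
    (hΨ : Measurable Ψ) (hΘ : Measurable Θ)
    (h : ∀ ζ, ∫⁻ x, Ψ (f (run f x0 ζ n) x) ∂gs κ η ≤ Θ (run f x0 ζ n)) :
    ∫⁻ ξ, Ψ (run f x0 ξ (n + 1)) ∂GG κ η ≤ ∫⁻ ξ, Θ (run f x0 ξ n) ∂GG κ η := by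
  classical
  let tr : (ℕ → ℝ) → ℕ → ℝ := fun ξ i => if i < n then ξ i else 0
  have htr : Measurable tr := measurable_pi_lambda _ fun i => by
    by_cases hi : i < n
    · simp only [tr, if_pos hi]
      exact measurable_pi_apply i
    · simp only [tr, if_neg hi]
      exact measurable_const
  have hrun : ∀ ξ, run f x0 (tr ξ) n = run f x0 ξ n := fun ξ =>
    run_congr f x0 n fun i hi => if_pos hi
  have h1 := (iIndepFun_infinitePi (P := fun _ : ℕ => gs κ η) (X := fun _ x => x)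
    fun _ => measurable_id).indepFun_finset (Finset.range n) {n} (by simp)
    fun i => measurable_pi_apply i
  have h2 : IndepFun tr (fun ξ => ξ n) (GG κ η) := by
    have h6 : Measurable fun y : ({n} : Finset ℕ) → ℝ => y ⟨n, Finset.mem_singleton_self n⟩ :=
      measurable_pi_apply _
    have h3 := h1.comp (φ := fun (y : Finset.range n → ℝ) (i : ℕ) =>
        if hi : i < n then y ⟨i, Finset.mem_range.2 hi⟩ else 0)
      (ψ := fun y : ({n} : Finset ℕ) → ℝ => y ⟨n, Finset.mem_singleton_self n⟩)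
      (measurable_pi_lambda _ fun i => by
        by_cases hi : i < n
        · simp only [dif_pos hi]
          exact measurable_pi_apply _
        · simp only [dif_neg hi]
          exact measurable_const) h6
    exact h3
  have h4 := h2.map_prod_eq_prod_map_map htr.aemeasurable (measurable_pi_apply n).aemeasurable
  have h5 : (GG κ η).map (fun ξ => ξ n) = gs κ η := Measure.infinitePi_map_eval _ n
  have hm : Measurable fun z : (ℕ → ℝ) × ℝ => Ψ (f (run f x0 z.1 n) z.2) :=
    hΨ.comp (hf.comp (((measurable_run hf x0 n).comp measurable_fst).prodMk measurable_snd))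
  calc ∫⁻ ξ, Ψ (run f x0 ξ (n + 1)) ∂GG κ η
      = ∫⁻ z, Ψ (f (run f x0 z.1 n) z.2) ∂(GG κ η).map fun ξ => (tr ξ, ξ n) := by
        rw [lintegral_map hm (htr.prodMk (measurable_pi_apply n))]
        simp only [hrun, run_succ]
    _ ≤ ∫⁻ ζ, Θ (run f x0 ζ n) ∂(GG κ η).map tr := by
        rw [h4, h5, lintegral_prod _ hm.aemeasurable]
        exact lintegral_mono h
    _ = _ := by
        rw [lintegral_map (f := fun ζ => Θ (run f x0 ζ n)) (hΘ.comp (measurable_run hf x0 n)) htr]
        simp only [hrun]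

/-- approximate supermartingales along a run -/
theorem machine {S : Type*} [MeasurableSpace S] {κ η : ℝ} {f : S → ℝ → S}
    (hf : Measurable (Function.uncurry f)) {I : Set S} (hI : ∀ p ∈ I, ∀ ξ, f p ξ ∈ I)
    {Φ : S → ℝ} (hΦ : Measurable Φ) (h0 : ∀ p ∈ I, 0 ≤ Φ p) {a b : ℝ} (ha : 1 ≤ a) (hb : 0 ≤ b)
    (hs : ∀ p ∈ I, Integrable (fun ξ => Φ (f p ξ)) (gs κ η) ∧
      ∫ ξ, Φ (f p ξ) ∂gs κ η ≤ a * Φ p + b) {x0 : S} (hx : x0 ∈ I) (n : ℕ) :
    Integrable (fun ξ => Φ (run f x0 ξ n)) (GG κ η) ∧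
      ∫ ξ, Φ (run f x0 ξ n) ∂GG κ η ≤ a ^ n * (Φ x0 + n * b) := by
  induction n with
  | zero => simp
  | succ n ih =>
    have hp : ∀ ξ m, 0 ≤ Φ (run f x0 ξ m) := fun ξ m => h0 _ (run_mem hI hx ξ m)
    have h1 := machine_step (κ := κ) (η := η) hf x0 n (Ψ := fun p => ENNReal.ofReal (Φ p))
      (Θ := fun p => ENNReal.ofReal (a * Φ p + b)) hΦ.ennreal_ofReal
      ((hΦ.const_mul a).add_const b).ennreal_ofReal fun ζ => by
        have hm := run_mem hI hx ζ n
        rw [← ofReal_integral_eq_lintegral_ofReal (hs _ hm).1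
          (Eventually.of_forall fun x => h0 _ (hI _ hm x))]
        exact ENNReal.ofReal_le_ofReal (hs _ hm).2
    have ha0 : 0 ≤ a := by linarith
    have h2 : Integrable (fun ξ => a * Φ (run f x0 ξ n) + b) (GG κ η) :=
      (ih.1.const_mul a).add (integrable_const b)
    rw [← ofReal_integral_eq_lintegral_ofReal h2
      (Eventually.of_forall fun ξ => add_nonneg (mul_nonneg ha0 (hp ξ n)) hb)] at h1
    have h3 : Integrable (fun ξ => Φ (run f x0 ξ (n + 1))) (GG κ η) :=
      (lintegral_ofReal_ne_top_iff_integrable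
        (hΦ.comp (measurable_run hf x0 (n + 1))).aestronglyMeasurable
        (Eventually.of_forall fun ξ => hp ξ _)).1 (h1.trans_lt ENNReal.ofReal_lt_top).ne
    refine ⟨h3, ?_⟩
    rw [← ofReal_integral_eq_lintegral_ofReal h3 (Eventually.of_forall fun ξ => hp ξ _),
      ENNReal.ofReal_le_ofReal_iff
        (integral_nonneg fun ξ => add_nonneg (mul_nonneg ha0 (hp ξ n)) hb),
      integral_add (ih.1.const_mul a) (integrable_const b), integral_const_mul] at h1
    have h4 := mul_le_mul_of_nonneg_left ih.2 ha0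
    have h5 := mul_le_mul_of_nonneg_right (one_le_pow₀ ha (n := n + 1)) hb
    simp only [integral_const, probReal_univ, smul_eq_mul, one_mul] at h1
    rw [pow_succ] at h5 ⊢
    push_cast
    linarith

/-- the accumulated errors vanish with the mesh -/
theorem err_small (C T e : ℝ) (he : 0 < e) : ∃ η0 : ℝ, 0 < η0 ∧ η0 ≤ 1 ∧ ∀ η : ℝ, 0 < η → η ≤ η0 →
    ∀ N : ℕ, N * η ^ 2 ≤ T → N * (C * η ^ 3) ≤ e ∧ (1 + |C| * η ^ 3) ^ N ≤ 1 + e := by
  have hl : 0 < Real.log (1 + e) := Real.log_pos (by linarith)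
  have hl' : Real.log (1 + e) ≤ e := by
    have := Real.log_le_sub_one_of_pos (by linarith : 0 < 1 + e)
    linarith
  have hD : 0 < |C| * |T| + 1 := by positivity
  refine ⟨min 1 (Real.log (1 + e) / (|C| * |T| + 1)), by positivity, min_le_left _ _,
    fun η hη hη' N hN => ?_⟩
  have h1 : η * (|C| * |T| + 1) ≤ Real.log (1 + e) :=
    (le_div_iff₀ hD).1 (hη'.trans (min_le_right _ _))
  have h2 : N * (|C| * η ^ 3) ≤ Real.log (1 + e) := by
    have h3 := mul_le_mul_of_nonneg_left (hN.trans (le_abs_self T))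
      (mul_nonneg (abs_nonneg C) hη.le)
    nlinarith
  refine ⟨le_trans ?_ (h2.trans hl'), ?_⟩
  · exact mul_le_mul_of_nonneg_left (mul_le_mul_of_nonneg_right (le_abs_self C) (by positivity))
      (Nat.cast_nonneg N)
  · have h4 : (1 + |C| * η ^ 3) ^ N ≤ Real.exp (|C| * η ^ 3) ^ N :=
      pow_le_pow_left₀ (by positivity) (by linarith [Real.add_one_le_exp (|C| * η ^ 3)]) N
    rw [← Real.exp_nat_mul] at h4
    exact h4.trans ((Real.exp_le_exp.2 h2).trans_eq (Real.exp_log (by linarith)))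

theorem probB_liminf {f : ℕ → Ω → ℝ≥0∞} (hf : ∀ i, AEMeasurable (f i) P) :
    AEMeasurable (fun ω => liminf (fun i => f i ω) atTop) P := by
  refine ⟨fun ω => liminf (fun i => (hf i).mk (f i) ω) atTop,
    Measurable.liminf fun i => (hf i).measurable_mk, ?_⟩
  filter_upwards [ae_all_iff.2 fun i => (hf i).ae_eq_mk] with ω h
  simp only [h]

/-- iterated Fatou lemma -/
theorem fatou3 {N : ℕ → ℕ → ℕ → Ω → ℝ≥0∞} (hN : ∀ k i j, AEMeasurable (N k i j) P) {C : ℝ≥0∞}
    (hC : ∀ᶠ k in atTop, ∀ i, ∀ᶠ j in atTop, ∫⁻ ω, N k i j ω ∂P ≤ C) :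
    ∃ N' : Ω → ℝ≥0∞, AEMeasurable N' P ∧ ∫⁻ ω, N' ω ∂P ≤ C ∧ ∀ ω, ∀ x : ℕ → ℝ≥0∞,
      (∀ᶠ k in atTop, ∀ᶠ i in atTop, ∀ᶠ j in atTop, x k ≤ N k i j ω) → liminf x atTop ≤ N' ω := by
  have m1 := fun k i => probB_liminf (hN k i)
  have m2 := fun k => probB_liminf (m1 k)
  refine ⟨_, probB_liminf m2, (lintegral_liminf_le' m2).trans ?_, fun ω x hx => ?_⟩
  · refine liminf_le_of_frequently_le' (hC.mono fun k hk => ?_).frequently
    refine (lintegral_liminf_le' (m1 k)).trans (liminf_le_of_frequently_le'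
      (Eventually.of_forall fun i => ?_).frequently)
    exact (lintegral_liminf_le' (hN k i)).trans (liminf_le_of_frequently_le' (hk i).frequently)
  · refine liminf_le_liminf (hx.mono fun k hk => ?_)
    exact le_liminf_of_le (h := hk.mono fun i hi => le_liminf_of_le (h := hi))

theorem probB_tail [IsProbabilityMeasure P] {A : ℕ → Set Ω}
    (hA : ∀ n, NullMeasurableSet (A n) P) :
    Tendsto (fun n => P (⋃ m ≥ n, A m)) atTop (𝓝 (P {ω | ∃ᶠ n in atTop, ω ∈ A n})) := by
  have e : {ω | ∃ᶠ n in atTop, ω ∈ A n} = ⋂ n, ⋃ m ≥ n, A m := by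
    ext ω
    simp [frequently_atTop]
  rw [e]
  exact tendsto_measure_iInter_atTop
    (fun n => NullMeasurableSet.biUnion (to_countable _) fun m _ => hA m)
    (fun n n' h => biUnion_subset_biUnion_left fun m (hm : n' ≤ m) => h.trans hm)
    ⟨0, measure_ne_top _ _⟩

/-- reverse Fatou lemma for events -/
theorem freq_ge [IsProbabilityMeasure P] {A : ℕ → Set Ω} (hA : ∀ n, NullMeasurableSet (A n) P)
    {p : ℝ≥0∞} (hp : ∀ᶠ n in atTop, p ≤ P (A n)) : p ≤ P {ω | ∃ᶠ n in atTop, ω ∈ A n} := by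
  refine ge_of_tendsto' (probB_tail hA) fun n => ?_
  obtain ⟨m, h1, h2⟩ := (hp.and (eventually_ge_atTop n)).exists
  exact h1.trans (measure_mono (subset_biUnion_of_mem (u := A) h2))

/-- events that almost surely fail eventually have vanishing probability -/
theorem prob_small [IsProbabilityMeasure P] {A : ℕ → Set Ω} (hA : ∀ n, NullMeasurableSet (A n) P)
    (h : ∀ᵐ ω ∂P, ∀ᶠ n in atTop, ω ∉ A n) : Tendsto (fun n => P (A n)) atTop (𝓝 0) := by
  have h0 : P {ω | ∃ᶠ n in atTop, ω ∈ A n} = 0 := by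
    rw [ae_iff] at h
    exact h
  have h1 := probB_tail hA
  rw [h0] at h1
  exact tendsto_of_tendsto_of_tendsto_of_le_of_le tendsto_const_nhds h1 (fun _ => zero_le)
    fun n => measure_mono (subset_biUnion_of_mem (u := A) (le_refl n))

/-- independent trials on consecutive time intervals -/
theorem trials (hB : IsBrownianReal B P) {p : ℝ≥0∞} (hp : 0 < p) {s : ℕ → ℝ≥0} (hs : Monotone s)
    {E : ℕ → Set (ℝ≥0 → ℝ)} (hE : ∀ i, MeasurableSet (E i))
    (hP : ∀ i, p ≤ P {ω | (fun t => B (s i + min t (s (i + 1) - s i)) ω - B (s i) ω) ∈ E i}) :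
    ∀ᵐ ω ∂P, ∃ i, (fun t => B (s i + min t (s (i + 1) - s i)) ω - B (s i) ω) ∈ E i := by
  have hPm : IsProbabilityMeasure P := hB.isGaussianProcess.isProbabilityMeasure
  have hpath : @Measurable (NullMeasurableSpace Ω P) (ℝ≥0 → ℝ) _ _ fun ω t => B t ω :=
    measurable_pi_lambda _ fun t => (hB.aemeasurable t).nullMeasurable.measurable'
  have hA : ∀ i, NullMeasurableSet
      {ω | (fun t => B (s i + min t (s (i + 1) - s i)) ω - B (s i) ω) ∈ E i} P := fun i => by
    have h1 : Measurable fun (b : ℝ≥0 → ℝ) (t : ℝ≥0) =>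
        b (s i + min t (s (i + 1) - s i)) - b (s i) :=
      measurable_pi_lambda _ fun t => (measurable_pi_apply _).sub (measurable_pi_apply _)
    exact (h1.comp hpath) (hE i)
  have key : ∀ n, P {ω | ∀ i < n,
      (fun t => B (s i + min t (s (i + 1) - s i)) ω - B (s i) ω) ∉ E i} ≤ (1 - p) ^ n := by
    intro n
    induction n with
    | zero => simp
    | succ n ih =>
      have h1 : Measurable fun (b : ℝ≥0 → ℝ) (t : ℝ≥0) => b (min t (s (n + 1) - s n)) :=
        measurable_pi_lambda _ fun t => measurable_pi_apply _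
      have h2 : ∀ i, Measurable fun (c : Iic (s n) → ℝ) (t : ℝ≥0) =>
          c ⟨min (s i + min t (s (i + 1) - s i)) (s n), mem_Iic.2 (min_le_right _ _)⟩ -
            c ⟨min (s i) (s n), mem_Iic.2 (min_le_right _ _)⟩ := fun i =>
        measurable_pi_lambda _ fun t => by fun_prop
      have h3 := indepFun_iff_measure_inter_preimage_eq_mul.1 (hB.indepFun_shift (s n)) _ _
        (h1 (hE n)).compl
        (MeasurableSet.biInter (to_countable (Iio n)) fun i _ => (h2 i (hE i)).compl)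
      have e1 : (fun ω (t : Iic (s n)) => B t ω) ⁻¹' (⋂ i ∈ Iio n,
          ((fun (c : Iic (s n) → ℝ) (t : ℝ≥0) =>
            c ⟨min (s i + min t (s (i + 1) - s i)) (s n), mem_Iic.2 (min_le_right _ _)⟩ -
              c ⟨min (s i) (s n), mem_Iic.2 (min_le_right _ _)⟩) ⁻¹' E i)ᶜ) = {ω | ∀ i < n,
          (fun t => B (s i + min t (s (i + 1) - s i)) ω - B (s i) ω) ∉ E i} := by
        ext ω
        simp only [mem_preimage, mem_iInter, mem_compl_iff, mem_Iio]
        refine forall₂_congr fun i hi => ?_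
        have a1 : ∀ t, min (s i + min t (s (i + 1) - s i)) (s n) =
            s i + min t (s (i + 1) - s i) := fun t => min_eq_left (by
          refine le_trans (add_le_add_right (min_le_right _ _) _) ?_
          rw [add_tsub_cancel_of_le (hs (Nat.le_succ i))]
          exact hs hi)
        simp only [a1, min_eq_left (hs hi.le)]
      rw [e1] at h3
      have e2 : {ω | ∀ i < n + 1,
          (fun t => B (s i + min t (s (i + 1) - s i)) ω - B (s i) ω) ∉ E i} =
          {ω | (fun t => B (s n + min t (s (n + 1) - s n)) ω - B (s n) ω) ∈ E n}ᶜ ∩ {ω | ∀ i < n,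
            (fun t => B (s i + min t (s (i + 1) - s i)) ω - B (s i) ω) ∉ E i} := by
        ext ω
        exact Nat.forall_lt_succ_right.trans and_comm
      rw [e2, pow_succ']
      refine le_trans (le_of_eq h3) (mul_le_mul' ?_ ih)
      refine le_trans (le_of_eq (prob_compl_eq_one_sub₀ (hA n))) ?_
      exact tsub_le_tsub_left (hP n) 1
  rw [ae_iff]
  refine le_antisymm (ge_of_tendsto' (ENNReal.tendsto_pow_atTop_nhds_zero_of_lt_one
    (ENNReal.sub_lt_self ENNReal.one_ne_top one_ne_zero hp.ne')) fun n => ?_) zero_le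
  refine le_trans (measure_mono ?_) (key n)
  exact fun ω h i _ hi => h ⟨i, hi⟩

end Vale.Agent.P164
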