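import Vale.Agent.P164.LDef
import Vale.Agent.P164.Lyap

namespace Vale.Agent.P164

open Set MeasureTheory

open Classical in
noncomputable def tlA (κ d0 le δ la lb : ℝ) (Q : Finset ℂ) (P : ℂ → St) (ξ : ℝ) : ℝ :=
  ∑ u ∈ Q, if lev d0 le la lb (P u) then mart κ (eul δ (P u) ξ) - mart κ (P u) else 0

open Classical in
noncomputable def tlN (κ d0 le la lb : ℝ) (Q : Finset ℂ) (P : ℂ → St) : ℝ :=
  ∑ u ∈ Q, if lev d0 le la lb (P u) then
    (8 / κ - 1) * mart κ (P u) * (P u).x / rho2 (P u) else 0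

noncomputable def tlE (κ d0 le δ la lb : ℝ) (Q : Finset ℂ) (β : ℝ) (P : ℂ → St) (ξ : ℝ) : ℝ :=
  β * tlA κ d0 le δ la lb Q P ξ - β ^ 2 * κ * (δ * tlN κ d0 le la lb Q P ^ 2) / 2

noncomputable def tlC (δ L yc : ℝ) (z : St) (ξ : ℝ) : St :=
  if L < z.l ∧ yc ≤ z.y then eul δ z ξ else z

noncomputable def tlF (κ d0 le δ la lb : ℝ) (Q : Finset ℂ) (β L yc : ℝ)
    (s : (ℂ → St) × St × ℝ) (ξ : ℝ) : (ℂ → St) × St × ℝ :=
  (fun u => stp d0 le δ (s.1 u) ξ, tlC δ L yc s.2.1 ξ,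
    s.2.2 + if s.2.1.l ≤ L then tlE κ d0 le δ la lb Q β s.1 ξ else 0)

variable {κ d0 le δ la lb β L yc : ℝ} {Q : Finset ℂ}

theorem tl_lev (d0 le la lb : ℝ) : MeasurableSet {p | lev d0 le la lb p} :=
  (measurableSet_actv d0 le).inter ((measurableSet_lt measurable_const measurable_l).inter
    (measurableSet_le measurable_l measurable_const))

theorem tl_mE : Measurable fun z : (ℂ → St) × ℝ => tlE κ d0 le δ la lb Q β z.1 z.2 := by
  have hu : ∀ u, Measurable fun z : (ℂ → St) × ℝ => z.1 u := fun u =>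
    (measurable_pi_apply u).comp measurable_fst
  have h1 : Measurable fun z : (ℂ → St) × ℝ => tlA κ d0 le δ la lb Q z.1 z.2 :=
    Finset.measurable_sum _ fun u _ => Measurable.ite (hu u (tl_lev d0 le la lb))
      (((measurable_mart κ).comp (measurable_eul' δ (hu u) measurable_snd)).sub
        ((measurable_mart κ).comp (hu u))) measurable_const
  have h2 : Measurable fun z : (ℂ → St) × ℝ => tlN κ d0 le la lb Q z.1 :=
    Finset.measurable_sum _ fun u _ => Measurable.ite (hu u (tl_lev d0 le la lb))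
      (((((measurable_mart κ).comp (hu u)).const_mul _).mul (measurable_x.comp (hu u))).div
        (measurable_rho2.comp (hu u))) measurable_const
  exact (h1.const_mul β).sub ((((h2.pow_const 2).const_mul δ).const_mul _).div_const 2)

theorem tl_mF : Measurable (Function.uncurry (tlF κ d0 le δ la lb Q β L yc)) := by
  have hz : Measurable fun z : ((ℂ → St) × St × ℝ) × ℝ => z.1.2.1 := measurable_fst.snd.fst
  refine Measurable.prodMk (measurable_pi_lambda _ fun u => ?_)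
    (Measurable.prodMk ?_ (measurable_fst.snd.snd.add ?_))
  · have h1 : Measurable fun z : ((ℂ → St) × St × ℝ) × ℝ => (z.1.1 u, z.2) :=
      ((measurable_pi_apply u).comp measurable_fst.fst).prodMk measurable_snd
    exact (measurable_stp d0 le δ).comp h1
  · exact Measurable.ite ((measurableSet_lt measurable_const (measurable_l.comp hz)).inter
      (measurableSet_le measurable_const (measurable_y.comp hz)))
      (measurable_eul' δ hz measurable_snd) hz
  · have h1 : Measurable fun z : ((ℂ → St) × St × ℝ) × ℝ => (z.1.1, z.2) :=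
      measurable_fst.fst.prodMk measurable_snd
    have h2 := (tl_mE (κ := κ) (d0 := d0) (le := le) (δ := δ) (la := la) (lb := lb) (β := β)
      (Q := Q)).comp h1
    exact Measurable.ite (measurableSet_le (measurable_l.comp hz) measurable_const) h2
      measurable_const

theorem tl_exp (hκ : 0 < κ) (hκ8 : κ < 8) (hd : 0 < d0) (hβ : 0 < β) :
    Sup κ {P : ℂ → St | ∀ u ∈ Q, P u ∈ FI d0 le}
      (fun P η ξ => Real.exp (tlE κ d0 le (η ^ 2) la lb Q β P ξ)) fun _ => 1 := by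
  classical
  have hc : 0 ≤ 8 / κ - 1 := by rw [sub_nonneg, le_div_iff₀ hκ]; linarith
  have h1 : Jt κ {P : ℂ → St | ∀ u ∈ Q, P u ∈ FI d0 le}
      (fun P η ξ => tlA κ d0 le (η ^ 2) la lb Q P ξ) (fun _ => 0) (tlN κ d0 le la lb Q)
      (fun _ => 0) := by
    refine (Jt.sum Q (g := fun _ _ => 0) (L := fun _ _ => 0) fun u hu => ?_).congr
      (fun _ _ _ _ _ => rfl) (fun _ _ => by simp) (fun _ _ => rfl) fun _ _ => by simp
    have h2 := (((jt_mart hκ hκ8 (ymin_pos d0 le) (le - 1)).comap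
      (R' := {P : ℂ → St | ∀ u ∈ Q, P u ∈ FI d0 le}) (fun P => P u)
      fun P hP => FI.reg hd (hP u hu)).add
      (Jt.lin (g := fun P => -mart κ (P u)) (lyap_bd_const _ 0))).smul
      (c := fun P => if lev d0 le la lb (P u) then 1 else 0)
      ⟨1, fun P _ => by beta_reduce; split_ifs <;> simp⟩
    refine h2.congr (fun P _ η _ ξ => ?_) (fun P _ => ?_) (fun P _ => ?_) fun P _ => ?_
    · split_ifs <;> ring
    · ring
    · split_ifs <;> ring
    · ring
  have h3 := Jt.comp (T3_exp 0) ((h1.smul (lyap_bd_const _ β)).add (Jt.lin (g := fun _ => 0)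
    (jetBd_mul (lyap_bd_const _ (-(β ^ 2 * κ / 2))) (jetBd_mul h1.bd_n h1.bd_n))))
    fun _ _ => by simp
  refine (h3.congr (n' := _) (L' := fun _ => 0) (fun P _ η _ ξ => ?_) (fun _ _ => by simp)
    (fun _ _ => rfl) fun P _ => ?_).sup hκ
    (fun P _ η _ => (tl_mE.comp (measurable_const.prodMk measurable_id)).exp) ?_ fun _ _ => le_rfl
  · unfold tlE
    congr 1
    ring
  · simp only [mul_zero, add_zero, Real.exp_zero]
    ring
  · obtain ⟨C, hC⟩ := lyap_diff (ymin_pos d0 le) (le - 1) (κ / 8 - 1) hc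
    refine ⟨Real.exp (β * ∑ _u ∈ Q, |C|) + 1, fun P hP η hη ξ => ?_⟩
    have h4 : tlA κ d0 le (η ^ 2) la lb Q P ξ ≤ ∑ _u ∈ Q, |C| := by
      refine Finset.sum_le_sum fun u hu => ?_
      split_ifs
      · exact (le_abs_self _).trans ((hC _ (FI.reg hd (hP u hu)) η hη ξ).trans (le_abs_self C))
      · exact abs_nonneg C
    have h5 : tlE κ d0 le (η ^ 2) la lb Q β P ξ ≤ β * ∑ _u ∈ Q, |C| := by
      have := mul_le_mul_of_nonneg_left h4 hβ.le
      have h6 : 0 ≤ β ^ 2 * κ * (η ^ 2 * tlN κ d0 le la lb Q P ^ 2) / 2 := by positivity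
      unfold tlE
      linarith
    have h6 := Real.exp_le_exp.2 h5
    have h7 := Real.exp_pos (tlE κ d0 le (η ^ 2) la lb Q β P ξ)
    exact abs_le.2 ⟨by linarith, by linarith⟩

theorem tl_V (hκ : 0 < κ) (hκ8 : κ < 8) : ∃ C9 : ℝ, 0 < C9 ∧ ∀ L yc : ℝ, L ≤ 0 → 0 < yc →
    ∃ V : St → ℝ, Measurable V ∧ (∀ p, L - 1 ≤ p.l → 0 ≤ V p ∧ (p.l ≤ L → 1 ≤ V p)) ∧
      (∀ p, 0 ≤ p.l → V p ≤ C9 * Real.exp ((1 - κ / 8) * L)) ∧
      Sup κ (Reg yc (L - 1)) (fun p η ξ => V (eul (η ^ 2) p ξ)) V := by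
  have hc : 0 ≤ 8 / κ - 1 := by rw [sub_nonneg, le_div_iff₀ hκ]; linarith
  obtain ⟨C4, F, hC, mF, F1, F2, F3⟩ := lyap1 hκ hκ8
  refine ⟨Real.exp 1 * C4 + C4, by positivity, fun L yc hL hy => ?_⟩
  have E0 := Real.exp_pos ((1 - κ / 8) * L)
  refine ⟨fun p => Real.exp ((1 - κ / 8) * L) * (Real.exp 1 * C4) * mart κ p +
    Real.exp ((1 - κ / 8) * L) * Real.exp L * F p, by fun_prop, fun p hp => ?_, fun p hp => ?_, ?_⟩
  · have h1 : Real.exp L * fam (κ / 8 - 2) (8 / κ - 1) p ≤ Real.exp 1 * mart κ p := by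
      unfold mart fam
      rw [← Real.exp_add, ← Real.exp_add]
      exact Real.exp_le_exp.2 (by linarith)
    have h2 := mul_le_mul_of_nonneg_left (F1 p) (Real.exp_pos L).le
    have h3 := mul_le_mul_of_nonneg_left h1 (by linarith : 0 ≤ C4)
    have h4 : Real.exp L * fam (κ / 8 - 2) 0 p ≤
        Real.exp 1 * C4 * mart κ p + Real.exp L * F p := by linarith
    have h5 := mul_le_mul_of_nonneg_left h4 E0.le
    rw [lyap_zero, ← Real.exp_add, ← Real.exp_add] at h5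
    refine ⟨by linarith [Real.exp_pos ((1 - κ / 8) * L + (L + (κ / 8 - 2) * p.l))], fun h => ?_⟩
    have h6 : 1 ≤ Real.exp ((1 - κ / 8) * L + (L + (κ / 8 - 2) * p.l)) :=
      Real.one_le_exp (by nlinarith)
    linarith
  · have h1 : mart κ p ≤ 1 := (fam_le _ hc p).trans (Real.exp_le_one_iff.2 (by nlinarith))
    have h2 : fam (κ / 8 - 2) 0 p ≤ 1 := by
      rw [lyap_zero]
      exact Real.exp_le_one_iff.2 (by nlinarith)
    have h3 : F p ≤ C4 := (F2 p).trans (mul_le_of_le_one_right (by linarith) h2)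
    have h4 : Real.exp L * F p ≤ C4 :=
      (mul_le_mul_of_nonneg_left h3 (Real.exp_pos L).le).trans
        (mul_le_of_le_one_left (by linarith) (Real.exp_le_one_iff.2 hL))
    have h5 : Real.exp 1 * C4 * mart κ p ≤ Real.exp 1 * C4 :=
      mul_le_of_le_one_right (by positivity) h1
    have h6 := mul_le_mul_of_nonneg_left (add_le_add h5 h4) E0.le
    linarith
  · obtain ⟨C1, c1, h1⟩ := (sup_mart hκ hκ8 hy (L - 1)).1
    obtain ⟨C2, c2, h2⟩ := F3 yc (L - 1) hy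
    have A1 : 0 ≤ Real.exp ((1 - κ / 8) * L) * (Real.exp 1 * C4) := by positivity
    have A2 : 0 ≤ Real.exp ((1 - κ / 8) * L) * Real.exp L := by positivity
    generalize Real.exp ((1 - κ / 8) * L) * (Real.exp 1 * C4) = a1 at A1 ⊢
    generalize Real.exp ((1 - κ / 8) * L) * Real.exp L = a2 at A2 ⊢
    refine ⟨a1 * C1 + a2 * C2, by positivity, fun p hp η hη => ?_⟩
    obtain ⟨i1, j1⟩ := h1 p hp η hη
    obtain ⟨i2, j2⟩ := h2 p hp η hη
    refine ⟨(i1.const_mul a1).add (i2.const_mul a2), ?_⟩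
    rw [integral_add (i1.const_mul a1) (i2.const_mul a2), integral_const_mul, integral_const_mul]
    have k1 := mul_le_mul_of_nonneg_left j1 A1
    have k2 := mul_le_mul_of_nonneg_left j2 A2
    linarith

theorem tl_run (c : ℂ) (ξ : ℕ → ℝ) (n : ℕ) :
    run (tlF κ d0 le δ la lb Q β L yc) (ini, ini c, 0) ξ n =
      (fun u => frz d0 le δ u ξ n, run (tlC δ L yc) (ini c) ξ n, ∑ k ∈ Finset.range n,
        if (run (tlC δ L yc) (ini c) ξ k).l ≤ L then
          tlE κ d0 le δ la lb Q β (fun u => frz d0 le δ u ξ k) (ξ k) else 0) := by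
  induction n with
  | zero => rfl
  | succ n ih => rw [run_succ, ih, Finset.sum_range_succ]; rfl

theorem tl_stay {z : St} (h : z.l ≤ L) (ξ : ℝ) : tlC δ L yc z ξ = z :=
  if_neg fun h' => absurd h'.1 (not_lt.2 h)

theorem tl_mono {c : ℂ} {ξ : ℕ → ℝ} {k n : ℕ} (h : (run (tlC δ L yc) (ini c) ξ k).l ≤ L)
    (hk : k ≤ n) : (run (tlC δ L yc) (ini c) ξ n).l ≤ L := by
  induction n, hk using Nat.le_induction with
  | base => exact h
  | succ n _ ih => rw [run_succ, tl_stay ih]; exact ih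

theorem tl_fre (hδ : 0 ≤ δ) {c : ℂ} (hc : 0 < c.im) (ξ : ℕ → ℝ) (n : ℕ)
    (h : yc ≤ (fre δ c ξ n).y) :
    (run (tlC δ L yc) (ini c) ξ n).l ≤ L ∨ run (tlC δ L yc) (ini c) ξ n = fre δ c ξ n := by
  induction n with
  | zero => exact Or.inr rfl
  | succ n ih =>
    have h1 : yc ≤ (fre δ c ξ n).y := h.trans (fre_y_anti hδ hc ξ (Nat.le_succ n))
    by_cases h2 : (run (tlC δ L yc) (ini c) ξ n).l ≤ L
    · exact Or.inl (tl_mono h2 (Nat.le_succ n))
    · have h3 := (ih h1).resolve_left h2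
      rw [h3] at h2
      rw [run_succ, h3]
      exact Or.inr (if_pos ⟨not_le.1 h2, h1⟩)

theorem tl_AA (ξ : ℕ → ℝ) (N : ℕ) : AA κ d0 le δ la lb Q ξ N =
    ∑ n ∈ Finset.range N, tlA κ d0 le δ la lb Q (fun u => frz d0 le δ u ξ n) (ξ n) := by
  refine Finset.sum_congr rfl fun n _ => Finset.sum_congr rfl fun u _ => ?_
  split_ifs with h
  · rw [show frz d0 le δ u ξ (n + 1) = eul δ (frz d0 le δ u ξ n) (ξ n) from if_pos h.1]
  · rfl

theorem tl_zero {P : ℂ → St} (h : ∀ u ∈ Q, ¬ lev d0 le la lb (P u)) (ξ : ℝ) :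
    tlA κ d0 le δ la lb Q P ξ = 0 ∧ tlE κ d0 le δ la lb Q β P ξ = 0 := by
  have h1 : tlA κ d0 le δ la lb Q P ξ = 0 := Finset.sum_eq_zero fun u hu => if_neg (h u hu)
  have h2 : tlN κ d0 le la lb Q P = 0 := Finset.sum_eq_zero fun u hu => if_neg (h u hu)
  refine ⟨h1, ?_⟩
  rw [tlE, h1, h2]
  ring

theorem tl_mesh {η y : ℝ} (hη : 0 < η) (h : η ≤ y / 2) : 4 * (η ^ 2 / y ^ 2) ≤ 1 := by
  have hy : 0 < y := by linarith
  rw [← mul_div_assoc, div_le_one (by positivity)]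
  nlinarith

/-- gated exponential supermartingale -/
theorem tail {κ : ℝ} (hκ : 0 < κ) (hκ8 : κ < 8) : ∃ C8 : ℝ, 0 < C8 ∧ ∀ d0 le : ℝ, 0 < d0 → le ≤ 0 →
    ∀ (Q : Finset ℂ), (∀ u ∈ Q, 1 ≤ u.im ∧ u.im ≤ 2) → ∀ (la lb : ℝ) (c : ℂ), 1 ≤ c.im → c.im ≤ 2 →
    ∀ L yc β T : ℝ, L ≤ 0 → 0 < yc → 0 < β → ∃ η0 : ℝ, 0 < η0 ∧ ∀ η : ℝ, 0 < η → η ≤ η0 →
    ∀ N : ℕ, N * η ^ 2 ≤ T → ∃ Φ : (ℕ → ℝ) → ℝ, Measurable Φ ∧ (∀ ξ, 0 ≤ Φ ξ) ∧
      Integrable Φ (GG κ η) ∧ ∫ ξ, Φ ξ ∂GG κ η ≤ C8 * Real.exp ((1 - κ / 8) * L) ∧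
      ∀ ξ, (∀ n < N, ∀ u ∈ Q, lev d0 le la lb (frz d0 le (η ^ 2) u ξ n) →
          ∃ n' ≤ n, yc ≤ (fre (η ^ 2) c ξ n').y ∧ (fre (η ^ 2) c ξ n').l ≤ L) →
        ∀ x : ℝ, 0 ≤ x → max (AA κ d0 le (η ^ 2) la lb Q ξ N - x) 0 ≤
          β⁻¹ * Real.exp (-(β * x) + β ^ 2 * κ * qv κ d0 le (η ^ 2) la lb Q ξ N / 2) * Φ ξ := by
  obtain ⟨C9, hC9, hV⟩ := tl_V hκ hκ8
  refine ⟨2 * (C9 + 1), by positivity, ?_⟩
  intro d0 le hd hle Q hQ la lb c hc1 hc2 L yc β T hL hy hβ
  obtain ⟨V, mV, V1, V2, C1, c1, V3⟩ := hV L yc hL hy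
  obtain ⟨C2, c2, E3⟩ := tl_exp (le := le) (la := la) (lb := lb) (Q := Q) hκ hκ8 hd hβ
  have E0 := Real.exp_pos ((1 - κ / 8) * L)
  have E1 : Real.exp ((1 - κ / 8) * L) ≤ 1 := Real.exp_le_one_iff.2 (by nlinarith)
  obtain ⟨η1, h1, h1', herr⟩ := err_small (C1 + C2) T _ E0
  have ym := ymin_pos d0 le
  refine ⟨min η1 (min (ymin d0 le / 2) (yc / 2)), by positivity, fun η hη hη' N hN => ?_⟩
  simp only [le_min_iff] at hη'
  obtain ⟨e1, e2, e3⟩ := hη'
  have hη1 : η ∈ Ioc (0 : ℝ) 1 := ⟨hη, e1.trans h1'⟩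
  obtain ⟨r1, r2⟩ := herr η hη e1 N hN
  have mΦ : Measurable fun s : (ℂ → St) × St × ℝ =>
      if s.2.1.l ≤ L then Real.exp s.2.2 else V s.2.1 :=
    Measurable.ite (measurableSet_le (measurable_l.comp measurable_snd.fst) measurable_const)
      measurable_snd.snd.exp (mV.comp measurable_snd.fst)
  have mF := tl_mF (κ := κ) (d0 := d0) (le := le) (δ := η ^ 2) (la := la) (lb := lb) (Q := Q)
    (β := β) (L := L) (yc := yc)
  let I : Set ((ℂ → St) × St × ℝ) := {s | (∀ u ∈ Q, s.1 u ∈ FI d0 le) ∧ L - 1 ≤ s.2.1.l ∧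
    s.2.1.l ≤ 2 ∧ (L < s.2.1.l → s.2.2 = 0)}
  have hI : ∀ s ∈ I, ∀ ξ, tlF κ d0 le (η ^ 2) la lb Q β L yc s ξ ∈ I := by
    rintro ⟨P, z, H⟩ ⟨a1, a2, a3, a4⟩ ξ
    refine ⟨fun u hu => stp_FI hd (sq_nonneg η) (tl_mesh hη e2) _ (a1 u hu) ξ, ?_⟩
    simp only [tlF, tlC] at a2 a3 a4 ⊢
    by_cases h : L < z.l ∧ yc ≤ z.y
    · rw [if_pos h, if_neg (not_le.2 h.1), a4 h.1]
      exact ⟨by linarith [eul_l_ge (sq_nonneg η) hy h.2 ξ, tl_mesh hη e3, h.1],
        (eul_l_le (sq_nonneg η) z ξ).trans a3, fun _ => add_zero 0⟩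
    · rw [if_neg h]
      exact ⟨a2, a3, fun h' => by rw [if_neg (not_le.2 h'), a4 h', add_zero]⟩
  have h0 : ∀ s ∈ I, 0 ≤ if s.2.1.l ≤ L then Real.exp s.2.2 else V s.2.1 := fun s hs => by
    split_ifs
    · exact (Real.exp_pos _).le
    · exact (V1 _ hs.2.1).1
  have l0 : 0 ≤ (ini c).l := Real.log_nonneg hc1
  have hx : (ini, ini c, (0 : ℝ)) ∈ I := ⟨fun u hu => ini_FI hle (hQ u hu).1 (hQ u hu).2,
    by show L - 1 ≤ (ini c).l; linarith,
    (Real.log_le_sub_one_of_pos (by linarith : 0 < c.im)).trans (by linarith), fun _ => rfl⟩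
  have q1 : 0 ≤ C1 * η ^ 3 := by positivity
  have q2 : 0 ≤ C2 * η ^ 3 := by positivity
  have ab : |C1 + C2| = C1 + C2 := abs_of_nonneg (by linarith)
  obtain ⟨m1, m2⟩ := machine (κ := κ) (η := η) mF hI mΦ h0 (a := 1 + |C1 + C2| * η ^ 3)
    (b := (C1 + C2) * η ^ 3) (le_add_of_nonneg_right (by positivity)) (by positivity) (by
      rintro ⟨P, z, H⟩ hs
      have b0 := h0 _ hs
      have b1 := fun ξ => h0 _ (hI _ hs ξ)
      have b2 := fun ξ => (hI _ hs ξ).2.1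
      have b3 := mΦ.comp (mF.comp (measurable_const.prodMk measurable_id : Measurable fun ξ : ℝ =>
        ((P, z, H), ξ)))
      obtain ⟨a1, a2, a3, a4⟩ := hs
      rw [ab]
      by_cases h : z.l ≤ L
      · obtain ⟨i1, i2⟩ := E3 P a1 η hη1
        simp only [tlF, tl_stay h, if_pos h, Real.exp_add]
        refine ⟨i1.const_mul _, ?_⟩
        rw [integral_const_mul]
        have k1 := mul_le_mul_of_nonneg_left i2 (Real.exp_pos H).le
        have k2 := mul_nonneg q1 (Real.exp_pos H).le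
        linarith
      · simp only [if_neg h] at b0 ⊢
        have k2 := mul_nonneg (add_nonneg q1 q2) b0
        by_cases h' : yc ≤ z.y
        · obtain ⟨i1, i2⟩ := V3 z ⟨h', a2, a3⟩ η hη1
          have hz : ∀ ξ, tlC (η ^ 2) L yc z ξ = eul (η ^ 2) z ξ := fun ξ =>
            if_pos ⟨not_le.1 h, h'⟩
          have hH : H = 0 := a4 (not_le.1 h)
          have k3 : ∀ ξ, (if (tlF κ d0 le (η ^ 2) la lb Q β L yc (P, z, H) ξ).2.1.l ≤ L then
              Real.exp (tlF κ d0 le (η ^ 2) la lb Q β L yc (P, z, H) ξ).2.2 else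
              V (tlF κ d0 le (η ^ 2) la lb Q β L yc (P, z, H) ξ).2.1) ≤ V (eul (η ^ 2) z ξ) := by
            intro ξ
            have b4 := b2 ξ
            simp only [tlF, hz, if_neg h, hH, add_zero, Real.exp_zero] at b4 ⊢
            split_ifs with h2
            · exact (V1 _ b4).2 h2
            · exact le_rfl
          have k4 := i1.mono' b3.aestronglyMeasurable (Filter.Eventually.of_forall fun ξ =>
            (abs_of_nonneg (b1 ξ)).trans_le (k3 ξ))
          refine ⟨k4, (integral_mono k4 i1 k3).trans ?_⟩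
          linarith
        · have hz : ∀ ξ, tlC (η ^ 2) L yc z ξ = z := fun ξ => if_neg fun h2 => h' h2.2
          simp only [tlF, hz, if_neg h, integral_const, probReal_univ, one_smul]
          exact ⟨integrable_const _, by linarith⟩) hx N
  refine ⟨_, mΦ.comp (measurable_run mF _ N), fun ξ => h0 _ (run_mem hI hx ξ N), m1,
    m2.trans ?_, fun ξ hξ x hx0 => ?_⟩
  · have k1 : (if (ini c).l ≤ L then Real.exp 0 else V (ini c)) ≤
        C9 * Real.exp ((1 - κ / 8) * L) := by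
      refine le_trans ?_ (V2 _ l0)
      split_ifs with h
      · rw [Real.exp_zero]
        exact (V1 _ (by linarith)).2 h
      · exact le_rfl
    refine (mul_le_mul (r2.trans (by linarith : _ ≤ (2 : ℝ))) (add_le_add k1 r1)
      (add_nonneg (h0 _ hx) (by positivity)) (by norm_num)).trans_eq ?_
    ring
  · have hl : ∀ n < N, ¬ (run (tlC (η ^ 2) L yc) (ini c) ξ n).l ≤ L →
        ∀ u ∈ Q, ¬ lev d0 le la lb (frz d0 le (η ^ 2) u ξ n) := by
      intro n hn h u hu h2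
      obtain ⟨n', a1, a2, a3⟩ := hξ n hn u hu h2
      refine h (tl_mono ?_ a1)
      rcases tl_fre (L := L) (sq_nonneg η) (by linarith) ξ n' a2 with h3 | h3
      · exact h3
      · rwa [h3]
    have p0 := h0 _ (run_mem hI hx ξ N)
    simp only [Function.comp, tl_run] at p0 ⊢
    by_cases h : (run (tlC (η ^ 2) L yc) (ini c) ξ N).l ≤ L
    · have k1 : (∑ k ∈ Finset.range N, if (run (tlC (η ^ 2) L yc) (ini c) ξ k).l ≤ L then
          tlE κ d0 le (η ^ 2) la lb Q β (fun u => frz d0 le (η ^ 2) u ξ k) (ξ k) else 0) =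
          β * AA κ d0 le (η ^ 2) la lb Q ξ N - β ^ 2 * κ * qv κ d0 le (η ^ 2) la lb Q ξ N / 2 := by
        rw [tl_AA, qv, Finset.mul_sum, Finset.mul_sum, Finset.sum_div, ← Finset.sum_sub_distrib]
        refine Finset.sum_congr rfl fun k hk => ?_
        change _ = tlE κ d0 le (η ^ 2) la lb Q β (fun u => frz d0 le (η ^ 2) u ξ k) (ξ k)
        split_ifs with h2
        · rfl
        · exact (tl_zero (hl k (Finset.mem_range.1 hk) h2) _).2.symm
      rw [if_pos h, k1, mul_assoc, ← Real.exp_add]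
      refine max_le ?_ (by positivity)
      rw [le_inv_mul_iff₀ hβ]
      refine le_trans ?_ (Real.add_one_le_exp _)
      linarith
    · have k1 : AA κ d0 le (η ^ 2) la lb Q ξ N = 0 := by
        rw [tl_AA]
        exact Finset.sum_eq_zero fun k hk => (tl_zero (β := β) (hl k (Finset.mem_range.1 hk)
          fun h2 => h (tl_mono h2 (Finset.mem_range.1 hk).le)) _).1
      rw [k1, max_eq_right (by linarith)]
      exact mul_nonneg (by positivity) p0

end Vale.Agent.P164
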